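import Vale.Agent.Helper10.Cnt

/-!
# Counts determine the product (task T1 for P329)

A word over `α` is sent to a product in a finite group `G` by `f : α → G`.  If `ψ` is a
homomorphism from `G` to an abelian group with commutative kernel, then the product only
depends on the numbers, modulo the order of `G`, of occurrences of each letter at each value
of the running class.
-/

namespace Vale.Agent.Helper2.P329

open Vale.Agent.Helper10

/-- the weighted path product: the letter `a` read at running class `c` contributes `q c a` -/
def pathProd {α A M : Type} [AddCommGroup A] [Monoid M] (dg : α → A) (q : A → α → M) :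
    A → List α → M
  | _, [] => 1
  | c, a :: w => q c a * pathProd dg q (c + dg a) w

theorem pathProd_eq {α A M : Type} [AddCommGroup A] [DecidableEq A] [Fintype A]
    [DecidableEq α] [Fintype α] [CommMonoid M] (dg : α → A) (q : A → α → M) (c : A)
    (w : List α) :
    pathProd dg q c w = ∏ x : A, ∏ a : α, q x a ^ cnt dg (fun b => b = a) x c w := by
  induction w generalizing c with
  | nil => simp [pathProd, cnt]
  | cons b w ih =>
    rw [pathProd, ih]
    simp only [cnt, pow_add, Finset.prod_mul_distrib]
    congr 1
    rw [Finset.prod_eq_single c, Finset.prod_eq_single b]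
    · simp
    · intro a _ hab
      simp [Ne.symm hab]
    · simp
    · intro x _ hx
      simp [Ne.symm hx]
    · simp

theorem pathProd_congr {α A M : Type} [AddCommGroup A] [DecidableEq A] [Fintype A]
    [DecidableEq α] [Fintype α] [CommMonoid M] (dg : α → A) (q : A → α → M) (N : ℕ)
    (hq : ∀ x a, q x a ^ N = 1) (c : A) (w w' : List α)
    (h : ∀ (a : α) (x : A),
      cnt dg (fun b => b = a) x c w ≡ cnt dg (fun b => b = a) x c w' [MOD N]) :
    pathProd dg q c w = pathProd dg q c w' := by
  rw [pathProd_eq, pathProd_eq]
  refine Finset.prod_congr rfl fun x _ => Finset.prod_congr rfl fun a _ => ?_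
  rw [pow_eq_pow_mod _ (hq x a), pow_eq_pow_mod (cnt dg (fun b => b = a) x c w') (hq x a)]
  exact congrArg _ (h a x)

theorem pathProd_ofAdd {α A : Type} [AddCommGroup A] (dg : α → A) (c : A) (w : List α) :
    pathProd dg (fun (_ : A) (a : α) => Multiplicative.ofAdd (dg a)) c w
      = Multiplicative.ofAdd ((w.map dg).sum) := by
  induction w generalizing c with
  | nil => simp [pathProd]
  | cons b w ih =>
    rw [pathProd, ih]
    simp [ofAdd_add]

/-- **Counts determine the product.** -/
theorem prod_eq_of_cnt {G A α : Type} [Group G] [Finite G] [AddCommGroup A] [Finite A]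
    [DecidableEq A] [DecidableEq α] [Finite α]
    (ψ : G →* Multiplicative A) (hker : ∀ a b : G, ψ a = 1 → ψ b = 1 → a * b = b * a)
    (f : α → G) (w w' : List α)
    (h : ∀ (a : α) (x : A),
      cnt (fun b => Multiplicative.toAdd (ψ (f b))) (fun b => b = a) x 0 w
        ≡ cnt (fun b => Multiplicative.toAdd (ψ (f b))) (fun b => b = a) x 0 w'
          [MOD Nat.card G]) :
    (w.map f).prod = (w'.map f).prod := by
  classical
  cases nonempty_fintype A
  cases nonempty_fintype α
  set dg : α → A := fun b => Multiplicative.toAdd (ψ (f b)) with hdg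
  have hdg' : ∀ a, ψ (f a) = Multiplicative.ofAdd (dg a) := fun a => rfl
  -- the commutative kernel
  let K : Subgroup G := ψ.ker
  let _ : CommGroup K :=
    { (inferInstance : Group K) with
      mul_comm := fun a b =>
        Subtype.ext (hker a b (MonoidHom.mem_ker.mp a.2) (MonoidHom.mem_ker.mp b.2)) }
  -- a section of `ψ`
  let r : A → G := fun c => if hc : ∃ g, ψ g = Multiplicative.ofAdd c then hc.choose else 1
  have hr : ∀ c, (∃ g, ψ g = Multiplicative.ofAdd c) → ψ (r c) = Multiplicative.ofAdd c := by
    intro c hc
    simp only [r, dif_pos hc]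
    exact hc.choose_spec
  have hstep : ∀ c a, (∃ g, ψ g = Multiplicative.ofAdd c) →
      ∃ g, ψ g = Multiplicative.ofAdd (c + dg a) := by
    rintro c a ⟨g, hg⟩
    exact ⟨g * f a, by rw [map_mul, hg, hdg', ofAdd_add]⟩
  let gam : A → α → K := fun x a =>
    if hx : ψ (r x * f a * (r (x + dg a))⁻¹) = 1 then ⟨_, MonoidHom.mem_ker.mpr hx⟩ else 1
  have hgam : ∀ x a, (∃ g, ψ g = Multiplicative.ofAdd x) →
      (gam x a : G) = r x * f a * (r (x + dg a))⁻¹ := by
    intro x a hx
    have h2 : ψ (r x * f a * (r (x + dg a))⁻¹) = 1 := by
      rw [map_mul, map_mul, map_inv, hr x hx, hr _ (hstep x a hx), hdg', ofAdd_add]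
      exact mul_inv_cancel _
    simp only [gam, dif_pos h2]
  -- the key identity
  have key : ∀ (u : List α) (c : A), (∃ g, ψ g = Multiplicative.ofAdd c) →
      r c * (u.map f).prod = ((pathProd dg gam c u : K) : G) * r (c + (u.map dg).sum) := by
    intro u
    induction u with
    | nil =>
      intro c _
      simp [pathProd]
    | cons a u ih =>
      intro c hc
      simp only [List.map_cons, List.prod_cons, List.sum_cons, pathProd]
      rw [Subgroup.coe_mul, hgam c a hc, ← add_assoc, mul_assoc _ _ (r _), ← ih _ (hstep c a hc)]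
      group
  have hN : ∀ g : G, g ^ Nat.card G = 1 := fun g => pow_card_eq_one'
  have e1 : pathProd dg gam 0 w = pathProd dg gam 0 w' := by
    refine pathProd_congr dg gam (Nat.card G) (fun x a => ?_) 0 w w' h
    exact Subtype.ext (by rw [Subgroup.coe_pow, hN]; rfl)
  have e2 : (w.map dg).sum = (w'.map dg).sum := by
    have e3 := pathProd_congr dg (fun (_ : A) (a : α) => Multiplicative.ofAdd (dg a))
      (Nat.card G) (fun x a => by rw [← hdg', ← map_pow, hN, map_one]) 0 w w' h
    rw [pathProd_ofAdd, pathProd_ofAdd] at e3
    exact Multiplicative.ofAdd.injective e3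
  have h0 : ∃ g, ψ g = Multiplicative.ofAdd (0 : A) := ⟨1, by simp⟩
  have k1 := key w 0 h0
  have k2 := key w' 0 h0
  rw [e1, e2, ← k2] at k1
  exact mul_left_cancel k1

end Vale.Agent.Helper2.P329
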