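import Mathlib

/-!
# The corner functor `K ↦ eK` for an idempotent `e` of a ring `A`

Helper material shared by several results: the `eAe`-module `eZ` attached to an `A`-module `Z`,
the modules `(Ae)^ι`, the class of modules whose Ext groups into the simple modules killed by `e`
vanish, minimal presentations over left Artinian rings, and the comparison of projective
dimensions and Ext groups over `A` and over `eAe`.
-/

universe u

open CategoryTheory Abelian

namespace Vale.Agent.Helper2.Corner

variable {A : Type u} [Ring A]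

section EPart

/-- The additive subgroup `eZ = {z | e • z = z}` of an `A`-module `Z`. -/
def eSub (e : A) (Z : Type u) [AddCommGroup Z] [Module A Z] : AddSubgroup Z where
  carrier := {z | e • z = z}
  zero_mem' := smul_zero e
  add_mem' := fun {a b} (ha : e • a = a) (hb : e • b = b) => by
    show e • (a + b) = a + b
    rw [smul_add, ha, hb]
  neg_mem' := fun {a} (ha : e • a = a) => by
    show e • (-a) = -a
    rw [smul_neg, ha]

theorem mem_eSub {e : A} {Z : Type u} [AddCommGroup Z] [Module A Z] {z : Z} :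
    z ∈ eSub e Z ↔ e • z = z := Iff.rfl

variable {e : A} (he : IsIdempotentElem e)

theorem corner_mul_left (b : he.Corner) : e * b.1 = b.1 :=
  ((Subsemigroup.mem_corner_iff he).mp b.2).1

theorem corner_mul_right (b : he.Corner) : b.1 * e = b.1 :=
  ((Subsemigroup.mem_corner_iff he).mp b.2).2

include he in
theorem smul_mem_eSub (Z : Type u) [AddCommGroup Z] [Module A Z] (z : Z) : e • z ∈ eSub e Z := by
  show e • e • z = e • z
  rw [← mul_smul, he.eq]

/-- The `eAe`-module structure on `eZ`. -/
instance eSubModule (Z : Type u) [AddCommGroup Z] [Module A Z] : Module he.Corner (eSub e Z) where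
  smul b z := ⟨b.1 • z.1, by
    show e • (b.1 • z.1) = b.1 • z.1
    rw [← mul_smul, corner_mul_left he b]⟩
  one_smul z := Subtype.ext (by
    show e • z.1 = z.1
    exact z.2)
  mul_smul b c z := Subtype.ext (by
    show (b.1 * c.1) • z.1 = b.1 • c.1 • z.1
    rw [mul_smul])
  smul_zero b := Subtype.ext (smul_zero b.1)
  smul_add b z w := Subtype.ext (smul_add b.1 z.1 w.1)
  add_smul b c z := Subtype.ext (add_smul b.1 c.1 z.1)
  zero_smul z := Subtype.ext (zero_smul A z.1)

theorem eSub_smul_val (Z : Type u) [AddCommGroup Z] [Module A Z] (b : he.Corner) (z : eSub e Z) :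
    (b • z).1 = b.1 • z.1 := rfl

variable {Z W V : Type u} [AddCommGroup Z] [Module A Z] [AddCommGroup W] [Module A W]
  [AddCommGroup V] [Module A V]

/-- The map induced on `e`-parts by an `A`-linear map. -/
def eMap (f : Z →ₗ[A] W) : eSub e Z →ₗ[he.Corner] eSub e W where
  toFun z := ⟨f z.1, by
    have h : e • z.1 = z.1 := z.2
    show e • f z.1 = f z.1
    rw [← map_smul, h]⟩
  map_add' z w := Subtype.ext (map_add f z.1 w.1)
  map_smul' b z := Subtype.ext (map_smul f b.1 z.1)

theorem eMap_val (f : Z →ₗ[A] W) (z : eSub e Z) : (eMap he f z).1 = f z.1 := rfl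

theorem eMap_injective (f : Z →ₗ[A] W) (hf : Function.Injective f) :
    Function.Injective (eMap he f) := by
  intro z w h
  apply Subtype.ext
  apply hf
  exact congrArg Subtype.val h

theorem eMap_surjective (f : Z →ₗ[A] W) (hf : Function.Surjective f) :
    Function.Surjective (eMap he f) := by
  intro w
  obtain ⟨z, hz⟩ := hf w.1
  refine ⟨⟨e • z, smul_mem_eSub he Z z⟩, ?_⟩
  apply Subtype.ext
  have h : e • w.1 = w.1 := w.2
  show f (e • z) = w.1
  rw [map_smul, hz, h]

theorem eMap_exact (f : Z →ₗ[A] W) (g : W →ₗ[A] V) (hfg : Function.Exact f g) :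
    Function.Exact (eMap he f) (eMap he g) := by
  intro w
  constructor
  · intro hw
    have h0 : g w.1 = 0 := congrArg Subtype.val hw
    obtain ⟨z, hz⟩ := (hfg w.1).mp h0
    refine ⟨⟨e • z, smul_mem_eSub he Z z⟩, ?_⟩
    apply Subtype.ext
    have h : e • w.1 = w.1 := w.2
    show f (e • z) = w.1
    rw [map_smul, hz, h]
  · rintro ⟨z, rfl⟩
    apply Subtype.ext
    show g (f z.1) = 0
    exact (hfg (f z.1)).mpr ⟨z.1, rfl⟩

theorem eMap_comp (f : Z →ₗ[A] W) (g : W →ₗ[A] V) :
    eMap he (g ∘ₗ f) = eMap he g ∘ₗ eMap he f := rfl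

theorem eMap_id : eMap he (LinearMap.id : Z →ₗ[A] Z) = LinearMap.id := rfl

end EPart

section PePower

variable {e : A} (he : IsIdempotentElem e)

/-- The left ideal `Ae`, as a submodule of `A`. -/
def Pe (e : A) : Submodule A A := LinearMap.range (LinearMap.toSpanSingleton A A e)

include he in
theorem mem_Pe_iff {x : A} : x ∈ Pe e ↔ x * e = x := by
  constructor
  · rintro ⟨a, rfl⟩
    show a • e * e = a • e
    rw [smul_eq_mul, mul_assoc, he.eq]
  · intro h
    exact ⟨x, h⟩

/-- The element `e` of `Ae`. -/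
def eElt (e : A) : Pe e := ⟨e, ⟨1, one_smul A e⟩⟩

include he in
theorem Pe_eq_smul (x : Pe e) : x = x.1 • eElt e := by
  apply Subtype.ext
  show x.1 = x.1 * e
  exact ((mem_Pe_iff he).mp x.2).symm

include he in
theorem e_smul_eElt : e • eElt e = eElt e := Subtype.ext he.eq

variable {ι : Type u} [Fintype ι] [DecidableEq ι]

/-- The generator of `(Ae)^ι` with `e` in position `l`. -/
def gen (e : A) (l : ι) : ι → Pe e := Pi.single l (eElt e)

include he in
theorem gen_mem (l : ι) : gen e l ∈ eSub e (ι → Pe e) := by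
  show e • gen e l = gen e l
  unfold gen
  rw [← Pi.single_smul, e_smul_eElt he]

variable {Z : Type u} [AddCommGroup Z] [Module A Z]

/-- The `A`-linear map `(Ae)^ι → Z` determined by a family `y` of elements of `Z`. -/
def lift (e : A) (y : ι → Z) : (ι → Pe e) →ₗ[A] Z :=
  ∑ l, (LinearMap.toSpanSingleton A Z (y l)) ∘ₗ (Pe e).subtype ∘ₗ LinearMap.proj l

theorem lift_apply (y : ι → Z) (v : ι → Pe e) : lift e y v = ∑ l, (v l).1 • y l := by
  unfold lift
  rw [LinearMap.sum_apply]
  rfl

theorem lift_gen (y : ι → Z) (hy : ∀ l, e • y l = y l) (l : ι) : lift e y (gen e l) = y l := by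
  rw [lift_apply, Finset.sum_eq_single l]
  · unfold gen
    rw [Pi.single_eq_same]
    exact hy l
  · intro l' _ hl'
    unfold gen
    rw [Pi.single_eq_of_ne hl']
    exact zero_smul A (y l')
  · intro h
    exact absurd (Finset.mem_univ l) h

include he in
theorem hom_ext_gen (f g : (ι → Pe e) →ₗ[A] Z) (h : ∀ l, f (gen e l) = g (gen e l)) : f = g := by
  apply LinearMap.pi_ext
  intro i x
  rw [Pe_eq_smul he x, Pi.single_smul, map_smul, map_smul]
  exact congrArg (x.1 • ·) (h i)

include he in
theorem Pe_projective_pow : Module.Projective A (ι → Pe e) := by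
  have hproj : Module.Projective A (ι → A) := inferInstance
  refine Module.Projective.of_split ((Pe e).subtype.compLeft ι)
    ((LinearMap.toSpanSingleton A A e).rangeRestrict.compLeft ι) ?_
  refine LinearMap.ext fun v => funext fun l => Subtype.ext ?_
  show (v l).1 • e = (v l).1
  exact (mem_Pe_iff he).mp (v l).2

/-- The `e`-part of `(Ae)^ι` is the free `eAe`-module on `ι`. -/
def ePowEquiv : eSub e (ι → Pe e) ≃ₗ[he.Corner] (ι → he.Corner) where
  toFun v := fun l => ⟨(v.1 l).1, (Subsemigroup.mem_corner_iff he).mpr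
    ⟨by
      have h : e • v.1 = v.1 := v.2
      have h2 := congrArg (fun w : ι → Pe e => (w l).1) h
      exact h2, (mem_Pe_iff he).mp (v.1 l).2⟩⟩
  invFun w := ⟨fun l => ⟨(w l).1, (mem_Pe_iff he).mpr (corner_mul_right he (w l))⟩, by
    show e • (fun l => (⟨(w l).1, (mem_Pe_iff he).mpr (corner_mul_right he (w l))⟩ : Pe e)) = _
    funext l
    apply Subtype.ext
    show e * (w l).1 = (w l).1
    exact corner_mul_left he (w l)⟩
  map_add' v w := rfl
  map_smul' b v := rfl
  left_inv v := rfl
  right_inv w := rfl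

theorem ePow_projective : Module.Projective he.Corner (eSub e (ι → Pe e)) :=
  Module.Projective.of_equiv (ePowEquiv he).symm

theorem ePow_finite : Module.Finite he.Corner (eSub e (ι → Pe e)) :=
  Module.Finite.equiv (ePowEquiv he).symm

variable {W : Type u} [AddCommGroup W] [Module A W]

/-- Two `eAe`-linear maps out of the `e`-part of `(Ae)^ι` agreeing on the generators are equal. -/
theorem eHom_ext_gen (f g : eSub e (ι → Pe e) →ₗ[he.Corner] eSub e W)
    (h : ∀ l, f ⟨gen e l, gen_mem he l⟩ = g ⟨gen e l, gen_mem he l⟩) : f = g := by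
  have key : f ∘ₗ (ePowEquiv he).symm.toLinearMap = g ∘ₗ (ePowEquiv he).symm.toLinearMap := by
    apply LinearMap.pi_ext'
    intro l
    apply LinearMap.ext_ring
    have hl : (ePowEquiv he).symm (Pi.single l (1 : he.Corner)) =
        (⟨gen e l, gen_mem he l⟩ : eSub e (ι → Pe e)) := by
      apply Subtype.ext
      funext l'
      apply Subtype.ext
      show ((Pi.single l (1 : he.Corner) : ι → he.Corner) l').1 = ((gen e l : ι → Pe e) l').1
      unfold gen
      by_cases hll : l' = l
      · subst hll
        rw [Pi.single_eq_same, Pi.single_eq_same]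
        rfl
      · rw [Pi.single_eq_of_ne hll, Pi.single_eq_of_ne hll]
        rfl
    show f ((ePowEquiv he).symm (Pi.single l 1)) = g ((ePowEquiv he).symm (Pi.single l 1))
    rw [hl]
    exact h l
  ext v : 1
  have := LinearMap.congr_fun key (ePowEquiv he v)
  simpa using this

end PePower

section ClassC

variable {e : A}

/-- `ExtVanish e i0 K`: the groups `Ext^j(K, T)` with `j ≥ i0` vanish for all simple modules `T`
killed by `e`. -/
def ExtVanish (e : A) (i0 : ℕ) (K : Type u) [AddCommGroup K] [Module A K] : Prop :=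
  ∀ (T : Type u) [AddCommGroup T] [Module A T] [IsSimpleModule A T], (∀ t : T, e • t = 0) →
    ∀ (j : ℕ), i0 ≤ j → ∀ x : Ext (ModuleCat.of A K) (ModuleCat.of A T) j, x = 0

theorem hom_eq_zero_of_extVanish {K : Type u} [AddCommGroup K] [Module A K]
    (hK : ExtVanish e 0 K) (T : Type u) [AddCommGroup T] [Module A T] [IsSimpleModule A T]
    (hT : ∀ t : T, e • t = 0) (f : K →ₗ[A] T) : f = 0 := by
  have h := hK T hT 0 le_rfl (Ext.mk₀ (ModuleCat.ofHom f))
  rw [← Ext.mk₀_zero] at h
  have h2 := (Ext.mk₀_bijective _ _).1 h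
  have h3 := congrArg ModuleCat.Hom.hom h2
  simpa using h3

/-- Ext-vanishing passes to the kernel of a surjection. -/
theorem ext_ker_eq_zero {P K : Type u} [AddCommGroup P] [Module A P] [AddCommGroup K]
    [Module A K] (π : P →ₗ[A] K) (hπ : Function.Surjective π) (Y : ModuleCat.{u} A) (j : ℕ)
    (hP : ∀ x : Ext (ModuleCat.of A P) Y j, x = 0)
    (hK : ∀ x : Ext (ModuleCat.of A K) Y (j + 1), x = 0)
    (x : Ext (ModuleCat.of A (LinearMap.ker π)) Y j) : x = 0 := by
  have hS := LinearMap.shortExact_shortComplexKer hπ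
  obtain ⟨x₂, rfl⟩ := Ext.contravariant_sequence_exact₁ hS Y x (add_comm 1 j) (hK _)
  rw [hP x₂, Ext.comp_zero]

theorem span_eSub_eq_top (he : IsIdempotentElem e) {K : Type u} [AddCommGroup K] [Module A K]
    [Module.Finite A K]
    (hK : ∀ (T : Type u) [AddCommGroup T] [Module A T] [IsSimpleModule A T],
      (∀ t : T, e • t = 0) → ∀ f : K →ₗ[A] T, f = 0) :
    Submodule.span A ((eSub e K : Set K)) = ⊤ := by
  by_contra hne
  obtain ⟨N, hN, hle⟩ :=
    (IsCoatomic.eq_top_or_exists_le_coatom (Submodule.span A (eSub e K : Set K))).resolve_left hne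
  have hsimple : IsSimpleModule A (K ⧸ N) := isSimpleModule_iff_isCoatom.mpr hN
  have hkill : ∀ t : K ⧸ N, e • t = 0 := by
    intro t
    obtain ⟨x, rfl⟩ := N.mkQ_surjective t
    rw [← map_smul, Submodule.mkQ_apply, Submodule.Quotient.mk_eq_zero]
    exact hle (Submodule.subset_span (smul_mem_eSub he K x))
  have h0 := hK (K ⧸ N) hkill N.mkQ
  have hN2 : N = ⊤ := by
    rw [← Submodule.ker_mkQ N, h0, LinearMap.ker_zero]
  exact hN.1 hN2

theorem hom_Pe_pow_eq_zero (he : IsIdempotentElem e) {ι : Type u} [Fintype ι] [DecidableEq ι]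
    (T : Type u) [AddCommGroup T] [Module A T] (hT : ∀ t : T, e • t = 0)
    (g : (ι → Pe e) →ₗ[A] T) : g = 0 := by
  apply hom_ext_gen he
  intro l
  have h : e • gen e l = gen e l := gen_mem he l
  rw [LinearMap.zero_apply, ← h, map_smul]
  exact hT _

theorem exists_presentation [IsNoetherianRing A] (he : IsIdempotentElem e) (K : Type u)
    [AddCommGroup K] [Module A K] [Module.Finite A K] (hK : ExtVanish e 0 K) :
    ∃ (ι : Type u) (_ : Fintype ι) (_ : DecidableEq ι) (π : (ι → Pe e) →ₗ[A] K),
      Function.Surjective π ∧ ExtVanish e 0 (LinearMap.ker π) := by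
  classical
  have hspan := span_eSub_eq_top he (fun T _ _ _ hT f => hom_eq_zero_of_extVanish hK T hT f)
  have hfg : (Submodule.span A (eSub e K : Set K)).FG := by
    rw [hspan]
    exact Module.Finite.fg_top
  obtain ⟨s, hs, hs2⟩ := (Submodule.fg_span_iff_fg_span_finset_subset _).mp hfg
  let y : (↥s) → K := Subtype.val
  have hy : ∀ l, e • y l = y l := fun l => hs l.2
  have hsurj : Function.Surjective (lift e y) := by
    rw [← LinearMap.range_eq_top, eq_top_iff, ← hspan, hs2]
    apply Submodule.span_le.mpr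
    intro x hx
    exact ⟨gen e ⟨x, hx⟩, lift_gen y hy ⟨x, hx⟩⟩
  refine ⟨↥s, inferInstance, inferInstance, lift e y, hsurj, ?_⟩
  intro T _ _ _ hT j _ x
  have hproj : Module.Projective A ((↥s) → Pe e) := Pe_projective_pow he
  have hproj' : Projective (ModuleCat.of A ((↥s) → Pe e)) :=
    ModuleCat.projective_of_categoryTheory_projective _
  refine ext_ker_eq_zero (lift e y) hsurj (ModuleCat.of A T) j ?_ ?_ x
  · intro x₂
    cases j with
    | zero =>
      obtain ⟨g, rfl⟩ := (Ext.mk₀_bijective _ _).2 x₂
      have hg : g = 0 := by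
        apply ModuleCat.hom_ext
        exact hom_Pe_pow_eq_zero he T hT g.hom
      rw [hg, Ext.mk₀_zero]
    | succ j => exact Ext.eq_zero_of_projective x₂
  · intro x₃
    exact hK T hT (j + 1) (Nat.zero_le _) x₃

end ClassC

section Minimal

/-- A finitely generated module over a left Artinian ring is the image of a finitely generated
projective module `Q` under a map `π` which is minimal in the following sense: every map from
`Q` to a simple module vanishes on the kernel of `π`. -/
theorem exists_min_presentation [IsArtinianRing A] (X : Type u) [AddCommGroup X] [Module A X]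
    [Module.Finite A X] :
    ∃ (Q : Type u) (_ : AddCommGroup Q) (_ : Module A Q) (_ : Module.Finite A Q)
      (_ : Module.Projective A Q) (π : Q →ₗ[A] X), Function.Surjective π ∧
      ∀ (T : Type u) [AddCommGroup T] [Module A T] [IsSimpleModule A T] (ψ : Q →ₗ[A] T) (x : Q),
        π x = 0 → ψ x = 0 := by
  classical
  obtain ⟨r, π₀, hπ₀⟩ := Module.Finite.exists_fin' A X
  have hFA : IsArtinian A (Fin r → A) := inferInstance
  have hFN : IsNoetherian A (Fin r → A) := inferInstance
  let 𝒮 : Set (Submodule A (Fin r → A)) :=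
    {Q | (∃ p : (Fin r → A) →ₗ[A] (Fin r → A), (∀ x, p x ∈ Q) ∧ ∀ x ∈ Q, p x = x) ∧
      ∀ x : X, ∃ q ∈ Q, π₀ q = x}
  have hne : 𝒮.Nonempty := by
    refine ⟨⊤, ⟨LinearMap.id, fun x => Submodule.mem_top, fun x _ => rfl⟩, fun x => ?_⟩
    obtain ⟨q, hq⟩ := hπ₀ x
    exact ⟨q, Submodule.mem_top, hq⟩
  obtain ⟨Q, ⟨⟨p, hpQ, hpid⟩, hQsurj⟩, hmin⟩ := IsArtinian.set_has_minimal 𝒮 hne
  let ρ : (Fin r → A) →ₗ[A] Q := p.codRestrict Q hpQ
  have hρ : ρ ∘ₗ Q.subtype = LinearMap.id := by
    ext q : 1
    exact Subtype.ext (hpid q.1 q.2)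
  have hproj : Module.Projective A Q := Module.Projective.of_split Q.subtype ρ hρ
  let π : Q →ₗ[A] X := π₀ ∘ₗ Q.subtype
  have hπ : Function.Surjective π := by
    intro x
    obtain ⟨q, hq, hqx⟩ := hQsurj x
    exact ⟨⟨q, hq⟩, hqx⟩
  refine ⟨Q, inferInstance, inferInstance, inferInstance, hproj, π, hπ, ?_⟩
  intro T _ _ _ ψ x hx
  by_contra hψx
  have hsurj1 : Function.Surjective (π ∘ₗ (LinearMap.ker ψ).subtype) := by
    intro z
    obtain ⟨q, rfl⟩ := hπ z
    obtain ⟨a, ha⟩ := IsSimpleModule.toSpanSingleton_surjective A hψx (ψ q)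
    have ha' : a • ψ x = ψ q := ha
    refine ⟨⟨q - a • x, ?_⟩, ?_⟩
    · rw [LinearMap.mem_ker, map_sub, map_smul, ha', sub_self]
    · show π (q - a • x) = π q
      rw [map_sub, map_smul, hx, smul_zero, sub_zero]
  obtain ⟨h, hh⟩ := Module.projective_lifting_property (π ∘ₗ (LinearMap.ker ψ).subtype) π hsurj1
  let α : Q →ₗ[A] Q := (LinearMap.ker ψ).subtype ∘ₗ h
  have hπα : ∀ q, π (α q) = π q := fun q => LinearMap.congr_fun hh q
  have hψα : ∀ q, ψ (α q) = 0 := fun q => (h q).2
  have hQA : IsArtinian A Q := inferInstance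
  have hQN : IsNoetherian A Q := inferInstance
  obtain ⟨n, hn⟩ := Filter.eventually_atTop.mp (LinearMap.eventually_isCompl_ker_pow_range_pow α)
  have hc : IsCompl (LinearMap.ker (α ^ (n + 1))) (LinearMap.range (α ^ (n + 1))) :=
    hn (n + 1) (Nat.le_succ n)
  have hπpow : ∀ (k : ℕ) (q : Q), π ((α ^ k) q) = π q := by
    intro k
    induction k with
    | zero => intro q; rfl
    | succ k ih =>
      intro q
      rw [pow_succ', Module.End.mul_apply, hπα, ih]
  have hψpow : ∀ q : Q, ψ ((α ^ (n + 1)) q) = 0 := by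
    intro q
    rw [pow_succ', Module.End.mul_apply]
    exact hψα _
  let R : Submodule A Q := LinearMap.range (α ^ (n + 1))
  have hQ'mem : R.map Q.subtype ∈ 𝒮 := by
    refine ⟨⟨Q.subtype ∘ₗ R.subtype ∘ₗ
      (Submodule.projectionOnto R (LinearMap.ker (α ^ (n + 1))) hc.symm) ∘ₗ ρ, ?_, ?_⟩, ?_⟩
    · intro y
      exact ⟨_, (Submodule.projectionOnto R (LinearMap.ker (α ^ (n + 1))) hc.symm (ρ y)).2, rfl⟩
    · rintro _ ⟨q, hq, rfl⟩
      have h1 : ρ (Q.subtype q) = q := LinearMap.congr_fun hρ q
      have h2 := Submodule.projectionOnto_apply_left hc.symm (⟨q, hq⟩ : R)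
      show Q.subtype (R.subtype (Submodule.projectionOnto R (LinearMap.ker (α ^ (n + 1))) hc.symm
        (ρ (Q.subtype q)))) = Q.subtype q
      rw [h1]
      exact congrArg (fun t : R => Q.subtype (R.subtype t)) h2
    · intro z
      obtain ⟨q, rfl⟩ := hπ z
      exact ⟨Q.subtype ((α ^ (n + 1)) q), ⟨_, LinearMap.mem_range_self _ q, rfl⟩, hπpow (n + 1) q⟩
  have hlt : R.map Q.subtype < Q := by
    refine lt_of_le_of_ne ?_ ?_
    · rintro _ ⟨q, _, rfl⟩
      exact q.2
    · intro heq
      have hxQ' : (x : Fin r → A) ∈ R.map Q.subtype := by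
        rw [heq]
        exact x.2
      obtain ⟨q, ⟨q0, rfl⟩, hq⟩ := hxQ'
      have hq2 : (α ^ (n + 1)) q0 = x := Subtype.ext hq
      apply hψx
      rw [← hq2]
      exact hψpow q0
  exact hmin _ hQ'mem hlt

end Minimal

section Transfer

variable {e : A} (he : IsIdempotentElem e)

theorem eMap_ker_comp {P K : Type u} [AddCommGroup P] [Module A P] [AddCommGroup K] [Module A K]
    (π : P →ₗ[A] K) : (eMap he π).comp (eMap he (LinearMap.ker π).subtype) = 0 := by
  ext z : 1
  apply Subtype.ext
  show π z.1.1 = 0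
  exact z.1.2

/-- The short exact sequence of `eAe`-modules `0 → e(ker π) → eP → eK → 0`. -/
theorem eShortExact {P K : Type u} [AddCommGroup P] [Module A P] [AddCommGroup K] [Module A K]
    (π : P →ₗ[A] K) (hπ : Function.Surjective π) :
    (ModuleCat.shortComplexOfCompEqZero (eMap he (LinearMap.ker π).subtype) (eMap he π)
      (eMap_ker_comp he π)).ShortExact :=
  ModuleCat.shortComplex_shortExact _
    (eMap_exact he _ _ (LinearMap.exact_subtype_ker_map π))
    (eMap_injective he _ (LinearMap.ker π).injective_subtype)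
    (eMap_surjective he _ hπ)

theorem Pe_pow_finite [IsNoetherianRing A] (e : A) (ι : Type u) [Fintype ι] :
    Module.Finite A (ι → Pe e) := by
  have h1 : Module.Finite A (Pe e) := Module.IsNoetherian.finite A (Pe e)
  infer_instance

/-- If `K` is in the class and has projective dimension at most `N` over `A`, then `eK` has
projective dimension at most `N` over `eAe`. -/
theorem pdB_of_pdA [IsNoetherianRing A] (N : ℕ) :
    ∀ (K : Type u) [AddCommGroup K] [Module A K] [Module.Finite A K], ExtVanish e 0 K →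
      HasProjectiveDimensionLT (ModuleCat.of A K) (N + 1) →
      HasProjectiveDimensionLT (ModuleCat.of he.Corner (eSub e K)) (N + 1) := by
  induction N with
  | zero =>
    intro K _ _ _ hK hpd
    obtain ⟨ι, _, _, π, hπ, hker⟩ := exists_presentation he K hK
    rw [zero_add] at hpd ⊢
    rw [← projective_iff_hasProjectiveDimensionLT_one] at hpd ⊢
    have hKproj : Module.Projective A K := (IsProjective.iff_projective K).mpr hpd
    obtain ⟨s, hs⟩ := Module.projective_lifting_property π LinearMap.id hπ
    have hPB : Module.Projective he.Corner (eSub e (ι → Pe e)) := ePow_projective he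
    have hKB : Module.Projective he.Corner (eSub e K) :=
      Module.Projective.of_split (eMap he s) (eMap he π) (by rw [← eMap_comp, hs, eMap_id])
    exact (IsProjective.iff_projective _).mp hKB
  | succ N ih =>
    intro K _ _ _ hK hpd
    obtain ⟨ι, _, _, π, hπ, hker⟩ := exists_presentation he K hK
    have hPfin : Module.Finite A (ι → Pe e) := Pe_pow_finite e ι
    have hKerFin : Module.Finite A (LinearMap.ker π) := Module.IsNoetherian.finite A _
    have hS := LinearMap.shortExact_shortComplexKer hπ
    have hPA : Module.Projective A (ι → Pe e) := Pe_projective_pow he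
    have hproj : Projective (ModuleCat.of A (ι → Pe e)) :=
      ModuleCat.projective_of_categoryTheory_projective _
    have h1 : HasProjectiveDimensionLT (ModuleCat.of A (LinearMap.ker π)) (N + 1) :=
      (hS.hasProjectiveDimensionLT_X₃_iff N hproj).mp hpd
    have h2 := ih (LinearMap.ker π) hker h1
    have hSB := eShortExact he π hπ
    have hPB : Module.Projective he.Corner (eSub e (ι → Pe e)) := ePow_projective he
    have hprojB : Projective (ModuleCat.of he.Corner (eSub e (ι → Pe e))) :=
      ModuleCat.projective_of_categoryTheory_projective _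
    exact (hSB.hasProjectiveDimensionLT_X₃_iff N hprojB).mpr h2

/-- If `K` is in the class and `eK` has projective dimension at most `m` over `eAe`, then `K`
has projective dimension at most `m` over `A`. -/
theorem pdA_of_pdB [IsNoetherianRing A] (m : ℕ) :
    ∀ (K : Type u) [AddCommGroup K] [Module A K] [Module.Finite A K], ExtVanish e 0 K →
      HasProjectiveDimensionLT (ModuleCat.of he.Corner (eSub e K)) (m + 1) →
      HasProjectiveDimensionLT (ModuleCat.of A K) (m + 1) := by
  induction m with
  | zero =>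
    intro K _ _ _ hK hpd
    obtain ⟨ι, _, _, π, hπ, hker⟩ := exists_presentation he K hK
    rw [zero_add] at hpd ⊢
    rw [← projective_iff_hasProjectiveDimensionLT_one] at hpd ⊢
    have hKB : Module.Projective he.Corner (eSub e K) := (IsProjective.iff_projective _).mpr hpd
    obtain ⟨σ, hσ⟩ := Module.projective_lifting_property (eMap he π) LinearMap.id
      (eMap_surjective he π hπ)
    let y : ι → (ι → Pe e) := fun l => (σ (eMap he π ⟨gen e l, gen_mem he l⟩)).1
    have hy : ∀ l, e • y l = y l := fun l => (σ (eMap he π ⟨gen e l, gen_mem he l⟩)).2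
    let θ : (ι → Pe e) →ₗ[A] (ι → Pe e) := lift e y
    have hθgen : ∀ l, θ (gen e l) = y l := lift_gen y hy
    have hθe : eMap he θ = σ ∘ₗ eMap he π := by
      apply eHom_ext_gen he
      intro l
      apply Subtype.ext
      show θ (gen e l) = (σ (eMap he π ⟨gen e l, gen_mem he l⟩)).1
      exact hθgen l
    have hπθ : π ∘ₗ θ = π := by
      apply hom_ext_gen he
      intro l
      show π (θ (gen e l)) = π (gen e l)
      rw [hθgen]
      have h5 := LinearMap.congr_fun hσ (eMap he π ⟨gen e l, gen_mem he l⟩)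
      exact congrArg Subtype.val h5
    have hPfin : Module.Finite A (ι → Pe e) := Pe_pow_finite e ι
    have hKerFin : Module.Finite A (LinearMap.ker π) := Module.IsNoetherian.finite A _
    have hspan := span_eSub_eq_top he (K := LinearMap.ker π)
      (fun T _ _ _ hT f => hom_eq_zero_of_extVanish hker T hT f)
    have hθker : ∀ z : LinearMap.ker π, θ z.1 = 0 := by
      intro z
      have hz : z ∈ Submodule.span A (eSub e (LinearMap.ker π) : Set (LinearMap.ker π)) := by
        rw [hspan]
        trivial
      refine Submodule.span_induction (p := fun z _ => θ z.1 = 0) ?_ ?_ ?_ ?_ hz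
      · intro w hw
        have hw0 : e • w = w := hw
        have hw1 : e • w.1 = w.1 := congrArg Subtype.val hw0
        have h3 := congrArg Subtype.val (LinearMap.congr_fun hθe ⟨w.1, hw1⟩)
        have h4 : eMap he π ⟨w.1, hw1⟩ = 0 := Subtype.ext w.2
        have h6 : θ w.1 = (σ (eMap he π ⟨w.1, hw1⟩)).1 := h3
        rw [h4, map_zero] at h6
        exact h6
      · exact map_zero θ
      · intro a b _ _ ha hb
        show θ (a.1 + b.1) = 0
        rw [map_add, ha, hb, add_zero]
      · intro a b _ hb
        show θ (a • b.1) = 0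
        rw [map_smul, hb, smul_zero]
    have hle : LinearMap.ker π ≤ LinearMap.ker θ := fun z hz => hθker ⟨z, hz⟩
    let s : K →ₗ[A] (ι → Pe e) :=
      ((LinearMap.ker π).liftQ θ hle) ∘ₗ (π.quotKerEquivOfSurjective hπ).symm.toLinearMap
    have hs : π ∘ₗ s = LinearMap.id := by
      ext k : 1
      obtain ⟨p, rfl⟩ := hπ k
      have h1 : (π.quotKerEquivOfSurjective hπ).symm (π p) = (LinearMap.ker π).mkQ p := by
        rw [LinearEquiv.symm_apply_eq]
        rfl
      show π (((LinearMap.ker π).liftQ θ hle) ((π.quotKerEquivOfSurjective hπ).symm (π p))) = π p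
      rw [h1]
      show π (θ p) = π p
      exact LinearMap.congr_fun hπθ p
    have hPproj : Module.Projective A (ι → Pe e) := Pe_projective_pow he
    have hKA : Module.Projective A K := Module.Projective.of_split s π hs
    exact (IsProjective.iff_projective K).mp hKA
  | succ m ih =>
    intro K _ _ _ hK hpd
    obtain ⟨ι, _, _, π, hπ, hker⟩ := exists_presentation he K hK
    have hPfin : Module.Finite A (ι → Pe e) := Pe_pow_finite e ι
    have hKerFin : Module.Finite A (LinearMap.ker π) := Module.IsNoetherian.finite A _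
    have hS := LinearMap.shortExact_shortComplexKer hπ
    have hPA : Module.Projective A (ι → Pe e) := Pe_projective_pow he
    have hproj : Projective (ModuleCat.of A (ι → Pe e)) :=
      ModuleCat.projective_of_categoryTheory_projective _
    have hSB := eShortExact he π hπ
    have hPB : Module.Projective he.Corner (eSub e (ι → Pe e)) := ePow_projective he
    have hprojB : Projective (ModuleCat.of he.Corner (eSub e (ι → Pe e))) :=
      ModuleCat.projective_of_categoryTheory_projective _
    have h1 : HasProjectiveDimensionLT (ModuleCat.of he.Corner (eSub e (LinearMap.ker π)))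
        (m + 1) := (hSB.hasProjectiveDimensionLT_X₃_iff m hprojB).mp hpd
    have h2 := ih (LinearMap.ker π) hker h1
    exact (hS.hasProjectiveDimensionLT_X₃_iff m hproj).mpr h2

end Transfer

section More

variable {e : A}

/-- Vanishing of an Ext group transfers along an isomorphism of the second argument. -/
theorem ext_eq_zero_of_iso {R : Type u} [Ring R] {M X X' : ModuleCat.{u} R} (f : X ≅ X') {q : ℕ}
    (h : ∀ y : Ext M X' q, y = 0) (x : Ext M X q) : x = 0 := by
  have h1 : x = (x.comp (Ext.mk₀ f.hom) (add_zero q)).comp (Ext.mk₀ f.inv) (add_zero q) := by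
    rw [Ext.comp_assoc_of_third_deg_zero, Ext.mk₀_comp_mk₀, f.hom_inv_id, Ext.comp_mk₀_id]
  rw [h1, h (x.comp (Ext.mk₀ f.hom) (add_zero q)), Ext.zero_comp]

/-- Vanishing of an Ext group passes to retracts of the second argument. -/
theorem ext_eq_zero_of_retract {M : ModuleCat.{u} A} {X Y : Type u} [AddCommGroup X] [Module A X]
    [AddCommGroup Y] [Module A Y] (s : X →ₗ[A] Y) (p : Y →ₗ[A] X) (hps : p ∘ₗ s = LinearMap.id)
    {q : ℕ} (h : ∀ y : Ext M (ModuleCat.of A Y) q, y = 0) (x : Ext M (ModuleCat.of A X) q) :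
    x = 0 := by
  have h0 : ModuleCat.ofHom s ≫ ModuleCat.ofHom p = 𝟙 (ModuleCat.of A X) := by
    rw [← ModuleCat.ofHom_comp, hps]
    rfl
  have h1 : x = (x.comp (Ext.mk₀ (ModuleCat.ofHom s)) (add_zero q)).comp
      (Ext.mk₀ (ModuleCat.ofHom p)) (add_zero q) := by
    rw [Ext.comp_assoc_of_third_deg_zero, Ext.mk₀_comp_mk₀, h0, Ext.comp_mk₀_id]
  rw [h1, h (x.comp (Ext.mk₀ (ModuleCat.ofHom s)) (add_zero q)), Ext.zero_comp]

/-- If `Ext^q(M, A) = 0` then `Ext^q(M, A^r) = 0`. -/
theorem ext_free_eq_zero (M : ModuleCat.{u} A) (q : ℕ)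
    (h : ∀ y : Ext M (ModuleCat.of A A) q, y = 0) (r : ℕ)
    (x : Ext M (ModuleCat.of A (Fin r → A)) q) : x = 0 := by
  classical
  have key : ∀ s : Finset (Fin r), x.comp (Ext.mk₀ (ModuleCat.ofHom
      (∑ l ∈ s, (LinearMap.single A (fun _ : Fin r => A) l) ∘ₗ LinearMap.proj l))) (add_zero q)
      = 0 := by
    intro s
    induction s using Finset.induction_on with
    | empty =>
      rw [Finset.sum_empty]
      have h0 : ModuleCat.ofHom (0 : (Fin r → A) →ₗ[A] (Fin r → A)) = 0 := rfl
      rw [h0, Ext.mk₀_zero, Ext.comp_zero]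
    | insert l s hl ih =>
      rw [Finset.sum_insert hl, ModuleCat.ofHom_add, Ext.mk₀_add, Ext.comp_add, ih, add_zero,
        ModuleCat.ofHom_comp, ← Ext.mk₀_comp_mk₀, ← Ext.comp_assoc_of_third_deg_zero,
        h (x.comp (Ext.mk₀ (ModuleCat.ofHom (LinearMap.proj l))) (add_zero q)), Ext.zero_comp]
  have hid : (∑ l ∈ (Finset.univ : Finset (Fin r)),
      (LinearMap.single A (fun _ : Fin r => A) l) ∘ₗ LinearMap.proj l) = LinearMap.id := by
    apply LinearMap.ext
    intro v
    funext j
    simp [LinearMap.sum_apply, Pi.single_apply]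
  have h2 := key Finset.univ
  rw [hid] at h2
  have h3 : ModuleCat.ofHom (LinearMap.id : (Fin r → A) →ₗ[A] (Fin r → A)) =
      𝟙 (ModuleCat.of A (Fin r → A)) := rfl
  rw [h3, Ext.comp_mk₀_id] at h2
  exact h2

/-- If `Ext^i(M, A) = 0` for all `i ≥ 1`, then `Ext^i(M, X) = 0` for all `i ≥ 1` and all finitely
generated modules `X` of finite projective dimension. -/
theorem ext_eq_zero_of_pd [IsNoetherianRing A] (M : ModuleCat.{u} A)
    (hA : ∀ (i : ℕ) (y : Ext M (ModuleCat.of A A) (i + 1)), y = 0) (p : ℕ) :
    ∀ (X : Type u) [AddCommGroup X] [Module A X] [Module.Finite A X],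
      HasProjectiveDimensionLT (ModuleCat.of A X) (p + 1) →
      ∀ (i : ℕ) (x : Ext M (ModuleCat.of A X) (i + 1)), x = 0 := by
  induction p with
  | zero =>
    intro X _ _ _ hpd i x
    rw [zero_add, ← projective_iff_hasProjectiveDimensionLT_one] at hpd
    have hX : Module.Projective A X := (IsProjective.iff_projective X).mpr hpd
    obtain ⟨r, π, hπ⟩ := Module.Finite.exists_fin' A X
    obtain ⟨s, hs⟩ := Module.projective_lifting_property π LinearMap.id hπ
    exact ext_eq_zero_of_retract s π hs (ext_free_eq_zero M (i + 1) (hA i) r) x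
  | succ p ih =>
    intro X _ _ _ hpd i x
    obtain ⟨r, π, hπ⟩ := Module.Finite.exists_fin' A X
    have hKfin : Module.Finite A (LinearMap.ker π) := Module.IsNoetherian.finite A _
    have hproj : Projective (ModuleCat.of A (Fin r → A)) :=
      ModuleCat.projective_of_categoryTheory_projective _
    have hS := LinearMap.shortExact_shortComplexKer hπ
    have h1 : HasProjectiveDimensionLT (ModuleCat.of A (LinearMap.ker π)) (p + 1) :=
      (hS.hasProjectiveDimensionLT_X₃_iff p hproj).mp hpd
    obtain ⟨x₂, rfl⟩ := Ext.covariant_sequence_exact₃ M hS x (rfl : i + 1 + 1 = i + 2)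
      (ih (LinearMap.ker π) h1 (i + 1) _)
    rw [ext_free_eq_zero M (i + 1) (hA i) r x₂, Ext.zero_comp]

/-- A minimal presentation of a module in the class `ExtVanish e 1` has its kernel in the class
`ExtVanish e 0`. -/
theorem exists_min_syzygy [IsArtinianRing A] (M : Type u) [AddCommGroup M] [Module A M]
    [Module.Finite A M] (hM : ExtVanish e 1 M) :
    ∃ (Q : Type u) (_ : AddCommGroup Q) (_ : Module A Q) (_ : Module.Finite A Q)
      (_ : Module.Projective A Q) (π : Q →ₗ[A] M), Function.Surjective π ∧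
      ExtVanish e 0 (LinearMap.ker π) := by
  obtain ⟨Q, _, _, _, hQproj, π, hπ, hmin⟩ := exists_min_presentation (A := A) M
  refine ⟨Q, inferInstance, inferInstance, inferInstance, hQproj, π, hπ, ?_⟩
  have hproj : Projective (ModuleCat.of A Q) :=
    ModuleCat.projective_of_categoryTheory_projective _
  have hS := LinearMap.shortExact_shortComplexKer hπ
  intro T _ _ _ hT j _ x
  cases j with
  | zero =>
    obtain ⟨x₂, rfl⟩ := Ext.contravariant_sequence_exact₁ hS (ModuleCat.of A T) x
      (rfl : 1 + 0 = 1) (hM T hT 1 le_rfl _)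
    obtain ⟨g, rfl⟩ := (Ext.mk₀_bijective _ _).2 x₂
    rw [Ext.mk₀_comp_mk₀]
    have hg : π.shortComplexKer.f ≫ g = 0 := by
      apply ModuleCat.hom_ext
      apply LinearMap.ext
      intro z
      exact hmin T g.hom z.1 z.2
    rw [hg, Ext.mk₀_zero]
  | succ j =>
    exact ext_ker_eq_zero π hπ (ModuleCat.of A T) (j + 1)
      (fun x₂ => Ext.eq_zero_of_projective x₂)
      (fun x₃ => hM T hT (j + 2) (by omega) x₃) x

end More

section Faithful

variable {e : A}

/-- For `K` in the class `ExtVanish e 0`, every `eAe`-linear map `eK → eZ` is induced by an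
`A`-linear map `K → Z`. -/
theorem exists_lift_eHom [IsNoetherianRing A] (he : IsIdempotentElem e) (K : Type u)
    [AddCommGroup K] [Module A K] [Module.Finite A K] (hK : ExtVanish e 0 K) (Z : Type u)
    [AddCommGroup Z] [Module A Z] (g : eSub e K →ₗ[he.Corner] eSub e Z) :
    ∃ g' : K →ₗ[A] Z, eMap he g' = g := by
  obtain ⟨ι, _, _, π, hπ, hker⟩ := exists_presentation he K hK
  have hPfin : Module.Finite A (ι → Pe e) := Pe_pow_finite e ι
  have hKerFin : Module.Finite A (LinearMap.ker π) := Module.IsNoetherian.finite A _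
  let y : ι → Z := fun l => (g (eMap he π ⟨gen e l, gen_mem he l⟩)).1
  have hy : ∀ l, e • y l = y l := fun l => (g (eMap he π ⟨gen e l, gen_mem he l⟩)).2
  let θ : (ι → Pe e) →ₗ[A] Z := lift e y
  have hθgen : ∀ l, θ (gen e l) = y l := lift_gen y hy
  have hθe : eMap he θ = g ∘ₗ eMap he π := by
    apply eHom_ext_gen he
    intro l
    apply Subtype.ext
    exact hθgen l
  have hspan := span_eSub_eq_top he (K := LinearMap.ker π)
    (fun T _ _ _ hT f => hom_eq_zero_of_extVanish hker T hT f)
  have hθker : ∀ z : LinearMap.ker π, θ z.1 = 0 := by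
    intro z
    have hz : z ∈ Submodule.span A (eSub e (LinearMap.ker π) : Set (LinearMap.ker π)) := by
      rw [hspan]
      trivial
    refine Submodule.span_induction (p := fun z _ => θ z.1 = 0) ?_ ?_ ?_ ?_ hz
    · intro w hw
      have hw0 : e • w = w := hw
      have hw1 : e • w.1 = w.1 := congrArg Subtype.val hw0
      have h3 := congrArg Subtype.val (LinearMap.congr_fun hθe ⟨w.1, hw1⟩)
      have h4 : eMap he π ⟨w.1, hw1⟩ = 0 := Subtype.ext w.2
      have h6 : θ w.1 = (g (eMap he π ⟨w.1, hw1⟩)).1 := h3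
      rw [h4, map_zero] at h6
      exact h6
    · exact map_zero θ
    · intro a b _ _ ha hb
      show θ (a.1 + b.1) = 0
      rw [map_add, ha, hb, add_zero]
    · intro a b _ hb
      show θ (a • b.1) = 0
      rw [map_smul, hb, smul_zero]
  have hle : LinearMap.ker π ≤ LinearMap.ker θ := fun z hz => hθker ⟨z, hz⟩
  let g' : K →ₗ[A] Z :=
    ((LinearMap.ker π).liftQ θ hle) ∘ₗ (π.quotKerEquivOfSurjective hπ).symm.toLinearMap
  have hg' : ∀ p, g' (π p) = θ p := by
    intro p
    have h1 : (π.quotKerEquivOfSurjective hπ).symm (π p) = (LinearMap.ker π).mkQ p := by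
      rw [LinearEquiv.symm_apply_eq]
      rfl
    show ((LinearMap.ker π).liftQ θ hle) ((π.quotKerEquivOfSurjective hπ).symm (π p)) = θ p
    rw [h1]
    rfl
  refine ⟨g', ?_⟩
  apply LinearMap.ext
  intro z
  obtain ⟨p, rfl⟩ := eMap_surjective he π hπ z
  apply Subtype.ext
  show g' (π p.1) = (g (eMap he π p)).1
  rw [hg']
  exact congrArg Subtype.val (LinearMap.congr_fun hθe p)

/-- Transfer of Ext-vanishing from `A` to `eAe` for modules in the class `ExtVanish e 0`. -/
theorem ext_corner_eq_zero [IsNoetherianRing A] (he : IsIdempotentElem e) (Z : Type u)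
    [AddCommGroup Z] [Module A Z] (j : ℕ) :
    ∀ (K : Type u) [AddCommGroup K] [Module A K] [Module.Finite A K], ExtVanish e 0 K →
      (∀ x : Ext (ModuleCat.of A K) (ModuleCat.of A Z) (j + 1), x = 0) →
      ∀ x : Ext (ModuleCat.of he.Corner (eSub e K)) (ModuleCat.of he.Corner (eSub e Z)) (j + 1),
        x = 0 := by
  induction j with
  | zero =>
    intro K _ _ _ hK hA x
    obtain ⟨ι, _, _, π, hπ, hker⟩ := exists_presentation he K hK
    have hPfin : Module.Finite A (ι → Pe e) := Pe_pow_finite e ι
    have hKerFin : Module.Finite A (LinearMap.ker π) := Module.IsNoetherian.finite A _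
    have hS := LinearMap.shortExact_shortComplexKer hπ
    have hSB := eShortExact he π hπ
    have hPB : Module.Projective he.Corner (eSub e (ι → Pe e)) := ePow_projective he
    have hprojB : Projective (ModuleCat.of he.Corner (eSub e (ι → Pe e))) :=
      ModuleCat.projective_of_categoryTheory_projective _
    obtain ⟨x₁, rfl⟩ := Ext.contravariant_sequence_exact₃ hSB _ x
      (Ext.eq_zero_of_projective _) (rfl : 1 + 0 = 1)
    obtain ⟨γ, rfl⟩ := (Ext.mk₀_bijective _ _).2 x₁
    obtain ⟨g', hg'⟩ := exists_lift_eHom he (LinearMap.ker π) hker Z γ.hom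
    obtain ⟨x₂, hx₂⟩ := Ext.contravariant_sequence_exact₁ hS (ModuleCat.of A Z)
      (Ext.mk₀ (ModuleCat.ofHom g')) (rfl : 1 + 0 = 1) (hA _)
    obtain ⟨h, rfl⟩ := (Ext.mk₀_bijective _ _).2 x₂
    rw [Ext.mk₀_comp_mk₀] at hx₂
    have hx₃ := (Ext.mk₀_bijective _ _).1 hx₂
    have hx₄ : h.hom ∘ₗ (LinearMap.ker π).subtype = g' := congrArg ModuleCat.Hom.hom hx₃
    have hγ : γ = ModuleCat.ofHom (eMap he (LinearMap.ker π).subtype) ≫
        ModuleCat.ofHom (eMap he h.hom) := by
      apply ModuleCat.hom_ext
      show γ.hom = eMap he h.hom ∘ₗ eMap he (LinearMap.ker π).subtype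
      rw [← eMap_comp, hx₄, hg']
    rw [hγ, ← Ext.mk₀_comp_mk₀]
    exact hSB.extClass_comp_assoc _
  | succ j ih =>
    intro K _ _ _ hK hA x
    obtain ⟨ι, _, _, π, hπ, hker⟩ := exists_presentation he K hK
    have hPfin : Module.Finite A (ι → Pe e) := Pe_pow_finite e ι
    have hKerFin : Module.Finite A (LinearMap.ker π) := Module.IsNoetherian.finite A _
    have hSB := eShortExact he π hπ
    have hPA : Module.Projective A (ι → Pe e) := Pe_projective_pow he
    have hproj : Projective (ModuleCat.of A (ι → Pe e)) :=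
      ModuleCat.projective_of_categoryTheory_projective _
    have hPB : Module.Projective he.Corner (eSub e (ι → Pe e)) := ePow_projective he
    have hprojB : Projective (ModuleCat.of he.Corner (eSub e (ι → Pe e))) :=
      ModuleCat.projective_of_categoryTheory_projective _
    obtain ⟨x₁, rfl⟩ := Ext.contravariant_sequence_exact₃ hSB _ x
      (Ext.eq_zero_of_projective _) (add_comm 1 (j + 1))
    have hA₁ : ∀ x' : Ext (ModuleCat.of A (LinearMap.ker π)) (ModuleCat.of A Z) (j + 1),
        x' = 0 := fun x' => ext_ker_eq_zero π hπ (ModuleCat.of A Z) (j + 1)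
      (fun x₂ => Ext.eq_zero_of_projective x₂) hA x'
    rw [ih (LinearMap.ker π) hker hA₁ x₁, Ext.comp_zero]

end Faithful

end Vale.Agent.Helper2.Corner
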