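import Mathlib

/-!
# Definitions for the Igusa-Todorov type results on the finitistic dimension (P176)

All modules are left modules over a ring `A`, given as objects of `ModuleCat A`.
-/

universe u

open Function

namespace Vale.Agent.Helper2.IT

variable {A : Type u} [Ring A]

/-- `IsSES i p`: the sequence `0 → L → P → M → 0` formed by the linear maps `i` and `p` is
exact, that is `i` is injective, `p` is surjective and the kernel of `p` is the image of `i`. -/
def IsSES {L P M : Type u} [AddCommGroup L] [Module A L] [AddCommGroup P] [Module A P]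
    [AddCommGroup M] [Module A M] (i : L →ₗ[A] P) (p : P →ₗ[A] M) : Prop :=
  Injective i ∧ Surjective p ∧ Function.Exact i p

/-- `IsSyz n M K`: the module `K` is an `n`-th syzygy of `M` with respect to finitely generated
projective modules: there are exact sequences `0 → K_{j+1} → P_j → K_j → 0` for `j < n` with
every `P_j` finitely generated projective, `K_0 ≅ M` and `K_n ≅ K`. -/
def IsSyz : ℕ → ModuleCat.{u} A → ModuleCat.{u} A → Prop
  | 0, M, K => Nonempty (K ≃ₗ[A] M)
  | n + 1, M, K => ∃ (P L : ModuleCat.{u} A) (i : L →ₗ[A] P) (p : P →ₗ[A] M),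
      Module.Projective A P ∧ Module.Finite A P ∧ IsSES i p ∧ IsSyz n L K

/-- `InAdd V M`: the module `M` is a direct summand of a finite direct sum of copies of `V`,
that is, `M` lies in `add V`. -/
def InAdd (V M : ModuleCat.{u} A) : Prop :=
  ∃ (m : ℕ) (i : M →ₗ[A] (Fin m → V)) (p : (Fin m → V) →ₗ[A] M), p ∘ₗ i = LinearMap.id

end Vale.Agent.Helper2.IT
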