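import Mathlib

/-!
# Definitions for the delooping level (helper module for P176)

All modules are left modules over a ring `A`, given as objects of `ModuleCat A`.  The
definitions are used in `Vale.Agent.Helper2.Delooping`, which proves the delooping-level bound
for the finitistic dimension.
-/

universe u

open CategoryTheory Abelian Limits

namespace Vale.Agent.Helper2.Delooping

variable {A : Type u} [Ring A]

/-- `IsSyzygy n M K`: the module `K` is an `n`-th syzygy of `M`, that is, there are short exact
sequences `0 → K_{i+1} → P_i → K_i → 0` for `i < n` with every `P_i` projective, `K_0 ≅ M` and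
`K_n ≅ K`. -/
def IsSyzygy : ℕ → ModuleCat.{u} A → ModuleCat.{u} A → Prop
  | 0, M, K => Nonempty (K ≅ M)
  | n + 1, M, K => ∃ S : ShortComplex (ModuleCat.{u} A),
      S.ShortExact ∧ Projective S.X₂ ∧ Nonempty (S.X₃ ≅ M) ∧ IsSyzygy n S.X₁ K

/-- `K` is a stable retract of `L`: a retract (direct summand) of `L ⊞ Q` for some projective
module `Q`. -/
def IsStableRetract (K L : ModuleCat.{u} A) : Prop :=
  ∃ Q : ModuleCat.{u} A, Projective Q ∧ Nonempty (Retract K (L ⊞ Q))

/-- The delooping level of `S` is at most `d`: for some `k ≤ d`, a `k`-th syzygy of `S` is a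
stable retract of a `(k+1)`-st syzygy of some module `N`. -/
def DeloopingLevelLE (S : ModuleCat.{u} A) (d : ℕ) : Prop :=
  ∃ k, k ≤ d ∧ ∃ K N L : ModuleCat.{u} A,
    IsSyzygy k S K ∧ IsSyzygy (k + 1) N L ∧ IsStableRetract K L

end Vale.Agent.Helper2.Delooping
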