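import Mathlib
import Vale.Agent.Helper2.DeloopingDefs

/-!
# The delooping-level bound for the finitistic dimension (helper module for P176)

Let `A` be a finite-dimensional algebra over a field `k`.  For a module `S` write `Ω^n S` for an
`n`-th syzygy.  The delooping level of `S` is at most `d` if for some `n ≤ d` the module `Ω^n S`
is a stable retract of `Ω^(n+1) N` for some module `N`, i.e. a direct summand of `Ω^(n+1) N ⊕ Q`
with `Q` projective.  If every simple right `A`-module has delooping level at most `d`, then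
every finitely generated left `A`-module of finite projective dimension has projective dimension
at most `d`: `findim A ≤ dell (A^op)`.

Proof sketch.  Right `A`-modules are treated as left modules over the opposite ring `A^op`.
First, over any left Artinian ring `R` whose simple modules have delooping level at most `d`,
every module `X` of finite injective dimension has injective dimension at most `d`: if
`id X ≤ m + 1` with `m ≥ d`, then for a simple module `T` with `Ω^n T` a stable retract of
`Ω^(n+1) N`, dimension shifting gives that `Ext^(m+1)(T, X)` is a quotient of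
`Ext^(m+1-n)(Ω^n T, X)`, a direct summand of `Ext^(m+1-n)(Ω^(n+1) N, X) = Ext^(m+2)(N, X) = 0`;
so `Ext^(m+1)(T, X) = 0` for all simple `T`, and `id X ≤ m` by Baer's criterion and induction on
the length.  Secondly, the `k`-dual `D M = Hom_k(M, k)` of a finitely generated left `A`-module
is a left `A^op`-module, the dual of a finitely generated free module is injective, and `D` is
exact; hence `pd_A M ≤ n` implies `id (D M) ≤ n`, and `id (D M) ≤ d` implies `pd_A M ≤ d`
(using the double dual of a finitely generated free module to split a presentation).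
-/

universe u

open CategoryTheory Abelian Limits

namespace Vale.Agent.Helper2.Delooping


section Core

variable {A : Type u} [Ring A]

/-- Vanishing of `Ext^q(-, X)` transfers along an isomorphism of the first argument. -/
theorem ext_eq_zero_of_iso_left {M M' X : ModuleCat.{u} A} (e : M ≅ M') {q : ℕ}
    (h : ∀ y : Ext M' X q, y = 0) (x : Ext M X q) : x = 0 := by
  have h1 : x = (Ext.mk₀ e.hom).comp ((Ext.mk₀ e.inv).comp x (zero_add q)) (zero_add q) := by
    rw [← Ext.comp_assoc_of_second_deg_zero, Ext.mk₀_comp_mk₀, e.hom_inv_id, Ext.mk₀_id_comp]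
  rw [h1, h ((Ext.mk₀ e.inv).comp x (zero_add q)), Ext.comp_zero]

/-- Dimension shifting, first direction: if `Ext^j(K, X) = 0` for an `n`-th syzygy `K` of `M`
and `j ≥ 1`, then `Ext^(j+n)(M, X) = 0`. -/
theorem ext_eq_zero_of_syzygy {X : ModuleCat.{u} A} (n : ℕ) :
    ∀ (M K : ModuleCat.{u} A), IsSyzygy n M K → ∀ (j : ℕ), 1 ≤ j →
      (∀ x : Ext K X j, x = 0) → ∀ (i : ℕ), j + n = i → ∀ x : Ext M X i, x = 0 := by
  induction n with
  | zero =>
    intro M K h j _ hK i hi x
    obtain ⟨e⟩ := h
    obtain rfl : j = i := by omega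
    exact ext_eq_zero_of_iso_left e.symm hK x
  | succ n ih =>
    intro M K h j hj hK i hi x
    obtain ⟨S, hS, hP, ⟨e⟩, hsyz⟩ := h
    have h1 : ∀ y : Ext S.X₁ X (j + n), y = 0 := ih S.X₁ K hsyz j hj hK (j + n) rfl
    have h3 : ∀ y : Ext S.X₃ X i, y = 0 := by
      intro y
      have hz : (Ext.mk₀ S.g).comp y (zero_add i) = 0 := by
        have : 1 ≤ i := by omega
        obtain ⟨i', rfl⟩ : ∃ i', i = i' + 1 := ⟨i - 1, by omega⟩
        exact Ext.eq_zero_of_projective _
      obtain ⟨x₁, rfl⟩ := Ext.contravariant_sequence_exact₃ hS X y hz (n₀ := j + n) (by omega)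
      rw [h1 x₁, Ext.comp_zero]
    exact ext_eq_zero_of_iso_left e.symm h3 x

/-- Dimension shifting, second direction: if `Ext^(j+n)(N, X) = 0` and `L` is an `n`-th syzygy
of `N`, then `Ext^j(L, X) = 0` for `j ≥ 1`. -/
theorem ext_syzygy_eq_zero {X : ModuleCat.{u} A} (n : ℕ) :
    ∀ (N L : ModuleCat.{u} A), IsSyzygy n N L → ∀ (j : ℕ), 1 ≤ j → ∀ (i : ℕ), j + n = i →
      (∀ x : Ext N X i, x = 0) → ∀ x : Ext L X j, x = 0 := by
  induction n with
  | zero =>
    intro N L h j _ i hi hN x
    obtain ⟨e⟩ := h
    obtain rfl : j = i := by omega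
    exact ext_eq_zero_of_iso_left e hN x
  | succ n ih =>
    intro N L h j hj i hi hN x
    obtain ⟨S, hS, hP, ⟨e⟩, hsyz⟩ := h
    have h3 : ∀ y : Ext S.X₃ X i, y = 0 := fun y => ext_eq_zero_of_iso_left e hN y
    have h1 : ∀ y : Ext S.X₁ X (j + n), y = 0 := by
      intro y
      obtain ⟨x₂, rfl⟩ := Ext.contravariant_sequence_exact₁ hS X y (n₁ := i) (by omega)
        (h3 _)
      have hz : x₂ = 0 := by
        obtain ⟨i', hi'⟩ : ∃ i', j + n = i' + 1 := ⟨j + n - 1, by omega⟩
        revert x₂
        rw [hi']
        intro x₂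
        exact Ext.eq_zero_of_projective _
      rw [hz, Ext.comp_zero]
    exact ih S.X₁ L hsyz j hj (j + n) rfl h1 x

/-- `Ext^j(-, X)` vanishes on stable retracts of modules on which it vanishes, for `j ≥ 1`. -/
theorem ext_eq_zero_of_stableRetract {X K L : ModuleCat.{u} A} (h : IsStableRetract K L)
    (j : ℕ) (hj : 1 ≤ j) (hL : ∀ x : Ext L X j, x = 0) (x : Ext K X j) : x = 0 := by
  obtain ⟨Q, hQ, ⟨r⟩⟩ := h
  have hy : ∀ y : Ext (L ⊞ Q) X j, y = 0 := by
    intro y
    have h1 : y = (Ext.mk₀ (biprod.fst : L ⊞ Q ⟶ L)).comp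
          ((Ext.mk₀ (biprod.inl : L ⟶ L ⊞ Q)).comp y (zero_add j)) (zero_add j)
        + (Ext.mk₀ (biprod.snd : L ⊞ Q ⟶ Q)).comp
          ((Ext.mk₀ (biprod.inr : Q ⟶ L ⊞ Q)).comp y (zero_add j)) (zero_add j) := by
      rw [← Ext.comp_assoc_of_second_deg_zero, ← Ext.comp_assoc_of_second_deg_zero,
        Ext.mk₀_comp_mk₀, Ext.mk₀_comp_mk₀, ← Ext.add_comp, ← Ext.mk₀_add, biprod.total,
        Ext.mk₀_id_comp]
    have h2 : (Ext.mk₀ (biprod.inr : Q ⟶ L ⊞ Q)).comp y (zero_add j) = 0 := by
      obtain ⟨j', rfl⟩ : ∃ j', j = j' + 1 := ⟨j - 1, by omega⟩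
      exact Ext.eq_zero_of_projective _
    rw [h1, hL ((Ext.mk₀ (biprod.inl : L ⟶ L ⊞ Q)).comp y (zero_add j)), h2, Ext.comp_zero,
      Ext.comp_zero, add_zero]
  have h1 : x = (Ext.mk₀ r.i).comp ((Ext.mk₀ r.r).comp x (zero_add j)) (zero_add j) := by
    rw [← Ext.comp_assoc_of_second_deg_zero, Ext.mk₀_comp_mk₀, r.retract, Ext.mk₀_id_comp]
  rw [h1, hy ((Ext.mk₀ r.r).comp x (zero_add j)), Ext.comp_zero]

/-- The short exact sequence `0 → N → Y → Y / N → 0`. -/
theorem shortExact_sub {Y : Type u} [AddCommGroup Y] [Module A Y] (N : Submodule A Y) :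
    (ModuleCat.shortComplexOfCompEqZero N.subtype N.mkQ (by ext; simp)).ShortExact :=
  ModuleCat.shortComplex_shortExact _ (LinearMap.exact_subtype_mkQ N) N.injective_subtype
    N.mkQ_surjective

/-- Vanishing of `Ext^n(-, X)` on simple modules propagates to all modules of finite length. -/
theorem ext_eq_zero_of_isFiniteLength_left (X : ModuleCat.{u} A) (n : ℕ)
    (hsimple : ∀ (T : Type u) [AddCommGroup T] [Module A T] [IsSimpleModule A T]
      (x : Ext (ModuleCat.of A T) X n), x = 0)
    (Y : Type u) [AddCommGroup Y] [Module A Y] (hY : IsFiniteLength A Y)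
    (x : Ext (ModuleCat.of A Y) X n) : x = 0 := by
  induction hY with
  | @of_subsingleton Y _ _ _ =>
    have hz : Limits.IsZero (ModuleCat.of A Y) := ModuleCat.isZero_of_subsingleton _
    rw [← x.mk₀_id_comp, hz.eq_zero_of_src (𝟙 _), Ext.mk₀_zero, Ext.zero_comp]
  | @of_simple_quotient Y _ _ N _ _ ih =>
    have hS := shortExact_sub N
    obtain ⟨x₃, rfl⟩ := Ext.contravariant_sequence_exact₂ hS X x (ih _)
    rw [hsimple _ x₃, Ext.comp_zero]

/-- Over a left Artinian ring, a module `X` with `Ext^1(T, X) = 0` for all simple `T` is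
injective. -/
theorem injective_of_ext_simple [IsArtinianRing A] (X : ModuleCat.{u} A)
    (hsimple : ∀ (T : Type u) [AddCommGroup T] [Module A T] [IsSimpleModule A T]
      (x : Ext (ModuleCat.of A T) X 1), x = 0) : Injective X := by
  have hbaer : Module.Baer A X := by
    intro I g
    have hS := shortExact_sub I
    have hfl : IsFiniteLength A (A ⧸ I) :=
      isFiniteLength_iff_isNoetherian_isArtinian.mpr ⟨inferInstance, inferInstance⟩
    have hz : hS.extClass.comp (Ext.mk₀ (ModuleCat.ofHom g)) (add_zero 1) = 0 :=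
      ext_eq_zero_of_isFiniteLength_left X 1 hsimple (A ⧸ I) hfl _
    obtain ⟨x₂, hx₂⟩ := Ext.contravariant_sequence_exact₁ hS X (Ext.mk₀ (ModuleCat.ofHom g))
      (add_zero 1) hz
    obtain ⟨φ, rfl⟩ := Ext.homEquiv₀.symm.surjective x₂
    have hφ : ModuleCat.ofHom I.subtype ≫ φ = ModuleCat.ofHom g :=
      Ext.homEquiv₀.symm.injective (by simpa using hx₂)
    refine ⟨φ.hom, ?_⟩
    intro x hx
    have := congrArg (fun f => f.hom ⟨x, hx⟩) hφ
    simpa using this
  have : Module.Injective A X := hbaer.injective
  exact Module.injective_object_of_injective_module A X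

/-- Over a left Artinian ring, a module `X` with `Ext^(m+1)(T, X) = 0` for all simple `T` has
injective dimension at most `m`. -/
theorem hasInjectiveDimensionLE_of_ext_simple [IsArtinianRing A] (m : ℕ) :
    ∀ (X : ModuleCat.{u} A),
      (∀ (T : Type u) [AddCommGroup T] [Module A T] [IsSimpleModule A T]
        (x : Ext (ModuleCat.of A T) X (m + 1)), x = 0) → HasInjectiveDimensionLE X m := by
  induction m with
  | zero =>
    intro X hsimple
    have := injective_of_ext_simple X hsimple
    infer_instance
  | succ m ih =>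
    intro X hsimple
    let ι := Injective.ι X
    have hS : (ShortComplex.mk ι (cokernel.π ι) (by simp)).ShortExact :=
      { exact := ShortComplex.exact_cokernel ι }
    have hC : HasInjectiveDimensionLE (cokernel ι) m := by
      apply ih
      intro T _ _ _ y
      obtain ⟨x₂, rfl⟩ := Ext.covariant_sequence_exact₃ (ModuleCat.of A T) hS y (rfl)
        (hsimple T _)
      rw [x₂.eq_zero_of_injective, Ext.zero_comp]
    exact hS.hasInjectiveDimensionLT_X₁ (m + 1) hC inferInstance

/-- **Delooping-level bound, injective form.**  Let `A` be a left Artinian ring such that every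
simple left `A`-module has delooping level at most `d`.  Then every left `A`-module of finite
injective dimension has injective dimension at most `d`. -/
theorem injectiveDimension_le_of_delooping [IsArtinianRing A] (d : ℕ)
    (hd : ∀ (T : Type u) [AddCommGroup T] [Module A T] [IsSimpleModule A T],
      DeloopingLevelLE (ModuleCat.of A T) d)
    (X : ModuleCat.{u} A) (n : ℕ) (hX : HasInjectiveDimensionLE X n) :
    HasInjectiveDimensionLE X d := by
  have step : ∀ m, d ≤ m → HasInjectiveDimensionLE X (m + 1) → HasInjectiveDimensionLE X m := by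
    intro m hm hX'
    apply hasInjectiveDimensionLE_of_ext_simple
    intro T _ _ _ x
    obtain ⟨k, hk, K, N, L, hK, hL, hret⟩ := hd T
    have hN : ∀ y : Ext N X (m + 2), y = 0 := fun y =>
      y.eq_zero_of_hasInjectiveDimensionLT (m + 2) le_rfl
    have h1 : ∀ y : Ext L X (m + 1 - k), y = 0 :=
      ext_syzygy_eq_zero (k + 1) N L hL (m + 1 - k) (by omega) (m + 2) (by omega) hN
    have h2 : ∀ y : Ext K X (m + 1 - k), y = 0 :=
      ext_eq_zero_of_stableRetract hret (m + 1 - k) (by omega) h1
    exact ext_eq_zero_of_syzygy k _ K hK (m + 1 - k) (by omega) h2 (m + 1) (by omega) x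
  have main : ∀ t, HasInjectiveDimensionLE X (d + t) → HasInjectiveDimensionLE X d := by
    intro t
    induction t with
    | zero => exact fun h => h
    | succ t ih => exact fun h => ih (step (d + t) (by omega) h)
  by_cases hnd : n ≤ d
  · exact hasInjectiveDimensionLT_of_ge X (n + 1) (d + 1) (by omega)
  · obtain ⟨t, rfl⟩ : ∃ t, n = d + t := ⟨n - d, by omega⟩
    exact main t hX

end Core



section Duality

variable (k : Type u) [Field k]

/-- The `k`-linear dual `Hom_k(M, k)` of a module `M`.  When `M` is a left module over a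
`k`-algebra `A`, it is a left module over the opposite ring via `(op a • φ) m = φ (a • m)`;
that is, it is the dual right `A`-module. -/
def DualMod (M : Type u) [AddCommGroup M] [Module k M] : Type u := M →ₗ[k] k

variable {k}
variable {A : Type u} [Ring A] [Algebra k A]
variable {M N P : Type u} [AddCommGroup M] [Module k M] [Module A M] [IsScalarTower k A M]
  [AddCommGroup N] [Module k N] [Module A N] [IsScalarTower k A N]
  [AddCommGroup P] [Module k P] [Module A P] [IsScalarTower k A P]

instance : AddCommGroup (DualMod k M) := inferInstanceAs (AddCommGroup (M →ₗ[k] k))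

/-- The functional underlying an element of the dual module. -/
def DualMod.fn (φ : DualMod k M) : M →ₗ[k] k := φ

/-- The element of the dual module given by a functional. -/
def DualMod.mk (f : M →ₗ[k] k) : DualMod k M := f

theorem DualMod.ext {φ ψ : DualMod k M} (h : ∀ x, φ.fn x = ψ.fn x) : φ = ψ :=
  LinearMap.ext h

@[simp] theorem DualMod.fn_mk (f : M →ₗ[k] k) : (DualMod.mk f).fn = f := rfl

@[simp] theorem DualMod.mk_fn (φ : DualMod k M) : DualMod.mk φ.fn = φ := rfl

@[simp] theorem DualMod.fn_add (φ ψ : DualMod k M) (x : M) : (φ + ψ).fn x = φ.fn x + ψ.fn x := rfl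

@[simp] theorem DualMod.fn_zero (x : M) : (0 : DualMod k M).fn x = 0 := rfl

instance : Module Aᵐᵒᵖ (DualMod k M) where
  smul a φ := DualMod.mk
    { toFun := fun m => φ.fn (a.unop • m)
      map_add' := fun m m' => by rw [smul_add, map_add]
      map_smul' := fun c m => by rw [smul_comm, map_smul]; rfl }
  one_smul φ := DualMod.ext fun x => by
    show φ.fn ((1 : Aᵐᵒᵖ).unop • x) = φ.fn x
    rw [MulOpposite.unop_one, one_smul]
  mul_smul a b φ := DualMod.ext fun x => by
    show φ.fn ((a * b).unop • x) = φ.fn (b.unop • a.unop • x)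
    rw [MulOpposite.unop_mul, mul_smul]
  smul_zero a := DualMod.ext fun x => rfl
  smul_add a φ ψ := DualMod.ext fun x => rfl
  add_smul a b φ := DualMod.ext fun x => by
    show φ.fn ((a + b).unop • x) = φ.fn (a.unop • x) + φ.fn (b.unop • x)
    rw [MulOpposite.unop_add, add_smul, map_add]
  zero_smul φ := DualMod.ext fun x => by
    show φ.fn ((0 : Aᵐᵒᵖ).unop • x) = 0
    rw [MulOpposite.unop_zero, zero_smul, map_zero]

@[simp] theorem DualMod.fn_smul (a : Aᵐᵒᵖ) (φ : DualMod k M) (x : M) :
    (a • φ).fn x = φ.fn (a.unop • x) := rfl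

/-- The dual of an `A`-linear map, a linear map over the opposite ring. -/
def dualMap (f : M →ₗ[A] N) : DualMod k N →ₗ[Aᵐᵒᵖ] DualMod k M where
  toFun φ := DualMod.mk (φ.fn.comp (f.restrictScalars k))
  map_add' φ ψ := DualMod.ext fun x => rfl
  map_smul' a φ := DualMod.ext fun x => by
    show φ.fn (a.unop • f x) = φ.fn (f (a.unop • x))
    exact congrArg φ.fn (f.map_smul a.unop x).symm

@[simp] theorem dualMap_fn (f : M →ₗ[A] N) (φ : DualMod k N) (x : M) :
    (dualMap f φ).fn x = φ.fn (f x) := rfl

theorem dualMap_comp (f : M →ₗ[A] N) (g : N →ₗ[A] P) :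
    dualMap (k := k) (g.comp f) = (dualMap f).comp (dualMap g) := rfl

theorem dualMap_id : dualMap (k := k) (LinearMap.id : M →ₗ[A] M) = LinearMap.id := rfl

theorem dualMap_injective (g : N →ₗ[A] P) (hg : Function.Surjective g) :
    Function.Injective (dualMap (k := k) g) := by
  intro φ ψ h
  apply DualMod.ext
  intro x
  obtain ⟨y, rfl⟩ := hg x
  have := congrArg (fun θ => DualMod.fn θ y) h
  simpa using this

theorem dualMap_surjective (f : M →ₗ[A] N) (hf : Function.Injective f) :
    Function.Surjective (dualMap (k := k) f) := by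
  intro φ
  obtain ⟨s, hs⟩ := LinearMap.exists_leftInverse_of_injective (f.restrictScalars k)
    (LinearMap.ker_eq_bot.mpr hf)
  refine ⟨DualMod.mk (φ.fn.comp s), ?_⟩
  apply DualMod.ext
  intro x
  show φ.fn (s (f x)) = φ.fn x
  have : s (f x) = x := congrArg (fun h => h x) hs
  rw [this]

theorem dualMap_exact (f : M →ₗ[A] N) (g : N →ₗ[A] P) (hg : Function.Surjective g)
    (hfg : Function.Exact f g) : Function.Exact (dualMap (k := k) g) (dualMap (k := k) f) := by
  intro φ
  constructor
  · intro hφ
    obtain ⟨s, hs⟩ := LinearMap.exists_rightInverse_of_surjective (g.restrictScalars k)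
      (LinearMap.range_eq_top.mpr hg)
    refine ⟨DualMod.mk (φ.fn.comp s), ?_⟩
    apply DualMod.ext
    intro x
    show φ.fn (s (g x)) = φ.fn x
    have h1 : g (x - s (g x)) = 0 := by
      have : g (s (g x)) = g x := congrArg (fun h => h (g x)) hs
      rw [map_sub, this, sub_self]
    obtain ⟨y, hy⟩ := (hfg _).mp h1
    have h2 : φ.fn (f y) = 0 := congrArg (fun θ => DualMod.fn θ y) hφ
    rw [hy, map_sub] at h2
    exact (sub_eq_zero.mp h2).symm
  · rintro ⟨ψ, rfl⟩
    apply DualMod.ext
    intro x
    show ψ.fn (g (f x)) = 0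
    rw [hfg.apply_apply_eq_zero, map_zero]

theorem DualMod.op_algebraMap_smul (c : k) (φ : DualMod k M) (x : M) :
    ((MulOpposite.op (algebraMap k A c) : Aᵐᵒᵖ) • φ).fn x = c * φ.fn x := by
  rw [DualMod.fn_smul, MulOpposite.unop_op, algebraMap_smul, map_smul, smul_eq_mul]

/-- The dual of a finitely generated free left `A`-module is an injective module over the
opposite ring (Baer's criterion). -/
theorem dual_free_baer (r : ℕ) : Module.Baer Aᵐᵒᵖ (DualMod k (Fin r → A)) := by
  intro I g
  let ψ : Fin r → (I.restrictScalars k) →ₗ[k] k := fun i =>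
    { toFun := fun l => (g ⟨l.1, l.2⟩).fn (Pi.single i 1)
      map_add' := fun l l' => by
        have : (⟨(l + l').1, (l + l').2⟩ : I) = ⟨l.1, l.2⟩ + ⟨l'.1, l'.2⟩ := rfl
        rw [this, map_add, DualMod.fn_add]
      map_smul' := fun c l => by
        have : (⟨(c • l).1, (c • l).2⟩ : I)
            = (MulOpposite.op (algebraMap k A c) : Aᵐᵒᵖ) • (⟨l.1, l.2⟩ : I) := by
          apply Subtype.ext
          show c • l.1 = MulOpposite.op (algebraMap k A c) * l.1
          rw [Algebra.smul_def, MulOpposite.algebraMap_apply]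
        rw [this, map_smul, DualMod.op_algebraMap_smul, RingHom.id_apply, smul_eq_mul] }
  choose Ψ hΨ using fun i => LinearMap.exists_extend (ψ i)
  let θ : DualMod k (Fin r → A) := DualMod.mk
    { toFun := fun v => ∑ i, Ψ i (MulOpposite.op (v i))
      map_add' := fun v w => by
        simp only [Pi.add_apply, MulOpposite.op_add, map_add, Finset.sum_add_distrib]
      map_smul' := fun c v => by
        simp only [Pi.smul_apply, MulOpposite.op_smul, map_smul, RingHom.id_apply,
          Finset.smul_sum] }
  refine ⟨LinearMap.toSpanSingleton Aᵐᵒᵖ (DualMod k (Fin r → A)) θ, ?_⟩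
  intro x hx
  apply DualMod.ext
  intro v
  have hmem : ∀ i, MulOpposite.op (v i) * x ∈ I := fun i => I.mul_mem_left _ hx
  have h1 : ∀ i, Ψ i (MulOpposite.op (v i) * x) = (g ⟨x, hx⟩).fn (Pi.single i (v i)) := by
    intro i
    have h2 : Ψ i (MulOpposite.op (v i) * x) = ψ i ⟨MulOpposite.op (v i) * x, hmem i⟩ := by
      rw [← hΨ i]
      rfl
    have h3 : (⟨MulOpposite.op (v i) * x, hmem i⟩ : I)
        = (MulOpposite.op (v i) : Aᵐᵒᵖ) • (⟨x, hx⟩ : I) := rfl
    rw [h2]
    show (g ⟨MulOpposite.op (v i) * x, hmem i⟩).fn (Pi.single i 1) = _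
    rw [h3, map_smul, DualMod.fn_smul, MulOpposite.unop_op]
    congr 1
    ext j
    by_cases hj : j = i
    · subst hj
      simp
    · simp [Pi.single_eq_of_ne hj]
  show θ.fn (x.unop • v) = (g ⟨x, hx⟩).fn v
  have h4 : θ.fn (x.unop • v) = ∑ i, Ψ i (MulOpposite.op (v i) * x) := by
    show ∑ i, Ψ i (MulOpposite.op ((x.unop • v) i)) = _
    refine Finset.sum_congr rfl fun i _ => ?_
    rw [Pi.smul_apply, smul_eq_mul, MulOpposite.op_mul, MulOpposite.op_unop]
  rw [h4, Finset.sum_congr rfl fun i _ => h1 i, ← map_sum]
  congr 1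
  ext j
  simp [Finset.sum_apply, Pi.single_apply]

instance (r : ℕ) : Module.Injective Aᵐᵒᵖ (DualMod k (Fin r → A)) := (dual_free_baer r).injective

end Duality

section Bridge

variable {k : Type u} [Field k] {A : Type u} [Ring A] [Algebra k A]

theorem DualMod.mk_ksmul {M : Type u} [AddCommGroup M] [Module k M] [Module A M]
    [IsScalarTower k A M] (c : k) (ψ : M →ₗ[k] k) :
    DualMod.mk (c • ψ) = (MulOpposite.op (algebraMap k A c) : Aᵐᵒᵖ) • DualMod.mk ψ := by
  apply DualMod.ext
  intro x
  rw [DualMod.op_algebraMap_smul]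
  rfl

/-- Dualising a presentation `0 → ker π → F → M → 0` gives a short exact sequence
`0 → D M → D F → D (ker π) → 0` of modules over the opposite ring. -/
theorem dual_shortExact {F M : Type u} [AddCommGroup F] [Module k F] [Module A F]
    [IsScalarTower k A F] [AddCommGroup M] [Module k M] [Module A M] [IsScalarTower k A M]
    (π : F →ₗ[A] M) (hπ : Function.Surjective π) :
    (ModuleCat.shortComplexOfCompEqZero (dualMap (k := k) π)
      (dualMap (k := k) (LinearMap.ker π).subtype) (by
        rw [← dualMap_comp, LinearMap.comp_ker_subtype]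
        apply LinearMap.ext
        intro φ
        apply DualMod.ext
        intro x
        show φ.fn ((0 : _ →ₗ[A] M) x) = 0
        rw [LinearMap.zero_apply, map_zero])).ShortExact :=
  ModuleCat.shortComplex_shortExact _
    (dualMap_exact _ _ hπ (LinearMap.exact_subtype_ker_map π))
    (dualMap_injective π hπ)
    (dualMap_surjective _ (LinearMap.ker π).injective_subtype)

/-- If a finitely generated `A`-module has projective dimension at most `n`, then its dual has
injective dimension at most `n` over the opposite ring. -/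
theorem injDim_dual_of_projDim [IsNoetherianRing A] (n : ℕ) :
    ∀ (M : Type u) [AddCommGroup M] [Module k M] [Module A M] [IsScalarTower k A M]
      [Module.Finite A M], HasProjectiveDimensionLE (ModuleCat.of A M) n →
      HasInjectiveDimensionLE (ModuleCat.of Aᵐᵒᵖ (DualMod k M)) n := by
  induction n with
  | zero =>
    intro M _ _ _ _ _ hM
    obtain ⟨r, π, hπ⟩ := Module.Finite.exists_fin' A M
    have hMproj : Module.Projective A M :=
      (IsProjective.iff_projective M).mpr (projective_iff_hasProjectiveDimensionLT_one.mpr hM)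
    obtain ⟨s, hs⟩ := Module.projective_lifting_property π LinearMap.id hπ
    have hret : Retract (ModuleCat.of Aᵐᵒᵖ (DualMod k M))
        (ModuleCat.of Aᵐᵒᵖ (DualMod k (Fin r → A))) :=
      { i := ModuleCat.ofHom (dualMap π)
        r := ModuleCat.ofHom (dualMap s)
        retract := by
          rw [← ModuleCat.ofHom_comp, ← dualMap_comp, hs, dualMap_id]
          rfl }
    have hinj : Injective (ModuleCat.of Aᵐᵒᵖ (DualMod k (Fin r → A))) :=
      Module.injective_object_of_injective_module Aᵐᵒᵖ _
    exact hret.hasInjectiveDimensionLT 1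
  | succ n ih =>
    intro M _ _ _ _ _ hM
    obtain ⟨r, π, hπ⟩ := Module.Finite.exists_fin' A M
    have hKerFin : Module.Finite A (LinearMap.ker π) := Module.IsNoetherian.finite A _
    have hS := LinearMap.shortExact_shortComplexKer hπ
    have hproj : Projective (ModuleCat.of A (Fin r → A)) :=
      ModuleCat.projective_of_categoryTheory_projective _
    have h1 : HasProjectiveDimensionLT (ModuleCat.of A (LinearMap.ker π)) (n + 1) :=
      (hS.hasProjectiveDimensionLT_X₃_iff n hproj).mp hM
    have h2 := ih (LinearMap.ker π) h1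
    have hSD := dual_shortExact (k := k) π hπ
    have hinj : Injective (ModuleCat.of Aᵐᵒᵖ (DualMod k (Fin r → A))) :=
      Module.injective_object_of_injective_module Aᵐᵒᵖ _
    exact (hSD.hasInjectiveDimensionLT_X₃_iff n hinj).mp h2

/-- If the dual of a finitely generated module `M` over a finite-dimensional algebra has
injective dimension at most `d` over the opposite ring, then `M` has projective dimension at
most `d`. -/
theorem projDim_of_injDim_dual [FiniteDimensional k A] (d : ℕ) :
    ∀ (M : Type u) [AddCommGroup M] [Module k M] [Module A M] [IsScalarTower k A M]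
      [Module.Finite A M], HasInjectiveDimensionLE (ModuleCat.of Aᵐᵒᵖ (DualMod k M)) d →
      HasProjectiveDimensionLE (ModuleCat.of A M) d := by
  have hN : IsNoetherianRing A := isNoetherian_of_tower k (inferInstance : IsNoetherian k A)
  induction d with
  | zero =>
    intro M _ _ _ _ _ hM
    obtain ⟨r, π, hπ⟩ := Module.Finite.exists_fin' A M
    have hinjM : Injective (ModuleCat.of Aᵐᵒᵖ (DualMod k M)) :=
      injective_iff_hasInjectiveDimensionLT_one.mpr hM
    have hmono : Mono (ModuleCat.ofHom (dualMap (k := k) π)) :=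
      (ModuleCat.mono_iff_injective _).mpr (dualMap_injective π hπ)
    let ρ := Injective.factorThru (𝟙 (ModuleCat.of Aᵐᵒᵖ (DualMod k M)))
      (ModuleCat.ofHom (dualMap (k := k) π))
    have hρ : ∀ φ : DualMod k M, ρ.hom (dualMap π φ) = φ := by
      intro φ
      have := Injective.comp_factorThru (𝟙 (ModuleCat.of Aᵐᵒᵖ (DualMod k M)))
        (ModuleCat.ofHom (dualMap (k := k) π))
      exact congrArg (fun f => f.hom φ) this
    let Λ : M → Module.Dual k (Module.Dual k (Fin r → A)) := fun m =>
      { toFun := fun ψ => (ρ.hom (DualMod.mk ψ)).fn m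
        map_add' := fun ψ ψ' => by
          have : DualMod.mk (ψ + ψ') = DualMod.mk ψ + DualMod.mk ψ' := rfl
          rw [this, map_add, DualMod.fn_add]
        map_smul' := fun c ψ => by
          rw [DualMod.mk_ksmul (A := A), map_smul, DualMod.op_algebraMap_smul, RingHom.id_apply,
            smul_eq_mul] }
    let s₀ : M → (Fin r → A) := fun m => (Module.evalEquiv k (Fin r → A)).symm (Λ m)
    have hs₀ : ∀ (m : M) (ψ : Module.Dual k (Fin r → A)),
        ψ (s₀ m) = (ρ.hom (DualMod.mk ψ)).fn m := by
      intro m ψ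
      have h := (Module.evalEquiv k (Fin r → A)).apply_symm_apply (Λ m)
      exact congrArg (fun L => L ψ) h
    have hsep : ∀ v w : Fin r → A, (∀ ψ : Module.Dual k (Fin r → A), ψ v = ψ w) → v = w := by
      intro v w h
      rw [← sub_eq_zero]
      apply (Module.forall_dual_apply_eq_zero_iff k _).mp
      intro ψ
      rw [map_sub, h ψ, sub_self]
    let s : M →ₗ[A] (Fin r → A) :=
      { toFun := s₀
        map_add' := fun m m' => by
          apply hsep
          intro ψ
          rw [map_add, hs₀, hs₀, hs₀, map_add]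
        map_smul' := fun a m => by
          apply hsep
          intro ψ
          rw [hs₀, RingHom.id_apply]
          have h1 : ψ (a • s₀ m)
              = (ρ.hom ((MulOpposite.op a : Aᵐᵒᵖ) • DualMod.mk ψ)).fn m :=
            hs₀ m ((MulOpposite.op a : Aᵐᵒᵖ) • DualMod.mk ψ : DualMod k (Fin r → A)).fn
          have h2 : ρ.hom ((MulOpposite.op a : Aᵐᵒᵖ) • DualMod.mk ψ)
              = (MulOpposite.op a : Aᵐᵒᵖ) • ρ.hom (DualMod.mk ψ) := map_smul _ _ _
          rw [h1, h2, DualMod.fn_smul, MulOpposite.unop_op] }
    have hsplit : π.comp s = LinearMap.id := by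
      apply LinearMap.ext
      intro m
      show π (s₀ m) = m
      rw [← sub_eq_zero]
      apply (Module.forall_dual_apply_eq_zero_iff k _).mp
      intro φ
      rw [map_sub, sub_eq_zero]
      have h1 := hs₀ m (dualMap π (DualMod.mk φ)).fn
      rw [DualMod.mk_fn, hρ] at h1
      exact h1
    have hMproj : Module.Projective A M := Module.Projective.of_split s π hsplit
    exact projective_iff_hasProjectiveDimensionLT_one.mp
      ((IsProjective.iff_projective M).mp hMproj)
  | succ d ih =>
    intro M _ _ _ _ _ hM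
    obtain ⟨r, π, hπ⟩ := Module.Finite.exists_fin' A M
    have hKerFin : Module.Finite A (LinearMap.ker π) := Module.IsNoetherian.finite A _
    have hS := LinearMap.shortExact_shortComplexKer hπ
    have hproj : Projective (ModuleCat.of A (Fin r → A)) :=
      ModuleCat.projective_of_categoryTheory_projective _
    have hSD := dual_shortExact (k := k) π hπ
    have hinj : Injective (ModuleCat.of Aᵐᵒᵖ (DualMod k (Fin r → A))) :=
      Module.injective_object_of_injective_module Aᵐᵒᵖ _
    have h1 : HasInjectiveDimensionLT (ModuleCat.of Aᵐᵒᵖ (DualMod k (LinearMap.ker π))) (d + 1) :=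
      (hSD.hasInjectiveDimensionLT_X₃_iff d hinj).mpr hM
    have h2 := ih (LinearMap.ker π) h1
    exact (hS.hasProjectiveDimensionLT_X₃_iff d hproj).mpr h2

end Bridge


section Main

/-- **Delooping-level bound for the finitistic dimension.**  Let `A` be a finite-dimensional
algebra over a field `k` and `d` a natural number such that every simple right `A`-module
(that is, every simple left module over the opposite ring) has delooping level at most `d`.
Then every finitely generated left `A`-module of finite projective dimension has projective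
dimension at most `d`. -/
theorem projectiveDimension_le_of_delooping {k : Type u} [Field k] {A : Type u} [Ring A]
    [Algebra k A] [FiniteDimensional k A] (d : ℕ)
    (hd : ∀ (T : Type u) [AddCommGroup T] [Module Aᵐᵒᵖ T] [IsSimpleModule Aᵐᵒᵖ T],
      DeloopingLevelLE (ModuleCat.of Aᵐᵒᵖ T) d)
    (M : ModuleCat.{u} A) [Module.Finite A M] (n : ℕ) (hM : HasProjectiveDimensionLE M n) :
    HasProjectiveDimensionLE M d := by
  let _ : Module k M := Module.compHom M (algebraMap k A)
  have : IsScalarTower k A M := ⟨fun c a m => by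
    show (c • a) • m = (algebraMap k A c) • (a • m)
    rw [Algebra.smul_def, mul_smul]⟩
  have hA : IsArtinianRing Aᵐᵒᵖ := isArtinian_of_tower k (inferInstance : IsArtinian k Aᵐᵒᵖ)
  have hN : IsNoetherianRing A := isNoetherian_of_tower k (inferInstance : IsNoetherian k A)
  have h1 : HasInjectiveDimensionLE (ModuleCat.of Aᵐᵒᵖ (DualMod k M)) n :=
    injDim_dual_of_projDim (k := k) n M hM
  have h2 : HasInjectiveDimensionLE (ModuleCat.of Aᵐᵒᵖ (DualMod k M)) d :=
    injectiveDimension_le_of_delooping (A := Aᵐᵒᵖ) d hd _ n h1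
  exact projDim_of_injDim_dual (k := k) d M h2

end Main

end Vale.Agent.Helper2.Delooping
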