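import Mathlib

/-!
# Indecomposable modules of finite length: the weak Krull-Schmidt facts (helper module for P176)

For a ring `A` we call a module indecomposable if it is nonzero and not the internal direct sum
of two nonzero submodules.  For modules that are both Artinian and Noetherian we prove:

* Fitting: an endomorphism of an indecomposable module is bijective or nilpotent;
* if finitely many endomorphisms of an indecomposable module add up to a bijective map, one of
  them is bijective;
* an indecomposable direct summand of a finite product is a direct summand of one factor;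
* a nonzero direct summand of an indecomposable module is the whole module;
* every Artinian module is a finite product of indecomposable submodules.
-/

universe u

open Function

namespace Vale.Agent.Helper2.IT

variable {A : Type u} [Ring A]

/-- A module is indecomposable if it is nonzero and is not the internal direct sum of two
nonzero submodules. -/
def Indec (A : Type u) [Ring A] (M : Type u) [AddCommGroup M] [Module A M] : Prop :=
  Nontrivial M ∧ ∀ N₁ N₂ : Submodule A M, IsCompl N₁ N₂ → N₁ = ⊥ ∨ N₂ = ⊥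

section Basic

variable {M : Type u} [AddCommGroup M] [Module A M]

/-- Fitting: an endomorphism of an indecomposable module of finite length is bijective or
nilpotent. -/
theorem Indec.bijective_or_pow_eq_zero [IsArtinian A M] [IsNoetherian A M] (h : Indec A M)
    (f : M →ₗ[A] M) : Bijective f ∨ ∃ n : ℕ, f ^ n = 0 := by
  obtain ⟨n, hn, hn1⟩ :=
    ((LinearMap.eventually_isCompl_ker_pow_range_pow f).and (Filter.eventually_ge_atTop 1)).exists
  rcases h.2 _ _ hn with h1 | h1
  · left
    apply IsArtinian.bijective_of_injective_endomorphism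
    rw [← LinearMap.ker_eq_bot, eq_bot_iff]
    intro x hx
    rw [← h1]
    rw [LinearMap.mem_ker] at hx ⊢
    obtain ⟨k, rfl⟩ : ∃ k, n = k + 1 := ⟨n - 1, by omega⟩
    rw [pow_succ, Module.End.mul_apply, hx, map_zero]
  · right
    exact ⟨n, LinearMap.range_eq_bot.mp h1⟩

/-- In an indecomposable module of finite length, if two endomorphisms add up to the identity
then one of them is bijective. -/
theorem Indec.bijective_of_add_eq_id [IsArtinian A M] [IsNoetherian A M] (h : Indec A M)
    (f g : M →ₗ[A] M) (hfg : f + g = LinearMap.id) : Bijective f ∨ Bijective g := by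
  rcases h.bijective_or_pow_eq_zero f with h1 | ⟨n, hn⟩
  · exact Or.inl h1
  · right
    apply IsArtinian.bijective_of_injective_endomorphism
    rw [← LinearMap.ker_eq_bot, eq_bot_iff]
    intro x hx
    rw [LinearMap.mem_ker] at hx
    have h2 : f x = x := by
      have := congrArg (fun φ : M →ₗ[A] M => φ x) hfg
      simp only [LinearMap.add_apply, LinearMap.id_apply, hx, add_zero] at this
      exact this
    have h3 : ∀ k : ℕ, (f ^ k) x = x := by
      intro k
      induction k with
      | zero => simp
      | succ k ih => rw [pow_succ, Module.End.mul_apply, h2, ih]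
    have h4 := h3 n
    rw [hn] at h4
    simpa using h4.symm

/-- In an indecomposable module of finite length, if finitely many endomorphisms add up to a
bijective map then one of them is bijective. -/
theorem Indec.bijective_of_sum [IsArtinian A M] [IsNoetherian A M] (h : Indec A M)
    {ι : Type*} (φ : ι → (M →ₗ[A] M)) (s : Finset ι) :
    Bijective ⇑(∑ i ∈ s, φ i) → ∃ i ∈ s, Bijective (φ i) := by
  classical
  induction s using Finset.induction_on with
  | empty =>
    intro hb
    exfalso
    have hnt := h.1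
    obtain ⟨x, y, hxy⟩ := exists_pair_ne M
    apply hxy
    apply hb.1
    simp
  | insert a s ha ih =>
    intro hb
    rw [Finset.sum_insert ha] at hb
    let e : M ≃ₗ[A] M := LinearEquiv.ofBijective _ hb
    have he : ∀ x, e x = φ a x + (∑ i ∈ s, φ i) x := fun x => rfl
    have hsum : (e.symm : M →ₗ[A] M) ∘ₗ φ a + (e.symm : M →ₗ[A] M) ∘ₗ (∑ i ∈ s, φ i)
        = LinearMap.id := by
      ext x
      simp only [LinearMap.add_apply, LinearMap.comp_apply, LinearEquiv.coe_coe,
        LinearMap.id_apply]
      rw [← map_add, ← he, e.symm_apply_apply]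
    rcases h.bijective_of_add_eq_id _ _ hsum with h1 | h1
    · refine ⟨a, Finset.mem_insert_self a s, ?_⟩
      have : (φ a : M → M) = e ∘ ((e.symm : M →ₗ[A] M) ∘ₗ φ a) := by
        funext x
        simp
      rw [this]
      exact e.bijective.comp h1
    · have h2 : Bijective ⇑(∑ i ∈ s, φ i) := by
        have : ((∑ i ∈ s, φ i : M →ₗ[A] M) : M → M)
            = e ∘ ((e.symm : M →ₗ[A] M) ∘ₗ (∑ i ∈ s, φ i)) := by
          funext x
          simp
        rw [this]
        exact e.bijective.comp h1
      obtain ⟨i, hi, hbi⟩ := ih h2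
      exact ⟨i, Finset.mem_insert_of_mem hi, hbi⟩

end Basic

section Retract

variable {Z : Type u} [AddCommGroup Z] [Module A Z]

/-- An indecomposable direct summand (of finite length) of a finite product of modules is a
direct summand of one of the factors. -/
theorem Indec.retract_of_pi [IsArtinian A Z] [IsNoetherian A Z] (h : Indec A Z)
    {ι : Type} [Fintype ι] (E : ι → Type u) [∀ j, AddCommGroup (E j)] [∀ j, Module A (E j)]
    (i : Z →ₗ[A] (Π j, E j)) (p : (Π j, E j) →ₗ[A] Z) (hpi : p ∘ₗ i = LinearMap.id) :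
    ∃ (j : ι) (i' : Z →ₗ[A] E j) (p' : E j →ₗ[A] Z), p' ∘ₗ i' = LinearMap.id := by
  classical
  let φ : ι → (Z →ₗ[A] Z) := fun j => (p ∘ₗ LinearMap.single A E j) ∘ₗ (LinearMap.proj j ∘ₗ i)
  have hsum : ∑ j ∈ Finset.univ, φ j = LinearMap.id := by
    ext x
    have h1 : ∀ j, φ j x = p (Pi.single j (i x j)) := fun j => rfl
    rw [LinearMap.sum_apply]
    simp only [h1]
    rw [← map_sum, Finset.univ_sum_single]
    exact congrArg (fun ψ : Z →ₗ[A] Z => ψ x) hpi
  have hb : Bijective ⇑(∑ j ∈ Finset.univ, φ j) := by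
    rw [hsum]
    exact bijective_id
  obtain ⟨j, -, hj⟩ := h.bijective_of_sum φ Finset.univ hb
  let e : Z ≃ₗ[A] Z := LinearEquiv.ofBijective _ hj
  refine ⟨j, LinearMap.proj j ∘ₗ i, (e.symm : Z →ₗ[A] Z) ∘ₗ (p ∘ₗ LinearMap.single A E j), ?_⟩
  ext x
  have : e x = p (Pi.single j (i x j)) := rfl
  simp only [LinearMap.comp_apply, LinearMap.proj_apply, LinearMap.single_apply,
    LinearEquiv.coe_coe, LinearMap.id_apply]
  rw [← this, e.symm_apply_apply]

/-- An indecomposable direct summand (of finite length) of a product of two modules is a direct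
summand of one of the two factors. -/
theorem Indec.retract_of_prod [IsArtinian A Z] [IsNoetherian A Z] (h : Indec A Z)
    {E₁ E₂ : Type u} [AddCommGroup E₁] [Module A E₁] [AddCommGroup E₂] [Module A E₂]
    (i : Z →ₗ[A] E₁ × E₂) (p : E₁ × E₂ →ₗ[A] Z) (hpi : p ∘ₗ i = LinearMap.id) :
    (∃ (i' : Z →ₗ[A] E₁) (p' : E₁ →ₗ[A] Z), p' ∘ₗ i' = LinearMap.id) ∨
      (∃ (i' : Z →ₗ[A] E₂) (p' : E₂ →ₗ[A] Z), p' ∘ₗ i' = LinearMap.id) := by
  let f : Z →ₗ[A] Z := (p ∘ₗ LinearMap.inl A E₁ E₂) ∘ₗ (LinearMap.fst A E₁ E₂ ∘ₗ i)
  let g : Z →ₗ[A] Z := (p ∘ₗ LinearMap.inr A E₁ E₂) ∘ₗ (LinearMap.snd A E₁ E₂ ∘ₗ i)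
  have hfg : f + g = LinearMap.id := by
    ext x
    have h1 : f x = p ((i x).1, 0) := rfl
    have h2 : g x = p (0, (i x).2) := rfl
    rw [LinearMap.add_apply, h1, h2, ← map_add, Prod.mk_add_mk, add_zero, zero_add]
    exact congrArg (fun ψ : Z →ₗ[A] Z => ψ x) hpi
  rcases h.bijective_of_add_eq_id f g hfg with hb | hb
  · left
    let e : Z ≃ₗ[A] Z := LinearEquiv.ofBijective _ hb
    refine ⟨LinearMap.fst A E₁ E₂ ∘ₗ i, (e.symm : Z →ₗ[A] Z) ∘ₗ (p ∘ₗ LinearMap.inl A E₁ E₂), ?_⟩
    ext x
    have : e x = p ((i x).1, 0) := rfl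
    simp only [LinearMap.comp_apply, LinearMap.fst_apply, LinearMap.inl_apply,
      LinearEquiv.coe_coe, LinearMap.id_apply]
    rw [← this, e.symm_apply_apply]
  · right
    let e : Z ≃ₗ[A] Z := LinearEquiv.ofBijective _ hb
    refine ⟨LinearMap.snd A E₁ E₂ ∘ₗ i, (e.symm : Z →ₗ[A] Z) ∘ₗ (p ∘ₗ LinearMap.inr A E₁ E₂), ?_⟩
    ext x
    have : e x = p (0, (i x).2) := rfl
    simp only [LinearMap.comp_apply, LinearMap.snd_apply, LinearMap.inr_apply,
      LinearEquiv.coe_coe, LinearMap.id_apply]
    rw [← this, e.symm_apply_apply]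

/-- A nonzero direct summand of an indecomposable module is the whole module: the inclusion is
bijective. -/
theorem Indec.bijective_of_retract [Nontrivial Z] {E : Type u} [AddCommGroup E] [Module A E]
    (hE : Indec A E) (i : Z →ₗ[A] E) (p : E →ₗ[A] Z) (hpi : p ∘ₗ i = LinearMap.id) :
    Bijective i := by
  have hpi' : ∀ z, p (i z) = z := fun z => congrArg (fun ψ : Z →ₗ[A] Z => ψ z) hpi
  have hinj : Injective i := fun x y hxy => by rw [← hpi' x, ← hpi' y, hxy]
  have hc : IsCompl (LinearMap.range i) (LinearMap.ker p) := by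
    constructor
    · rw [Submodule.disjoint_def]
      rintro x ⟨z, rfl⟩ hx
      rw [LinearMap.mem_ker, hpi'] at hx
      rw [hx, map_zero]
    · rw [codisjoint_iff, eq_top_iff]
      intro x _
      rw [Submodule.mem_sup]
      refine ⟨i (p x), LinearMap.mem_range_self i _, x - i (p x), ?_, by abel⟩
      rw [LinearMap.mem_ker, map_sub, hpi', sub_self]
  rcases hE.2 _ _ hc with h1 | h1
  · exfalso
    obtain ⟨x, y, hxy⟩ := exists_pair_ne Z
    apply hxy
    apply hinj
    have hx : i x ∈ LinearMap.range i := LinearMap.mem_range_self i x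
    have hy : i y ∈ LinearMap.range i := LinearMap.mem_range_self i y
    rw [h1, Submodule.mem_bot] at hx hy
    rw [hx, hy]
  · refine ⟨hinj, ?_⟩
    intro x
    refine ⟨p x, ?_⟩
    have : x - i (p x) ∈ LinearMap.ker p := by
      rw [LinearMap.mem_ker, map_sub, hpi', sub_self]
    rw [h1, Submodule.mem_bot, sub_eq_zero] at this
    exact this.symm

end Retract

section Decomp

variable (M : Type u) [AddCommGroup M] [Module A M]

/-- Every Artinian module is isomorphic to a finite product of indecomposable submodules. -/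
theorem exists_indec_decomp [IsArtinian A M] :
    ∃ (ι : Type) (_ : Fintype ι) (Z : ι → Submodule A M),
      (∀ j, Indec A (Z j)) ∧ Nonempty (M ≃ₗ[A] (Π j, Z j)) := by
  classical
  have key : ∀ N : Submodule A M, ∃ (ι : Type) (_ : Fintype ι) (Z : ι → Submodule A M),
      (∀ j, Indec A (Z j)) ∧ Nonempty (N ≃ₗ[A] (Π j, Z j)) := by
    intro N
    induction N using WellFoundedLT.induction with
    | ind N ih =>
      by_cases hN : N = ⊥
      · subst hN
        refine ⟨PEmpty, inferInstance, fun j => j.elim, fun j => j.elim, ?_⟩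
        exact ⟨LinearEquiv.ofSubsingleton _ _⟩
      by_cases hI : Indec A N
      · refine ⟨PUnit, inferInstance, fun _ => N, fun _ => hI, ?_⟩
        exact ⟨(LinearEquiv.funUnique PUnit A N).symm⟩
      · have hnt : Nontrivial N := Submodule.nontrivial_iff_ne_bot.mpr hN
        have : ∃ N₁ N₂ : Submodule A N, IsCompl N₁ N₂ ∧ N₁ ≠ ⊥ ∧ N₂ ≠ ⊥ := by
          by_contra hcon
          apply hI
          refine ⟨hnt, fun N₁ N₂ hc => ?_⟩
          by_contra hcon2
          rw [not_or] at hcon2
          exact hcon ⟨N₁, N₂, hc, hcon2.1, hcon2.2⟩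
        obtain ⟨N₁, N₂, hc, h1, h2⟩ := this
        have hlt : ∀ (N' N'' : Submodule A N), IsCompl N' N'' → N'' ≠ ⊥ →
            N'.map N.subtype < N := by
          intro N' N'' hc' h''
          refine lt_of_le_of_ne ?_ ?_
          · rintro x ⟨y, -, rfl⟩
            exact y.2
          · intro heq
            apply h''
            have htop : N' = ⊤ := by
              rw [eq_top_iff]
              intro y _
              have hy : (y : M) ∈ N'.map N.subtype := by rw [heq]; exact y.2
              obtain ⟨y', hy', hyy⟩ := hy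
              have : y' = y := Subtype.ext hyy
              rw [← this]
              exact hy'
            rw [htop] at hc'
            exact eq_bot_of_isCompl_top hc'.symm
        obtain ⟨ι₁, _, Z₁, hZ₁, ⟨e₁⟩⟩ := ih _ (hlt N₁ N₂ hc h2)
        obtain ⟨ι₂, _, Z₂, hZ₂, ⟨e₂⟩⟩ := ih _ (hlt N₂ N₁ hc.symm h1)
        refine ⟨ι₁ ⊕ ι₂, inferInstance, Sum.elim Z₁ Z₂, ?_, ?_⟩
        · rintro (j | j)
          · exact hZ₁ j
          · exact hZ₂ j
        · let f₁ : N₁ ≃ₗ[A] (Π j, Z₁ j) :=
            (Submodule.equivMapOfInjective N.subtype (Submodule.injective_subtype N) N₁).trans e₁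
          let f₂ : N₂ ≃ₗ[A] (Π j, Z₂ j) :=
            (Submodule.equivMapOfInjective N.subtype (Submodule.injective_subtype N) N₂).trans e₂
          exact ⟨((Submodule.prodEquivOfIsCompl N₁ N₂ hc).symm.trans
            (LinearEquiv.prodCongr f₁ f₂)).trans
            (LinearEquiv.sumPiEquivProdPi A ι₁ ι₂ (fun j => (Sum.elim Z₁ Z₂ j : Submodule A M))).symm⟩
  obtain ⟨ι, hι, Z, hZ, ⟨e⟩⟩ := key ⊤
  exact ⟨ι, hι, Z, hZ, ⟨(Submodule.topEquiv (R := A) (M := M)).symm.trans e⟩⟩

end Decomp

end Vale.Agent.Helper2.IT
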