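import Mathlib
import Vale.Agent.Helper2.ITDefs

/-!
# Syzygy calculus (helper module for P176)

Basic facts on the relation `IsSyz n M K` (`K` is an `n`-th syzygy of `M` with respect to
finitely generated projective modules): invariance under isomorphism, existence over Noetherian
rings, compatibility with finite products, the horseshoe construction, Schanuel's lemma and the
resulting stable uniqueness of syzygies.
-/

universe u

open Function

namespace Vale.Agent.Helper2.IT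

variable {A : Type u} [Ring A]

/-! ### Short exact sequences of linear maps -/

section SES

variable {L P M L' P' M' : Type u} [AddCommGroup L] [Module A L] [AddCommGroup P] [Module A P]
  [AddCommGroup M] [Module A M] [AddCommGroup L'] [Module A L'] [AddCommGroup P'] [Module A P']
  [AddCommGroup M'] [Module A M']

theorem isSES_ker (p : P →ₗ[A] M) (hp : Surjective p) :
    IsSES (LinearMap.ker p).subtype p :=
  ⟨Subtype.val_injective, hp, LinearMap.exact_subtype_ker_map p⟩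

theorem IsSES.comp_equiv {i : L →ₗ[A] P} {p : P →ₗ[A] M} (h : IsSES i p) (e : M ≃ₗ[A] M') :
    IsSES i ((e : M →ₗ[A] M') ∘ₗ p) := by
  obtain ⟨hi, hp, hex⟩ := h
  refine ⟨hi, e.surjective.comp hp, ?_⟩
  intro y
  rw [← hex y]
  simp

theorem IsSES.prodMap {i : L →ₗ[A] P} {p : P →ₗ[A] M} {i' : L' →ₗ[A] P'} {p' : P' →ₗ[A] M'}
    (h : IsSES i p) (h' : IsSES i' p') : IsSES (i.prodMap i') (p.prodMap p') := by
  obtain ⟨hi, hp, hex⟩ := h
  obtain ⟨hi', hp', hex'⟩ := h'
  refine ⟨hi.prodMap hi', hp.prodMap hp', ?_⟩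
  rintro ⟨y, y'⟩
  constructor
  · intro h
    have h1 : p y = 0 := congrArg Prod.fst h
    have h2 : p' y' = 0 := congrArg Prod.snd h
    obtain ⟨x, rfl⟩ := (hex y).mp h1
    obtain ⟨x', rfl⟩ := (hex' y').mp h2
    exact ⟨(x, x'), rfl⟩
  · rintro ⟨⟨x, x'⟩, hxx⟩
    have h1 : i x = y := congrArg Prod.fst hxx
    have h2 : i' x' = y' := congrArg Prod.snd hxx
    have h3 : p y = 0 := (hex y).mpr ⟨x, h1⟩
    have h4 : p' y' = 0 := (hex' y').mpr ⟨x', h2⟩
    exact Prod.ext h3 h4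

theorem isSES_pi {ι : Type} (L P M : ι → Type u) [∀ j, AddCommGroup (L j)] [∀ j, Module A (L j)]
    [∀ j, AddCommGroup (P j)] [∀ j, Module A (P j)] [∀ j, AddCommGroup (M j)]
    [∀ j, Module A (M j)] (i : ∀ j, L j →ₗ[A] P j) (p : ∀ j, P j →ₗ[A] M j)
    (h : ∀ j, IsSES (i j) (p j)) :
    IsSES (LinearMap.pi (fun j => i j ∘ₗ LinearMap.proj j) : (Π j, L j) →ₗ[A] (Π j, P j))
      (LinearMap.pi (fun j => p j ∘ₗ LinearMap.proj j) : (Π j, P j) →ₗ[A] (Π j, M j)) := by
  refine ⟨?_, ?_, ?_⟩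
  · intro x y hxy
    funext j
    exact (h j).1 (congrFun hxy j)
  · intro y
    choose x hx using fun j => (h j).2.1 (y j)
    exact ⟨x, funext hx⟩
  · intro y
    constructor
    · intro hy
      have : ∀ j, ∃ x, i j x = y j := fun j => ((h j).2.2 (y j)).mp (congrFun hy j)
      choose x hx using this
      exact ⟨x, funext hx⟩
    · rintro ⟨x, rfl⟩
      funext j
      exact ((h j).2.2 _).mpr ⟨x j, rfl⟩

/-- The kernel description of the left term of a short exact sequence. -/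
noncomputable def IsSES.kerEquiv {i : L →ₗ[A] P} {p : P →ₗ[A] M} (h : IsSES i p) :
    L ≃ₗ[A] LinearMap.ker p :=
  LinearEquiv.ofBijective
    (LinearMap.codRestrict (LinearMap.ker p) i (fun x => (h.2.2 (i x)).mpr ⟨x, rfl⟩))
    ⟨fun x y hxy => h.1 (congrArg Subtype.val hxy), fun y => by
      obtain ⟨x, hx⟩ := (h.2.2 y.1).mp y.2
      exact ⟨x, Subtype.ext hx⟩⟩

theorem IsSES.kerEquiv_apply {i : L →ₗ[A] P} {p : P →ₗ[A] M} (h : IsSES i p) (x : L) :
    (h.kerEquiv x : P) = i x := rfl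

end SES

/-! ### Projective modules -/

theorem projective_pi {ι : Type} [Fintype ι] (P : ι → Type u) [∀ j, AddCommGroup (P j)]
    [∀ j, Module A (P j)] (h : ∀ j, Module.Projective A (P j)) :
    Module.Projective A (Π j, P j) := by
  classical
  exact Module.Projective.of_equiv' (DFinsupp.linearEquivFunOnFintype (R := A) (M := P))

/-- A surjection onto a projective module splits off its kernel. -/
theorem exists_equiv_ker_prod {X P : Type u} [AddCommGroup X] [Module A X] [AddCommGroup P]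
    [Module A P] [Module.Projective A P] (q : X →ₗ[A] P) (hq : Surjective q) :
    Nonempty (X ≃ₗ[A] (LinearMap.ker q × P)) := by
  obtain ⟨s, hs⟩ := Module.projective_lifting_property q LinearMap.id hq
  have hs' : ∀ y, q (s y) = y := fun y => congrArg (fun ψ : P →ₗ[A] P => ψ y) hs
  let F : X →ₗ[A] (LinearMap.ker q × P) :=
    LinearMap.prod (LinearMap.codRestrict (LinearMap.ker q) (LinearMap.id - s ∘ₗ q)
      (fun x => by simp [hs'])) q
  let G : (LinearMap.ker q × P) →ₗ[A] X := (LinearMap.ker q).subtype.coprod s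
  refine ⟨LinearEquiv.ofLinearMap F G ?_ ?_⟩
  · apply LinearMap.ext
    rintro ⟨k, y⟩
    have hk : q k.1 = 0 := k.2
    apply Prod.ext
    · apply Subtype.ext
      simp [F, G, hs', hk]
    · simp [F, G, hs', hk]
  · apply LinearMap.ext
    intro x
    simp [F, G]

/-- Schanuel's lemma for kernels. -/
theorem schanuel_ker {M P P' : Type u} [AddCommGroup M] [Module A M] [AddCommGroup P]
    [Module A P] [AddCommGroup P'] [Module A P'] [Module.Projective A P]
    [Module.Projective A P'] (p : P →ₗ[A] M) (p' : P' →ₗ[A] M) (hp : Surjective p)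
    (hp' : Surjective p') :
    Nonempty ((LinearMap.ker p × P') ≃ₗ[A] (LinearMap.ker p' × P)) := by
  obtain ⟨φ, hφ⟩ := Module.projective_lifting_property p' p hp'
  obtain ⟨ψ, hψ⟩ := Module.projective_lifting_property p p' hp
  have hφ' : ∀ x, p' (φ x) = p x := fun x => congrArg (fun χ : P →ₗ[A] M => χ x) hφ
  have hψ' : ∀ x, p (ψ x) = p' x := fun x => congrArg (fun χ : P' →ₗ[A] M => χ x) hψ
  let c : (LinearMap.ker p × P') →ₗ[A] P := (LinearMap.ker p).subtype.coprod ψ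
  let c' : (LinearMap.ker p' × P) →ₗ[A] P' := (LinearMap.ker p').subtype.coprod φ
  let F : (LinearMap.ker p × P') →ₗ[A] (LinearMap.ker p' × P) :=
    LinearMap.prod (LinearMap.codRestrict (LinearMap.ker p') (LinearMap.snd A _ _ - φ ∘ₗ c)
      (fun x => by
        have hx : p x.1.1 = 0 := x.1.2
        simp [c, hφ', hψ', hx])) c
  let G : (LinearMap.ker p' × P) →ₗ[A] (LinearMap.ker p × P') :=
    LinearMap.prod (LinearMap.codRestrict (LinearMap.ker p) (LinearMap.snd A _ _ - ψ ∘ₗ c')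
      (fun x => by
        have hx : p' x.1.1 = 0 := x.1.2
        simp [c', hφ', hψ', hx])) c'
  refine ⟨LinearEquiv.ofLinearMap F G ?_ ?_⟩
  · apply LinearMap.ext
    rintro ⟨k, y⟩
    apply Prod.ext
    · apply Subtype.ext
      simp [F, G, c, c']
    · simp [F, G, c, c']
  · apply LinearMap.ext
    rintro ⟨k, y⟩
    apply Prod.ext
    · apply Subtype.ext
      simp [F, G, c, c']
    · simp [F, G, c, c']

/-- Schanuel's lemma. -/
theorem schanuel {M P L P' L' : Type u} [AddCommGroup M] [Module A M] [AddCommGroup P]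
    [Module A P] [AddCommGroup P'] [Module A P'] [AddCommGroup L] [Module A L]
    [AddCommGroup L'] [Module A L'] [Module.Projective A P] [Module.Projective A P']
    {i : L →ₗ[A] P} {p : P →ₗ[A] M} {i' : L' →ₗ[A] P'} {p' : P' →ₗ[A] M}
    (h : IsSES i p) (h' : IsSES i' p') : Nonempty ((L × P') ≃ₗ[A] (L' × P)) := by
  obtain ⟨e⟩ := schanuel_ker p p' h.2.1 h'.2.1
  exact ⟨((LinearEquiv.prodCongr h.kerEquiv (LinearEquiv.refl A P')).trans e).trans
    (LinearEquiv.prodCongr h'.kerEquiv.symm (LinearEquiv.refl A P))⟩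

/-! ### Stable isomorphism -/

/-- Two modules are stably isomorphic if they become isomorphic after adding finitely generated
projective summands. -/
def StableIso (K L : ModuleCat.{u} A) : Prop :=
  ∃ P Q : ModuleCat.{u} A, Module.Projective A P ∧ Module.Finite A P ∧ Module.Projective A Q ∧
    Module.Finite A Q ∧ Nonempty ((K × P) ≃ₗ[A] (L × Q))

theorem StableIso.of_equiv {K L : ModuleCat.{u} A} (e : K ≃ₗ[A] L) : StableIso K L :=
  ⟨ModuleCat.of A PUnit, ModuleCat.of A PUnit, inferInstance, inferInstance, inferInstance,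
    inferInstance, ⟨LinearEquiv.prodCongr e (LinearEquiv.refl A PUnit.{u + 1})⟩⟩

theorem StableIso.refl (K : ModuleCat.{u} A) : StableIso K K :=
  StableIso.of_equiv (LinearEquiv.refl A K)

theorem StableIso.symm {K L : ModuleCat.{u} A} (h : StableIso K L) : StableIso L K := by
  obtain ⟨P, Q, hP, hPf, hQ, hQf, ⟨e⟩⟩ := h
  exact ⟨Q, P, hQ, hQf, hP, hPf, ⟨e.symm⟩⟩

theorem StableIso.trans {K L N : ModuleCat.{u} A} (h : StableIso K L) (h' : StableIso L N) :
    StableIso K N := by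
  obtain ⟨P, Q, hP, hPf, hQ, hQf, ⟨e⟩⟩ := h
  obtain ⟨P', Q', hP', hPf', hQ', hQf', ⟨e'⟩⟩ := h'
  refine ⟨ModuleCat.of A (P × P'), ModuleCat.of A (Q' × Q), inferInstance, inferInstance,
    inferInstance, inferInstance, ⟨?_⟩⟩
  -- K × (P × P') ≃ (K × P) × P' ≃ (L × Q) × P' ≃ (L × P') × Q ≃ (N × Q') × Q ≃ N × (Q' × Q)
  exact (((LinearEquiv.prodAssoc A K P P').symm.trans
    (LinearEquiv.prodCongr e (LinearEquiv.refl A P'))).trans
    ((LinearEquiv.prodAssoc A L Q P').trans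
      ((LinearEquiv.prodCongr (LinearEquiv.refl A L) (LinearEquiv.prodComm A Q P')).trans
        (LinearEquiv.prodAssoc A L P' Q).symm))).trans
    ((LinearEquiv.prodCongr e' (LinearEquiv.refl A Q)).trans (LinearEquiv.prodAssoc A N Q' Q))

/-- Adding a finitely generated projective summand does not change the stable class. -/
theorem StableIso.prod_proj (K W : ModuleCat.{u} A) (hW : Module.Projective A W)
    (hWf : Module.Finite A W) : StableIso (ModuleCat.of A (K × W)) K := by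
  refine ⟨ModuleCat.of A PUnit, W, inferInstance, inferInstance, hW, hWf, ⟨?_⟩⟩
  exact LinearEquiv.prodUnique

/-! ### Syzygies -/

theorem IsSyz.of_equiv_left {n : ℕ} {M M' K : ModuleCat.{u} A} (e : M ≃ₗ[A] M')
    (h : IsSyz n M K) : IsSyz n M' K := by
  cases n with
  | zero =>
    obtain ⟨e'⟩ := h
    exact ⟨e'.trans e⟩
  | succ n =>
    obtain ⟨P, L, i, p, hP, hF, hs, hL⟩ := h
    exact ⟨P, L, i, (e : M →ₗ[A] M') ∘ₗ p, hP, hF, hs.comp_equiv e, hL⟩

theorem IsSyz.of_equiv_right {n : ℕ} : ∀ {M K K' : ModuleCat.{u} A} (_ : K ≃ₗ[A] K'),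
    IsSyz n M K → IsSyz n M K' := by
  induction n with
  | zero =>
    intro M K K' e h
    obtain ⟨e'⟩ := h
    exact ⟨e.symm.trans e'⟩
  | succ n ih =>
    intro M K K' e h
    obtain ⟨P, L, i, p, hP, hF, hs, hL⟩ := h
    exact ⟨P, L, i, p, hP, hF, hs, ih e hL⟩

theorem IsSyz.succ_of_ses {n : ℕ} {M K P L : ModuleCat.{u} A} (i : L →ₗ[A] P) (p : P →ₗ[A] M)
    (hP : Module.Projective A P) (hF : Module.Finite A P) (hs : IsSES i p) (hL : IsSyz n L K) :
    IsSyz (n + 1) M K :=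
  ⟨P, L, i, p, hP, hF, hs, hL⟩

/-- Syzygies exist for finitely generated modules over a Noetherian ring, and they are finitely
generated. -/
theorem exists_isSyz [IsNoetherianRing A] (n : ℕ) : ∀ (M : ModuleCat.{u} A),
    Module.Finite A M → ∃ K : ModuleCat.{u} A, IsSyz n M K ∧ Module.Finite A K := by
  induction n with
  | zero =>
    intro M hM
    exact ⟨M, ⟨LinearEquiv.refl A M⟩, hM⟩
  | succ n ih =>
    intro M hM
    obtain ⟨m, f, hf⟩ := Module.Finite.exists_fin' A M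
    have hfin : Module.Finite A (LinearMap.ker f) := inferInstance
    obtain ⟨K, hK, hKf⟩ := ih (ModuleCat.of A (LinearMap.ker f)) hfin
    exact ⟨K, ⟨ModuleCat.of A (Fin m → A), ModuleCat.of A (LinearMap.ker f),
      (LinearMap.ker f).subtype, f, inferInstance, inferInstance, isSES_ker f hf, hK⟩, hKf⟩

theorem IsSyz.finite [IsNoetherianRing A] {n : ℕ} : ∀ {M K : ModuleCat.{u} A},
    IsSyz n M K → Module.Finite A M → Module.Finite A K := by
  induction n with
  | zero =>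
    intro M K h hM
    obtain ⟨e⟩ := h
    exact Module.Finite.equiv e.symm
  | succ n ih =>
    intro M K h hM
    obtain ⟨P, L, i, p, hP, hF, hs, hL⟩ := h
    have : IsNoetherian A P := isNoetherian_of_isNoetherianRing_of_finite A P
    exact ih hL (Module.Finite.of_injective i hs.1)

theorem IsSyz.prod {n : ℕ} : ∀ {M M' K K' : ModuleCat.{u} A}, IsSyz n M K → IsSyz n M' K' →
    IsSyz n (ModuleCat.of A (M × M')) (ModuleCat.of A (K × K')) := by
  induction n with
  | zero =>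
    rintro M M' K K' ⟨e⟩ ⟨e'⟩
    exact ⟨LinearEquiv.prodCongr e e'⟩
  | succ n ih =>
    rintro M M' K K' ⟨P, L, i, p, hP, hF, hs, hL⟩ ⟨P', L', i', p', hP', hF', hs', hL'⟩
    exact ⟨ModuleCat.of A (P × P'), ModuleCat.of A (L × L'), i.prodMap i', p.prodMap p',
      inferInstance, inferInstance, hs.prodMap hs', ih hL hL'⟩

theorem IsSyz.pi {ι : Type} [Fintype ι] {n : ℕ} : ∀ (M K : ι → ModuleCat.{u} A),
    (∀ j, IsSyz n (M j) (K j)) →
      IsSyz n (ModuleCat.of A (Π j, M j)) (ModuleCat.of A (Π j, K j)) := by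
  induction n with
  | zero =>
    intro M K h
    exact ⟨LinearEquiv.piCongrRight (fun j => (h j).some)⟩
  | succ n ih =>
    intro M K h
    choose P L i p hP hF hs hL using h
    exact ⟨ModuleCat.of A (Π j, P j), ModuleCat.of A (Π j, L j),
      LinearMap.pi (fun j => i j ∘ₗ LinearMap.proj j),
      LinearMap.pi (fun j => p j ∘ₗ LinearMap.proj j),
      projective_pi (fun j => P j) hP, Module.Finite.pi,
      isSES_pi (fun j => L j) (fun j => P j) (fun j => M j) i p hs, ih L K hL⟩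

/-- Concatenation of syzygies. -/
theorem IsSyz.trans {n : ℕ} (m : ℕ) : ∀ {M K K' : ModuleCat.{u} A}, IsSyz n M K →
    IsSyz m K K' → IsSyz (m + n) M K' := by
  induction n with
  | zero =>
    intro M K K' h h'
    obtain ⟨e⟩ := h
    exact h'.of_equiv_left e
  | succ n ih =>
    intro M K K' h h'
    obtain ⟨P, L, i, p, hP, hF, hs, hL⟩ := h
    exact ⟨P, L, i, p, hP, hF, hs, ih hL h'⟩

/-- The zero module is a syzygy of itself of every order. -/
theorem isSyz_punit (n : ℕ) : IsSyz n (ModuleCat.of A PUnit) (ModuleCat.of A PUnit) := by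
  induction n with
  | zero => exact ⟨LinearEquiv.refl A PUnit.{u + 1}⟩
  | succ n ih =>
    refine ⟨ModuleCat.of A PUnit, ModuleCat.of A PUnit, 0, 0, inferInstance, inferInstance,
      ⟨fun x y _ => Subsingleton.elim x y, fun y => ⟨PUnit.unit, Subsingleton.elim _ _⟩,
        fun y => ⟨fun _ => ⟨PUnit.unit, Subsingleton.elim _ _⟩, fun _ => rfl⟩⟩, ih⟩

/-- A finitely generated projective module has a finitely generated projective syzygy of every
order. -/
theorem exists_isSyz_proj (n : ℕ) (P : ModuleCat.{u} A) (hP : Module.Projective A P)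
    (hF : Module.Finite A P) :
    ∃ W : ModuleCat.{u} A, Module.Projective A W ∧ Module.Finite A W ∧ IsSyz n P W := by
  cases n with
  | zero => exact ⟨P, hP, hF, ⟨LinearEquiv.refl A P⟩⟩
  | succ n =>
    refine ⟨ModuleCat.of A PUnit, inferInstance, inferInstance, ModuleCat.of A P,
      ModuleCat.of A PUnit, 0, LinearMap.id, hP, hF, ?_, isSyz_punit n⟩
    refine ⟨fun x y _ => Subsingleton.elim x y, fun y => ⟨y, rfl⟩, fun y => ?_⟩
    constructor
    · intro hy
      exact ⟨PUnit.unit, hy.symm⟩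
    · rintro ⟨x, rfl⟩
      rfl

/-- Syzygies of the same module are stably isomorphic. -/
theorem IsSyz.stableIso {n : ℕ} : ∀ {M K K' : ModuleCat.{u} A}, IsSyz n M K → IsSyz n M K' →
    StableIso K K' := by
  induction n with
  | zero =>
    rintro M K K' ⟨e⟩ ⟨e'⟩
    exact StableIso.of_equiv (e.trans e'.symm)
  | succ n ih =>
    rintro M K K' ⟨P, L, i, p, hP, hF, hs, hL⟩ ⟨P', L', i', p', hP', hF', hs', hL'⟩
    obtain ⟨e⟩ := schanuel hs hs'
    obtain ⟨W, hW, hWf, hWs⟩ := exists_isSyz_proj n P hP hF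
    obtain ⟨W', hW', hWf', hWs'⟩ := exists_isSyz_proj n P' hP' hF'
    have h1 : IsSyz n (ModuleCat.of A (L' × P)) (ModuleCat.of A (K × W')) :=
      (hL.prod hWs').of_equiv_left e
    have h2 : IsSyz n (ModuleCat.of A (L' × P)) (ModuleCat.of A (K' × W)) := hL'.prod hWs
    have h3 := ih h1 h2
    exact ((StableIso.prod_proj K W' hW' hWf').symm.trans h3).trans
      (StableIso.prod_proj K' W hW hWf)

/-- Syzygies of stably isomorphic modules are stably isomorphic. -/
theorem StableIso.isSyz {n : ℕ} {M M' K K' : ModuleCat.{u} A} (h : StableIso M M')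
    (hK : IsSyz n M K) (hK' : IsSyz n M' K') : StableIso K K' := by
  obtain ⟨P, Q, hP, hPf, hQ, hQf, ⟨e⟩⟩ := h
  obtain ⟨W, hW, hWf, hWs⟩ := exists_isSyz_proj n P hP hPf
  obtain ⟨W', hW', hWf', hWs'⟩ := exists_isSyz_proj n Q hQ hQf
  have h1 : IsSyz n (ModuleCat.of A (M' × Q)) (ModuleCat.of A (K × W)) :=
    (hK.prod hWs).of_equiv_left e
  have h2 : IsSyz n (ModuleCat.of A (M' × Q)) (ModuleCat.of A (K' × W')) := hK'.prod hWs'
  exact ((StableIso.prod_proj K W hW hWf).symm.trans (h1.stableIso h2)).trans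
    (StableIso.prod_proj K' W' hW' hWf')

/-! ### The horseshoe construction -/

theorem horseshoe_step [IsNoetherianRing A] {X₁ X₂ X₃ : ModuleCat.{u} A} {f : X₁ →ₗ[A] X₂}
    {g : X₂ →ₗ[A] X₃} (h : IsSES f g) (h₁ : Module.Finite A X₁) (h₃ : Module.Finite A X₃) :
    ∃ (P₁ P₂ P₃ L₁ L₂ L₃ : ModuleCat.{u} A) (i₁ : L₁ →ₗ[A] P₁) (p₁ : P₁ →ₗ[A] X₁)
      (i₂ : L₂ →ₗ[A] P₂) (p₂ : P₂ →ₗ[A] X₂) (i₃ : L₃ →ₗ[A] P₃) (p₃ : P₃ →ₗ[A] X₃)
      (f' : L₁ →ₗ[A] L₂) (g' : L₂ →ₗ[A] L₃),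
      (Module.Projective A P₁ ∧ Module.Finite A P₁ ∧ IsSES i₁ p₁) ∧
      (Module.Projective A P₂ ∧ Module.Finite A P₂ ∧ IsSES i₂ p₂) ∧
      (Module.Projective A P₃ ∧ Module.Finite A P₃ ∧ IsSES i₃ p₃) ∧
      IsSES f' g' ∧ Module.Finite A L₁ ∧ Module.Finite A L₂ ∧ Module.Finite A L₃ := by
  obtain ⟨hf, hg, hex⟩ := h
  obtain ⟨m₁, π₁, hπ₁⟩ := Module.Finite.exists_fin' A X₁
  obtain ⟨m₃, π₃, hπ₃⟩ := Module.Finite.exists_fin' A X₃
  obtain ⟨σ, hσ⟩ := Module.projective_lifting_property g π₃ hg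
  have hσ' : ∀ y, g (σ y) = π₃ y := fun y => congrArg (fun χ : (Fin m₃ → A) →ₗ[A] X₃ => χ y) hσ
  have hgf : ∀ x, g (f x) = 0 := fun x => (hex (f x)).mpr ⟨x, rfl⟩
  let π₂ : ((Fin m₁ → A) × (Fin m₃ → A)) →ₗ[A] X₂ := (f ∘ₗ π₁).coprod σ
  have hπ₂v : ∀ x y, π₂ (x, y) = f (π₁ x) + σ y := fun x y => by simp [π₂]
  have hπ₂ : Surjective π₂ := by
    intro b
    obtain ⟨y, hy⟩ := hπ₃ (g b)
    have : g (b - σ y) = 0 := by rw [map_sub, hσ', hy, sub_self]
    obtain ⟨a, ha⟩ := (hex _).mp this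
    obtain ⟨x, rfl⟩ := hπ₁ a
    refine ⟨(x, y), ?_⟩
    rw [hπ₂v, ha]
    abel
  let f' : LinearMap.ker π₁ →ₗ[A] LinearMap.ker π₂ :=
    LinearMap.codRestrict (LinearMap.ker π₂)
      (LinearMap.inl A (Fin m₁ → A) (Fin m₃ → A) ∘ₗ (LinearMap.ker π₁).subtype)
      (fun x => by
        have hx : π₁ x.1 = 0 := x.2
        simp [π₂, hx])
  let g' : LinearMap.ker π₂ →ₗ[A] LinearMap.ker π₃ :=
    LinearMap.codRestrict (LinearMap.ker π₃)
      (LinearMap.snd A (Fin m₁ → A) (Fin m₃ → A) ∘ₗ (LinearMap.ker π₂).subtype)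
      (fun x => by
        have hx : π₂ x.1 = 0 := x.2
        have h1 : g (π₂ x.1) = π₃ x.1.2 := by
          rw [show x.1 = (x.1.1, x.1.2) from rfl, hπ₂v, map_add, hgf, hσ', zero_add]
        rw [LinearMap.mem_ker]
        change π₃ x.1.2 = 0
        rw [← h1, hx, map_zero])
  have hf'v : ∀ x : LinearMap.ker π₁, ((f' x : _) : (Fin m₁ → A) × (Fin m₃ → A)) = (x.1, 0) :=
    fun x => rfl
  have hg'v : ∀ x : LinearMap.ker π₂, ((g' x : _) : Fin m₃ → A) = x.1.2 := fun x => rfl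
  refine ⟨ModuleCat.of A (Fin m₁ → A), ModuleCat.of A ((Fin m₁ → A) × (Fin m₃ → A)),
    ModuleCat.of A (Fin m₃ → A), ModuleCat.of A (LinearMap.ker π₁),
    ModuleCat.of A (LinearMap.ker π₂), ModuleCat.of A (LinearMap.ker π₃),
    (LinearMap.ker π₁).subtype, π₁, (LinearMap.ker π₂).subtype, π₂, (LinearMap.ker π₃).subtype,
    π₃, f', g', ⟨inferInstance, inferInstance, isSES_ker π₁ hπ₁⟩,
    ⟨inferInstance, inferInstance, isSES_ker π₂ hπ₂⟩,
    ⟨inferInstance, inferInstance, isSES_ker π₃ hπ₃⟩, ⟨?_, ?_, ?_⟩, inferInstance, inferInstance,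
    inferInstance⟩
  · intro x y hxy
    have := congrArg (fun z : LinearMap.ker π₂ => (z.1).1) hxy
    exact Subtype.ext this
  · intro y
    have hy : π₃ y.1 = 0 := y.2
    have : g (σ y.1) = 0 := by rw [hσ', hy]
    obtain ⟨a, ha⟩ := (hex _).mp this
    obtain ⟨x, rfl⟩ := hπ₁ a
    refine ⟨⟨(-x, y.1), ?_⟩, Subtype.ext rfl⟩
    rw [LinearMap.mem_ker, hπ₂v, map_neg, map_neg, ha, neg_add_cancel]
  · intro z
    constructor
    · intro hz
      have hz2 : z.1.2 = 0 := by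
        have := congrArg Subtype.val hz
        exact this
      have hz0 : π₂ z.1 = 0 := z.2
      have hz1 : f (π₁ z.1.1) = 0 := by
        rw [show z.1 = (z.1.1, z.1.2) from rfl, hπ₂v, hz2, map_zero, add_zero] at hz0
        exact hz0
      have hz3 : π₁ z.1.1 = 0 := hf (by rw [hz1, map_zero])
      refine ⟨⟨z.1.1, hz3⟩, Subtype.ext ?_⟩
      rw [hf'v]
      exact Prod.ext rfl hz2.symm
    · rintro ⟨x, rfl⟩
      exact Subtype.ext rfl

/-- The horseshoe construction: a short exact sequence of finitely generated modules induces a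
short exact sequence of `n`-th syzygies. -/
theorem horseshoe [IsNoetherianRing A] (n : ℕ) : ∀ {X₁ X₂ X₃ : ModuleCat.{u} A}
    {f : X₁ →ₗ[A] X₂} {g : X₂ →ₗ[A] X₃}, IsSES f g → Module.Finite A X₁ → Module.Finite A X₂ →
    Module.Finite A X₃ →
    ∃ (K₁ K₂ K₃ : ModuleCat.{u} A) (f' : K₁ →ₗ[A] K₂) (g' : K₂ →ₗ[A] K₃),
      IsSyz n X₁ K₁ ∧ IsSyz n X₂ K₂ ∧ IsSyz n X₃ K₃ ∧ IsSES f' g' ∧ Module.Finite A K₁ ∧
        Module.Finite A K₂ ∧ Module.Finite A K₃ := by
  induction n with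
  | zero =>
    intro X₁ X₂ X₃ f g h h₁ h₂ h₃
    exact ⟨X₁, X₂, X₃, f, g, ⟨LinearEquiv.refl A X₁⟩, ⟨LinearEquiv.refl A X₂⟩,
      ⟨LinearEquiv.refl A X₃⟩, h, h₁, h₂, h₃⟩
  | succ n ih =>
    intro X₁ X₂ X₃ f g h h₁ h₂ h₃
    obtain ⟨P₁, P₂, P₃, L₁, L₂, L₃, i₁, p₁, i₂, p₂, i₃, p₃, f', g', ⟨hP₁, hF₁, hs₁⟩,
      ⟨hP₂, hF₂, hs₂⟩, ⟨hP₃, hF₃, hs₃⟩, hs', hL₁, hL₂, hL₃⟩ := horseshoe_step h h₁ h₃
    obtain ⟨K₁, K₂, K₃, f'', g'', hK₁, hK₂, hK₃, hs'', hKf₁, hKf₂, hKf₃⟩ := ih hs' hL₁ hL₂ hL₃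
    exact ⟨K₁, K₂, K₃, f'', g'', ⟨P₁, L₁, i₁, p₁, hP₁, hF₁, hs₁, hK₁⟩,
      ⟨P₂, L₂, i₂, p₂, hP₂, hF₂, hs₂, hK₂⟩, ⟨P₃, L₃, i₃, p₃, hP₃, hF₃, hs₃, hK₃⟩, hs'', hKf₁,
      hKf₂, hKf₃⟩

end Vale.Agent.Helper2.IT
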