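import Mathlib
import Vale.Agent.Helper2.ITDefs
import Vale.Agent.Helper2.Indec
import Vale.Agent.Helper2.Syz
import Vale.Agent.Helper2.Delooping

/-!
# Ext computations for the Igusa-Todorov lemma (helper module for P176)

* `pull`: the map induced on `Ext` groups by a linear map in the first variable;
* `PdLE Z c`: vanishing of `Ext^j(Z, -)` for all `j > c`;
* dimension shifting along syzygies;
* the Fitting step: for a short exact sequence `0 → X → M → K → 0` of finitely generated modules
  over a left Artinian ring with `X` and `M` stably isomorphic and `K` of finite projective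
  dimension, there is a direct summand `Z` of `X` of finite projective dimension with
  `pd K ≤ pd Z + 1`.
-/

universe u

open Function CategoryTheory Abelian

namespace Vale.Agent.Helper2.IT

variable {A : Type u} [Ring A]

/-! ### Pulling back Ext classes -/

section Pull

variable {U U' U'' : Type u} [AddCommGroup U] [Module A U] [AddCommGroup U'] [Module A U']
  [AddCommGroup U''] [Module A U''] {N : ModuleCat.{u} A} {j : ℕ}

/-- The map induced on `Ext` groups by a linear map in the first variable. -/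
noncomputable def pull (α : U →ₗ[A] U') (y : Ext (ModuleCat.of A U') N j) :
    Ext (ModuleCat.of A U) N j :=
  (Ext.mk₀ (ModuleCat.ofHom α)).comp y (zero_add j)

theorem pull_id (y : Ext (ModuleCat.of A U) N j) : pull (LinearMap.id : U →ₗ[A] U) y = y := by
  unfold pull
  rw [ModuleCat.ofHom_id, Ext.mk₀_id_comp]

theorem pull_comp (α : U →ₗ[A] U') (β : U' →ₗ[A] U'') (y : Ext (ModuleCat.of A U'') N j) :
    pull (β ∘ₗ α) y = pull α (pull β y) := by
  unfold pull
  rw [ModuleCat.ofHom_comp, ← Ext.mk₀_comp_mk₀, Ext.comp_assoc_of_second_deg_zero]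

theorem pull_add (α β : U →ₗ[A] U') (y : Ext (ModuleCat.of A U') N j) :
    pull (α + β) y = pull α y + pull β y := by
  unfold pull
  rw [ModuleCat.ofHom_add, Ext.mk₀_add, Ext.add_comp]

theorem pull_zero (y : Ext (ModuleCat.of A U') N j) : pull (0 : U →ₗ[A] U') y = 0 := by
  unfold pull
  rw [ModuleCat.ofHom_zero, Ext.mk₀_zero, Ext.zero_comp]

theorem pull_zero_right (α : U →ₗ[A] U') : pull α (0 : Ext (ModuleCat.of A U') N j) = 0 := by
  unfold pull
  rw [Ext.comp_zero]

theorem pull_sum {ι : Type*} (s : Finset ι) (α : ι → (U →ₗ[A] U'))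
    (y : Ext (ModuleCat.of A U') N j) : pull (∑ x ∈ s, α x) y = ∑ x ∈ s, pull (α x) y := by
  classical
  induction s using Finset.induction_on with
  | empty => simp [pull_zero]
  | insert a s ha ih => rw [Finset.sum_insert ha, Finset.sum_insert ha, pull_add, ih]

theorem ext_eq_zero_of_module_projective [Module.Projective A U]
    (y : Ext (ModuleCat.of A U) N (j + 1)) : y = 0 := by
  have : Projective (ModuleCat.of A U) := (IsProjective.iff_projective U).mp inferInstance
  exact Ext.eq_zero_of_projective y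

/-- If `a ∘ b` is the identity up to a map factoring through a projective module, then
`pull b ∘ pull a` is the identity in positive degrees. -/
theorem pull_pull_of_proj {P : Type u} [AddCommGroup P] [Module A P] [Module.Projective A P]
    (a : U →ₗ[A] U') (b : U' →ₗ[A] U) (c : U' →ₗ[A] P) (d : P →ₗ[A] U')
    (h : a ∘ₗ b + d ∘ₗ c = LinearMap.id) (w : Ext (ModuleCat.of A U') N (j + 1)) :
    pull b (pull a w) = w := by
  have h1 : pull (a ∘ₗ b + d ∘ₗ c) w = w := by rw [h, pull_id]
  rw [pull_add, pull_comp, pull_comp, ext_eq_zero_of_module_projective (pull d w),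
    pull_zero_right, add_zero] at h1
  exact h1

end Pull

/-! ### The long exact sequence -/

section LES

variable {X M K : Type u} [AddCommGroup X] [Module A X] [AddCommGroup M] [Module A M]
  [AddCommGroup K] [Module A K] {i : X →ₗ[A] M} {p : M →ₗ[A] K}

theorem IsSES.comp_eq_zero (h : IsSES i p) : p ∘ₗ i = 0 := by
  ext x
  exact (h.2.2 (i x)).mpr ⟨x, rfl⟩

theorem IsSES.shortExact (h : IsSES i p) :
    (ModuleCat.shortComplexOfCompEqZero i p h.comp_eq_zero).ShortExact :=
  ModuleCat.shortComplex_shortExact _ h.2.2 h.1 h.2.1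

/-- If `Ext^(j+1)(K, N) = 0` then `Ext^j(M, N) → Ext^j(X, N)` is surjective. -/
theorem IsSES.pull_surjective (h : IsSES i p) {N : ModuleCat.{u} A} {j : ℕ}
    (hK : ∀ z : Ext (ModuleCat.of A K) N (j + 1), z = 0) (y : Ext (ModuleCat.of A X) N j) :
    ∃ w : Ext (ModuleCat.of A M) N j, pull i w = y :=
  Ext.contravariant_sequence_exact₁ h.shortExact N y (n₁ := j + 1) (by omega) (hK _)

/-- If `Ext^j(M, N) → Ext^j(X, N)` is surjective and `Ext^(j+1)(M, N) → Ext^(j+1)(X, N)` is
injective, then `Ext^(j+1)(K, N) = 0`. -/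
theorem IsSES.ext_eq_zero (h : IsSES i p) {N : ModuleCat.{u} A} {j : ℕ}
    (hsurj : ∀ y : Ext (ModuleCat.of A X) N j, ∃ w : Ext (ModuleCat.of A M) N j, pull i w = y)
    (hinj : ∀ w : Ext (ModuleCat.of A M) N (j + 1), pull i w = 0 → w = 0)
    (z : Ext (ModuleCat.of A K) N (j + 1)) : z = 0 := by
  have h1 : pull i (pull p z) = 0 := by
    rw [← pull_comp, h.comp_eq_zero, pull_zero]
  have h2 : pull p z = 0 := hinj _ h1
  obtain ⟨y, hy⟩ := Ext.contravariant_sequence_exact₃ h.shortExact N z h2 (n₀ := j) (by omega)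
  obtain ⟨w, rfl⟩ := hsurj y
  rw [← hy]
  have h3 := h.shortExact.extClass_comp
  have h4 : h.shortExact.extClass.comp
      ((Ext.mk₀ (ModuleCat.shortComplexOfCompEqZero i p h.comp_eq_zero).f).comp w (zero_add j))
      (show 1 + j = j + 1 by omega) = 0 := by
    rw [← Ext.comp_assoc_of_second_deg_zero, h3, Ext.zero_comp]
  exact h4

end LES

/-! ### Projective dimension in terms of Ext vanishing -/

/-- `PdLE Z c`: the groups `Ext^j(Z, N)` vanish for all `j > c` and all `N`; equivalently the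
projective dimension of `Z` is at most `c`. -/
def PdLE (Z : ModuleCat.{u} A) (c : ℕ) : Prop :=
  ∀ (N : ModuleCat.{u} A) (j : ℕ), c < j → ∀ z : Ext Z N j, z = 0

theorem pdLE_iff (Z : ModuleCat.{u} A) (c : ℕ) : PdLE Z c ↔ HasProjectiveDimensionLE Z c := by
  unfold HasProjectiveDimensionLE
  rw [hasProjectiveDimensionLT_iff]
  constructor
  · intro h i hi Y e
    exact h Y i (by omega) e
  · intro h N j hj z
    exact h j (by omega) z

theorem PdLE.mono {Z : ModuleCat.{u} A} {c c' : ℕ} (h : PdLE Z c) (hc : c ≤ c') : PdLE Z c' :=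
  fun N j hj z => h N j (by omega) z

theorem PdLE.of_retract {Z X : ModuleCat.{u} A} {c : ℕ} (h : PdLE X c) (i : Z →ₗ[A] X)
    (p : X →ₗ[A] Z) (hpi : p ∘ₗ i = LinearMap.id) : PdLE Z c := by
  intro N j hj z
  have h1 : pull i (pull p z) = z := by rw [← pull_comp, hpi, pull_id]
  have h2 : pull p z = 0 := h N j hj _
  rw [← h1, h2, pull_zero_right]

theorem PdLE.of_equiv {Z X : ModuleCat.{u} A} {c : ℕ} (h : PdLE X c) (e : Z ≃ₗ[A] X) :
    PdLE Z c :=
  h.of_retract (e : Z →ₗ[A] X) (e.symm : X →ₗ[A] Z) (by ext x; simp)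

theorem pdLE_of_projective {Z : ModuleCat.{u} A} (h : Module.Projective A Z) (c : ℕ) :
    PdLE Z c := by
  intro N j hj z
  obtain ⟨j', rfl⟩ : ∃ j', j = j' + 1 := ⟨j - 1, by omega⟩
  have := h
  exact ext_eq_zero_of_module_projective (U := Z) z

theorem projective_of_pdLE_zero {Z : ModuleCat.{u} A} (h : PdLE Z 0) : Module.Projective A Z := by
  have h1 : HasProjectiveDimensionLT Z 1 := by
    rw [hasProjectiveDimensionLT_iff]
    intro i hi Y e
    exact h Y i (by omega) e
  have h2 : Projective Z := projective_iff_hasProjectiveDimensionLT_one.mpr h1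
  exact (IsProjective.iff_projective (R := A) Z).mpr h2

/-! ### Dimension shifting -/

theorem IsSyz.toSyzygy {n : ℕ} : ∀ {M K : ModuleCat.{u} A}, IsSyz n M K →
    Delooping.IsSyzygy n M K := by
  induction n with
  | zero =>
    intro M K h
    obtain ⟨e⟩ := h
    exact ⟨e.toModuleIso⟩
  | succ n ih =>
    intro M K h
    obtain ⟨P, L, i, p, hP, hF, hs, hL⟩ := h
    refine ⟨ModuleCat.shortComplexOfCompEqZero i p hs.comp_eq_zero, hs.shortExact, ?_,
      ⟨Iso.refl _⟩, ih hL⟩
    exact (IsProjective.iff_projective (R := A) P).mp hP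

/-- If `K` is an `n`-th syzygy of `M` and `pd M ≤ c + n` then `pd K ≤ c`. -/
theorem IsSyz.pdLE_of {n : ℕ} {M K : ModuleCat.{u} A} (h : IsSyz n M K) {c : ℕ}
    (hM : PdLE M (c + n)) : PdLE K c := by
  intro N j hj z
  exact Delooping.ext_syzygy_eq_zero n M K h.toSyzygy j (by omega) (j + n) rfl
    (fun x => hM N (j + n) (by omega) x) z

/-- If `K` is an `n`-th syzygy of `M` and `pd K ≤ c` then `pd M ≤ c + n`. -/
theorem IsSyz.pdLE_to {n : ℕ} {M K : ModuleCat.{u} A} (h : IsSyz n M K) {c : ℕ}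
    (hK : PdLE K c) : PdLE M (c + n) := by
  intro N j hj z
  exact Delooping.ext_eq_zero_of_syzygy n M K h.toSyzygy (j - n) (by omega)
    (fun x => hK N (j - n) (by omega) x) j (by omega) z

/-! ### The Fitting step -/

/-- The Fitting step of the Igusa-Todorov lemma.  Let `0 → X → M → K → 0` be exact with `X`
finitely generated over a left Artinian ring, `X` and `M` stably isomorphic and `pd K ≤ r`.
Then there is a direct summand `Z` of `X` with `pd Z ≤ r` such that `pd K ≤ c + 1` whenever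
`pd Z ≤ c`. -/
theorem fitting_step [IsArtinianRing A] {X M K : ModuleCat.{u} A} {i : X →ₗ[A] M}
    {p : M →ₗ[A] K} (hs : IsSES i p) (hX : Module.Finite A X) (hst : StableIso X M) (r : ℕ)
    (hK : PdLE K r) :
    ∃ (Z : ModuleCat.{u} A) (ι : Z →ₗ[A] X) (π : X →ₗ[A] Z), π ∘ₗ ι = LinearMap.id ∧
      Module.Finite A Z ∧ PdLE Z r ∧ ∀ c : ℕ, PdLE Z c → PdLE K (c + 1) := by
  obtain ⟨P, Q, hP, hPf, hQ, hQf, ⟨e⟩⟩ := hst
  let a : X →ₗ[A] M :=
    LinearMap.fst A M Q ∘ₗ (e : (X × P) →ₗ[A] (M × Q)) ∘ₗ LinearMap.inl A X P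
  let b : M →ₗ[A] X :=
    LinearMap.fst A X P ∘ₗ (e.symm : (M × Q) →ₗ[A] (X × P)) ∘ₗ LinearMap.inl A M Q
  have hab : a ∘ₗ b + (LinearMap.fst A M Q ∘ₗ (e : (X × P) →ₗ[A] (M × Q)) ∘ₗ
      LinearMap.inr A X P) ∘ₗ (LinearMap.snd A X P ∘ₗ (e.symm : (M × Q) →ₗ[A] (X × P)) ∘ₗ
      LinearMap.inl A M Q) = LinearMap.id := by
    ext m
    simp only [a, b, LinearMap.add_apply, LinearMap.comp_apply, LinearMap.fst_apply,
      LinearMap.snd_apply, LinearMap.inl_apply, LinearMap.inr_apply, LinearEquiv.coe_coe,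
      LinearMap.id_apply]
    rw [← Prod.fst_add, ← map_add, Prod.mk_add_mk, add_zero, zero_add, Prod.mk.eta,
      e.apply_symm_apply]
  have hba : b ∘ₗ a + (LinearMap.fst A X P ∘ₗ (e.symm : (M × Q) →ₗ[A] (X × P)) ∘ₗ
      LinearMap.inr A M Q) ∘ₗ (LinearMap.snd A M Q ∘ₗ (e : (X × P) →ₗ[A] (M × Q)) ∘ₗ
      LinearMap.inl A X P) = LinearMap.id := by
    ext m
    simp only [a, b, LinearMap.add_apply, LinearMap.comp_apply, LinearMap.fst_apply,
      LinearMap.snd_apply, LinearMap.inl_apply, LinearMap.inr_apply, LinearEquiv.coe_coe,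
      LinearMap.id_apply]
    rw [← Prod.fst_add, ← map_add, Prod.mk_add_mk, add_zero, zero_add, Prod.mk.eta,
      e.symm_apply_apply]
  have P1 : ∀ (N : ModuleCat.{u} A) (j : ℕ) (w : Ext (ModuleCat.of A M) N (j + 1)),
      pull b (pull a w) = w := fun N j w => pull_pull_of_proj a b _ _ hab w
  let f : X →ₗ[A] X := b ∘ₗ i
  have hpf : ∀ (N : ModuleCat.{u} A) (j : ℕ) (y : Ext (ModuleCat.of A X) N j),
      pull f y = pull i (pull b y) := fun N j y => pull_comp i b y
  have hfin : Module.Finite A X := hX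
  obtain ⟨t, ht, ht1⟩ :=
    ((LinearMap.eventually_isCompl_ker_pow_range_pow f).and (Filter.eventually_ge_atTop 1)).exists
  let Zs : Submodule A X := LinearMap.ker (f ^ t)
  let ι : Zs →ₗ[A] X := Zs.subtype
  let π : X →ₗ[A] Zs := Zs.projectionOnto (LinearMap.range (f ^ t)) ht
  have hπι : π ∘ₗ ι = LinearMap.id := Submodule.projectionOnto_comp_subtype ht
  have hfι : (f ^ t) ∘ₗ ι = 0 := by
    ext z
    exact z.2
  -- surjectivity of `pull f` in degrees where `Ext(K, -)` vanishes one step higher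
  have hsurj_f : ∀ (N : ModuleCat.{u} A) (j : ℕ),
      (∀ z : Ext (ModuleCat.of A K) N (j + 1 + 1), z = 0) →
      ∀ y : Ext (ModuleCat.of A X) N (j + 1), ∃ y', pull f y' = y := by
    intro N j hz y
    obtain ⟨w, hw⟩ := hs.pull_surjective hz y
    exact ⟨pull a w, by rw [hpf, P1, hw]⟩
  have hsurj_pow : ∀ (N : ModuleCat.{u} A) (j : ℕ),
      (∀ z : Ext (ModuleCat.of A K) N (j + 1 + 1), z = 0) → ∀ (k : ℕ)
      (y : Ext (ModuleCat.of A X) N (j + 1)), ∃ y', pull (f ^ k) y' = y := by
    intro N j hz k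
    induction k with
    | zero =>
      intro y
      exact ⟨y, by rw [pow_zero, Module.End.one_eq_id, pull_id]⟩
    | succ k ih =>
      intro y
      obtain ⟨y₁, h1⟩ := hsurj_f N j hz y
      obtain ⟨y₂, h2⟩ := ih y₁
      exact ⟨y₂, by rw [pow_succ, Module.End.mul_eq_comp, pull_comp, h2, h1]⟩
  have hZr : PdLE (ModuleCat.of A Zs) r := by
    intro N j hj z
    obtain ⟨j', rfl⟩ : ∃ j', j = j' + 1 := ⟨j - 1, by omega⟩
    have hz : ∀ z' : Ext (ModuleCat.of A K) N (j' + 1 + 1), z' = 0 :=
      fun z' => hK N (j' + 1 + 1) (by omega) z'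
    obtain ⟨y', hy'⟩ := hsurj_pow N j' hz t (pull π z)
    have h1 : pull ι (pull π z) = z := by rw [← pull_comp, hπι, pull_id]
    rw [← h1, ← hy', ← pull_comp, hfι, pull_zero]
  -- the map `f + ι ∘ π` is bijective
  have hα : ∀ z ∈ Zs, f z ∈ Zs := by
    intro z hz
    have hz' : (f ^ t) z = 0 := hz
    change (f ^ t) (f z) = 0
    rw [← Module.End.mul_apply, ← pow_succ, pow_succ', Module.End.mul_apply, hz', map_zero]
  have hβ : ∀ y ∈ LinearMap.range (f ^ t), f y ∈ LinearMap.range (f ^ t) := by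
    rintro y ⟨y', rfl⟩
    refine ⟨f y', ?_⟩
    rw [← Module.End.mul_apply, ← pow_succ, pow_succ', Module.End.mul_apply]
  have hγ : ∀ y ∈ LinearMap.range (f ^ t), f y = 0 → y = 0 := by
    intro y hy hfy
    have hyZ : y ∈ Zs := by
      obtain ⟨k, rfl⟩ : ∃ k, t = k + 1 := ⟨t - 1, by omega⟩
      change (f ^ (k + 1)) y = 0
      rw [pow_succ, Module.End.mul_apply, hfy, map_zero]
    have := Submodule.disjoint_def.mp ht.disjoint y hyZ hy
    exact this
  have hnil : ∀ (k : ℕ) (z : X), f z = -z → (f ^ k) z = 0 → z = 0 := by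
    intro k
    induction k with
    | zero =>
      intro z _ h0
      simpa using h0
    | succ k ih =>
      intro z hz h0
      rw [pow_succ, Module.End.mul_apply, hz, map_neg, neg_eq_zero] at h0
      exact ih z hz h0
  let h : X →ₗ[A] X := f + ι ∘ₗ π
  have hinj : Injective h := by
    rw [← LinearMap.ker_eq_bot, eq_bot_iff]
    intro x hx
    rw [LinearMap.mem_ker] at hx
    have hxtop : x ∈ Zs ⊔ LinearMap.range (f ^ t) := by
      rw [ht.sup_eq_top]
      exact Submodule.mem_top
    obtain ⟨z, hz, y, hy, rfl⟩ := Submodule.mem_sup.mp hxtop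
    have hπz : π z = ⟨z, hz⟩ := Submodule.projectionOnto_apply_left ht ⟨z, hz⟩
    have hπy : π y = 0 := Submodule.projectionOnto_apply_right ht ⟨y, hy⟩
    have hx' : f z + f y + z = 0 := by
      have : h (z + y) = f z + f y + z := by
        change f (z + y) + ι (π (z + y)) = _
        rw [map_add, map_add, hπz, hπy, add_zero]
        rfl
      rw [← this, hx]
    have hfy : f y = 0 := by
      have h1 : f y ∈ Zs := by
        have : f y = -(f z + z) := by
          rw [eq_neg_iff_add_eq_zero]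
          rw [← hx']
          abel
        rw [this]
        exact Zs.neg_mem (Zs.add_mem (hα z hz) hz)
      exact Submodule.disjoint_def.mp ht.disjoint _ h1 (hβ y hy)
    have hy0 : y = 0 := hγ y hy hfy
    have hz0 : z = 0 := by
      apply hnil t z _ hz
      rw [hfy, add_zero] at hx'
      exact eq_neg_of_add_eq_zero_left hx'
    rw [Submodule.mem_bot, hy0, hz0, add_zero]
  have hbij : Bijective h := IsArtinian.bijective_of_injective_endomorphism h hinj
  let eh : X ≃ₗ[A] X := LinearEquiv.ofBijective h hbij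
  have heh1 : (eh.symm : X →ₗ[A] X) ∘ₗ h = LinearMap.id := by
    ext x
    exact eh.symm_apply_apply x
  have heh2 : h ∘ₗ (eh.symm : X →ₗ[A] X) = LinearMap.id := by
    ext x
    exact eh.apply_symm_apply x
  refine ⟨ModuleCat.of A Zs, ι, π, hπι, inferInstance, hZr, ?_⟩
  intro c hZ N j hj z
  obtain ⟨j', rfl⟩ : ∃ j', j = j' + 1 + 1 := ⟨j - 2, by omega⟩
  have hh : ∀ (d : ℕ), c < d → ∀ y : Ext (ModuleCat.of A X) N d, pull h y = pull f y := by
    intro d hd y
    have h1 : pull ι y = 0 := hZ N d hd _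
    rw [show h = f + ι ∘ₗ π from rfl, pull_add, pull_comp π ι y, h1, pull_zero_right, add_zero]
  have P1' : ∀ (w : Ext (ModuleCat.of A M) N (j' + 1 + 1)), pull b (pull a w) = w :=
    fun w => P1 N (j' + 1) w
  refine hs.ext_eq_zero (j := j' + 1) ?_ ?_ z
  · intro y
    refine ⟨pull b (pull (eh.symm : X →ₗ[A] X) y), ?_⟩
    rw [← hpf, ← hh _ (by omega), ← pull_comp, heh1, pull_id]
  · intro w hw
    have h1 : pull f (pull a w) = 0 := by rw [hpf, P1', hw]
    have h2 : pull h (pull a w) = 0 := by rw [hh _ (by omega), h1]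
    have h3 : pull a w = 0 := by
      have : pull (eh.symm : X →ₗ[A] X) (pull h (pull a w)) = pull a w := by
        rw [← pull_comp, heh2, pull_id]
      rw [← this, h2, pull_zero_right]
    rw [← P1' w, h3, pull_zero_right]

end Vale.Agent.Helper2.IT
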