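import Mathlib
import Vale.Agent.Helper2.ITDefs
import Vale.Agent.Helper2.Indec
import Vale.Agent.Helper2.Syz
import Vale.Agent.Helper2.ITFitting

/-!
# The Igusa-Todorov lemma and the finitistic dimension of Igusa-Todorov algebras (P176)

Let `A` be a left Artinian ring.

* `core`: for finitely many finitely generated modules `T_j` there is a bound `b` such that
  every module `C` of finite projective dimension which is the cokernel of an injective map
  between finite direct sums of copies of the `T_j` has projective dimension at most `b`.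
* `add_bound`: the same for a map between modules in `add V`, for a finitely generated `V`.
* `it_algebra_bound`: if for some `n` and `V` every finitely generated module `M` (of finite
  projective dimension) has an `n`-th syzygy which is the cokernel of an injective map between
  modules in `add V`, then the finitistic dimension of `A` is finite.
-/

universe u

open Function CategoryTheory Abelian

namespace Vale.Agent.Helper2.IT

variable {A : Type u} [Ring A]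

/-! ### Retracts -/

/-- `IsRetract A Z X`: the module `Z` is a direct summand of `X`. -/
def IsRetract (A : Type u) [Ring A] (Z X : Type u) [AddCommGroup Z] [Module A Z]
    [AddCommGroup X] [Module A X] : Prop :=
  ∃ (i : Z →ₗ[A] X) (p : X →ₗ[A] Z), p ∘ₗ i = LinearMap.id

/-! ### More on short exact sequences -/

section SES

variable {U W C Y U' W' : Type u} [AddCommGroup U] [Module A U] [AddCommGroup W] [Module A W]
  [AddCommGroup C] [Module A C] [AddCommGroup Y] [Module A Y] [AddCommGroup U'] [Module A U']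
  [AddCommGroup W'] [Module A W']

theorem IsSES.prod_id {f : U →ₗ[A] W} {g : W →ₗ[A] C} (h : IsSES f g) :
    IsSES (f.prodMap (LinearMap.id : Y →ₗ[A] Y)) (g ∘ₗ LinearMap.fst A W Y) := by
  obtain ⟨hf, hg, hex⟩ := h
  refine ⟨hf.prodMap injective_id, ?_, ?_⟩
  · intro c
    obtain ⟨w, rfl⟩ := hg c
    exact ⟨(w, 0), rfl⟩
  · rintro ⟨w, y⟩
    constructor
    · intro hw
      obtain ⟨u, rfl⟩ := (hex w).mp hw
      exact ⟨(u, y), rfl⟩
    · rintro ⟨⟨u, y'⟩, huy⟩
      have h1 : f u = w := congrArg Prod.fst huy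
      exact (hex w).mpr ⟨u, h1⟩

theorem IsSES.conj {f : U →ₗ[A] W} {g : W →ₗ[A] C} (h : IsSES f g) (eU : U ≃ₗ[A] U')
    (eW : W ≃ₗ[A] W') :
    IsSES ((eW : W →ₗ[A] W') ∘ₗ f ∘ₗ (eU.symm : U' →ₗ[A] U))
      (g ∘ₗ (eW.symm : W' →ₗ[A] W)) := by
  obtain ⟨hf, hg, hex⟩ := h
  refine ⟨?_, ?_, ?_⟩
  · exact eW.injective.comp (hf.comp eU.symm.injective)
  · exact hg.comp eW.symm.surjective
  · intro w
    constructor
    · intro hw
      obtain ⟨u, hu⟩ := (hex (eW.symm w)).mp hw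
      refine ⟨eU u, ?_⟩
      simp [hu]
    · rintro ⟨u, rfl⟩
      have : g (f (eU.symm u)) = 0 := (hex _).mpr ⟨_, rfl⟩
      simpa using this

end SES

theorem StableIso.prod {K L K' L' : ModuleCat.{u} A} (h : StableIso K L) (h' : StableIso K' L') :
    StableIso (ModuleCat.of A (K × K')) (ModuleCat.of A (L × L')) := by
  obtain ⟨P, Q, hP, hPf, hQ, hQf, ⟨e⟩⟩ := h
  obtain ⟨P', Q', hP', hPf', hQ', hQf', ⟨e'⟩⟩ := h'
  exact ⟨ModuleCat.of A (P × P'), ModuleCat.of A (Q × Q'), inferInstance, inferInstance,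
    inferInstance, inferInstance,
    ⟨((LinearEquiv.prodProdProdComm A K K' P P').trans (LinearEquiv.prodCongr e e')).trans
      (LinearEquiv.prodProdProdComm A L L' Q Q').symm⟩⟩

/-! ### Bounding the finite projective dimensions of direct summands -/

/-- Given finitely many finitely generated modules `Ω_j` over a left Artinian ring, the finite
projective dimensions of the direct summands of modules of the form `(⊕ copies of the Ω_j) ⊕ P`
with `P` projective are bounded. -/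
theorem exists_pd_bound [IsArtinianRing A] {J : Type} [Fintype J] (Ω : J → ModuleCat.{u} A)
    (hΩ : ∀ j, Module.Finite A (Ω j)) :
    ∃ c : ℕ, ∀ (Z : ModuleCat.{u} A), Module.Finite A Z → (∃ m, PdLE Z m) →
      ∀ (ι : Type) [Fintype ι] (μ : ι → J) (P : ModuleCat.{u} A), Module.Projective A P →
        IsRetract A Z ((Π x, Ω (μ x)) × P) → PdLE Z c := by
  classical
  have hdec : ∀ j, ∃ (κ : Type) (_ : Fintype κ) (D : κ → Submodule A (Ω j)),
      (∀ k, Indec A (D k)) ∧ Nonempty ((Ω j) ≃ₗ[A] (Π k, D k)) := fun j => by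
    have := hΩ j
    exact exists_indec_decomp (A := A) (Ω j)
  choose κ hκ D hD he using hdec
  let cf : (Σ j, κ j) → ℕ := fun x =>
    if h : ∃ m, PdLE (ModuleCat.of A (D x.1 x.2)) m then Nat.find h else 0
  refine ⟨Finset.univ.sup cf, ?_⟩
  intro Z hZ hm ι _ μ P hP hret
  obtain ⟨m, hm⟩ := hm
  obtain ⟨i, p, hpi⟩ := hret
  obtain ⟨Λ, hΛ, Zl, hZl, ⟨eZ⟩⟩ := exists_indec_decomp (A := A) Z
  have hpiece : ∀ l, PdLE (ModuleCat.of A (Zl l)) (Finset.univ.sup cf) := by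
    intro l
    let il : Zl l →ₗ[A] Z :=
      (eZ.symm : (Π l, Zl l) →ₗ[A] Z) ∘ₗ LinearMap.single A (fun l => Zl l) l
    let pl : Z →ₗ[A] Zl l := LinearMap.proj l ∘ₗ (eZ : Z →ₗ[A] (Π l, Zl l))
    have hpl : pl ∘ₗ il = LinearMap.id := by
      ext x
      simp [il, pl]
    have hm' : PdLE (ModuleCat.of A (Zl l)) m := hm.of_retract il pl hpl
    have hcomp : (pl ∘ₗ p) ∘ₗ (i ∘ₗ il) = LinearMap.id := by
      ext x
      have h1 := congrArg (fun ψ : Z →ₗ[A] Z => ψ (il x)) hpi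
      have h2 := congrArg (fun ψ : Zl l →ₗ[A] Zl l => ψ x) hpl
      simp only [LinearMap.comp_apply, LinearMap.id_apply] at h1 h2 ⊢
      rw [h1, h2]
    rcases (hZl l).retract_of_prod (i ∘ₗ il) (pl ∘ₗ p) hcomp with ⟨i₁, p₁, h₁⟩ | ⟨i₂, p₂, h₂⟩
    · obtain ⟨x, i₃, p₃, h₃⟩ := (hZl l).retract_of_pi (fun x => Ω (μ x)) i₁ p₁ h₁
      obtain ⟨e⟩ := he (μ x)
      have hcomp2 : (p₃ ∘ₗ (e.symm : (Π k, D (μ x) k) →ₗ[A] Ω (μ x))) ∘ₗ
          ((e : Ω (μ x) →ₗ[A] (Π k, D (μ x) k)) ∘ₗ i₃) = LinearMap.id := by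
        ext z
        have := congrArg (fun ψ : Zl l →ₗ[A] Zl l => ψ z) h₃
        simpa using this
      obtain ⟨k, i₄, p₄, h₄⟩ := (hZl l).retract_of_pi (fun k => D (μ x) k) _ _ hcomp2
      have hnt := (hZl l).1
      have hbij := (hD (μ x) k).bijective_of_retract i₄ p₄ h₄
      let e' : Zl l ≃ₗ[A] D (μ x) k := LinearEquiv.ofBijective i₄ hbij
      have hDm : PdLE (ModuleCat.of A (D (μ x) k)) m := hm'.of_equiv e'.symm
      have hex : ∃ m, PdLE (ModuleCat.of A (D (μ x) k)) m := ⟨m, hDm⟩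
      have hc : cf ⟨μ x, k⟩ = Nat.find hex := dif_pos hex
      have h5 : PdLE (ModuleCat.of A (D (μ x) k)) (cf ⟨μ x, k⟩) := by
        rw [hc]
        exact Nat.find_spec hex
      have h6 : cf ⟨μ x, k⟩ ≤ Finset.univ.sup cf := Finset.le_sup (Finset.mem_univ _)
      exact (h5.mono h6).of_equiv e'
    · have hproj : Module.Projective A (Zl l) := Module.Projective.of_split i₂ p₂ h₂
      exact pdLE_of_projective (Z := ModuleCat.of A (Zl l)) hproj _
  intro N j hj z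
  have hsum : ∑ l, ((eZ.symm : (Π l, Zl l) →ₗ[A] Z) ∘ₗ LinearMap.single A (fun l => Zl l) l) ∘ₗ
      (LinearMap.proj l ∘ₗ (eZ : Z →ₗ[A] (Π l, Zl l))) = LinearMap.id := by
    ext x
    simp only [LinearMap.sum_apply, LinearMap.comp_apply, LinearMap.proj_apply,
      LinearMap.single_apply, LinearEquiv.coe_coe, LinearMap.id_apply]
    rw [← map_sum, Finset.univ_sum_single, eZ.symm_apply_apply]
  have hz : z = pull (LinearMap.id : Z →ₗ[A] Z) z := (pull_id z).symm
  rw [hz, ← hsum, pull_sum]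
  apply Finset.sum_eq_zero
  intro l _
  rw [pull_comp]
  have h0 := hpiece l N j hj (pull ((eZ.symm : (Π l, Zl l) →ₗ[A] Z) ∘ₗ
    LinearMap.single A (fun l => Zl l) l) z)
  rw [h0, pull_zero_right]

/-! ### Powers of a finite family of modules and the stabilising chain of subgroups -/

section Group

variable {J : Type} (T : J → ModuleCat.{u} A)

/-- The direct sum of the modules `T (κ x)`, `x : ι`. -/
abbrev Tpow {ι : Type} (κ : ι → J) : ModuleCat.{u} A := ModuleCat.of A (Π x : ι, T (κ x))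

/-- The multiplicity vector of a labelling. -/
noncomputable def cnt {ι : Type} [Fintype ι] (κ : ι → J) : J → ℤ := by
  classical exact fun j => ∑ x : ι, if κ x = j then 1 else 0

/-- `Rel T m κ κ'`: the `m`-th syzygies of the direct sums given by the labellings `κ` and `κ'`
are stably isomorphic. -/
def Rel (m : ℕ) {ι ι' : Type} (κ : ι → J) (κ' : ι' → J) : Prop :=
  ∃ K L : ModuleCat.{u} A, IsSyz m (Tpow T κ) K ∧ IsSyz m (Tpow T κ') L ∧ StableIso K L

theorem tpow_finite (hT : ∀ j, Module.Finite A (T j)) {ι : Type} [Fintype ι] (κ : ι → J) :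
    Module.Finite A (Tpow T κ) := by
  have := fun x => hT (κ x)
  exact Module.Finite.pi

theorem rel_refl [IsNoetherianRing A] (hT : ∀ j, Module.Finite A (T j)) (m : ℕ) {ι : Type}
    [Fintype ι] (κ : ι → J) : Rel T m κ κ := by
  obtain ⟨K, hK, -⟩ := exists_isSyz m (Tpow T κ) (tpow_finite T hT κ)
  exact ⟨K, K, hK, hK, StableIso.refl K⟩

variable {T}

theorem Rel.symm {m : ℕ} {ι ι' : Type} {κ : ι → J} {κ' : ι' → J} (h : Rel T m κ κ') :
    Rel T m κ' κ := by
  obtain ⟨K, L, hK, hL, hs⟩ := h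
  exact ⟨L, K, hL, hK, hs.symm⟩

/-- The direct sum over a disjoint union is the product of the direct sums. -/
noncomputable def tpowSumEquiv (T : J → ModuleCat.{u} A) {ι₁ ι₂ : Type} (κ₁ : ι₁ → J)
    (κ₂ : ι₂ → J) :
    (Π x : ι₁ ⊕ ι₂, T (Sum.elim κ₁ κ₂ x)) ≃ₗ[A] ((Π x, T (κ₁ x)) × (Π x, T (κ₂ x))) :=
  LinearEquiv.sumPiEquivProdPi A ι₁ ι₂ (fun x => T (Sum.elim κ₁ κ₂ x))

theorem Rel.sum {m : ℕ} {ι₁ ι₁' ι₂ ι₂' : Type} {κ₁ : ι₁ → J} {κ₁' : ι₁' → J} {κ₂ : ι₂ → J}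
    {κ₂' : ι₂' → J} (h₁ : Rel T m κ₁ κ₁') (h₂ : Rel T m κ₂ κ₂') :
    Rel T m (Sum.elim κ₁ κ₂) (Sum.elim κ₁' κ₂') := by
  obtain ⟨K₁, L₁, hK₁, hL₁, hs₁⟩ := h₁
  obtain ⟨K₂, L₂, hK₂, hL₂, hs₂⟩ := h₂
  refine ⟨ModuleCat.of A (K₁ × K₂), ModuleCat.of A (L₁ × L₂), ?_, ?_, hs₁.prod hs₂⟩
  · exact (hK₁.prod hK₂).of_equiv_left (tpowSumEquiv T κ₁ κ₂).symm
  · exact (hL₁.prod hL₂).of_equiv_left (tpowSumEquiv T κ₁' κ₂').symm

theorem Rel.succ [IsNoetherianRing A] (hT : ∀ j, Module.Finite A (T j)) {m : ℕ} {ι ι' : Type}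
    [Fintype ι] [Fintype ι'] {κ : ι → J} {κ' : ι' → J} (h : Rel T m κ κ') :
    Rel T (m + 1) κ κ' := by
  obtain ⟨K, L, hK, hL, hs⟩ := h
  have hKf := hK.finite (tpow_finite T hT κ)
  have hLf := hL.finite (tpow_finite T hT κ')
  obtain ⟨K₁, hK₁, -⟩ := exists_isSyz 1 K hKf
  obtain ⟨L₁, hL₁, -⟩ := exists_isSyz 1 L hLf
  have h1 := hK.trans 1 hK₁
  have h2 := hL.trans 1 hL₁
  rw [Nat.add_comm] at h1 h2
  exact ⟨K₁, L₁, h1, h2, hs.isSyz hK₁ hL₁⟩

theorem Rel.mono [IsNoetherianRing A] (hT : ∀ j, Module.Finite A (T j)) {m m' : ℕ}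
    (hmm : m ≤ m') {ι ι' : Type} [Fintype ι] [Fintype ι'] {κ : ι → J} {κ' : ι' → J}
    (h : Rel T m κ κ') : Rel T m' κ κ' := by
  induction m', hmm using Nat.le_induction with
  | base => exact h
  | succ k _ ih => exact ih.succ hT

theorem cnt_sum_elim {ι₁ ι₂ : Type} [Fintype ι₁] [Fintype ι₂] (κ₁ : ι₁ → J) (κ₂ : ι₂ → J) :
    cnt (Sum.elim κ₁ κ₂) = cnt κ₁ + cnt κ₂ := by
  funext j
  simp only [cnt, Fintype.sum_sum_type, Sum.elim_inl, Sum.elim_inr, Pi.add_apply]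
  rfl

theorem exists_equiv_of_cnt_eq {ι ι' : Type} [Fintype ι] [Fintype ι'] (κ : ι → J) (κ' : ι' → J)
    (h : cnt κ = cnt κ') : ∃ e : ι ≃ ι', ∀ x, κ' (e x) = κ x := by
  classical
  have hcard : ∀ j, Fintype.card {x // κ x = j} = Fintype.card {x // κ' x = j} := by
    intro j
    have := congrFun h j
    simp only [cnt] at this
    rw [Fintype.card_subtype, Fintype.card_subtype, Finset.card_filter, Finset.card_filter]
    exact_mod_cast this
  let e : ι ≃ ι' := (Equiv.sigmaFiberEquiv κ).symm.trans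
    ((Equiv.sigmaCongrRight (fun j => Fintype.equivOfCardEq (hcard j))).trans
      (Equiv.sigmaFiberEquiv κ'))
  exact ⟨e, fun x => ((Fintype.equivOfCardEq (hcard (κ x))) ⟨x, rfl⟩).2⟩

theorem tpow_equiv_of_cnt_eq (T : J → ModuleCat.{u} A) {ι ι' : Type} [Fintype ι] [Fintype ι']
    (κ : ι → J) (κ' : ι' → J) (h : cnt κ = cnt κ') :
    Nonempty ((Π x, T (κ x)) ≃ₗ[A] (Π x, T (κ' x))) := by
  obtain ⟨e, he⟩ := exists_equiv_of_cnt_eq κ κ' h
  have hκ : κ = κ' ∘ e := funext fun x => (he x).symm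
  subst hκ
  exact ⟨LinearEquiv.piCongrLeft A (fun x' => T (κ' x')) e⟩

variable (T)

/-- The set of differences of multiplicity vectors of labellings whose `m`-th syzygies are
stably isomorphic. -/
def Gset (m : ℕ) : Set (J → ℤ) :=
  {d | ∃ (ι ι' : Type) (_ : Fintype ι) (_ : Fintype ι') (κ : ι → J) (κ' : ι' → J),
    Rel T m κ κ' ∧ d = cnt κ - cnt κ'}

/-- `Gset T m` is a subgroup. -/
noncomputable def G [IsNoetherianRing A] (hT : ∀ j, Module.Finite A (T j)) (m : ℕ) :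
    AddSubgroup (J → ℤ) where
  carrier := Gset T m
  zero_mem' := ⟨PEmpty, PEmpty, inferInstance, inferInstance, PEmpty.elim, PEmpty.elim,
    rel_refl T hT m _, by simp⟩
  add_mem' := by
    rintro _ _ ⟨ι₁, ι₁', _, _, κ₁, κ₁', h₁, rfl⟩ ⟨ι₂, ι₂', _, _, κ₂, κ₂', h₂, rfl⟩
    exact ⟨ι₁ ⊕ ι₂, ι₁' ⊕ ι₂', inferInstance, inferInstance, Sum.elim κ₁ κ₂, Sum.elim κ₁' κ₂',
      h₁.sum h₂, by rw [cnt_sum_elim, cnt_sum_elim]; abel⟩
  neg_mem' := by
    rintro _ ⟨ι, ι', _, _, κ, κ', h, rfl⟩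
    exact ⟨ι', ι, inferInstance, inferInstance, κ', κ, h.symm, by abel⟩

/-- The chain of subgroups `Gset T m` stabilises. -/
theorem exists_stable [Fintype J] [IsNoetherianRing A] (hT : ∀ j, Module.Finite A (T j)) :
    ∃ n : ℕ, ∀ m, n ≤ m → ∀ d, d ∈ Gset T m → d ∈ Gset T n := by
  let F : ℕ →o Submodule ℤ (J → ℤ) :=
    ⟨fun m => AddSubgroup.toIntSubmodule (G T hT m), by
      intro m m' hmm
      apply AddSubgroup.toIntSubmodule.monotone
      rintro d ⟨ι, ι', _, _, κ, κ', h, rfl⟩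
      exact ⟨ι, ι', inferInstance, inferInstance, κ, κ', h.mono hT hmm, rfl⟩⟩
  obtain ⟨n, hn⟩ := monotone_stabilizes_iff_noetherian.mpr inferInstance F
  refine ⟨n, fun m hm d hd => ?_⟩
  have h1 : d ∈ F m := hd
  rw [← hn m hm] at h1
  exact h1

end Group

/-! ### The Igusa-Todorov lemma -/

/-- The Igusa-Todorov lemma for a finite family of finitely generated modules `T_j` over a left
Artinian ring: there is a bound `b` such that every module `C` of finite projective dimension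
which is the cokernel of an injective map between finite direct sums of copies of the `T_j` has
projective dimension at most `b`. -/
theorem core [IsArtinianRing A] {J : Type} [Fintype J] (T : J → ModuleCat.{u} A)
    (hT : ∀ j, Module.Finite A (T j)) :
    ∃ b : ℕ, ∀ (ι ι' : Type) [Fintype ι] [Fintype ι'] (κ : ι → J) (κ' : ι' → J)
      (C : ModuleCat.{u} A) (f : (Π x, T (κ x)) →ₗ[A] (Π x, T (κ' x)))
      (g : (Π x, T (κ' x)) →ₗ[A] C), IsSES f g → (∃ m, PdLE C m) → PdLE C b := by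
  classical
  obtain ⟨n, hn⟩ := exists_stable T hT
  have hsyz := fun j => exists_isSyz n (T j) (hT j)
  choose Ω hΩ hΩf using hsyz
  obtain ⟨c, hc⟩ := exists_pd_bound Ω hΩf
  refine ⟨c + 1 + n, ?_⟩
  intro ι ι' _ _ κ κ' C f g hs hm
  obtain ⟨m, hm⟩ := hm
  have hU : Module.Finite A (Tpow T κ) := tpow_finite T hT κ
  have hW : Module.Finite A (Tpow T κ') := tpow_finite T hT κ'
  have hC : Module.Finite A C := Module.Finite.of_surjective g hs.2.1
  -- Step 1: the syzygies of order `max m n` of the two ends are stably isomorphic.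
  obtain ⟨K₁, K₂, K₃, f', g', hK₁, hK₂, hK₃, hs', hKf₁, hKf₂, hKf₃⟩ :=
    horseshoe (A := A) (max m n) (X₁ := Tpow T κ) (X₂ := Tpow T κ') (X₃ := C) hs hU hW hC
  have hK₃p : Module.Projective A K₃ := by
    apply projective_of_pdLE_zero
    apply hK₃.pdLE_of
    exact hm.mono (by omega)
  obtain ⟨e₁⟩ := exists_equiv_ker_prod g' hs'.2.1
  let e₂ : K₂ ≃ₗ[A] (K₁ × K₃) :=
    e₁.trans (LinearEquiv.prodCongr hs'.kerEquiv.symm (LinearEquiv.refl A K₃))
  have hst : StableIso K₁ K₂ :=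
    ⟨K₃, ModuleCat.of A PUnit.{u + 1}, hK₃p, hKf₃, inferInstance, inferInstance,
      ⟨e₂.symm.trans LinearEquiv.prodUnique.symm⟩⟩
  have hmem : cnt κ - cnt κ' ∈ Gset T (max m n) :=
    ⟨ι, ι', inferInstance, inferInstance, κ, κ', ⟨K₁, K₂, hK₁, hK₂, hst⟩, rfl⟩
  obtain ⟨ι₁, ι₁', hι₁, hι₁', κ₁, κ₁', hrel₁, hcnt⟩ := hn (max m n) (le_max_right m n) _ hmem
  -- Step 2: regroup and pass to the stable level `n`.
  have hc1 : cnt (Sum.elim κ κ₁') = cnt (Sum.elim κ₁ κ') := by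
    rw [cnt_sum_elim, cnt_sum_elim]
    exact sub_eq_sub_iff_add_eq_add.mp hcnt
  have hc2 : cnt (Sum.elim κ' κ₁') = cnt (Sum.elim κ₁' κ') := by
    rw [cnt_sum_elim, cnt_sum_elim, add_comm]
  obtain ⟨E₁⟩ := tpow_equiv_of_cnt_eq T _ _ hc1
  obtain ⟨E₂⟩ := tpow_equiv_of_cnt_eq T _ _ hc2
  obtain ⟨KK, LL, hKK, hLL, hstKL⟩ := hrel₁.sum (rel_refl T hT n κ')
  have hs₂ : IsSES (f.prodMap (LinearMap.id : (Π x, T (κ₁' x)) →ₗ[A] (Π x, T (κ₁' x))))
      (g ∘ₗ LinearMap.fst A (Π x, T (κ' x)) (Π x, T (κ₁' x))) := hs.prod_id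
  have hU' : Module.Finite A (ModuleCat.of A ((Π x, T (κ x)) × (Π x, T (κ₁' x)))) := by
    have h1 : Module.Finite A (Π x, T (κ x)) := hU
    have h2 : Module.Finite A (Π x, T (κ₁' x)) := tpow_finite T hT κ₁'
    exact Module.Finite.prod
  have hW' : Module.Finite A (ModuleCat.of A ((Π x, T (κ' x)) × (Π x, T (κ₁' x)))) := by
    have h1 : Module.Finite A (Π x, T (κ' x)) := hW
    have h2 : Module.Finite A (Π x, T (κ₁' x)) := tpow_finite T hT κ₁'
    exact Module.Finite.prod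
  obtain ⟨K₁', K₂', K₃', f'', g'', hK₁', hK₂', hK₃', hs'', hKf₁', hKf₂', hKf₃'⟩ :=
    horseshoe (A := A) n (X₁ := ModuleCat.of A ((Π x, T (κ x)) × (Π x, T (κ₁' x))))
      (X₂ := ModuleCat.of A ((Π x, T (κ' x)) × (Π x, T (κ₁' x)))) (X₃ := C) hs₂ hU' hW' hC
  have h1 : IsSyz n (Tpow T (Sum.elim κ₁ κ')) K₁' :=
    hK₁'.of_equiv_left ((tpowSumEquiv T κ κ₁').symm.trans E₁)
  have h2 : IsSyz n (Tpow T (Sum.elim κ₁' κ')) K₂' :=
    hK₂'.of_equiv_left ((tpowSumEquiv T κ' κ₁').symm.trans E₂)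
  have hst' : StableIso K₁' K₂' := ((h1.stableIso hKK).trans hstKL).trans (hLL.stableIso h2)
  have hK₃'pd : PdLE K₃' m := hK₃'.pdLE_of (hm.mono (by omega))
  -- Step 3: the Fitting step.
  obtain ⟨Z, iZ, pZ, hZ, hZf, hZm, hZc⟩ := fitting_step hs'' hKf₁' hst' m hK₃'pd
  have h3 : IsSyz n (Tpow T (Sum.elim κ κ₁')) K₁' :=
    hK₁'.of_equiv_left (tpowSumEquiv T κ κ₁').symm
  have h4 : IsSyz n (Tpow T (Sum.elim κ κ₁'))
      (ModuleCat.of A (Π x, Ω (Sum.elim κ κ₁' x))) :=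
    IsSyz.pi (fun x => T (Sum.elim κ κ₁' x)) (fun x => Ω (Sum.elim κ κ₁' x)) (fun x => hΩ _)
  obtain ⟨P₁, P₂, hP₁, hP₁f, hP₂, hP₂f, ⟨E₃⟩⟩ := h3.stableIso h4
  have hret : IsRetract A Z ((Π x, Ω (Sum.elim κ κ₁' x)) × P₂) := by
    refine ⟨(E₃ : (K₁' × P₁) →ₗ[A] _) ∘ₗ LinearMap.inl A K₁' P₁ ∘ₗ iZ,
      pZ ∘ₗ LinearMap.fst A K₁' P₁ ∘ₗ (E₃.symm : _ →ₗ[A] (K₁' × P₁)), ?_⟩
    ext z
    have := congrArg (fun ψ : Z →ₗ[A] Z => ψ z) hZ
    simpa using this
  have hZc' : PdLE Z c := hc Z hZf ⟨m, hZm⟩ _ (Sum.elim κ κ₁') P₂ hP₂ hret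
  exact hK₃'.pdLE_to (hZc c hZc')

/-! ### Modules in `add V` -/

/-- Over a left Artinian ring, a module in `add V` is a finite direct sum of copies of the
indecomposable summands of `V`. -/
theorem exists_tpow_equiv [IsArtinianRing A] (V : ModuleCat.{u} A) {J : Type} [Fintype J]
    (D : J → Submodule A V) (hD : ∀ k, Indec A (D k)) (eV : V ≃ₗ[A] (Π k, D k))
    (hV : Module.Finite A V) (U : ModuleCat.{u} A) (hU : InAdd V U) :
    ∃ (ι : Type) (_ : Fintype ι) (κ : ι → J), Nonempty (U ≃ₗ[A] (Π x, D (κ x))) := by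
  classical
  obtain ⟨m, i, p, hpi⟩ := hU
  have hpi' : ∀ x, p (i x) = x := fun x => congrArg (fun ψ : U →ₗ[A] U => ψ x) hpi
  have hUf : Module.Finite A U :=
    Module.Finite.of_surjective p (fun x => ⟨i x, hpi' x⟩)
  obtain ⟨ι, hι, Z, hZ, ⟨eU⟩⟩ := exists_indec_decomp (A := A) U
  have key : ∀ l, ∃ k, Nonempty (Z l ≃ₗ[A] D k) := by
    intro l
    let il : Z l →ₗ[A] U :=
      (eU.symm : (Π l, Z l) →ₗ[A] U) ∘ₗ LinearMap.single A (fun l => Z l) l
    let pl : U →ₗ[A] Z l := LinearMap.proj l ∘ₗ (eU : U →ₗ[A] (Π l, Z l))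
    have hpl : ∀ x, pl (il x) = x := fun x => by simp [il, pl]
    have hcomp : (pl ∘ₗ p) ∘ₗ (i ∘ₗ il) = LinearMap.id := by
      ext x
      simp only [LinearMap.comp_apply, LinearMap.id_apply]
      rw [hpi', hpl]
    obtain ⟨x, i₁, p₁, h₁⟩ := (hZ l).retract_of_pi (fun _ : Fin m => (V : Type u)) _ _ hcomp
    have hcomp2 : (p₁ ∘ₗ (eV.symm : (Π k, D k) →ₗ[A] V)) ∘ₗ
        ((eV : V →ₗ[A] (Π k, D k)) ∘ₗ i₁) = LinearMap.id := by
      ext z
      have := congrArg (fun ψ : Z l →ₗ[A] Z l => ψ z) h₁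
      simpa using this
    obtain ⟨k, i₂, p₂, h₂⟩ := (hZ l).retract_of_pi (fun k => D k) _ _ hcomp2
    have hnt := (hZ l).1
    exact ⟨k, ⟨LinearEquiv.ofBijective i₂ ((hD k).bijective_of_retract i₂ p₂ h₂)⟩⟩
  choose κ hκ using key
  exact ⟨ι, hι, κ, ⟨eU.trans (LinearEquiv.piCongrRight (fun l => (hκ l).some))⟩⟩

theorem InAdd.finite {V U : ModuleCat.{u} A} (hV : Module.Finite A V) (hU : InAdd V U) :
    Module.Finite A U := by
  obtain ⟨m, i, p, hpi⟩ := hU
  have hpi' : ∀ x, p (i x) = x := fun x => congrArg (fun ψ : U →ₗ[A] U => ψ x) hpi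
  exact Module.Finite.of_surjective p (fun x => ⟨i x, hpi' x⟩)

/-- The Igusa-Todorov lemma for `add V`: over a left Artinian ring, for a finitely generated
module `V` there is a bound `b` such that every module `C` of finite projective dimension which
is the cokernel of an injective map between modules in `add V` has projective dimension at most
`b`. -/
theorem add_bound [IsArtinianRing A] (V : ModuleCat.{u} A) (hV : Module.Finite A V) :
    ∃ b : ℕ, ∀ (U W C : ModuleCat.{u} A) (f : U →ₗ[A] W) (g : W →ₗ[A] C), IsSES f g →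
      InAdd V U → InAdd V W → (∃ m, PdLE C m) → PdLE C b := by
  obtain ⟨J, hJ, D, hD, ⟨eV⟩⟩ := exists_indec_decomp (A := A) V
  obtain ⟨b, hb⟩ := core (fun k => ModuleCat.of A (D k)) (fun k => inferInstance)
  refine ⟨b, ?_⟩
  intro U W C f g hs hU hW hm
  obtain ⟨ι, hι, κ, ⟨eU⟩⟩ := exists_tpow_equiv V D hD eV hV U hU
  obtain ⟨ι', hι', κ', ⟨eW⟩⟩ := exists_tpow_equiv V D hD eV hV W hW
  exact hb ι ι' κ κ' C _ _ (hs.conj eU eW) hm

/-- Igusa-Todorov algebras have finite finitistic dimension.  Let `A` be a left Artinian ring,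
`n` a natural number and `V` a finitely generated module such that every finitely generated
module `M` of finite projective dimension has an `n`-th syzygy `K` which is the cokernel of an
injective map between modules in `add V`.  Then there is `d` such that every finitely generated
module of finite projective dimension has projective dimension at most `d`. -/
theorem it_algebra_bound [IsArtinianRing A] (n : ℕ) (V : ModuleCat.{u} A)
    (hV : Module.Finite A V)
    (h : ∀ M : ModuleCat.{u} A, Module.Finite A M → (∃ m, HasProjectiveDimensionLE M m) →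
      ∃ (K V₁ V₀ : ModuleCat.{u} A) (i : V₁ →ₗ[A] V₀) (p : V₀ →ₗ[A] K),
        IsSyz n M K ∧ IsSES i p ∧ InAdd V V₁ ∧ InAdd V V₀) :
    ∃ d : ℕ, ∀ M : ModuleCat.{u} A, Module.Finite A M → (∃ m, HasProjectiveDimensionLE M m) →
      HasProjectiveDimensionLE M d := by
  obtain ⟨b, hb⟩ := add_bound V hV
  refine ⟨b + n, ?_⟩
  intro M hM hm
  obtain ⟨K, V₁, V₀, i, p, hK, hs, h1, h0⟩ := h M hM hm
  obtain ⟨m, hm⟩ := hm
  rw [← pdLE_iff] at hm ⊢
  have hKm : PdLE K m := hK.pdLE_of (hm.mono (by omega))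
  exact hK.pdLE_to (hb V₁ V₀ K i p hs h1 h0 ⟨m, hKm⟩)

end Vale.Agent.Helper2.IT
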