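import Mathlib
import Vale.Agent.Helper2.ITDefs
import Vale.Agent.Helper2.Indec
import Vale.Agent.Helper2.Syz
import Vale.Agent.Helper2.ITFitting
import Vale.Agent.Helper2.ITMain

/-!
# Xi's theorem on ideals with `I J rad(A) = 0` (helper module for P176)

Let `A` be a left Artinian ring and `I`, `J` left ideals with `I J rad(A) = 0` such that the
finitely generated modules annihilated by `I` lie in `add V₁` and those annihilated by `J` lie
in `add V₂` for finitely generated modules `V₁`, `V₂`.  Then the finitistic dimension of `A` is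
finite.

Ingredients: projective presentations whose kernel lies in the radical (obtained by minimality
and Fitting's lemma), the rotation of a short exact sequence along a projective presentation of
its right end, and the Igusa-Todorov lemma `core`.
-/

universe u

open Function CategoryTheory Abelian

namespace Vale.Agent.Helper2.IT

variable {A : Type u} [Ring A]

/-! ### Modules annihilated by the radical are semisimple -/

theorem isSemisimpleModule_of_jacobson_torsion [IsArtinianRing A] (Y : Type u) [AddCommGroup Y]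
    [Module A Y] (h : Module.IsTorsionBySet A Y (Ring.jacobson A : Set A)) :
    IsSemisimpleModule A Y := by
  let _ := h.module
  exact (h.semilinearMap.isSemisimpleModule_iff_of_bijective Function.bijective_id).2
    inferInstance

/-- Over a left Artinian ring, an element outside `rad(A) Q` generates, together with a suitable
proper submodule, the whole module `Q`. -/
theorem exists_proper_sup_eq_top [IsArtinianRing A] (Q : Type u) [AddCommGroup Q] [Module A Q]
    (x : Q) (hx : x ∉ Ring.jacobson A • (⊤ : Submodule A Q)) :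
    ∃ L : Submodule A Q, L ≠ ⊤ ∧ ∀ y : Q, ∃ a : A, ∃ l ∈ L, y = a • x + l := by
  set N : Submodule A Q := Ring.jacobson A • (⊤ : Submodule A Q) with hN
  have htors : Module.IsTorsionBySet A (Q ⧸ N) (Ring.jacobson A : Set A) := by
    rw [Module.isTorsionBySet_quotient_iff]
    intro y r hr
    exact Submodule.smul_mem_smul hr Submodule.mem_top
  have hss : IsSemisimpleModule A (Q ⧸ N) := isSemisimpleModule_of_jacobson_torsion _ htors
  obtain ⟨Lb, hLb⟩ := exists_isCompl (Submodule.span A {N.mkQ x})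
  refine ⟨Lb.comap N.mkQ, ?_, ?_⟩
  · intro htop
    have hx1 : N.mkQ x ∈ Lb := by
      have : x ∈ Lb.comap N.mkQ := by rw [htop]; exact Submodule.mem_top
      exact this
    have hx2 : N.mkQ x ∈ Submodule.span A {N.mkQ x} := Submodule.mem_span_singleton_self _
    have hx3 : N.mkQ x = 0 := Submodule.disjoint_def.mp hLb.disjoint _ hx2 hx1
    apply hx
    exact (Submodule.Quotient.mk_eq_zero N).mp hx3
  · intro y
    have hy : N.mkQ y ∈ Submodule.span A {N.mkQ x} ⊔ Lb := by
      rw [hLb.sup_eq_top]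
      exact Submodule.mem_top
    obtain ⟨u, hu, v, hv, huv⟩ := Submodule.mem_sup.mp hy
    obtain ⟨a, rfl⟩ := Submodule.mem_span_singleton.mp hu
    refine ⟨a, y - a • x, ?_, by abel⟩
    change N.mkQ (y - a • x) ∈ Lb
    rw [map_sub, map_smul, ← huv]
    simpa using hv

/-! ### Presentations with kernel in the radical -/

/-- Over a left Artinian ring every finitely generated module `M` has a projective presentation
`P → M` by a finitely generated projective module whose kernel is contained in `rad(A) P`. -/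
theorem exists_min_presentation [IsArtinianRing A] (M : ModuleCat.{u} A)
    (hM : Module.Finite A M) :
    ∃ (P : ModuleCat.{u} A) (p : P →ₗ[A] M), Module.Projective A P ∧ Module.Finite A P ∧
      Surjective p ∧ ∀ y : P, p y = 0 → y ∈ Ring.jacobson A • (⊤ : Submodule A P) := by
  obtain ⟨m, π, hπ⟩ := Module.Finite.exists_fin' A M
  let S : Set (Submodule A (Fin m → A)) :=
    {Q | (∃ r : (Fin m → A) →ₗ[A] Q, ∀ q : Q, r q = q) ∧ ∀ z : M, ∃ q ∈ Q, π q = z}
  have hne : S.Nonempty := by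
    refine ⟨⊤, ⟨LinearMap.codRestrict ⊤ LinearMap.id (fun _ => Submodule.mem_top),
      fun q => Subtype.ext rfl⟩, fun z => ?_⟩
    obtain ⟨q, hq⟩ := hπ z
    exact ⟨q, Submodule.mem_top, hq⟩
  obtain ⟨Q, ⟨⟨r, hr⟩, hsurj⟩, hmin⟩ :=
    WellFounded.has_min (wellFounded_lt (α := Submodule A (Fin m → A))) S hne
  let p : Q →ₗ[A] M := π ∘ₗ Q.subtype
  have hproj : Module.Projective A Q :=
    Module.Projective.of_split Q.subtype r (by ext q; simp [hr])
  have hp : Surjective p := by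
    intro z
    obtain ⟨q, hq, hqz⟩ := hsurj z
    exact ⟨⟨q, hq⟩, hqz⟩
  refine ⟨ModuleCat.of A Q, p, hproj, inferInstance, hp, ?_⟩
  intro y hy
  by_contra hcon
  obtain ⟨L, hLtop, hL⟩ := exists_proper_sup_eq_top (A := A) Q y hcon
  -- the restriction of `p` to `L` is still surjective
  have hpL : Surjective (p ∘ₗ L.subtype) := by
    intro z
    obtain ⟨q, rfl⟩ := hp z
    obtain ⟨a, l, hl, rfl⟩ := hL q
    refine ⟨⟨l, hl⟩, ?_⟩
    simp [hy]
  obtain ⟨h, hh⟩ := Module.projective_lifting_property (p ∘ₗ L.subtype) p hpL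
  have hh' : ∀ q : Q, p (h q : Q) = p q := fun q => congrArg (fun ψ : Q →ₗ[A] M => ψ q) hh
  let hF : (Fin m → A) →ₗ[A] (Fin m → A) := Q.subtype ∘ₗ L.subtype ∘ₗ h ∘ₗ r
  have hFval : ∀ v, hF v = ((h (r v) : Q) : Fin m → A) := fun v => rfl
  have hFQ : ∀ q ∈ Q, hF q ∈ Q ∧ π (hF q) = π q := by
    intro q hq
    refine ⟨(h (r q) : Q).2, ?_⟩
    have h1 : r q = ⟨q, hq⟩ := hr ⟨q, hq⟩
    rw [hFval, h1]
    exact hh' ⟨q, hq⟩
  have hFpow : ∀ (k : ℕ) (q : Fin m → A), q ∈ Q → (hF ^ k) q ∈ Q ∧ π ((hF ^ k) q) = π q := by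
    intro k
    induction k with
    | zero =>
      intro q hq
      exact ⟨by simpa using hq, by simp⟩
    | succ k ih =>
      intro q hq
      rw [pow_succ', Module.End.mul_apply]
      obtain ⟨h1, h2⟩ := ih q hq
      obtain ⟨h3, h4⟩ := hFQ _ h1
      exact ⟨h3, by rw [h4, h2]⟩
  obtain ⟨t, ht, ht1⟩ := ((LinearMap.eventually_isCompl_ker_pow_range_pow hF).and
    (Filter.eventually_ge_atTop 1)).exists
  let Q₁ : Submodule A (Fin m → A) := LinearMap.range (hF ^ t)
  have hQ₁L : ∀ v ∈ Q₁, ∃ l : L, ((l : Q) : Fin m → A) = v := by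
    rintro v ⟨w, rfl⟩
    obtain ⟨k, rfl⟩ : ∃ k, t = k + 1 := ⟨t - 1, by omega⟩
    rw [pow_succ', Module.End.mul_apply]
    exact ⟨h (r ((hF ^ k) w)), rfl⟩
  have hQ₁S : Q₁ ∈ S := by
    refine ⟨⟨Q₁.projectionOnto (LinearMap.ker (hF ^ t)) ht.symm,
      fun q => Submodule.projectionOnto_apply_left ht.symm q⟩, fun z => ?_⟩
    obtain ⟨q, hq, rfl⟩ := hsurj z
    exact ⟨(hF ^ t) q, LinearMap.mem_range_self _ q, (hFpow t q hq).2⟩
  have hlt : Q₁ < Q := by
    refine lt_of_le_of_ne ?_ ?_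
    · intro v hv
      obtain ⟨l, rfl⟩ := hQ₁L v hv
      exact (l : Q).2
    · intro heq
      apply hLtop
      rw [eq_top_iff]
      intro q _
      have hq : (q : Fin m → A) ∈ Q₁ := by rw [heq]; exact q.2
      obtain ⟨l, hl⟩ := hQ₁L _ hq
      have : (l : Q) = q := Subtype.ext hl
      rw [← this]
      exact l.2
  exact hmin Q₁ hQ₁S hlt

/-! ### Rotation of a short exact sequence -/

/-- Rotation: from short exact sequences `0 → U → Y → W → 0` and `0 → L → P → W → 0` with `P`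
projective one gets a short exact sequence `0 → L → U × P → Y → 0`. -/
theorem IsSES.rotate {U Y W L P : Type u} [AddCommGroup U] [Module A U] [AddCommGroup Y]
    [Module A Y] [AddCommGroup W] [Module A W] [AddCommGroup L] [Module A L] [AddCommGroup P]
    [Module A P] [Module.Projective A P] {f : U →ₗ[A] Y} {g : Y →ₗ[A] W} (h : IsSES f g)
    {i : L →ₗ[A] P} {π : P →ₗ[A] W} (h' : IsSES i π) :
    ∃ (j : L →ₗ[A] U × P) (q : U × P →ₗ[A] Y), IsSES j q := by
  obtain ⟨hf, hg, hex⟩ := h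
  obtain ⟨hi, hπ, hex'⟩ := h'
  obtain ⟨σ, hσ⟩ := Module.projective_lifting_property g π hg
  have hσ' : ∀ x, g (σ x) = π x := fun x => congrArg (fun ψ : P →ₗ[A] W => ψ x) hσ
  have hπi : ∀ l, π (i l) = 0 := fun l => (hex' (i l)).mpr ⟨l, rfl⟩
  have hgf : ∀ u, g (f u) = 0 := fun u => (hex (f u)).mpr ⟨u, rfl⟩
  let e : U ≃ₗ[A] LinearMap.range f := LinearEquiv.ofInjective f hf
  let τ : L →ₗ[A] LinearMap.range f := LinearMap.codRestrict (LinearMap.range f) (σ ∘ₗ i)
    (fun l => by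
      have : g (σ (i l)) = 0 := by rw [hσ', hπi]
      exact (hex _).mp this)
  let ρ : L →ₗ[A] U := (e.symm : LinearMap.range f →ₗ[A] U) ∘ₗ τ
  have hρ : ∀ l, f (ρ l) = σ (i l) := by
    intro l
    have h1 : e (ρ l) = τ l := e.apply_symm_apply (τ l)
    have h2 : ((e (ρ l) : LinearMap.range f) : Y) = f (ρ l) := LinearEquiv.ofInjective_apply f _
    rw [← h2, h1]
    rfl
  refine ⟨LinearMap.prod (-ρ) i, f.coprod σ, ?_, ?_, ?_⟩
  · intro l l' hll
    exact hi (congrArg Prod.snd hll)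
  · intro y
    obtain ⟨x, hx⟩ := hπ (g y)
    have : g (y - σ x) = 0 := by rw [map_sub, hσ', hx, sub_self]
    obtain ⟨u, hu⟩ := (hex _).mp this
    refine ⟨(u, x), ?_⟩
    simp only [LinearMap.coprod_apply, hu]
    abel
  · rintro ⟨u, x⟩
    simp only [LinearMap.coprod_apply]
    constructor
    · intro hux
      have h1 : π x = 0 := by
        have : g (f u + σ x) = 0 := by rw [hux, map_zero]
        rw [map_add, hgf, zero_add, hσ'] at this
        exact this
      obtain ⟨l, rfl⟩ := (hex' x).mp h1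
      refine ⟨l, ?_⟩
      have h2 : f u = f (-ρ l) := by
        rw [map_neg, hρ]
        exact eq_neg_of_add_eq_zero_left hux
      have h3 : u = -ρ l := hf h2
      simp [h3]
    · rintro ⟨l, hl⟩
      have h1 : u = -ρ l := (congrArg Prod.fst hl).symm
      have h2 : x = i l := (congrArg Prod.snd hl).symm
      rw [h1, h2, map_neg, hρ, neg_add_cancel]

/-! ### Xi's theorem -/

/-- Let `A` be a left Artinian ring and `I`, `J` left ideals with `I J rad(A) = 0`.  Assume that
every finitely generated module annihilated by `I` lies in `add V₁` and every finitely generated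
module annihilated by `J` lies in `add V₂`, for some finitely generated modules `V₁`, `V₂`.
Then the finitistic dimension of `A` is finite. -/
theorem xi_bound [IsArtinianRing A] (I J : Ideal A)
    (hIJ : ∀ a ∈ I, ∀ b ∈ J, ∀ c ∈ Ring.jacobson A, a * b * c = 0)
    (V₁ V₂ : ModuleCat.{u} A) (hV₁ : Module.Finite A V₁) (hV₂ : Module.Finite A V₂)
    (h₁ : ∀ M : ModuleCat.{u} A, Module.Finite A M → (∀ a ∈ I, ∀ x : M, a • x = 0) →
      InAdd V₁ M)
    (h₂ : ∀ M : ModuleCat.{u} A, Module.Finite A M → (∀ b ∈ J, ∀ x : M, b • x = 0) →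
      InAdd V₂ M) :
    ∃ d : ℕ, ∀ M : ModuleCat.{u} A, Module.Finite A M → (∃ m, HasProjectiveDimensionLE M m) →
      HasProjectiveDimensionLE M d := by
  classical
  obtain ⟨J₁, hJ₁, D₁, hD₁, ⟨eV₁⟩⟩ := exists_indec_decomp (A := A) V₁
  obtain ⟨J₂, hJ₂, D₂, hD₂, ⟨eV₂⟩⟩ := exists_indec_decomp (A := A) V₂
  have hpres : ∀ k : J₂, ∃ (P L : ModuleCat.{u} A) (i : L →ₗ[A] P) (p : P →ₗ[A] D₂ k),
      Module.Projective A P ∧ Module.Finite A P ∧ IsSES i p := by
    intro k
    obtain ⟨m, f, hf⟩ := Module.Finite.exists_fin' A (D₂ k)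
    exact ⟨ModuleCat.of A (Fin m → A), ModuleCat.of A (LinearMap.ker f),
      (LinearMap.ker f).subtype, f, inferInstance, inferInstance, isSES_ker f hf⟩
  choose P L i p hP hPf hs using hpres
  let 𝒯 : J₁ ⊕ (J₂ ⊕ J₂) → ModuleCat.{u} A :=
    Sum.elim (fun k => ModuleCat.of A (D₁ k)) (Sum.elim L P)
  have h𝒯 : ∀ j, Module.Finite A (𝒯 j) := by
    rintro (k | k | k)
    · exact inferInstanceAs (Module.Finite A (D₁ k))
    · have hN : IsNoetherian A (P k) := by
        have := hPf k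
        exact isNoetherian_of_isNoetherianRing_of_finite A (P k)
      exact Module.Finite.of_injective (i k) (hs k).1
    · exact hPf k
  obtain ⟨b, hb⟩ := core 𝒯 h𝒯
  refine ⟨b + 1, ?_⟩
  intro M hM hm
  obtain ⟨m, hm⟩ := hm
  rw [← pdLE_iff] at hm ⊢
  obtain ⟨P₀, p₀, hP₀, hP₀f, hp₀, hker⟩ := exists_min_presentation M hM
  let Ys : Submodule A P₀ := LinearMap.ker p₀
  have hsyz : IsSyz 1 M (ModuleCat.of A Ys) :=
    ⟨P₀, ModuleCat.of A Ys, Ys.subtype, p₀, hP₀, hP₀f, isSES_ker p₀ hp₀,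
      ⟨LinearEquiv.refl A Ys⟩⟩
  have hYm : PdLE (ModuleCat.of A Ys) m := hsyz.pdLE_of (hm.mono (by omega))
  have hIJY : ∀ a ∈ I, ∀ b ∈ J, ∀ y : Ys, (a * b) • y = 0 := by
    intro a ha b hb y
    apply Subtype.ext
    have hy : (y : P₀) ∈ Ring.jacobson A • (⊤ : Submodule A P₀) := hker y y.2
    change (a * b) • (y : P₀) = 0
    refine Submodule.smul_induction_on hy (fun c hc n _ => ?_) (fun x z hx hz => ?_)
    · rw [smul_smul, hIJ a ha b hb c hc, zero_smul]
    · rw [smul_add, hx, hz, add_zero]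
  let Us : Submodule A Ys := J • (⊤ : Submodule A Ys)
  have hIU : ∀ a ∈ I, ∀ x : Us, a • x = 0 := by
    intro a ha x
    apply Subtype.ext
    change a • (x : Ys) = 0
    refine Submodule.smul_induction_on x.2 (fun c hc n _ => ?_) (fun x z hx hz => ?_)
    · rw [smul_smul, hIJY a ha c hc]
    · rw [smul_add, hx, hz, add_zero]
  have hJW : ∀ b ∈ J, ∀ x : Ys ⧸ Us, b • x = 0 := by
    intro b hb x
    obtain ⟨y, rfl⟩ := Us.mkQ_surjective x
    rw [← map_smul]
    exact (Submodule.Quotient.mk_eq_zero Us).mpr (Submodule.smul_mem_smul hb Submodule.mem_top)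
  have hfinP₀ : Module.Finite A P₀ := hP₀f
  have hUadd : InAdd V₁ (ModuleCat.of A Us) := h₁ _ inferInstance hIU
  have hWadd : InAdd V₂ (ModuleCat.of A (Ys ⧸ Us)) := h₂ _ inferInstance hJW
  obtain ⟨ι, hι, κ, ⟨eU⟩⟩ := exists_tpow_equiv V₁ D₁ hD₁ eV₁ hV₁ _ hUadd
  obtain ⟨ι', hι', κ', ⟨eW⟩⟩ := exists_tpow_equiv V₂ D₂ hD₂ eV₂ hV₂ _ hWadd
  have hpresW : IsSES
      (LinearMap.pi (fun x => i (κ' x) ∘ₗ LinearMap.proj x) :
        (Π x, L (κ' x)) →ₗ[A] (Π x, P (κ' x)))
      ((eW.symm : (Π x, D₂ (κ' x)) →ₗ[A] (Ys ⧸ Us)) ∘ₗ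
        LinearMap.pi (fun x => p (κ' x) ∘ₗ LinearMap.proj x)) :=
    (isSES_pi (fun x => L (κ' x)) (fun x => P (κ' x)) (fun x => D₂ (κ' x)) (fun x => i (κ' x))
      (fun x => p (κ' x)) (fun x => hs (κ' x))).comp_equiv eW.symm
  have hprojPi : Module.Projective A (Π x, P (κ' x)) :=
    projective_pi (fun x => P (κ' x)) (fun x => hP (κ' x))
  have hsesY : IsSES Us.subtype Us.mkQ :=
    ⟨Subtype.val_injective, Us.mkQ_surjective, LinearMap.exact_subtype_mkQ Us⟩
  obtain ⟨j, q, hjq⟩ := hsesY.rotate hpresW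
  let eMid : (Us × (Π x, P (κ' x))) ≃ₗ[A]
      (Π x : ι ⊕ ι', 𝒯 (Sum.elim (Sum.inl ∘ κ) (Sum.inr ∘ Sum.inr ∘ κ') x)) :=
    (LinearEquiv.prodCongr eU (LinearEquiv.refl A (Π x, P (κ' x)))).trans
      (tpowSumEquiv 𝒯 (Sum.inl ∘ κ) (Sum.inr ∘ Sum.inr ∘ κ')).symm
  have hfin := hb ι' (ι ⊕ ι') (Sum.inr ∘ Sum.inl ∘ κ')
    (Sum.elim (Sum.inl ∘ κ) (Sum.inr ∘ Sum.inr ∘ κ')) (ModuleCat.of A Ys) _ _
    (hjq.conj (LinearEquiv.refl A (Π x, L (κ' x))) eMid) ⟨m, hYm⟩
  exact hsyz.pdLE_to hfin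

end Vale.Agent.Helper2.IT
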