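import Mathlib
import Vale.Agent.Helper2.ITDefs
import Vale.Agent.Helper2.Indec
import Vale.Agent.Helper2.Syz
import Vale.Agent.Helper2.ITFitting
import Vale.Agent.Helper2.ITMain
import Vale.Agent.Helper2.ITXi

/-!
# Radical layers of infinite projective dimension (helper module for P176)

Let `A` be a left Artinian ring with radical `J` and `e` an idempotent such that every simple
module `S` with `e S = 0` has finite projective dimension.  The main result `layer_bound` says:
if `I₁`, `I₂` are two-sided ideals with `e I₁ e I₂ e J e = 0` such that the finitely generated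
modules annihilated by `I₁` (resp. `I₂`) lie in `add V₁` (resp. `add V₂`), then the finitistic
dimension of `A` is finite.  For `e = 1` this is the theorem of Xi on ideals with
`I₁ I₂ J = 0`; for `I₁ = I₂ = J` it is the theorem of Huard, Lanzilotta and Mendoza on algebras
with at most three radical layers of infinite projective dimension (`three_layers_bound`).

The proof shows that such a ring is an Igusa-Todorov algebra and applies `it_algebra_bound`.
-/

universe u

open Function CategoryTheory Abelian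

namespace Vale.Agent.Helper2.IT

variable {A : Type u} [Ring A]

/-! ### The `add`-calculus -/

theorem InAdd.of_retract {V M N : ModuleCat.{u} A} (h : InAdd V M) (i : N →ₗ[A] M)
    (p : M →ₗ[A] N) (hpi : p ∘ₗ i = LinearMap.id) : InAdd V N := by
  obtain ⟨m, j, q, hqj⟩ := h
  refine ⟨m, j ∘ₗ i, p ∘ₗ q, ?_⟩
  ext x
  have h1 : q (j (i x)) = i x := congrArg (fun ψ : M →ₗ[A] M => ψ (i x)) hqj
  have h2 : p (i x) = x := congrArg (fun ψ : N →ₗ[A] N => ψ x) hpi
  simp [h1, h2]

theorem InAdd.of_equiv {V M N : ModuleCat.{u} A} (h : InAdd V M) (e : N ≃ₗ[A] M) : InAdd V N :=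
  h.of_retract (e : N →ₗ[A] M) (e.symm : M →ₗ[A] N) (by ext x; simp)

theorem inAdd_of_fintype {V M : ModuleCat.{u} A} {ι : Type} [Fintype ι] (i : M →ₗ[A] (ι → V))
    (p : (ι → V) →ₗ[A] M) (hpi : p ∘ₗ i = LinearMap.id) : InAdd V M := by
  let e : (ι → V) ≃ₗ[A] (Fin (Fintype.card ι) → V) :=
    LinearEquiv.funCongrLeft A V (Fintype.equivFin ι).symm
  refine ⟨Fintype.card ι, (e : (ι → V) →ₗ[A] (Fin (Fintype.card ι) → V)) ∘ₗ i,
    p ∘ₗ (e.symm : (Fin (Fintype.card ι) → V) →ₗ[A] (ι → V)), ?_⟩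
  ext x
  have h2 : p (i x) = x := congrArg (fun ψ : M →ₗ[A] M => ψ x) hpi
  simp [h2]

theorem InAdd.prod {V M N : ModuleCat.{u} A} (hM : InAdd V M) (hN : InAdd V N) :
    InAdd V (ModuleCat.of A (M × N)) := by
  obtain ⟨m, i, p, hpi⟩ := hM
  obtain ⟨k, j, q, hqj⟩ := hN
  have hpi' : ∀ x, p (i x) = x := fun x => congrArg (fun ψ : M →ₗ[A] M => ψ x) hpi
  have hqj' : ∀ x, q (j x) = x := fun x => congrArg (fun ψ : N →ₗ[A] N => ψ x) hqj
  let e : (Fin m ⊕ Fin k → V) ≃ₗ[A] ((Fin m → V) × (Fin k → V)) :=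
    LinearEquiv.sumArrowLequivProdArrow (Fin m) (Fin k) A V
  refine inAdd_of_fintype (ι := Fin m ⊕ Fin k)
    ((e.symm : ((Fin m → V) × (Fin k → V)) →ₗ[A] (Fin m ⊕ Fin k → V)) ∘ₗ i.prodMap j)
    ((p.prodMap q) ∘ₗ (e : (Fin m ⊕ Fin k → V) →ₗ[A] ((Fin m → V) × (Fin k → V)))) ?_
  apply LinearMap.ext
  rintro ⟨x, y⟩
  simp [hpi', hqj']

theorem InAdd.trans {V W M : ModuleCat.{u} A} (hW : InAdd V W) (hM : InAdd W M) :
    InAdd V M := by
  obtain ⟨m, i, p, hpi⟩ := hW
  obtain ⟨k, j, q, hqj⟩ := hM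
  have hpi' : ∀ x, p (i x) = x := fun x => congrArg (fun ψ : W →ₗ[A] W => ψ x) hpi
  have hqj' : ∀ x, q (j x) = x := fun x => congrArg (fun ψ : M →ₗ[A] M => ψ x) hqj
  let e : (Fin k × Fin m → V) ≃ₗ[A] (Fin k → Fin m → V) := LinearEquiv.curry A V (Fin k) (Fin m)
  refine inAdd_of_fintype (ι := Fin k × Fin m)
    ((e.symm : (Fin k → Fin m → V) →ₗ[A] (Fin k × Fin m → V)) ∘ₗ (i.compLeft (Fin k)) ∘ₗ j)
    (q ∘ₗ (p.compLeft (Fin k)) ∘ₗ (e : (Fin k × Fin m → V) →ₗ[A] (Fin k → Fin m → V))) ?_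
  apply LinearMap.ext
  intro x
  have h1 : (p.compLeft (Fin k)) ((i.compLeft (Fin k)) (j x)) = j x := by
    funext a
    exact hpi' _
  simp only [LinearMap.comp_apply, LinearEquiv.coe_coe, LinearEquiv.apply_symm_apply,
    LinearMap.id_apply]
  rw [h1, hqj']

theorem inAdd_fst (X Y : ModuleCat.{u} A) : InAdd (ModuleCat.of A (X × Y)) X :=
  ⟨1, LinearMap.pi (fun _ => LinearMap.inl A X Y), LinearMap.fst A X Y ∘ₗ LinearMap.proj 0, by
    ext x; simp⟩

theorem inAdd_snd (X Y : ModuleCat.{u} A) : InAdd (ModuleCat.of A (X × Y)) Y :=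
  ⟨1, LinearMap.pi (fun _ => LinearMap.inr A X Y), LinearMap.snd A X Y ∘ₗ LinearMap.proj 0, by
    ext x; simp⟩

theorem inAdd_of_projective (P : ModuleCat.{u} A) (hP : Module.Projective A P)
    (hF : Module.Finite A P) : InAdd (ModuleCat.of A A) P := by
  obtain ⟨m, π, hπ⟩ := Module.Finite.exists_fin' A P
  obtain ⟨s, hs⟩ := Module.projective_lifting_property π LinearMap.id hπ
  exact ⟨m, s, π, hs⟩

theorem InAdd.of_stableIso {V K L : ModuleCat.{u} A} (hA : InAdd V (ModuleCat.of A A))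
    (hL : InAdd V L) (h : StableIso K L) : InAdd V K := by
  obtain ⟨P, Q, hP, hPf, hQ, hQf, ⟨e⟩⟩ := h
  have hQ' : InAdd V Q := hA.trans (inAdd_of_projective Q hQ hQf)
  have h1 : InAdd V (ModuleCat.of A (L × Q)) := hL.prod hQ'
  exact h1.of_retract ((e : (K × P) →ₗ[A] (L × Q)) ∘ₗ LinearMap.inl A K P)
    (LinearMap.fst A K P ∘ₗ (e.symm : (L × Q) →ₗ[A] (K × P))) (by ext x; simp)

/-- Syzygies of modules in `add W` lie in `add (L ⊕ A)` for a syzygy `L` of `W`. -/
theorem InAdd.syz [IsNoetherianRing A] {W X K L : ModuleCat.{u} A} {n : ℕ}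
    (hW : Module.Finite A W) (hX : InAdd W X) (hK : IsSyz n X K) (hL : IsSyz n W L) :
    InAdd (ModuleCat.of A (L × A)) K := by
  obtain ⟨m, i, p, hpi⟩ := hX
  have hpi' : ∀ x, p (i x) = x := fun x => congrArg (fun ψ : X →ₗ[A] X => ψ x) hpi
  let X' : Submodule A (Fin m → W) := LinearMap.ker p
  let F : (X × X') →ₗ[A] (Fin m → W) := i.coprod X'.subtype
  let G : (Fin m → W) →ₗ[A] (X × X') :=
    LinearMap.prod p (LinearMap.codRestrict X' (LinearMap.id - i ∘ₗ p) (fun x => by
      simp [X', hpi']))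
  have e : (X × X') ≃ₗ[A] (Fin m → W) := by
    refine LinearEquiv.ofLinearMap F G ?_ ?_
    · apply LinearMap.ext
      intro x
      simp [F, G]
    · apply LinearMap.ext
      rintro ⟨x, k⟩
      have hk : p k.1 = 0 := k.2
      apply Prod.ext
      · simp [F, G, hpi', hk]
      · apply Subtype.ext
        simp [F, G, hpi', hk]
  have hN : IsNoetherian A (Fin m → W) := isNoetherian_of_isNoetherianRing_of_finite A _
  have hX'f : Module.Finite A X' := inferInstance
  obtain ⟨K', hK', -⟩ := exists_isSyz n (ModuleCat.of A X') hX'f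
  have h1 : IsSyz n (ModuleCat.of A (Fin m → W)) (ModuleCat.of A (K × K')) :=
    (hK.prod hK').of_equiv_left e
  have h2 : IsSyz n (ModuleCat.of A (Fin m → W)) (ModuleCat.of A (Fin m → L)) :=
    IsSyz.pi (fun _ => W) (fun _ => L) (fun _ => hL)
  have h3 : StableIso (ModuleCat.of A (K × K')) (ModuleCat.of A (Fin m → L)) := h1.stableIso h2
  have h4 : InAdd (ModuleCat.of A (L × A)) (ModuleCat.of A (Fin m → L)) :=
    ⟨m, LinearMap.compLeft (LinearMap.inl A L A) (Fin m),
      LinearMap.compLeft (LinearMap.fst A L A) (Fin m), by ext x; simp⟩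
  have h5 : InAdd (ModuleCat.of A (L × A)) (ModuleCat.of A (K × K')) :=
    InAdd.of_stableIso (inAdd_snd L (ModuleCat.of A A)) h4 h3
  exact h5.of_retract (LinearMap.inl A K K') (LinearMap.fst A K K') (by ext x; simp)

/-! ### Syzygies of modules that differ by a module of finite projective dimension -/

theorem IsSyz.congr_n {n n' : ℕ} (h : n = n') {M K : ModuleCat.{u} A} (hK : IsSyz n M K) :
    IsSyz n' M K := by
  subst h
  exact hK

/-- A finitely generated projective module is a syzygy of positive order of the zero module. -/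
theorem isSyz_punit_proj (n : ℕ) (Q : ModuleCat.{u} A) (hQ : Module.Projective A Q)
    (hQf : Module.Finite A Q) : IsSyz (n + 1) (ModuleCat.of A PUnit) Q := by
  induction n with
  | zero =>
    refine ⟨Q, Q, LinearMap.id, 0, hQ, hQf, ⟨injective_id, fun y => ⟨0, Subsingleton.elim _ _⟩,
      fun y => ⟨fun _ => ⟨y, rfl⟩, fun _ => Subsingleton.elim _ _⟩⟩, ⟨LinearEquiv.refl A Q⟩⟩
  | succ n ih =>
    refine ⟨ModuleCat.of A PUnit, ModuleCat.of A PUnit, 0, 0, inferInstance, inferInstance,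
      ⟨fun x y _ => Subsingleton.elim x y, fun y => ⟨PUnit.unit, Subsingleton.elim _ _⟩,
        fun y => ⟨fun _ => ⟨PUnit.unit, Subsingleton.elim _ _⟩, fun _ => rfl⟩⟩, ih⟩

/-- Adding a finitely generated projective summand to a syzygy of positive order. -/
theorem IsSyz.prod_proj {n : ℕ} {M K : ModuleCat.{u} A} (h : IsSyz (n + 1) M K)
    (Q : ModuleCat.{u} A) (hQ : Module.Projective A Q) (hQf : Module.Finite A Q) :
    IsSyz (n + 1) M (ModuleCat.of A (K × Q)) :=
  (h.prod (isSyz_punit_proj n Q hQ hQf)).of_equiv_left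
    (LinearEquiv.prodUnique : (M × PUnit.{u + 1}) ≃ₗ[A] M)

/-- If some `n`-th syzygies of `X` and `Y` are stably isomorphic, then so are all syzygies of
order at least `n`. -/
theorem stable_lift [IsNoetherianRing A] {X Y K₀ K₀' : ModuleCat.{u} A} {n : ℕ}
    (hX : IsSyz n X K₀) (hY : IsSyz n Y K₀') (h₀ : StableIso K₀ K₀') (hf : Module.Finite A K₀)
    (hf' : Module.Finite A K₀') {N : ℕ} (hN : n ≤ N) {K K' : ModuleCat.{u} A}
    (hK : IsSyz N X K) (hK' : IsSyz N Y K') : StableIso K K' := by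
  obtain ⟨m, rfl⟩ := Nat.exists_eq_add_of_le' hN
  obtain ⟨L, hL, -⟩ := exists_isSyz m K₀ hf
  obtain ⟨L', hL', -⟩ := exists_isSyz m K₀' hf'
  have h1 : StableIso L L' := h₀.isSyz hL hL'
  have h2 : StableIso K L := hK.stableIso (hX.trans m hL)
  have h3 : StableIso L' K' := (hY.trans m hL').stableIso hK'
  exact (h2.trans h1).trans h3

theorem PdLE.of_ses {X Y Z : ModuleCat.{u} A} {f : X →ₗ[A] Y} {g : Y →ₗ[A] Z} (hs : IsSES f g)
    {c : ℕ} (hX : PdLE X c) (hZ : PdLE Z c) : PdLE Y c := by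
  rw [pdLE_iff] at hX hZ ⊢
  exact hs.shortExact.hasProjectiveDimensionLT_X₂ (c + 1) hX hZ

/-- If `0 → F → X → Y → 0` is exact and `pd F ≤ α`, then the syzygies of `X` and `Y` of order
at least `α + 1` are stably isomorphic. -/
theorem stable_of_sub_pd [IsNoetherianRing A] {F X Y : ModuleCat.{u} A} {f : F →ₗ[A] X}
    {g : X →ₗ[A] Y} (hs : IsSES f g) (hF : Module.Finite A F) (hX : Module.Finite A X)
    (hY : Module.Finite A Y) {α : ℕ} (hpd : PdLE F α) {N : ℕ} (hN : α + 1 ≤ N)
    {K K' : ModuleCat.{u} A} (hK : IsSyz N X K) (hK' : IsSyz N Y K') : StableIso K K' := by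
  obtain ⟨K₁, K₂, K₃, f', g', hK₁, hK₂, hK₃, hs', hf₁, hf₂, hf₃⟩ := horseshoe α hs hF hX hY
  have hproj : Module.Projective A K₁ :=
    projective_of_pdLE_zero (hK₁.pdLE_of (hpd.mono (by omega)))
  obtain ⟨m, π, hπ⟩ := Module.Finite.exists_fin' A K₃
  have hpres : IsSES (LinearMap.ker π).subtype π := isSES_ker π hπ
  obtain ⟨j, q, hjq⟩ := hs'.rotate hpres
  have hN3 : IsNoetherian A (Fin m → A) := isNoetherian_of_isNoetherianRing_of_finite A _
  have hLf : Module.Finite A (LinearMap.ker π) := inferInstance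
  have h2 : IsSyz 1 K₂ (ModuleCat.of A (LinearMap.ker π)) :=
    ⟨ModuleCat.of A (K₁ × (Fin m → A)), ModuleCat.of A (LinearMap.ker π), j, q, inferInstance,
      inferInstance, hjq, ⟨LinearEquiv.refl A _⟩⟩
  have h3 : IsSyz 1 K₃ (ModuleCat.of A (LinearMap.ker π)) :=
    ⟨ModuleCat.of A (Fin m → A), ModuleCat.of A (LinearMap.ker π), (LinearMap.ker π).subtype, π,
      inferInstance, inferInstance, hpres, ⟨LinearEquiv.refl A _⟩⟩
  exact stable_lift (hK₂.trans 1 h2) (hK₃.trans 1 h3) (StableIso.refl _) hLf hLf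
    (by omega) hK hK'

/-- If `0 → X → Y → F → 0` is exact and `pd F ≤ α`, then the syzygies of `X` and `Y` of order
at least `α` are stably isomorphic. -/
theorem stable_of_quot_pd [IsNoetherianRing A] {X Y F : ModuleCat.{u} A} {f : X →ₗ[A] Y}
    {g : Y →ₗ[A] F} (hs : IsSES f g) (hX : Module.Finite A X) (hY : Module.Finite A Y)
    (hF : Module.Finite A F) {α : ℕ} (hpd : PdLE F α) {N : ℕ} (hN : α ≤ N)
    {K K' : ModuleCat.{u} A} (hK : IsSyz N X K) (hK' : IsSyz N Y K') : StableIso K K' := by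
  obtain ⟨K₁, K₂, K₃, f', g', hK₁, hK₂, hK₃, hs', hf₁, hf₂, hf₃⟩ := horseshoe α hs hX hY hF
  have hproj : Module.Projective A K₃ :=
    projective_of_pdLE_zero (hK₃.pdLE_of (hpd.mono (by omega)))
  obtain ⟨e⟩ := exists_equiv_ker_prod g' hs'.2.1
  have h1 : StableIso K₂ (ModuleCat.of A (K₁ × K₃)) :=
    StableIso.of_equiv (e.trans (LinearEquiv.prodCongr hs'.kerEquiv.symm (LinearEquiv.refl A K₃)))
  have h2 : StableIso K₁ K₂ := ((StableIso.prod_proj K₁ K₃ hproj hf₃).symm).trans h1.symm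
  exact stable_lift hK₁ hK₂ h2 hf₁ hf₂ hN hK hK'

/-! ### Semisimple modules -/

/-- A surjection from a semisimple module splits. -/
theorem exists_section_of_semisimple {M S : Type u} [AddCommGroup M] [Module A M]
    [AddCommGroup S] [Module A S] [IsSemisimpleModule A M] (φ : M →ₗ[A] S) (hφ : Surjective φ) :
    ∃ i : S →ₗ[A] M, φ ∘ₗ i = LinearMap.id := by
  obtain ⟨C, hC⟩ := exists_isCompl (LinearMap.ker φ)
  have hinj : Injective (φ ∘ₗ C.subtype) := by
    rw [← LinearMap.ker_eq_bot, LinearMap.ker_eq_bot']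
    intro c hc
    have h1 : (c : M) ∈ LinearMap.ker φ := hc
    have h2 : (c : M) = 0 := Submodule.disjoint_def.mp hC.disjoint _ h1 c.2
    exact Subtype.ext h2
  have hsurj : Surjective (φ ∘ₗ C.subtype) := by
    intro s
    obtain ⟨x, rfl⟩ := hφ s
    have hx : x ∈ LinearMap.ker φ ⊔ C := by rw [hC.sup_eq_top]; exact Submodule.mem_top
    obtain ⟨k, hk, c, hc, rfl⟩ := Submodule.mem_sup.mp hx
    refine ⟨⟨c, hc⟩, ?_⟩
    have : φ k = 0 := hk
    simp [this]
  let eC : C ≃ₗ[A] S := LinearEquiv.ofBijective (φ ∘ₗ C.subtype) ⟨hinj, hsurj⟩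
  refine ⟨C.subtype ∘ₗ (eC.symm : S →ₗ[A] C), ?_⟩
  ext s
  have : (φ ∘ₗ C.subtype) (eC.symm s) = s := eC.apply_symm_apply s
  simpa using this

/-- Over a left Artinian ring, a finitely generated module annihilated by the radical is a
direct summand of a finite direct sum of copies of `A / rad(A)`. -/
theorem inAdd_of_jacobson_torsion [IsArtinianRing A] (M : ModuleCat.{u} A)
    (hM : Module.Finite A M) (h : ∀ c ∈ Ring.jacobson A, ∀ x : M, c • x = 0) :
    InAdd (ModuleCat.of A (A ⧸ Ring.jacobson A)) M := by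
  obtain ⟨m, π, hπ⟩ := Module.Finite.exists_fin' A M
  let g : Fin m → ((A ⧸ Ring.jacobson A) →ₗ[A] M) := fun k =>
    (Ring.jacobson A).liftQ (LinearMap.toSpanSingleton A M (π (Pi.single k 1))) (by
      intro c hc
      simp [h c hc])
  let φ : (Fin m → (A ⧸ Ring.jacobson A)) →ₗ[A] M := ∑ k, g k ∘ₗ LinearMap.proj k
  have hφ : Surjective φ := by
    intro y
    obtain ⟨v, rfl⟩ := hπ y
    refine ⟨fun k => Submodule.Quotient.mk (v k), ?_⟩
    have hv : v = ∑ k, v k • (Pi.single k (1 : A) : Fin m → A) := by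
      funext l
      simp [Finset.sum_apply, Pi.single_apply]
    have hg : ∀ (k : Fin m) (a : A), g k (Submodule.Quotient.mk a) = a • π (Pi.single k 1) :=
      fun k a => rfl
    conv_rhs => rw [hv]
    simp only [φ, LinearMap.sum_apply, LinearMap.comp_apply, LinearMap.proj_apply, hg, map_sum,
      map_smul]
  have htors : Module.IsTorsionBySet A (Fin m → (A ⧸ Ring.jacobson A))
      (Ring.jacobson A : Set A) := by
    intro x c
    funext k
    obtain ⟨a, ha⟩ := Submodule.Quotient.mk_surjective _ (x k)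
    change (c : A) • x k = 0
    rw [← ha, ← Submodule.Quotient.mk_smul]
    exact (Submodule.Quotient.mk_eq_zero _).mpr
      (Ideal.mul_mem_right a _ c.2)
  have hss : IsSemisimpleModule A (Fin m → (A ⧸ Ring.jacobson A)) :=
    isSemisimpleModule_of_jacobson_torsion _ htors
  obtain ⟨i, hi⟩ := exists_section_of_semisimple φ hφ
  exact ⟨m, i, φ, hi⟩

/-! ### Modules annihilated by an element -/

/-- Induction over the finitely generated modules annihilated by `e`: a class of modules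
containing the zero modules and the simple modules annihilated by `e`, and closed under
extensions, contains every finitely generated module annihilated by `e`. -/
theorem killed_induction [IsArtinianRing A] (e : A) (Pr : ModuleCat.{u} A → Prop)
    (h_zero : ∀ X : ModuleCat.{u} A, Subsingleton X → Pr X)
    (h_ext : ∀ (X Y Z : ModuleCat.{u} A) (f : X →ₗ[A] Y) (g : Y →ₗ[A] Z), IsSES f g →
      Pr X → Pr Z → Pr Y)
    (h_simple : ∀ S : ModuleCat.{u} A, IsSimpleModule A S → (∀ x : S, e • x = 0) → Pr S)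
    (F : ModuleCat.{u} A) (hF : Module.Finite A F) (hk : ∀ x : F, e • x = 0) : Pr F := by
  have h_iso : ∀ X Y : ModuleCat.{u} A, (X ≃ₗ[A] Y) → Pr X → Pr Y := fun X Y e' hX =>
    h_ext X Y (ModuleCat.of A PUnit) (e' : X →ₗ[A] Y) 0
      ⟨e'.injective, fun _ => ⟨0, Subsingleton.elim _ _⟩,
        fun y => ⟨fun _ => ⟨e'.symm y, by simp⟩, fun _ => Subsingleton.elim _ _⟩⟩ hX
      (h_zero _ (inferInstanceAs (Subsingleton PUnit)))
  have hNoeth : IsNoetherian A F := isNoetherian_of_isNoetherianRing_of_finite A F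
  have hArt : IsArtinian A F := inferInstance
  have key : ∀ N : Submodule A F, Pr (ModuleCat.of A N) := by
    intro N
    refine IsArtinian.induction (P := fun N : Submodule A F => Pr (ModuleCat.of A N))
      (fun N ih => ?_) N
    by_cases hN0 : N = ⊥
    · subst hN0
      exact h_zero _ (inferInstanceAs (Subsingleton (⊥ : Submodule A F)))
    · have hnt : Nontrivial N := Submodule.nontrivial_iff_ne_bot.mpr hN0
      have hco : IsCoatomic (Submodule A N) := inferInstance
      obtain ⟨Q, hQ, -⟩ := (eq_top_or_exists_le_coatom (⊥ : Submodule A N)).resolve_left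
        bot_ne_top
      have hsimple : IsSimpleModule A (N ⧸ Q) := isSimpleModule_iff_isCoatom.mpr hQ
      have hkill : ∀ x : N ⧸ Q, e • x = 0 := by
        intro x
        obtain ⟨y, rfl⟩ := Q.mkQ_surjective x
        rw [← map_smul]
        have : e • y = 0 := Subtype.ext (hk y.1)
        rw [this, map_zero]
      have hlt : Q.map N.subtype < N := by
        refine lt_of_le_of_ne (Submodule.map_subtype_le N Q) ?_
        intro heq
        apply hQ.1
        have h1 : Submodule.comap N.subtype (Q.map N.subtype) = Q :=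
          Submodule.comap_map_eq_of_injective N.injective_subtype Q
        rw [← h1, heq, Submodule.comap_subtype_self]
      have hQP : Pr (ModuleCat.of A Q) :=
        h_iso _ _ (Submodule.equivMapOfInjective N.subtype N.injective_subtype Q).symm
          (ih _ hlt)
      exact h_ext (ModuleCat.of A Q) (ModuleCat.of A N) (ModuleCat.of A (N ⧸ Q)) Q.subtype Q.mkQ
        ⟨Subtype.val_injective, Q.mkQ_surjective, LinearMap.exact_subtype_mkQ Q⟩ hQP
        (h_simple _ hsimple hkill)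
  exact h_iso _ _ (Submodule.topEquiv : (⊤ : Submodule A F) ≃ₗ[A] F) (key ⊤)

/-- If the simple modules annihilated by `e` have finite projective dimension, then the
projective dimensions of the finitely generated modules annihilated by `e` are bounded. -/
theorem exists_pd_bound_killed [IsArtinianRing A] (e : A)
    (hS : ∀ S : ModuleCat.{u} A, IsSimpleModule A S → (∀ x : S, e • x = 0) →
      ∃ m, HasProjectiveDimensionLE S m) :
    ∃ α : ℕ, ∀ F : ModuleCat.{u} A, Module.Finite A F → (∀ x : F, e • x = 0) → PdLE F α := by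
  let 𝔟 : Ideal A := Ideal.span (Set.range (fun a : A => e * a)) ⊔ Ring.jacobson A
  let W : ModuleCat.{u} A := ModuleCat.of A (A ⧸ 𝔟)
  have hWe : ∀ x : W, e • x = 0 := by
    intro x
    obtain ⟨a, rfl⟩ := Submodule.Quotient.mk_surjective 𝔟 x
    rw [← Submodule.Quotient.mk_smul]
    exact (Submodule.Quotient.mk_eq_zero 𝔟).mpr
      (Submodule.mem_sup_left (Ideal.subset_span ⟨a, rfl⟩))
  have hWJ : Module.IsTorsionBySet A W (Ring.jacobson A : Set A) := by
    intro x c
    obtain ⟨a, rfl⟩ := Submodule.Quotient.mk_surjective 𝔟 x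
    change (c : A) • Submodule.Quotient.mk a = 0
    rw [← Submodule.Quotient.mk_smul]
    exact (Submodule.Quotient.mk_eq_zero 𝔟).mpr
      (Submodule.mem_sup_right (Ideal.mul_mem_right a _ c.2))
  have hWss : IsSemisimpleModule A W := isSemisimpleModule_of_jacobson_torsion _ hWJ
  have hzero : ∀ (X : ModuleCat.{u} A) (c : ℕ), Subsingleton X → PdLE X c := by
    intro X c hX
    have hfree : Module.Free A X := Module.Free.of_subsingleton A X
    exact pdLE_of_projective Module.Projective.of_free c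
  have h1 : ∃ m, PdLE W m := by
    refine killed_induction e (fun X => ∃ m, PdLE X m) (fun X hX => ⟨0, hzero X 0 hX⟩) ?_ ?_ W
      (inferInstanceAs (Module.Finite A (A ⧸ 𝔟))) hWe
    · rintro X Y Z f g hs ⟨m, hm⟩ ⟨m', hm'⟩
      exact ⟨max m m', PdLE.of_ses hs (hm.mono (le_max_left _ _)) (hm'.mono (le_max_right _ _))⟩
    · intro S hsimple hkill
      obtain ⟨m, hm⟩ := hS S hsimple hkill
      exact ⟨m, (pdLE_iff S m).mpr hm⟩
  obtain ⟨α, hα⟩ := h1
  refine ⟨α, killed_induction e (fun X => PdLE X α) (fun X hX => hzero X α hX) ?_ ?_⟩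
  · intro X Y Z f g hs hX hZ
    exact PdLE.of_ses hs hX hZ
  · intro S hsimple hkill
    have hnt : Nontrivial S := IsSimpleModule.nontrivial A S
    obtain ⟨s, hs⟩ := exists_ne (0 : S)
    let ψ : A →ₗ[A] S := LinearMap.toSpanSingleton A S s
    have hψ : Surjective ψ := IsSimpleModule.toSpanSingleton_surjective A hs
    have hle : 𝔟 ≤ LinearMap.ker ψ := by
      refine sup_le ?_ ?_
      · rw [Ideal.span_le]
        rintro _ ⟨a, rfl⟩
        change ψ (e * a) = 0
        simp [ψ, mul_smul, hkill]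
      · intro c hc
        have h2 : c ∈ Module.annihilator A S := IsSemisimpleModule.jacobson_le_annihilator A S hc
        change ψ c = 0
        simp [ψ, Module.mem_annihilator.mp h2 s]
    let φ : (A ⧸ 𝔟) →ₗ[A] S := 𝔟.liftQ ψ hle
    have hφ : Surjective φ := by
      intro y
      obtain ⟨a, rfl⟩ := hψ y
      exact ⟨Submodule.Quotient.mk a, rfl⟩
    obtain ⟨i, hi⟩ := exists_section_of_semisimple (M := A ⧸ 𝔟) φ hφ
    exact PdLE.of_retract (X := W) hα i φ hi

/-! ### The main theorem -/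

theorem isSES_sub {X : Type u} [AddCommGroup X] [Module A X] (S : Submodule A X) :
    IsSES S.subtype S.mkQ :=
  ⟨Subtype.val_injective, S.mkQ_surjective, LinearMap.exact_subtype_mkQ S⟩

/-- The quotient of a module `X` by `A e X` is annihilated by `e`. -/
theorem quot_span_smul_killed (e : A) (X : Type u) [AddCommGroup X] [Module A X]
    (y : X ⧸ ((Ideal.span {e} : Ideal A) • (⊤ : Submodule A X))) : e • y = 0 := by
  obtain ⟨x, rfl⟩ := Submodule.mkQ_surjective _ y
  rw [← map_smul]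
  exact (Submodule.Quotient.mk_eq_zero _).mpr
    (Submodule.smul_mem_smul (Ideal.subset_span rfl) Submodule.mem_top)

/-- The quotient of a module `X` by `I X` is annihilated by `I`. -/
theorem quot_smul_killed (I : Ideal A) (X : Type u) [AddCommGroup X] [Module A X]
    (b : A) (hb : b ∈ I) (y : X ⧸ (I • (⊤ : Submodule A X))) : b • y = 0 := by
  obtain ⟨x, rfl⟩ := Submodule.mkQ_surjective _ y
  rw [← map_smul]
  exact (Submodule.Quotient.mk_eq_zero _).mpr (Submodule.smul_mem_smul hb Submodule.mem_top)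

/-- The submodule `T = A e X` of a finitely generated module `X`, as an abstract module: the
syzygies of `T` and `X` of order at least `α` are stably isomorphic, and `u T = 0` whenever
`u A e X = 0`. -/
theorem stage_e [IsNoetherianRing A] (e : A) {α : ℕ}
    (hα : ∀ F : ModuleCat.{u} A, Module.Finite A F → (∀ x : F, e • x = 0) → PdLE F α)
    (X : ModuleCat.{u} A) (hX : Module.Finite A X) :
    ∃ T : ModuleCat.{u} A, Module.Finite A T ∧
      (∀ {N : ℕ}, α ≤ N → ∀ {K K' : ModuleCat.{u} A}, IsSyz N T K → IsSyz N X K' →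
        StableIso K K') ∧
      (∀ u : A, (∀ (z : A) (x : X), (u * z * e) • x = 0) → ∀ t : T, u • t = 0) := by
  have hNoeth : IsNoetherian A X := isNoetherian_of_isNoetherianRing_of_finite A X
  let T : Submodule A X := (Ideal.span {e} : Ideal A) • ⊤
  refine ⟨ModuleCat.of A T, inferInstanceAs (Module.Finite A T), ?_, ?_⟩
  · intro N hN K K' hK hK'
    exact stable_of_quot_pd (X := ModuleCat.of A T) (Y := X) (F := ModuleCat.of A (X ⧸ T))
      (isSES_sub T) (inferInstanceAs (Module.Finite A T)) hX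
      (inferInstanceAs (Module.Finite A (X ⧸ T)))
      (hα _ (inferInstanceAs (Module.Finite A (X ⧸ T))) (quot_span_smul_killed e X)) hN hK hK'
  · intro u hu t
    apply Subtype.ext
    change u • (t : X) = 0
    have ht : (t : X) ∈ T := t.2
    refine Submodule.smul_induction_on ht (fun x hx m _ => ?_) (fun x y hx hy => ?_)
    · obtain ⟨z, rfl⟩ := Ideal.mem_span_singleton'.mp hx
      rw [smul_smul, ← mul_assoc, hu z m]
    · rw [smul_add, hx, hy, add_zero]

/-- The submodule `R = I X` of a finitely generated module `X` and the quotient `W = X / I X`,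
as abstract modules: `W` is annihilated by `I`, and `u R = 0` whenever `u I X = 0`. -/
theorem stage_I [IsNoetherianRing A] (I : Ideal A) (X : ModuleCat.{u} A)
    (hX : Module.Finite A X) :
    ∃ (R W : ModuleCat.{u} A) (ι : R →ₗ[A] X) (π : X →ₗ[A] W), IsSES ι π ∧ Module.Finite A R ∧
      Module.Finite A W ∧ (∀ b ∈ I, ∀ w : W, b • w = 0) ∧
      (∀ u : A, (∀ b ∈ I, ∀ x : X, (u * b) • x = 0) → ∀ r : R, u • r = 0) := by
  have hNoeth : IsNoetherian A X := isNoetherian_of_isNoetherianRing_of_finite A X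
  let R : Submodule A X := I • ⊤
  refine ⟨ModuleCat.of A R, ModuleCat.of A (X ⧸ R), R.subtype, R.mkQ, isSES_sub R,
    inferInstanceAs (Module.Finite A R), inferInstanceAs (Module.Finite A (X ⧸ R)),
    fun b hb w => quot_smul_killed I X b hb w, ?_⟩
  intro u hu r
  apply Subtype.ext
  change u • (r : X) = 0
  have hr : (r : X) ∈ R := r.2
  refine Submodule.smul_induction_on hr (fun b hb m _ => ?_) (fun x y hx hy => ?_)
  · rw [smul_smul, hu b hb m]
  · rw [smul_add, hx, hy, add_zero]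

/-- Let `A` be a left Artinian ring with radical `J` and `e` an idempotent such that every
simple module annihilated by `e` has finite projective dimension.  Let `I₁`, `I₂` be two-sided
ideals with `e I₁ e I₂ e J e = 0` such that the finitely generated modules annihilated by `I₁`
lie in `add V₁` and those annihilated by `I₂` lie in `add V₂`.  Then the finitistic dimension
of `A` is finite. -/
theorem layer_bound [IsArtinianRing A] (e : A) (he : IsIdempotentElem e)
    (hS : ∀ S : ModuleCat.{u} A, IsSimpleModule A S → (∀ x : S, e • x = 0) →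
      ∃ m, HasProjectiveDimensionLE S m)
    (I₁ I₂ : Ideal A) [I₁.IsTwoSided] [I₂.IsTwoSided]
    (hI : ∀ a ∈ I₁, ∀ b ∈ I₂, ∀ c ∈ Ring.jacobson A, e * a * e * b * e * c * e = 0)
    (V₁ V₂ : ModuleCat.{u} A) (hV₁ : Module.Finite A V₁) (hV₂ : Module.Finite A V₂)
    (h₁ : ∀ M : ModuleCat.{u} A, Module.Finite A M → (∀ a ∈ I₁, ∀ x : M, a • x = 0) →
      InAdd V₁ M)
    (h₂ : ∀ M : ModuleCat.{u} A, Module.Finite A M → (∀ b ∈ I₂, ∀ x : M, b • x = 0) →
      InAdd V₂ M) :
    ∃ d : ℕ, ∀ M : ModuleCat.{u} A, Module.Finite A M → (∃ m, HasProjectiveDimensionLE M m) →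
      HasProjectiveDimensionLE M d := by
  obtain ⟨α, hα⟩ := exists_pd_bound_killed e hS
  obtain ⟨L₁, hL₁, hL₁f⟩ := exists_isSyz (α + 1) V₁ hV₁
  obtain ⟨L₂, hL₂, hL₂f⟩ := exists_isSyz (α + 1) V₂ hV₂
  obtain ⟨L₂', hL₂', hL₂'f⟩ := exists_isSyz (1 + (α + 1)) V₂ hV₂
  let B₁ : ModuleCat.{u} A := ModuleCat.of A (L₁ × A)
  let B₂ : ModuleCat.{u} A := ModuleCat.of A (L₂ × A)
  let B₃ : ModuleCat.{u} A := ModuleCat.of A (L₂' × A)
  let V : ModuleCat.{u} A := ModuleCat.of A (B₁ × (B₂ × B₃))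
  have hVf : Module.Finite A V :=
    inferInstanceAs (Module.Finite A ((L₁ × A) × ((L₂ × A) × (L₂' × A))))
  have hV1 : ∀ X : ModuleCat.{u} A, InAdd B₁ X → InAdd V X := fun X h =>
    (inAdd_fst B₁ (ModuleCat.of A (B₂ × B₃))).trans h
  have hV2 : ∀ X : ModuleCat.{u} A, InAdd B₂ X → InAdd V X := fun X h =>
    ((inAdd_snd B₁ (ModuleCat.of A (B₂ × B₃))).trans (inAdd_fst B₂ B₃)).trans h
  have hV3 : ∀ X : ModuleCat.{u} A, InAdd B₃ X → InAdd V X := fun X h =>
    ((inAdd_snd B₁ (ModuleCat.of A (B₂ × B₃))).trans (inAdd_snd B₂ B₃)).trans h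
  have hVA : InAdd V (ModuleCat.of A A) := hV1 _ (inAdd_snd L₁ (ModuleCat.of A A))
  have hVP : ∀ P : ModuleCat.{u} A, Module.Projective A P → Module.Finite A P → InAdd V P :=
    fun P hP hPf => hVA.trans (inAdd_of_projective P hP hPf)
  refine it_algebra_bound (α + 1 + 1) V hVf ?_
  intro M hM _
  have hNoethM : IsNoetherian A M := isNoetherian_of_isNoetherianRing_of_finite A M
  let E : Ideal A := Ideal.span {e}
  have hzE : ∀ z : A, z * e ∈ E := fun z => Ideal.mem_span_singleton'.mpr ⟨z, rfl⟩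
  let T : Submodule A M := E • ⊤
  obtain ⟨P₀, p₀, hP₀, hP₀f, hp₀, hker⟩ :=
    exists_min_presentation (ModuleCat.of A T) (inferInstanceAs (Module.Finite A T))
  have hNoethP : IsNoetherian A P₀ := isNoetherian_of_isNoetherianRing_of_finite A P₀
  -- `P₀` is generated by `e P₀`
  have hlift : ∀ t : M, t ∈ T → ∃ g ∈ (E • ⊤ : Submodule A P₀), ((p₀ g : T) : M) = t := by
    intro t ht
    refine Submodule.smul_induction_on ht (fun x hx m _ => ?_) (fun x y hx hy => ?_)
    · obtain ⟨z, rfl⟩ := Ideal.mem_span_singleton'.mp hx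
      have hem : e • m ∈ T := Submodule.smul_mem_smul (Ideal.subset_span rfl) Submodule.mem_top
      obtain ⟨q', hq'⟩ := hp₀ ⟨e • m, hem⟩
      refine ⟨(z * e) • q', Submodule.smul_mem_smul (hzE z) Submodule.mem_top, ?_⟩
      rw [map_smul, hq']
      change (z * e) • (e • m) = (z * e) • m
      rw [smul_smul, mul_assoc, he.eq]
    · obtain ⟨g, hg, hgx⟩ := hx
      obtain ⟨g', hg', hgy⟩ := hy
      refine ⟨g + g', Submodule.add_mem _ hg hg', ?_⟩
      rw [map_add]
      change ((p₀ g : T) : M) + ((p₀ g' : T) : M) = x + y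
      rw [hgx, hgy]
  have hG : ∀ q : P₀, q ∈ (E • ⊤ : Submodule A P₀) := by
    set G : Submodule A P₀ := E • ⊤ with hGdef
    have htop : (⊤ : Submodule A (P₀ ⧸ G)) ≤ Ring.jacobson A • (⊤ : Submodule A (P₀ ⧸ G)) := by
      intro y _
      obtain ⟨q, rfl⟩ := G.mkQ_surjective y
      obtain ⟨g, hg, hpg⟩ := hlift ((p₀ q : T) : M) (p₀ q).2
      have h0 : p₀ (q - g) = 0 := by
        rw [map_sub]
        exact sub_eq_zero.mpr (Subtype.ext hpg.symm)
      have h1 : q - g ∈ Ring.jacobson A • (⊤ : Submodule A P₀) := hker _ h0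
      have h2 : G.mkQ (q - g) ∈ (Ring.jacobson A • (⊤ : Submodule A P₀)).map G.mkQ :=
        Submodule.mem_map_of_mem h1
      rw [Submodule.map_smul''] at h2
      have hg0 : G.mkQ g = 0 := (Submodule.Quotient.mk_eq_zero G).mpr hg
      have h3 : G.mkQ (q - g) = G.mkQ q := by
        rw [map_sub, hg0, sub_zero]
      rw [← h3]
      have h4 : Ring.jacobson A • Submodule.map G.mkQ (⊤ : Submodule A P₀) ≤
          Ring.jacobson A • (⊤ : Submodule A (P₀ ⧸ G)) := smul_mono_right _ le_top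
      exact h4 h2
    have hbot : (⊤ : Submodule A (P₀ ⧸ G)) = ⊥ :=
      Submodule.FG.eq_bot_of_le_jacobson_smul Module.Finite.fg_top htop
    intro q
    have : G.mkQ q ∈ (⊤ : Submodule A (P₀ ⧸ G)) := Submodule.mem_top
    rw [hbot] at this
    exact (Submodule.Quotient.mk_eq_zero G).mp this
  -- the kernel `N` of the presentation and its layers
  let N : ModuleCat.{u} A := ModuleCat.of A (LinearMap.ker p₀)
  have hNf : Module.Finite A N := inferInstanceAs (Module.Finite A (LinearMap.ker p₀))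
  have hS0 : ∀ a ∈ I₁, ∀ b ∈ I₂, ∀ c ∈ Ring.jacobson A, ∀ q : P₀,
      (e * a * e * b * e * c) • q = 0 := by
    intro a ha b hb c hc q
    refine Submodule.smul_induction_on (hG q) (fun x hx q' _ => ?_) (fun x y hx hy => ?_)
    · obtain ⟨z, rfl⟩ := Ideal.mem_span_singleton'.mp hx
      rw [smul_smul]
      have h1 : e * a * e * b * e * c * (z * e) = e * a * e * b * e * (c * z) * e := by
        simp only [mul_assoc]
      rw [h1, hI a ha b hb (c * z) (Ideal.mul_mem_right z _ hc), zero_smul]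
    · rw [smul_add, hx, hy, add_zero]
  have hS1 : ∀ a ∈ I₁, ∀ b ∈ I₂, ∀ n : N, (e * a * e * b * e) • n = 0 := by
    intro a ha b hb n
    apply Subtype.ext
    change (e * a * e * b * e) • (n.1 : P₀) = 0
    refine Submodule.smul_induction_on (hker n.1 n.2) (fun c hc q _ => ?_) (fun x y hx hy => ?_)
    · rw [smul_smul, hS0 a ha b hb c hc]
    · rw [smul_add, hx, hy, add_zero]
  obtain ⟨T₁, hT₁f, hT₁st, hT₁k⟩ := stage_e e hα N hNf
  have hS2 : ∀ a ∈ I₁, ∀ b ∈ I₂, ∀ t : T₁, (e * a * e * b) • t = 0 := by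
    intro a ha b hb
    refine hT₁k _ (fun z x => ?_)
    have h1 : e * a * e * b * z * e = e * a * e * (b * z) * e := by simp only [mul_assoc]
    rw [h1, hS1 a ha (b * z) (Ideal.mul_mem_right z _ hb)]
  obtain ⟨R, W, ι₂, π₂, hsesR, hRf, hWf, hWk, hRk⟩ := stage_I I₂ T₁ hT₁f
  have hS3 : ∀ a ∈ I₁, ∀ r : R, (e * a * e) • r = 0 := fun a ha =>
    hRk _ (fun b hb x => hS2 a ha b hb x)
  obtain ⟨T₂, hT₂f, hT₂st, hT₂k⟩ := stage_e e hα R hRf
  have hS4 : ∀ a ∈ I₁, ∀ t : T₂, (e * a) • t = 0 := by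
    intro a ha
    refine hT₂k _ (fun z x => ?_)
    have h1 : e * a * z * e = e * (a * z) * e := by simp only [mul_assoc]
    rw [h1, hS3 (a * z) (Ideal.mul_mem_right z _ ha)]
  obtain ⟨R₂, U, ι₄, π₄, hsesR₂, hR₂f, hUf, hUk, hR₂k⟩ := stage_I I₁ T₂ hT₂f
  have hS5 : ∀ r : R₂, e • r = 0 := hR₂k e (fun a ha x => hS4 a ha x)
  have hpdR₂ : PdLE R₂ α := hα R₂ hR₂f hS5
  have hWadd : InAdd V₂ W := h₂ W hWf hWk
  have hUadd : InAdd V₁ U := h₁ U hUf hUk
  -- syzygies
  obtain ⟨K_R, K_T, K_W, f', g', hKR, hKT, hKW, hs', hfR, hfT, hfW⟩ :=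
    horseshoe (α + 1) hsesR hRf hT₁f hWf
  have hKWadd : InAdd B₂ K_W := InAdd.syz hV₂ hWadd hKW hL₂
  obtain ⟨K_U, hKU, -⟩ := exists_isSyz (α + 1) U hUf
  have hKUadd : InAdd B₁ K_U := InAdd.syz hV₁ hUadd hKU hL₁
  obtain ⟨K_T₂, hKT₂, -⟩ := exists_isSyz (α + 1) T₂ hT₂f
  have hst1 : StableIso K_T₂ K_U :=
    stable_of_sub_pd hsesR₂ hR₂f hT₂f hUf hpdR₂ (le_refl _) hKT₂ hKU
  have hst2 : StableIso K_T₂ K_R := hT₂st (Nat.le_succ α) hKT₂ hKR
  have hKRadd : InAdd B₁ K_R :=
    InAdd.of_stableIso (inAdd_snd L₁ (ModuleCat.of A A)) hKUadd (hst2.symm.trans hst1)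
  obtain ⟨mW, πW, hπW⟩ := Module.Finite.exists_fin' A K_W
  have hpresW : IsSES (LinearMap.ker πW).subtype πW := isSES_ker πW hπW
  have hLW : IsSyz (1 + (α + 1)) W (ModuleCat.of A (LinearMap.ker πW)) :=
    hKW.trans 1 ⟨ModuleCat.of A (Fin mW → A), ModuleCat.of A (LinearMap.ker πW),
      (LinearMap.ker πW).subtype, πW, inferInstance, inferInstance, hpresW,
      ⟨LinearEquiv.refl A _⟩⟩
  have hLWadd : InAdd B₃ (ModuleCat.of A (LinearMap.ker πW)) := InAdd.syz hV₂ hWadd hLW hL₂'
  obtain ⟨j, q, hjq⟩ := hs'.rotate hpresW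
  obtain ⟨K_N, hKN, -⟩ := exists_isSyz (α + 1) N hNf
  have hst3 : StableIso K_T K_N := hT₁st (Nat.le_succ α) hKT hKN
  have hTN : IsSyz (α + 1 + 1) (ModuleCat.of A T) K_N :=
    IsSyz.trans (n := 1) (M := ModuleCat.of A T) (K := N) (α + 1)
      ⟨P₀, N, (LinearMap.ker p₀).subtype, p₀, hP₀, hP₀f, isSES_ker p₀ hp₀,
        ⟨LinearEquiv.refl A _⟩⟩ hKN
  obtain ⟨K_M, hKM, -⟩ := exists_isSyz (α + 1 + 1) M hM
  have hst4 : StableIso K_N K_M :=
    stable_of_quot_pd (X := ModuleCat.of A T) (Y := M) (F := ModuleCat.of A (M ⧸ T))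
      (isSES_sub T) (inferInstanceAs (Module.Finite A T)) hM
      (inferInstanceAs (Module.Finite A (M ⧸ T)))
      (hα _ (inferInstanceAs (Module.Finite A (M ⧸ T))) (quot_span_smul_killed e M))
      (by omega) hTN hKM
  obtain ⟨P, Q, hP, hPf, hQ, hQf, ⟨eq⟩⟩ := hst3.trans hst4
  have hsyzM : IsSyz (α + 1 + 1) M (ModuleCat.of A (K_M × Q)) := hKM.prod_proj Q hQ hQf
  -- the two-term resolution
  have hzeroP : IsSES (0 : PUnit.{u + 1} →ₗ[A] P) (LinearMap.id : P →ₗ[A] P) :=
    ⟨fun x y _ => Subsingleton.elim x y, fun y => ⟨y, rfl⟩,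
      fun y => ⟨fun hy => ⟨PUnit.unit, hy.symm⟩, fun ⟨_, hx⟩ => hx.symm⟩⟩
  have hs1 := (hjq.prodMap hzeroP).conj
    (LinearEquiv.prodUnique : ((LinearMap.ker πW) × PUnit.{u + 1}) ≃ₗ[A] (LinearMap.ker πW))
    (LinearEquiv.refl A ((K_R × (Fin mW → A)) × P))
  have hs2 := hs1.comp_equiv eq
  refine ⟨ModuleCat.of A (K_M × Q), ModuleCat.of A (LinearMap.ker πW),
    ModuleCat.of A ((K_R × (Fin mW → A)) × P), _, _, hsyzM, hs2, hV3 _ hLWadd, ?_⟩
  exact ((hV1 _ hKRadd).prod (hVP (ModuleCat.of A (Fin mW → A)) inferInstance inferInstance)).prod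
    (hVP P hP hPf)

/-- Let `A` be a left Artinian ring with radical `J` and `e` an idempotent such that every
simple module annihilated by `e` has finite projective dimension.  If `(e J e)^3 = 0`, then the
finitistic dimension of `A` is finite. -/
theorem three_layers_bound [IsArtinianRing A] (e : A) (he : IsIdempotentElem e)
    (hS : ∀ S : ModuleCat.{u} A, IsSimpleModule A S → (∀ x : S, e • x = 0) →
      ∃ m, HasProjectiveDimensionLE S m)
    (h3 : ∀ a ∈ Ring.jacobson A, ∀ b ∈ Ring.jacobson A, ∀ c ∈ Ring.jacobson A,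
      e * a * e * b * e * c * e = 0) :
    ∃ d : ℕ, ∀ M : ModuleCat.{u} A, Module.Finite A M → (∃ m, HasProjectiveDimensionLE M m) →
      HasProjectiveDimensionLE M d :=
  layer_bound e he hS (Ring.jacobson A) (Ring.jacobson A) h3
    (ModuleCat.of A (A ⧸ Ring.jacobson A)) (ModuleCat.of A (A ⧸ Ring.jacobson A))
    (inferInstanceAs (Module.Finite A (A ⧸ Ring.jacobson A)))
    (inferInstanceAs (Module.Finite A (A ⧸ Ring.jacobson A)))
    (fun M hM h => inAdd_of_jacobson_torsion M hM h)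
    (fun M hM h => inAdd_of_jacobson_torsion M hM h)

end Vale.Agent.Helper2.IT
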