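import Mathlib
import Vale.Agent.Helper2.Corner
import Vale.Agent.Helper2.ITDefs
import Vale.Agent.Helper2.Indec
import Vale.Agent.Helper2.Syz
import Vale.Agent.Helper2.ITFitting
import Vale.Agent.Helper2.ITMain
import Vale.Agent.Helper2.ITXi
import Vale.Agent.Helper2.ITLayers

/-!
# Igusa-Todorov algebras and corner rings (helper module for P176)

Let `A` be a left Artinian ring, `e` an idempotent and `B = eAe` the corner ring.  If every
finitely generated `A`-module has a syzygy of order `n ≤ 2` which is the cokernel of an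
injective map between modules in `add V` (that is, `A` is an `n`-Igusa-Todorov algebra with
`n ≤ 2`), then the finitistic dimension of `eAe` is finite (`corner_it_bound`).

The proof transports a two-term `add V`-resolution of a second syzygy over `A` to a two-term
resolution of a second syzygy over `eAe` by the exact functor `Z ↦ eZ`.
-/

universe u

open Function CategoryTheory Abelian Vale.Agent.Helper2.Corner

namespace Vale.Agent.Helper2.IT

variable {A : Type u} [Ring A] {e : A} (he : IsIdempotentElem e)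

/-! ### Finiteness conditions for `eZ` -/

/-- The element `e a e` of the corner ring. -/
def cornerElt (a : A) : he.Corner :=
  ⟨e * a * e, (Subsemigroup.mem_corner_iff he).mpr
    ⟨by rw [← mul_assoc, ← mul_assoc, he.eq], by rw [mul_assoc, he.eq]⟩⟩

/-- The `A`-submodule of `Z` generated by an `eAe`-submodule of `eZ`. -/
def spanA {Z : Type u} [AddCommGroup Z] [Module A Z] (N : Submodule he.Corner (eSub e Z)) :
    Submodule A Z :=
  Submodule.span A ((fun z : eSub e Z => (z : Z)) '' (N : Set (eSub e Z)))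

theorem mem_of_mem_spanA {Z : Type u} [AddCommGroup Z] [Module A Z]
    (N : Submodule he.Corner (eSub e Z)) (s : Z) (hs : s ∈ spanA he N) (a : A) :
    (⟨e • a • s, smul_mem_eSub he Z (a • s)⟩ : eSub e Z) ∈ N := by
  unfold spanA at hs
  induction hs using Submodule.span_induction generalizing a with
  | mem x hx =>
    obtain ⟨z, hz, rfl⟩ := hx
    have h1 : (⟨e • a • (z : Z), smul_mem_eSub he Z (a • (z : Z))⟩ : eSub e Z) =
        cornerElt he a • z := by
      apply Subtype.ext
      show e • a • z.1 = (e * a * e) • z.1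
      have hz2 : e • z.1 = z.1 := z.2
      rw [mul_smul, mul_smul, hz2]
    rw [h1]
    exact N.smul_mem _ hz
  | zero =>
    have h1 : (⟨e • a • (0 : Z), smul_mem_eSub he Z (a • (0 : Z))⟩ : eSub e Z) = 0 := by
      apply Subtype.ext
      show e • a • (0 : Z) = 0
      rw [smul_zero, smul_zero]
    rw [h1]
    exact N.zero_mem
  | add x y _ _ hx hy =>
    have h1 : (⟨e • a • (x + y), smul_mem_eSub he Z (a • (x + y))⟩ : eSub e Z) =
        ⟨e • a • x, smul_mem_eSub he Z (a • x)⟩ + ⟨e • a • y, smul_mem_eSub he Z (a • y)⟩ := by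
      apply Subtype.ext
      show e • a • (x + y) = e • a • x + e • a • y
      rw [smul_add, smul_add]
    rw [h1]
    exact N.add_mem (hx a) (hy a)
  | smul r x _ hx =>
    have h1 : (⟨e • a • r • x, smul_mem_eSub he Z (a • r • x)⟩ : eSub e Z) =
        ⟨e • (a * r) • x, smul_mem_eSub he Z ((a * r) • x)⟩ := by
      apply Subtype.ext
      show e • a • r • x = e • (a * r) • x
      rw [mul_smul]
    rw [h1]
    exact hx (a * r)

theorem le_of_spanA_le {Z : Type u} [AddCommGroup Z] [Module A Z]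
    (N N' : Submodule he.Corner (eSub e Z)) (h : spanA he N ≤ spanA he N') : N ≤ N' := by
  intro z hz
  have h1 : (z : Z) ∈ spanA he N := Submodule.subset_span ⟨z, hz, rfl⟩
  have h2 := mem_of_mem_spanA he N' (z : Z) (h h1) 1
  have h3 : (⟨e • (1 : A) • (z : Z), smul_mem_eSub he Z ((1 : A) • (z : Z))⟩ : eSub e Z) = z := by
    apply Subtype.ext
    show e • (1 : A) • z.1 = z.1
    rw [one_smul]
    exact z.2
  rwa [h3] at h2

theorem spanA_strictMono {Z : Type u} [AddCommGroup Z] [Module A Z] :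
    StrictMono (spanA he (Z := Z)) := by
  intro N N' hlt
  refine lt_iff_le_not_ge.mpr ⟨?_, ?_⟩
  · exact Submodule.span_mono (Set.image_mono hlt.le)
  · intro hge
    exact hlt.not_ge (le_of_spanA_le he N' N hge)

theorem isNoetherian_eSub (Z : Type u) [AddCommGroup Z] [Module A Z] [IsNoetherian A Z] :
    IsNoetherian he.Corner (eSub e Z) := by
  rw [isNoetherian_iff']
  have : WellFoundedGT (Submodule A Z) := isNoetherian_iff'.mp inferInstance
  exact (spanA_strictMono he (Z := Z)).wellFoundedGT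

theorem isArtinian_eSub (Z : Type u) [AddCommGroup Z] [Module A Z] [IsArtinian A Z] :
    IsArtinian he.Corner (eSub e Z) :=
  (spanA_strictMono he (Z := Z)).wellFoundedLT

theorem finite_eSub [IsNoetherianRing A] (Z : Type u) [AddCommGroup Z] [Module A Z]
    [Module.Finite A Z] : Module.Finite he.Corner (eSub e Z) := by
  have h1 : IsNoetherian A Z := isNoetherian_of_isNoetherianRing_of_finite A Z
  have h2 : IsNoetherian he.Corner (eSub e Z) := isNoetherian_eSub he Z
  exact Module.IsNoetherian.finite he.Corner (eSub e Z)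

/-- The corner ring of a left Artinian ring is left Artinian. -/
theorem isArtinianRing_corner [IsArtinianRing A] : IsArtinianRing he.Corner := by
  classical
  have h1 : Module.Finite A (PUnit.{u + 1} → Pe e) := Pe_pow_finite e PUnit.{u + 1}
  have h2 : IsArtinian A (PUnit.{u + 1} → Pe e) := inferInstance
  have h3 : IsArtinian he.Corner (eSub e (PUnit.{u + 1} → Pe e)) := isArtinian_eSub he _
  exact isArtinian_of_linearEquiv
    ((ePowEquiv he (ι := PUnit.{u + 1})).trans
      (LinearEquiv.funUnique PUnit.{u + 1} he.Corner he.Corner))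

/-! ### Lifting a module over the corner ring -/

/-- A finitely generated module spanned by its `e`-part is a quotient of some `(Ae)^ι`. -/
theorem exists_Pe_surjection (K : Type u) [AddCommGroup K] [Module A K] [Module.Finite A K]
    (hspan : Submodule.span A (eSub e K : Set K) = ⊤) :
    ∃ (ι : Type u) (_ : Fintype ι) (_ : DecidableEq ι) (π : (ι → Pe e) →ₗ[A] K),
      Surjective π := by
  classical
  have hfg : (Submodule.span A (eSub e K : Set K)).FG := by
    rw [hspan]
    exact Module.Finite.fg_top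
  obtain ⟨s, hs, hs2⟩ := (Submodule.fg_span_iff_fg_span_finset_subset _).mp hfg
  let y : (↥s) → K := Subtype.val
  have hy : ∀ l, e • y l = y l := fun l => hs l.2
  have hsurj : Function.Surjective (lift e y) := by
    rw [← LinearMap.range_eq_top, eq_top_iff, ← hspan, hs2]
    apply Submodule.span_le.mpr
    intro x hx
    exact ⟨gen e ⟨x, hx⟩, lift_gen y hy ⟨x, hx⟩⟩
  exact ⟨↥s, inferInstance, inferInstance, lift e y, hsurj⟩

/-- Every finitely generated module `X` over the corner ring `eAe` of a left Artinian ring `A`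
comes from a finitely generated `A`-module `Y`: there is a second syzygy `K'` of `Y` such that
`eK'` is a second syzygy of `X`. -/
theorem exists_corner_lift [IsArtinianRing A] (X : ModuleCat.{u} he.Corner)
    (hX : Module.Finite he.Corner X) :
    ∃ (Y K' : ModuleCat.{u} A), Module.Finite A Y ∧ IsSyz 2 Y K' ∧
      IsSyz 2 X (ModuleCat.of he.Corner (eSub e K')) := by
  classical
  obtain ⟨m, ψ, hψ⟩ := Module.Finite.exists_fin' he.Corner X
  let ι₀ : Type u := ULift.{u} (Fin m)
  let c : (ι₀ → he.Corner) ≃ₗ[he.Corner] (Fin m → he.Corner) :=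
    LinearEquiv.funCongrLeft he.Corner he.Corner Equiv.ulift.symm
  let ψ' : eSub e (ι₀ → Pe e) →ₗ[he.Corner] X :=
    ψ ∘ₗ (c : (ι₀ → he.Corner) →ₗ[he.Corner] (Fin m → he.Corner)) ∘ₗ
      (ePowEquiv he (ι := ι₀) : eSub e (ι₀ → Pe e) →ₗ[he.Corner] (ι₀ → he.Corner))
  have hψ' : Surjective ψ' :=
    hψ.comp (c.surjective.comp (ePowEquiv he (ι := ι₀)).surjective)
  let K₁ : Submodule he.Corner (eSub e (ι₀ → Pe e)) := LinearMap.ker ψ'
  let S : Submodule A (ι₀ → Pe e) := spanA he K₁
  have hQ₀f : Module.Finite A (ι₀ → Pe e) := Pe_pow_finite e ι₀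
  have hQ₀N : IsNoetherian A (ι₀ → Pe e) := isNoetherian_of_isNoetherianRing_of_finite A _
  have hses1 : IsSES (eMap he S.subtype) ψ' := by
    refine ⟨eMap_injective he _ S.injective_subtype, hψ', ?_⟩
    intro z
    constructor
    · intro hz
      have hz1 : (z : ι₀ → Pe e) ∈ S := Submodule.subset_span ⟨z, hz, rfl⟩
      have hz2 : e • (⟨z.1, hz1⟩ : S) = ⟨z.1, hz1⟩ := Subtype.ext z.2
      exact ⟨⟨⟨z.1, hz1⟩, hz2⟩, Subtype.ext rfl⟩
    · rintro ⟨w, rfl⟩
      have h1 := mem_of_mem_spanA he K₁ (w.1.1) w.1.2 1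
      have hw : e • w.1 = w.1 := w.2
      have h2 : (⟨e • (1 : A) • (w.1.1 : ι₀ → Pe e),
          smul_mem_eSub he (ι₀ → Pe e) ((1 : A) • (w.1.1 : ι₀ → Pe e))⟩ :
            eSub e (ι₀ → Pe e)) = eMap he S.subtype w := by
        apply Subtype.ext
        show e • (1 : A) • (w.1.1 : ι₀ → Pe e) = w.1.1
        rw [one_smul]
        exact congrArg Subtype.val hw
      rw [h2] at h1
      exact h1
  have hspanS : Submodule.span A (eSub e S : Set S) = ⊤ := by
    rw [eq_top_iff]
    rintro ⟨x, hx⟩ -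
    have hx' : x ∈ Submodule.span A
        ((fun z : eSub e (ι₀ → Pe e) => (z : ι₀ → Pe e)) '' (K₁ : Set (eSub e (ι₀ → Pe e)))) := hx
    refine Submodule.span_induction
      (p := fun y hy => (⟨y, hy⟩ : S) ∈ Submodule.span A (eSub e S : Set S)) ?_ ?_ ?_ ?_ hx'
    · rintro y ⟨z, hz, rfl⟩
      apply Submodule.subset_span
      show e • (⟨z.1, _⟩ : S) = ⟨z.1, _⟩
      exact Subtype.ext z.2
    · exact Submodule.zero_mem _
    · intro y y' hy hy' h h'
      exact Submodule.add_mem _ h h'
    · intro a y hy h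
      exact Submodule.smul_mem _ a h
  have hSf : Module.Finite A S := inferInstance
  obtain ⟨ι₁, _, _, δ, hδ⟩ := exists_Pe_surjection (e := e) S hspanS
  let K' : Submodule A (ι₁ → Pe e) := LinearMap.ker δ
  refine ⟨ModuleCat.of A ((ι₀ → Pe e) ⧸ S), ModuleCat.of A K',
    inferInstanceAs (Module.Finite A ((ι₀ → Pe e) ⧸ S)), ?_, ?_⟩
  · exact ⟨ModuleCat.of A (ι₀ → Pe e), ModuleCat.of A S, S.subtype, S.mkQ, Pe_projective_pow he,
      hQ₀f, isSES_sub S, ModuleCat.of A (ι₁ → Pe e), ModuleCat.of A K', K'.subtype, δ,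
      Pe_projective_pow he, Pe_pow_finite e ι₁, isSES_ker δ hδ, ⟨LinearEquiv.refl A K'⟩⟩
  · exact ⟨ModuleCat.of he.Corner (eSub e (ι₀ → Pe e)), ModuleCat.of he.Corner (eSub e S),
      eMap he S.subtype, ψ', ePow_projective he, ePow_finite he, hses1,
      ModuleCat.of he.Corner (eSub e (ι₁ → Pe e)), ModuleCat.of he.Corner (eSub e K'),
      eMap he K'.subtype, eMap he δ, ePow_projective he, ePow_finite he,
      ⟨eMap_injective he _ K'.injective_subtype, eMap_surjective he _ hδ,
        eMap_exact he _ _ (LinearMap.exact_subtype_ker_map δ)⟩, ⟨LinearEquiv.refl _ _⟩⟩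

/-! ### Transport of two-term resolutions -/

/-- A two-term `add V`-resolution of `K` gives a two-term `add (V ⊕ A)`-resolution of every
module stably isomorphic to `K`. -/
theorem resolution_of_stableIso {V K K' V₁ V₀ : ModuleCat.{u} A} {i : V₁ →ₗ[A] V₀}
    {p : V₀ →ₗ[A] K} (hs : IsSES i p) (h1 : InAdd V V₁) (h0 : InAdd V V₀)
    (hst : StableIso K K') :
    ∃ (E W : ModuleCat.{u} A) (j : E →ₗ[A] W) (q : W →ₗ[A] K'), IsSES j q ∧
      InAdd (ModuleCat.of A (V × A)) E ∧ InAdd (ModuleCat.of A (V × A)) W := by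
  obtain ⟨P, P', hP, hPf, hP', hP'f, ⟨eq⟩⟩ := hst
  have hpi : ∀ v, p (i v) = 0 := fun v => (hs.2.2 (i v)).mpr ⟨v, rfl⟩
  let τ : (V₀ × P) →ₗ[A] (K' × P') :=
    (eq : (K × P) →ₗ[A] (K' × P')) ∘ₗ (p.prodMap (LinearMap.id : P →ₗ[A] P))
  have hτ : Surjective τ := eq.surjective.comp (hs.2.1.prodMap surjective_id)
  let σ : (V₀ × P) →ₗ[A] K' := LinearMap.fst A K' P' ∘ₗ τ
  have hσ : Surjective σ := by
    intro y
    obtain ⟨w, hw⟩ := hτ (y, 0)
    refine ⟨w, ?_⟩
    show (τ w).1 = y
    rw [hw]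
  let E : Submodule A (V₀ × P) := LinearMap.ker σ
  let θ : E →ₗ[A] P' := LinearMap.snd A K' P' ∘ₗ τ ∘ₗ E.subtype
  have hθ : Surjective θ := by
    intro y
    obtain ⟨w, hw⟩ := hτ (0, y)
    have hwE : w ∈ E := by
      show (τ w).1 = 0
      rw [hw]
    refine ⟨⟨w, hwE⟩, ?_⟩
    show (τ w).2 = y
    rw [hw]
  have hmem : ∀ v : V₁, ((i v, 0) : V₀ × P) ∈ E := by
    intro v
    show (τ (i v, 0)).1 = 0
    have : τ (i v, 0) = 0 := by
      show eq (p (i v), (0 : P)) = 0
      rw [hpi]
      exact map_zero eq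
    rw [this]
    rfl
  let g₀ : V₁ →ₗ[A] E := LinearMap.codRestrict E (LinearMap.inl A V₀ P ∘ₗ i) hmem
  have hg₀ : ∀ v : V₁, θ (g₀ v) = 0 := by
    intro v
    show (τ (i v, 0)).2 = 0
    have : τ (i v, 0) = 0 := by
      show eq (p (i v), (0 : P)) = 0
      rw [hpi]
      exact map_zero eq
    rw [this]
    rfl
  let g : V₁ →ₗ[A] LinearMap.ker θ := LinearMap.codRestrict (LinearMap.ker θ) g₀ hg₀
  have hg : Bijective g := by
    constructor
    · intro v v' hvv
      have h2 : (i v, (0 : P)) = (i v', (0 : P)) :=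
        congrArg (fun x : LinearMap.ker θ => ((x : E) : V₀ × P)) hvv
      exact hs.1 (congrArg Prod.fst h2)
    · intro x
      have hx : θ x.1 = 0 := x.2
      have h1 : τ (x.1 : V₀ × P) = 0 := Prod.ext x.1.2 hx
      have h2 : (p.prodMap (LinearMap.id : P →ₗ[A] P)) (x.1 : V₀ × P) = 0 :=
        eq.injective (by rw [map_zero]; exact h1)
      have h3 : p (x.1 : V₀ × P).1 = 0 := congrArg Prod.fst h2
      have h4 : (x.1 : V₀ × P).2 = 0 := congrArg Prod.snd h2
      obtain ⟨v, hv⟩ := (hs.2.2 _).mp h3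
      refine ⟨v, ?_⟩
      apply Subtype.ext
      apply Subtype.ext
      exact Prod.ext hv h4.symm
  let eg : V₁ ≃ₗ[A] LinearMap.ker θ := LinearEquiv.ofBijective g hg
  obtain ⟨eE⟩ := exists_equiv_ker_prod θ hθ
  have hVA : InAdd (ModuleCat.of A (V × A)) (ModuleCat.of A A) := inAdd_snd V (ModuleCat.of A A)
  have hV1 : InAdd (ModuleCat.of A (V × A)) V₁ := (inAdd_fst V (ModuleCat.of A A)).trans h1
  have hV0 : InAdd (ModuleCat.of A (V × A)) V₀ := (inAdd_fst V (ModuleCat.of A A)).trans h0
  refine ⟨ModuleCat.of A E, ModuleCat.of A (V₀ × P), E.subtype, σ, isSES_ker σ hσ, ?_, ?_⟩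
  · have h5 : InAdd (ModuleCat.of A (V × A)) (ModuleCat.of A (V₁ × P')) :=
      hV1.prod (hVA.trans (inAdd_of_projective P' hP' hP'f))
    exact h5.of_equiv (eE.trans (LinearEquiv.prodCongr eg.symm (LinearEquiv.refl A P')))
  · exact hV0.prod (hVA.trans (inAdd_of_projective P hP hPf))

/-- The `e`-part of a finite power is the power of the `e`-part. -/
def ePi (m : ℕ) (V : Type u) [AddCommGroup V] [Module A V] :
    eSub e (Fin m → V) ≃ₗ[he.Corner] (Fin m → eSub e V) where
  toFun z := fun l => ⟨z.1 l, by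
    have h : e • z.1 = z.1 := z.2
    exact congrFun h l⟩
  invFun w := ⟨fun l => (w l).1, by
    show e • (fun l => (w l).1) = fun l => (w l).1
    funext l
    exact (w l).2⟩
  map_add' _ _ := rfl
  map_smul' _ _ := rfl
  left_inv _ := rfl
  right_inv _ := rfl

theorem InAdd.corner {V M : ModuleCat.{u} A} (h : InAdd V M) :
    InAdd (ModuleCat.of he.Corner (eSub e V)) (ModuleCat.of he.Corner (eSub e M)) := by
  obtain ⟨m, i, p, hpi⟩ := h
  refine ⟨m, (ePi he m V : eSub e (Fin m → V) →ₗ[he.Corner] (Fin m → eSub e V)) ∘ₗ eMap he i,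
    eMap he p ∘ₗ ((ePi he m V).symm : (Fin m → eSub e V) →ₗ[he.Corner] eSub e (Fin m → V)), ?_⟩
  apply LinearMap.ext
  intro z
  have h1 : (eMap he p) ((eMap he i) z) = z := by
    have := congrArg (fun ψ : eSub e M →ₗ[he.Corner] eSub e M => ψ z)
      ((eMap_comp he i p).symm.trans ((congrArg (eMap he) hpi).trans (eMap_id he)))
    exact this
  simp only [LinearMap.comp_apply, LinearMap.id_apply]
  exact h1

/-! ### The main theorem -/

/-- Let `A` be a left Artinian ring, `e` an idempotent, `n ≤ 2` and `V` a finitely generated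
module such that every finitely generated `A`-module has an `n`-th syzygy which is the cokernel
of an injective map between modules in `add V`.  Then the finitistic dimension of the corner
ring `eAe` is finite. -/
theorem corner_it_bound [IsArtinianRing A] (V : ModuleCat.{u} A) (hV : Module.Finite A V)
    (n : ℕ) (hn : n ≤ 2)
    (h : ∀ Y : ModuleCat.{u} A, Module.Finite A Y →
      ∃ (K V₁ V₀ : ModuleCat.{u} A) (i : V₁ →ₗ[A] V₀) (p : V₀ →ₗ[A] K),
        IsSyz n Y K ∧ IsSES i p ∧ InAdd V V₁ ∧ InAdd V V₀) :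
    ∃ d : ℕ, ∀ X : ModuleCat.{u} he.Corner, Module.Finite he.Corner X →
      (∃ m, HasProjectiveDimensionLE X m) → HasProjectiveDimensionLE X d := by
  obtain ⟨L, hL, hLf⟩ := exists_isSyz (2 - n) V hV
  let V' : ModuleCat.{u} A := ModuleCat.of A (L × A)
  let V'' : ModuleCat.{u} A := ModuleCat.of A (V' × A)
  have hV''f : Module.Finite A V'' := inferInstanceAs (Module.Finite A ((L × A) × A))
  have hArt : IsArtinianRing he.Corner := isArtinianRing_corner he
  have hVBf : Module.Finite he.Corner (eSub e V'') := finite_eSub he V''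
  refine it_algebra_bound (A := he.Corner) 2 (ModuleCat.of he.Corner (eSub e V'')) hVBf ?_
  intro X hX _
  obtain ⟨Y, K', hYf, hYK', hXK'⟩ := exists_corner_lift he X hX
  obtain ⟨K, V₁, V₀, i, p, hK, hs, h1, h0⟩ := h Y hYf
  have hV₁f : Module.Finite A V₁ := h1.finite hV
  have hV₀f : Module.Finite A V₀ := h0.finite hV
  have hKf : Module.Finite A K := Module.Finite.of_surjective p hs.2.1
  obtain ⟨K₁, K₀, K₂, f', g', hK₁, hK₀, hK₂, hs', -, -, -⟩ :=
    horseshoe (2 - n) hs hV₁f hV₀f hKf
  have hadd1 : InAdd V' K₁ := InAdd.syz hV h1 hK₁ hL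
  have hadd0 : InAdd V' K₀ := InAdd.syz hV h0 hK₀ hL
  have hYK₂ : IsSyz 2 Y K₂ := (hK.trans (2 - n) hK₂).congr_n (Nat.sub_add_cancel hn)
  obtain ⟨E, W, j, q, hjq, hE, hW⟩ :=
    resolution_of_stableIso hs' hadd1 hadd0 (hYK₂.stableIso hYK')
  exact ⟨ModuleCat.of he.Corner (eSub e K'), ModuleCat.of he.Corner (eSub e E),
    ModuleCat.of he.Corner (eSub e W), eMap he j, eMap he q, hXK',
    ⟨eMap_injective he j hjq.1, eMap_surjective he q hjq.2.1, eMap_exact he j q hjq.2.2⟩,
    InAdd.corner he hE, InAdd.corner he hW⟩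

end Vale.Agent.Helper2.IT
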