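import Mathlib
import Vale.Agent.Helper2.ITDefs
import Vale.Agent.Helper2.ITLayers

/-!
# Radical layers of infinite projective dimension (helper module for P176)

Let `A` be a left Artinian ring with Jacobson radical `J`.  The radical layers of `A` are the
semisimple modules `J^i / J^(i+1)`.  This file proves the theorem of Huard, Lanzilotta and
Mendoza in its original form: if at most three radical layers have infinite projective
dimension, then the finitistic dimension of `A` is finite.

The proof constructs an idempotent `e` of `A` which annihilates exactly the simple modules of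
finite projective dimension, shows that `(e J e)^3 = 0`, and applies `three_layers_bound`.
-/

universe u

open Function CategoryTheory

namespace Vale.Agent.Helper2.IT

variable {A : Type u} [Ring A]

/-! ### Powers of a two-sided ideal -/

theorem mul_mem_pow_succ (J : Ideal A) [J.IsTwoSided] {c : A} (hc : c ∈ J) (n : ℕ) {z : A}
    (hz : z ∈ J ^ n) : c * z ∈ J ^ (n + 1) := by
  rcases Nat.eq_zero_or_pos n with rfl | hn
  · rw [Submodule.pow_succ]
    have h0 : J ^ 0 = ⊤ := by simp
    have h1 : (1 : A) ∈ J ^ 0 := by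
      rw [h0]
      exact Submodule.mem_top
    have h2 : c * z ∈ J := Ideal.mul_mem_right z J hc
    simpa using Ideal.mul_mem_mul h1 h2
  · rw [Submodule.pow_succ' J (Nat.pos_iff_ne_zero.mp hn)]
    exact Ideal.mul_mem_mul hc hz

/-- Every nonzero element of a left Artinian ring lies in a last power of the radical. -/
theorem exists_order [IsArtinianRing A] {x : A} (hx : x ≠ 0) :
    ∃ i : ℕ, x ∈ Ring.jacobson A ^ i ∧ x ∉ Ring.jacobson A ^ (i + 1) := by
  classical
  obtain ⟨N, hN⟩ := IsArtinianRing.isNilpotent_jacobson_bot (R := A)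
  rw [Ideal.jacobson_bot] at hN
  have hex : ∃ k, x ∉ Ring.jacobson A ^ k := ⟨N, by rw [hN]; exact hx⟩
  have hk0 : Nat.find hex ≠ 0 := by
    intro h0
    have h1 := Nat.find_spec hex
    rw [h0] at h1
    have h2 : Ring.jacobson A ^ 0 = ⊤ := by simp
    exact h1 (by rw [h2]; exact Submodule.mem_top)
  obtain ⟨i, hi⟩ := Nat.exists_eq_succ_of_ne_zero hk0
  refine ⟨i, ?_, ?_⟩
  · by_contra hcon
    exact Nat.find_min hex (m := i) (by omega) hcon
  · have h1 := Nat.find_spec hex
    rwa [hi] at h1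

/-! ### Sums of simple submodules -/

/-- The sum of the simple submodules with an isomorphism-invariant property is mapped into
itself by every endomorphism. -/
theorem sSup_simple_invariant {M : Type u} [AddCommGroup M] [Module A M]
    (Q : Submodule A M → Prop)
    (hQ : ∀ m m' : Submodule A M, Nonempty (m ≃ₗ[A] m') → Q m → Q m')
    (f : M →ₗ[A] M) (w : M) (hw : w ∈ sSup {m : Submodule A M | IsSimpleModule A m ∧ Q m}) :
    f w ∈ sSup {m : Submodule A M | IsSimpleModule A m ∧ Q m} := by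
  rw [sSup_eq_iSup'] at hw
  refine Submodule.iSup_induction
    (fun m : ↑{m : Submodule A M | IsSimpleModule A m ∧ Q m} => (m : Submodule A M))
    (motive := fun w => f w ∈ sSup {m : Submodule A M | IsSimpleModule A m ∧ Q m}) hw ?_ ?_ ?_
  · intro m x hx
    have hms : IsSimpleModule A ↥(m : Submodule A M) := m.2.1
    rcases LinearMap.injective_or_eq_zero (f ∘ₗ (m : Submodule A M).subtype) with hinj | hzero
    · let eqv : ↥(m : Submodule A M) ≃ₗ[A]
          ↥(LinearMap.range (f ∘ₗ (m : Submodule A M).subtype)) :=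
        LinearEquiv.ofInjective _ hinj
      have hmem : LinearMap.range (f ∘ₗ (m : Submodule A M).subtype) ∈
          {m : Submodule A M | IsSimpleModule A m ∧ Q m} :=
        ⟨IsSimpleModule.congr eqv.symm, hQ _ _ ⟨eqv⟩ m.2.2⟩
      have hfx : f x ∈ LinearMap.range (f ∘ₗ (m : Submodule A M).subtype) := ⟨⟨x, hx⟩, rfl⟩
      exact le_sSup hmem hfx
    · have h0 : f x = 0 := by
        have h1 := congrArg (fun g : ↥(m : Submodule A M) →ₗ[A] M => g ⟨x, hx⟩) hzero
        simpa using h1
      rw [h0]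
      exact Submodule.zero_mem _
  · rw [map_zero]
    exact Submodule.zero_mem _
  · intro x y hx hy
    rw [map_add]
    exact Submodule.add_mem _ hx hy

/-! ### An idempotent detecting the simple modules of infinite projective dimension -/

section Idem

variable [IsArtinianRing A]

theorem semisimple_quot_jacobson : IsSemisimpleModule A (A ⧸ Ring.jacobson A) := by
  apply isSemisimpleModule_of_jacobson_torsion
  intro x c
  obtain ⟨a, rfl⟩ := Submodule.Quotient.mk_surjective _ x
  change (c : A) • (Submodule.Quotient.mk a : A ⧸ Ring.jacobson A) = 0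
  rw [← Submodule.Quotient.mk_smul]
  exact (Submodule.Quotient.mk_eq_zero _).mpr (Ideal.mul_mem_right a _ c.2)

/-- Over a left Artinian ring there is an idempotent `e` such that a simple module is
annihilated by `e` if and only if it has finite projective dimension. -/
theorem exists_idem_pd : ∃ e : A, IsIdempotentElem e ∧
    (∀ S : ModuleCat.{u} A, IsSimpleModule A S → (∀ x : S, e • x = 0) →
      ∃ m, HasProjectiveDimensionLE S m) ∧
    (∀ S : ModuleCat.{u} A, IsSimpleModule A S → (∃ m, HasProjectiveDimensionLE S m) →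
      ∀ x : S, e • x = 0) := by
  classical
  set J : Ideal A := Ring.jacobson A with hJ
  have hss : IsSemisimpleModule A (A ⧸ J) := semisimple_quot_jacobson
  let Fn : Submodule A (A ⧸ J) → Prop := fun m => ∃ n, PdLE (ModuleCat.of A m) n
  have hFn : ∀ m m' : Submodule A (A ⧸ J), Nonempty (m ≃ₗ[A] m') → Fn m → Fn m' := by
    rintro m m' ⟨eq⟩ ⟨n, hn⟩
    exact ⟨n, PdLE.of_equiv (Z := ModuleCat.of A m') (X := ModuleCat.of A m) hn eq.symm⟩
  have hFn' : ∀ m m' : Submodule A (A ⧸ J), Nonempty (m ≃ₗ[A] m') → ¬ Fn m → ¬ Fn m' := by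
    rintro m m' ⟨eq⟩ hm hm'
    exact hm (hFn m' m ⟨eq.symm⟩ hm')
  set I1 : Submodule A (A ⧸ J) := sSup {m : Submodule A (A ⧸ J) | IsSimpleModule A m ∧ ¬ Fn m}
    with hI1
  set I2 : Submodule A (A ⧸ J) := sSup {m : Submodule A (A ⧸ J) | IsSimpleModule A m ∧ Fn m}
    with hI2
  have htop : I1 ⊔ I2 = ⊤ := by
    rw [hI1, hI2, ← sSup_union]
    have hU : {m : Submodule A (A ⧸ J) | IsSimpleModule A m ∧ ¬ Fn m} ∪
        {m : Submodule A (A ⧸ J) | IsSimpleModule A m ∧ Fn m} =
        {m : Submodule A (A ⧸ J) | IsSimpleModule A m} := by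
      ext m
      constructor
      · rintro (h | h) <;> exact h.1
      · intro h
        by_cases hf : Fn m
        · exact Or.inr ⟨h, hf⟩
        · exact Or.inl ⟨h, hf⟩
    rw [hU]
    exact IsSemisimpleModule.sSup_simples_eq_top A (A ⧸ J)
  have hdisj : ∀ w : A ⧸ J, w ∈ I1 → w ∈ I2 → w = 0 := by
    intro w h1 h2
    by_contra hw
    have hne : I1 ⊓ I2 ≠ ⊥ := by
      intro hbot
      have h3 : w ∈ I1 ⊓ I2 := ⟨h1, h2⟩
      rw [hbot] at h3
      exact hw ((Submodule.mem_bot A).mp h3)
    obtain ⟨S, hSat, hSle⟩ := (eq_bot_or_exists_atom_le (I1 ⊓ I2)).resolve_left hne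
    have hSs : IsSimpleModule A S := isSimpleModule_iff_isAtom.mpr hSat
    have hi1 : ∀ m : ↑{m : Submodule A (A ⧸ J) | IsSimpleModule A m ∧ ¬ Fn m},
        IsSimpleModule A ↥(m : Submodule A (A ⧸ J)) := fun m => m.2.1
    have hi2 : ∀ m : ↑{m : Submodule A (A ⧸ J) | IsSimpleModule A m ∧ Fn m},
        IsSimpleModule A ↥(m : Submodule A (A ⧸ J)) := fun m => m.2.1
    obtain ⟨m1, hm1, ⟨e1⟩⟩ := Submodule.linearEquiv_of_le_sSup S _ (hSle.trans inf_le_left)
    obtain ⟨m2, hm2, ⟨e2⟩⟩ := Submodule.linearEquiv_of_le_sSup S _ (hSle.trans inf_le_right)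
    exact hm1.2 (hFn m2 m1 ⟨e2.symm.trans e1⟩ hm2.2)
  have hinv1 : ∀ (f : (A ⧸ J) →ₗ[A] (A ⧸ J)) (w : A ⧸ J), w ∈ I1 → f w ∈ I1 :=
    fun f w hw => sSup_simple_invariant (fun m => ¬ Fn m) hFn' f w hw
  have hinv2 : ∀ (f : (A ⧸ J) →ₗ[A] (A ⧸ J)) (w : A ⧸ J), w ∈ I2 → f w ∈ I2 :=
    fun f w hw => sSup_simple_invariant Fn hFn f w hw
  have h1mem : (Submodule.Quotient.mk (1 : A) : A ⧸ J) ∈ I1 ⊔ I2 := by
    rw [htop]
    exact Submodule.mem_top
  obtain ⟨u, hu, v, hv, huv⟩ := Submodule.mem_sup.mp h1mem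
  obtain ⟨a₀, ha₀⟩ := Submodule.Quotient.mk_surjective J u
  have hρ : ∀ b : A, ∃ ρ : (A ⧸ J) →ₗ[A] (A ⧸ J),
      ∀ a : A, ρ (Submodule.Quotient.mk a) = Submodule.Quotient.mk (a * b) := by
    intro b
    refine ⟨J.liftQ (J.mkQ ∘ₗ LinearMap.toSpanSingleton A A b) ?_, fun a => rfl⟩
    intro c hc
    rw [LinearMap.mem_ker]
    change (Submodule.Quotient.mk (c * b) : A ⧸ J) = 0
    exact (Submodule.Quotient.mk_eq_zero _).mpr (Ideal.mul_mem_right b J hc)
  have hact : ∀ w : A ⧸ J, (w ∈ I1 → a₀ • w = w) ∧ (w ∈ I2 → a₀ • w = 0) := by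
    intro w
    obtain ⟨b, rfl⟩ := Submodule.Quotient.mk_surjective J w
    obtain ⟨ρ, hρb⟩ := hρ b
    have e1 : a₀ • (Submodule.Quotient.mk b : A ⧸ J) = ρ u := by
      rw [← ha₀, hρb]
      rfl
    have e2 : (Submodule.Quotient.mk b : A ⧸ J) = ρ u + ρ v := by
      rw [← map_add, huv, hρb, one_mul]
    have hu' : ρ u ∈ I1 := hinv1 ρ u hu
    have hv' : ρ v ∈ I2 := hinv2 ρ v hv
    constructor
    · intro hw
      have hz : ρ v = 0 := by
        apply hdisj _ ?_ hv'
        have h3 : ρ v = Submodule.Quotient.mk b - ρ u := by rw [e2]; abel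
        rw [h3]
        exact Submodule.sub_mem _ hw hu'
      rw [e1]
      conv_rhs => rw [e2, hz, add_zero]
    · intro hw
      have hz : ρ u = 0 := by
        apply hdisj _ hu' ?_
        have h3 : ρ u = Submodule.Quotient.mk b - ρ v := by rw [e2]; abel
        rw [h3]
        exact Submodule.sub_mem _ hw hv'
      rw [e1, hz]
  have hidem : IsIdempotentElem (Ideal.Quotient.mk J a₀) := by
    have h := (hact u).1 hu
    rw [← ha₀] at h
    change Ideal.Quotient.mk J a₀ * Ideal.Quotient.mk J a₀ = Ideal.Quotient.mk J a₀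
    rw [← map_mul]
    exact h
  have hnil : ∀ x ∈ RingHom.ker (Ideal.Quotient.mk J), IsNilpotent x := by
    intro x hx
    rw [Ideal.mk_ker] at hx
    obtain ⟨N, hN⟩ := IsArtinianRing.isNilpotent_jacobson_bot (R := A)
    rw [Ideal.jacobson_bot] at hN
    refine ⟨N, ?_⟩
    have h3 : x ^ N ∈ J ^ N := Ideal.pow_mem_pow hx N
    rw [hN] at h3
    simpa using h3
  obtain ⟨e, he, hea⟩ := exists_isIdempotentElem_eq_of_ker_isNilpotent (Ideal.Quotient.mk J) hnil
    (Ideal.Quotient.mk J a₀) ⟨a₀, rfl⟩ hidem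
  have hact_e : ∀ w : A ⧸ J, e • w = a₀ • w := by
    intro w
    obtain ⟨b, rfl⟩ := Submodule.Quotient.mk_surjective J w
    have h3 : e - a₀ ∈ J := by
      rw [← Ideal.Quotient.eq]
      exact hea
    change (Submodule.Quotient.mk (e * b) : A ⧸ J) = Submodule.Quotient.mk (a₀ * b)
    rw [Submodule.Quotient.eq]
    have h4 : e * b - a₀ * b = (e - a₀) * b := by noncomm_ring
    rw [h4]
    exact Ideal.mul_mem_right b J h3
  have key : ∀ S : ModuleCat.{u} A, IsSimpleModule A S →
      ((∃ n, PdLE S n) → ∀ x : S, e • x = 0) ∧ ((¬ ∃ n, PdLE S n) → ∀ x : S, e • x = x) := by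
    intro S hS
    have hnt : Nontrivial S := IsSimpleModule.nontrivial A S
    obtain ⟨x₀, hx₀⟩ := exists_ne (0 : S)
    have hkill : J ≤ LinearMap.ker (LinearMap.toSpanSingleton A S x₀) := by
      intro c hc
      have h2 : c ∈ Module.annihilator A S := IsSemisimpleModule.jacobson_le_annihilator A S hc
      rw [LinearMap.mem_ker]
      exact Module.mem_annihilator.mp h2 x₀
    let φ : (A ⧸ J) →ₗ[A] S := J.liftQ (LinearMap.toSpanSingleton A S x₀) hkill
    have hφ1 : φ (Submodule.Quotient.mk 1) = x₀ := by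
      change (1 : A) • x₀ = x₀
      exact one_smul A x₀
    have hφ : Surjective φ := by
      rcases LinearMap.surjective_or_eq_zero φ with h | h
      · exact h
      · exfalso
        apply hx₀
        rw [← hφ1, h]
        rfl
    obtain ⟨i, hi⟩ := exists_section_of_semisimple φ hφ
    have hiφ : ∀ x : S, φ (i x) = x := fun x => congrArg (fun g : S →ₗ[A] S => g x) hi
    have hinj : Injective i := fun x y hxy => by rw [← hiφ x, ← hiφ y, hxy]
    let eqv : S ≃ₗ[A] ↥(LinearMap.range i) := LinearEquiv.ofInjective i hinj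
    have hsimple : IsSimpleModule A ↥(LinearMap.range i) := IsSimpleModule.congr eqv.symm
    constructor
    · rintro ⟨n, hn⟩ x
      have hmem : LinearMap.range i ∈
          {m : Submodule A (A ⧸ J) | IsSimpleModule A m ∧ Fn m} :=
        ⟨hsimple, n, PdLE.of_equiv (Z := ModuleCat.of A (LinearMap.range i)) hn eqv.symm⟩
      have h1 : i x ∈ I2 := le_sSup hmem ⟨x, rfl⟩
      have h2 : e • i x = 0 := by
        rw [hact_e]
        exact (hact (i x)).2 h1
      rw [← hiφ x, ← map_smul, h2, map_zero]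
    · intro hnot x
      have hmem : LinearMap.range i ∈
          {m : Submodule A (A ⧸ J) | IsSimpleModule A m ∧ ¬ Fn m} :=
        ⟨hsimple, fun ⟨n, hn⟩ => hnot ⟨n, PdLE.of_equiv
          (X := ModuleCat.of A (LinearMap.range i)) hn eqv⟩⟩
      have h1 : i x ∈ I1 := le_sSup hmem ⟨x, rfl⟩
      have h2 : e • i x = i x := by
        rw [hact_e]
        exact (hact (i x)).1 h1
      calc e • x = e • φ (i x) := by rw [hiφ]
        _ = φ (e • i x) := (map_smul φ e (i x)).symm
        _ = x := by rw [h2, hiφ]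
  refine ⟨e, he, ?_, ?_⟩
  · intro S hS hk
    by_contra hcon
    have hcon' : ¬ ∃ n, PdLE S n := fun ⟨n, hn⟩ => hcon ⟨n, (pdLE_iff S n).mp hn⟩
    have hnt : Nontrivial S := IsSimpleModule.nontrivial A S
    obtain ⟨x₀, hx₀⟩ := exists_ne (0 : S)
    exact hx₀ (by rw [← (key S hS).2 hcon' x₀, hk])
  · rintro S hS ⟨n, hn⟩ x
    exact (key S hS).1 ⟨n, (pdLE_iff S n).mpr hn⟩ x

/-- If the `i`-th radical layer has finite projective dimension and `e` annihilates the simple
modules of finite projective dimension, then `e J^i ⊆ J^(i+1)`. -/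
theorem idem_mul_mem_of_layer (e : A)
    (hB : ∀ S : ModuleCat.{u} A, IsSimpleModule A S → (∃ m, HasProjectiveDimensionLE S m) →
      ∀ x : S, e • x = 0)
    (i : ℕ)
    (hfin : ∃ n, HasProjectiveDimensionLE (ModuleCat.of A ↥(Submodule.map
      (Submodule.mkQ (Ring.jacobson A ^ (i + 1))) (Ring.jacobson A ^ i))) n)
    {z : A} (hz : z ∈ Ring.jacobson A ^ i) : e * z ∈ Ring.jacobson A ^ (i + 1) := by
  set J : Ideal A := Ring.jacobson A with hJ
  set L : Submodule A (A ⧸ J ^ (i + 1)) :=
    Submodule.map (Submodule.mkQ (J ^ (i + 1))) (J ^ i) with hL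
  obtain ⟨n, hn⟩ := hfin
  have hn' : PdLE (ModuleCat.of A L) n := (pdLE_iff _ n).mpr hn
  have htors : Module.IsTorsionBySet A L (J : Set A) := by
    intro y c
    obtain ⟨y, hy⟩ := y
    obtain ⟨z', hz', rfl⟩ := hy
    apply Subtype.ext
    change (c : A) • (Submodule.mkQ (J ^ (i + 1)) z') = 0
    rw [← map_smul]
    exact (Submodule.Quotient.mk_eq_zero _).mpr (mul_mem_pow_succ J c.2 i hz')
  have hss : IsSemisimpleModule A L := isSemisimpleModule_of_jacobson_torsion _ htors
  have hsimple : ∀ S : Submodule A L, IsSimpleModule A S → ∀ x ∈ S, e • x = 0 := by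
    intro S hS x hx
    obtain ⟨C, hC⟩ := exists_isCompl S
    let p : L →ₗ[A] S := Submodule.projectionOnto S C hC
    have hp : p ∘ₗ S.subtype = LinearMap.id := by
      ext s
      have h3 : p (S.subtype s) = s := Submodule.projectionOnto_apply_left hC s
      rw [LinearMap.comp_apply, h3]
      rfl
    have hSpd : PdLE (ModuleCat.of A S) n :=
      PdLE.of_retract (X := ModuleCat.of A L) hn' S.subtype p hp
    have h3 := hB (ModuleCat.of A S) hS ⟨n, (pdLE_iff _ n).mp hSpd⟩ ⟨x, hx⟩
    exact congrArg Subtype.val h3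
  have hall : ∀ y : L, e • y = 0 := by
    intro y
    have hy : y ∈ sSup {m : Submodule A L | IsSimpleModule A m} := by
      rw [IsSemisimpleModule.sSup_simples_eq_top]
      exact Submodule.mem_top
    rw [sSup_eq_iSup'] at hy
    refine Submodule.iSup_induction
      (fun m : ↑{m : Submodule A L | IsSimpleModule A m} => (m : Submodule A L))
      (motive := fun y => e • y = 0) hy ?_ ?_ ?_
    · intro m x hx
      exact hsimple m m.2 x hx
    · exact smul_zero e
    · intro x y hx hy
      rw [smul_add, hx, hy, add_zero]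
  have hzL : Submodule.mkQ (J ^ (i + 1)) z ∈ L := ⟨z, hz, rfl⟩
  have h0 := hall ⟨_, hzL⟩
  have h1 : e • (Submodule.mkQ (J ^ (i + 1)) z) = 0 := congrArg Subtype.val h0
  rw [← map_smul] at h1
  exact (Submodule.Quotient.mk_eq_zero _).mp h1

/-- **Huard, Lanzilotta, Mendoza.**  A left Artinian ring with at most three radical layers
`J^i / J^(i+1)` of infinite projective dimension has finite finitistic dimension. -/
theorem hlm_bound (s : Finset ℕ) (hs : s.card ≤ 3)
    (h : ∀ i : ℕ, i ∉ s → ∃ n : ℕ, HasProjectiveDimensionLE (ModuleCat.of A ↥(Submodule.map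
      (Submodule.mkQ (Ring.jacobson A ^ (i + 1))) (Ring.jacobson A ^ i))) n) :
    ∃ d : ℕ, ∀ M : ModuleCat.{u} A, Module.Finite A M → (∃ m, HasProjectiveDimensionLE M m) →
      HasProjectiveDimensionLE M d := by
  obtain ⟨e, he, hA, hB⟩ := exists_idem_pd (A := A)
  refine three_layers_bound e he hA ?_
  intro a ha b hb c hc
  by_contra hne
  set J : Ideal A := Ring.jacobson A with hJ
  have hord : ∀ x : A, x ≠ 0 → e * x = x → ∃ i ∈ s, x ∈ J ^ i ∧ x ∉ J ^ (i + 1) := by
    intro x hx hex
    obtain ⟨i, hi1, hi2⟩ := exists_order hx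
    refine ⟨i, ?_, hi1, hi2⟩
    by_contra his
    apply hi2
    rw [← hex]
    exact idem_mul_mem_of_layer e hB i (h i his) hi1
  have hstep : ∀ (x r : A) (i : ℕ), r ∈ J → x ∈ J ^ i → ∀ j, e * r * x ∈ J ^ j →
      e * r * x ∉ J ^ (j + 1) → i < j := by
    intro x r i hr hx j hj1 hj2
    by_contra hlt
    apply hj2
    have h1 : r * x ∈ J ^ (i + 1) := mul_mem_pow_succ J hr i hx
    have h2 : e * r * x ∈ J ^ (i + 1) := by
      rw [mul_assoc]
      exact Ideal.mul_mem_left _ e h1
    exact Ideal.pow_le_pow_right (by omega) h2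
  have hee : ∀ y : A, e * (e * y) = e * y := fun y => by rw [← mul_assoc, he.eq]
  have hx₃0 : e * a * (e * b * (e * c * e)) ≠ 0 := by
    intro h0
    apply hne
    rw [← h0]
    simp only [mul_assoc]
  have hx₂0 : e * b * (e * c * e) ≠ 0 := by
    intro h0
    apply hx₃0
    rw [h0, mul_zero]
  have hx₁0 : e * c * e ≠ 0 := by
    intro h0
    apply hx₂0
    rw [h0, mul_zero]
  have he0 : e ≠ 0 := by
    intro h0
    apply hx₁0
    rw [h0, mul_zero]
  have hfix₁ : e * (e * c * e) = e * c * e := by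
    rw [mul_assoc e c e]
    exact hee _
  have hfix₂ : e * (e * b * (e * c * e)) = e * b * (e * c * e) := by
    rw [mul_assoc e b]
    exact hee _
  have hfix₃ : e * (e * a * (e * b * (e * c * e))) = e * a * (e * b * (e * c * e)) := by
    rw [mul_assoc e a]
    exact hee _
  obtain ⟨i₀, hi₀s, hi₀a, hi₀b⟩ := hord e he0 he.eq
  obtain ⟨i₁, hi₁s, hi₁a, hi₁b⟩ := hord _ hx₁0 hfix₁
  obtain ⟨i₂, hi₂s, hi₂a, hi₂b⟩ := hord _ hx₂0 hfix₂
  obtain ⟨i₃, hi₃s, hi₃a, hi₃b⟩ := hord _ hx₃0 hfix₃
  have h01 : i₀ < i₁ := hstep e c i₀ hc hi₀a i₁ hi₁a hi₁b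
  have h12 : i₁ < i₂ := hstep _ b i₁ hb hi₁a i₂ hi₂a hi₂b
  have h23 : i₂ < i₃ := hstep _ a i₂ ha hi₂a i₃ hi₃a hi₃b
  have hsub : ({i₀, i₁, i₂, i₃} : Finset ℕ) ⊆ s := by
    intro j hj
    simp only [Finset.mem_insert, Finset.mem_singleton] at hj
    rcases hj with rfl | rfl | rfl | rfl <;> assumption
  have hcard : ({i₀, i₁, i₂, i₃} : Finset ℕ).card = 4 := by
    rw [Finset.card_insert_of_notMem, Finset.card_insert_of_notMem,
      Finset.card_insert_of_notMem, Finset.card_singleton]
    all_goals simp only [Finset.mem_insert, Finset.mem_singleton]; omega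
  have h4 := Finset.card_le_card hsub
  omega

end Idem

end Vale.Agent.Helper2.IT
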