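import Vale.Agent.Helper2.ARSyz
import Vale.Agent.Helper2.ITHLM
import Vale.Agent.Helper2.ITCorner

/-!
# Self-orthogonal modules over rings with radical square zero (helper module for P195)

Let `B` be a left Artinian ring whose Jacobson radical `J` satisfies `J^2 = 0`.  Then every
finitely generated `B`-module `M` with `Ext^i(M, M) = 0 = Ext^i(M, B)` for all `i ≥ 1` is
projective (`projective_of_rad_sq_zero`).  The proof: the syzygies of `M` in a minimal
resolution are semisimple; if none of them is projective, two of them have isomorphic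
non-projective simple direct summands, which contradicts the key lemma of `ARSyz`.

The second part shows that the corner ring `eAe` has radical square zero when `A` has at most two
radical layers of infinite projective dimension and `e` is the idempotent annihilating exactly
the simple modules of finite projective dimension.
-/

universe u

open CategoryTheory Abelian

namespace Vale.Agent.Helper2.ARRad

open Vale.Agent.Helper2.Corner Vale.Agent.Helper2.ARSyz

open Vale.Agent.Helper2.IT (semisimple_quot_jacobson exists_section_of_semisimple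
  isSemisimpleModule_of_jacobson_torsion exists_order idem_mul_mem_of_layer mul_mem_pow_succ
  cornerElt)

section RadSq

variable {B : Type u} [Ring B]

/-- A nonzero element of a semisimple module is not killed by some map to a simple module. -/
theorem exists_simple_quot_ne_zero {N : Type u} [AddCommGroup N] [Module B N]
    [IsSemisimpleModule B N] {n : N} (hn : n ≠ 0) :
    ∃ (T : Submodule B N) (_ : IsSimpleModule B T) (φ : N →ₗ[B] T), φ n ≠ 0 := by
  have hne : Submodule.span B {n} ≠ ⊥ := by
    rw [Ne, Submodule.span_singleton_eq_bot]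
    exact hn
  obtain ⟨T, hT, hsimple⟩ :=
    (IsSemisimpleModule.eq_bot_or_exists_simple_le (Submodule.span B {n})).resolve_left hne
  obtain ⟨C, hC⟩ := exists_isCompl T
  refine ⟨T, hsimple, Submodule.projectionOnto T C hC, ?_⟩
  intro h0
  rw [Submodule.projectionOnto_apply_eq_zero_iff] at h0
  have h1 : Submodule.span B {n} ≤ C := (Submodule.span_singleton_le_iff_mem n C).mpr h0
  have h2 : T ≤ ⊥ := by
    rw [← hC.inf_eq_bot]
    exact le_inf le_rfl (hT.trans h1)
  have hnt := IsSimpleModule.nontrivial B T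
  exact (Submodule.nontrivial_iff_ne_bot.mp hnt) (le_bot_iff.mp h2)

/-- Over a left Artinian ring, an element killed by all maps to simple modules lies in
`rad(B) Q`. -/
theorem mem_jacobson_smul_top [IsArtinianRing B] {Q : Type u} [AddCommGroup Q] [Module B Q]
    (x : Q)
    (h : ∀ (T : Type u) [AddCommGroup T] [Module B T] [IsSimpleModule B T] (ψ : Q →ₗ[B] T),
      ψ x = 0) :
    x ∈ Ring.jacobson B • (⊤ : Submodule B Q) := by
  by_contra hx
  set N : Submodule B Q := Ring.jacobson B • (⊤ : Submodule B Q) with hN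
  have htors : Module.IsTorsionBySet B (Q ⧸ N) (Ring.jacobson B : Set B) := by
    rw [Module.isTorsionBySet_quotient_iff]
    intro y r hr
    exact Submodule.smul_mem_smul hr Submodule.mem_top
  have hss : IsSemisimpleModule B (Q ⧸ N) := isSemisimpleModule_of_jacobson_torsion _ htors
  have hn : N.mkQ x ≠ 0 := by
    intro h0
    exact hx ((Submodule.Quotient.mk_eq_zero N).mp h0)
  obtain ⟨T, hT, φ, hφ⟩ := exists_simple_quot_ne_zero (B := B) hn
  exact hφ (h T (φ ∘ₗ N.mkQ))

/-- One step of a minimal resolution over a ring with radical square zero: the syzygy is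
finitely generated and annihilated by the radical. -/
theorem exists_syz_step [IsArtinianRing B]
    (hJ : ∀ x ∈ Ring.jacobson B, ∀ y ∈ Ring.jacobson B, x * y = 0)
    (N : Type u) [AddCommGroup N] [Module B N] [Module.Finite B N] :
    ∃ (K : Type u) (_ : AddCommGroup K) (_ : Module B K),
      IsSyz 1 (ModuleCat.of B N) (ModuleCat.of B K) ∧ Module.Finite B K ∧
        ∀ c ∈ Ring.jacobson B, ∀ x : K, c • x = 0 := by
  obtain ⟨Q, _, _, hQfin, hQproj, π, hπ, hmin⟩ := exists_min_presentation (A := B) N
  refine ⟨LinearMap.ker π, inferInstance, inferInstance, ?_, ?_, ?_⟩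
  · exact ⟨π.shortComplexKer, LinearMap.shortExact_shortComplexKer hπ,
      fgProj_of_finite_projective Q, ⟨Iso.refl _⟩, ⟨Iso.refl _⟩⟩
  · exact Module.IsNoetherian.finite B _
  · intro c hc x
    have hx : (x : Q) ∈ Ring.jacobson B • (⊤ : Submodule B Q) :=
      mem_jacobson_smul_top (x : Q) (fun T _ _ _ ψ => hmin T ψ x.1 x.2)
    apply Subtype.ext
    show c • (x : Q) = 0
    refine Submodule.smul_induction_on hx (fun b hb m _ => ?_) (fun y z hy hz => ?_)
    · rw [smul_smul, hJ c hc b hb, zero_smul]
    · rw [smul_add, hy, hz, add_zero]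

theorem exists_syz_chain [IsArtinianRing B]
    (hJ : ∀ x ∈ Ring.jacobson B, ∀ y ∈ Ring.jacobson B, x * y = 0)
    (M : ModuleCat.{u} B) [Module.Finite B M] (t : ℕ) :
    ∃ (K : Type u) (_ : AddCommGroup K) (_ : Module B K),
      IsSyz (t + 1) M (ModuleCat.of B K) ∧ Module.Finite B K ∧
        ∀ c ∈ Ring.jacobson B, ∀ x : K, c • x = 0 := by
  induction t with
  | zero => exact exists_syz_step hJ M
  | succ t ih =>
    obtain ⟨K, _, _, hs, hfin, -⟩ := ih
    obtain ⟨K', _, _, hs', hfin', htors'⟩ := exists_syz_step hJ K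
    exact ⟨K', inferInstance, inferInstance, hs.append hs', hfin', htors'⟩

/-- A finitely generated non-projective module annihilated by the radical has a non-projective
simple direct summand. -/
theorem exists_simple_retract [IsArtinianRing B] (K : Type u) [AddCommGroup K] [Module B K]
    (hfin : Module.Finite B K) (htors : ∀ c ∈ Ring.jacobson B, ∀ x : K, c • x = 0)
    (hK : ¬ Module.Projective B K) :
    ∃ T : Submodule B K, IsSimpleModule B T ∧ ¬ Module.Projective B T ∧
      Nonempty (Retract (ModuleCat.of B T) (ModuleCat.of B K)) := by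
  classical
  have hss : IsSemisimpleModule B K := by
    apply isSemisimpleModule_of_jacobson_torsion
    intro x c
    exact htors c.1 c.2 x
  obtain ⟨n, S, e, hS⟩ := IsSemisimpleModule.exists_linearEquiv_fin_dfinsupp B K
  have h1 : ∃ i, ¬ Module.Projective B (S i) := by
    by_contra hcon
    push Not at hcon
    apply hK
    have hinst : ∀ i, Module.Projective B (S i) := hcon
    exact Module.Projective.of_equiv e.symm
  obtain ⟨i, hi⟩ := h1
  obtain ⟨C, hC⟩ := exists_isCompl (S i)
  refine ⟨S i, hS i, hi, ⟨{ i := ModuleCat.ofHom (S i).subtype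
                            r := ModuleCat.ofHom (Submodule.projectionOnto (S i) C hC)
                            retract := ?_ }⟩⟩
  rw [← ModuleCat.ofHom_comp]
  have hid : (Submodule.projectionOnto (S i) C hC) ∘ₗ (S i).subtype = LinearMap.id := by
    ext x
    simp
  rw [hid]
  rfl

section Iso

variable [IsArtinianRing B]

/-- Every simple module is isomorphic to a simple submodule of `B / rad(B)`. -/
theorem exists_simple_sub (T : Type u) [AddCommGroup T] [Module B T] [IsSimpleModule B T] :
    ∃ S₀ : Submodule B (B ⧸ Ring.jacobson B), IsSimpleModule B S₀ ∧ Nonempty (S₀ ≃ₗ[B] T) := by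
  have hnt := IsSimpleModule.nontrivial B T
  obtain ⟨t, ht⟩ := exists_ne (0 : T)
  have hsurj := IsSimpleModule.toSpanSingleton_surjective B ht
  have hann : ∀ c ∈ Ring.jacobson B, c • t = 0 := fun c hc =>
    Module.mem_annihilator.mp (IsSemisimpleModule.jacobson_le_annihilator (R := B) (M := T) hc) t
  let φ : (B ⧸ Ring.jacobson B) →ₗ[B] T :=
    (Ring.jacobson B).liftQ (LinearMap.toSpanSingleton B T t) (by
      intro c hc
      simp [hann c hc])
  have hφ : Function.Surjective φ := by
    intro y
    obtain ⟨a, rfl⟩ := hsurj y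
    exact ⟨Submodule.Quotient.mk a, rfl⟩
  have hss : IsSemisimpleModule B (B ⧸ Ring.jacobson B) := semisimple_quot_jacobson
  obtain ⟨i, hi⟩ := exists_section_of_semisimple φ hφ
  have hinj : Function.Injective i := by
    intro a b hab
    have h1 : (φ ∘ₗ i) a = (φ ∘ₗ i) b := congrArg φ hab
    rw [hi] at h1
    exact h1
  let ε : T ≃ₗ[B] LinearMap.range i := LinearEquiv.ofInjective i hinj
  exact ⟨LinearMap.range i, IsSimpleModule.congr ε.symm, ⟨ε.symm⟩⟩

theorem isotypic_mem (T : Type u) [AddCommGroup T] [Module B T] [IsSimpleModule B T] :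
    isotypicComponent B (B ⧸ Ring.jacobson B) T ∈
      isotypicComponents B (B ⧸ Ring.jacobson B) := by
  obtain ⟨S₀, hS₀, ⟨ε⟩⟩ := exists_simple_sub (B := B) T
  exact ⟨S₀, hS₀, ε.isotypicComponent_eq.symm⟩

theorem iso_of_isotypic_eq (T T' : Type u) [AddCommGroup T] [Module B T] [IsSimpleModule B T]
    [AddCommGroup T'] [Module B T'] [IsSimpleModule B T']
    (h : isotypicComponent B (B ⧸ Ring.jacobson B) T =
      isotypicComponent B (B ⧸ Ring.jacobson B) T') : Nonempty (T ≃ₗ[B] T') := by
  obtain ⟨S₀, hS₀, ⟨ε⟩⟩ := exists_simple_sub (B := B) T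
  have h1 : S₀ ≤ isotypicComponent B (B ⧸ Ring.jacobson B) T' := by
    rw [← h, ← ε.isotypicComponent_eq]
    exact S₀.le_isotypicComponent
  obtain ⟨ε'⟩ := isIsotypicOfType_submodule_iff.mp
    (IsIsotypicOfType.isotypicComponent B (B ⧸ Ring.jacobson B) T') S₀ h1
  exact ⟨ε.symm.trans ε'⟩

end Iso

/-- **Radical square zero.**  Over a left Artinian ring `B` with `rad(B)^2 = 0`, every finitely
generated module `M` with `Ext^i(M, M) = 0 = Ext^i(M, B)` for all `i ≥ 1` is projective. -/
theorem projective_of_rad_sq_zero [IsArtinianRing B]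
    (hJ : ∀ x ∈ Ring.jacobson B, ∀ y ∈ Ring.jacobson B, x * y = 0)
    (M : ModuleCat.{u} B) [Module.Finite B M]
    (h1 : ∀ (i : ℕ) (x : Ext M M (i + 1)), x = 0)
    (h2 : ∀ (i : ℕ) (x : Ext M (ModuleCat.of B B) (i + 1)), x = 0) :
    Module.Projective B M := by
  have hMM : ∀ q, 0 < q → ∀ x : Ext M M q, x = 0 := by
    intro q hq x
    obtain ⟨q', rfl⟩ : ∃ q', q = q' + 1 := ⟨q - 1, by omega⟩
    exact h1 q' x
  have hMR : ∀ q, 0 < q → ∀ x : Ext M (ModuleCat.of B B) q, x = 0 := by
    intro q hq x
    obtain ⟨q', rfl⟩ : ∃ q', q = q' + 1 := ⟨q - 1, by omega⟩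
    exact h2 q' x
  by_contra hM
  have hnp : ∀ (t : ℕ) (K : Type u) [AddCommGroup K] [Module B K],
      IsSyz (t + 1) M (ModuleCat.of B K) → Module.Finite B K → ¬ Module.Projective B K := by
    intro t K _ _ hs hfin hproj
    have hfg : FGProj (ModuleCat.of B K) := fgProj_of_finite_projective K
    obtain ⟨K0, h3, h4⟩ := fgProj_descent_iter M 0 hMR (t + 1) _
      (hs.congr_n (by omega)) hfg
    obtain ⟨f⟩ := h3
    have hp0 := h4.projective
    have hp : Projective M := Projective.of_iso f hp0
    exact hM ((IsProjective.iff_projective M).mpr hp)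
  have key : ∀ t : ℕ, ∃ c : isotypicComponents B (B ⧸ Ring.jacobson B),
      ∃ (T : Type u) (_ : AddCommGroup T) (_ : Module B T) (_ : IsSimpleModule B T)
        (K : ModuleCat.{u} B), IsSyz (t + 1) M K ∧ ¬ Module.Projective B T ∧
          Nonempty (Retract (ModuleCat.of B T) K) ∧
          c.1 = isotypicComponent B (B ⧸ Ring.jacobson B) T := by
    intro t
    obtain ⟨K, _, _, hs, hfin, htors⟩ := exists_syz_chain hJ M t
    obtain ⟨T, hT, hTnp, hret⟩ := exists_simple_retract K hfin htors (hnp t K hs hfin)
    exact ⟨⟨_, isotypic_mem T⟩, T, inferInstance, inferInstance, hT, _, hs, hTnp, hret, rfl⟩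
  choose c hc using key
  have hlt : ∀ a b : ℕ, a < b → c a = c b → False := by
    intro a b hab hcab
    obtain ⟨Ta, _, _, hTa, Ka, hsa, hnpa, ⟨ρa⟩, hca⟩ := hc a
    obtain ⟨Tb, _, _, hTb, Kb, hsb, -, ⟨ρb⟩, hcb⟩ := hc b
    obtain ⟨ε⟩ := iso_of_isotypic_eq Ta Tb
      (hca.symm.trans ((congrArg Subtype.val hcab).trans hcb))
    have hproj : Projective (ModuleCat.of B Ta) :=
      projective_of_common_retract M 0 hMM hMR (a := a + 1) (b := b + 1) (by omega) hsa hsb ρa
        (ε.toModuleIso.retract.trans ρb)
    exact hnpa ((IsProjective.iff_projective Ta).mpr hproj)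
  obtain ⟨a, b, hab, hcab⟩ := Finite.exists_ne_map_eq_of_infinite c
  rcases lt_or_gt_of_ne hab with h | h
  · exact hlt a b h hcab
  · exact hlt b a h hcab.symm

end RadSq

section Corner

variable {A : Type u} [Ring A] {e : A} (he : IsIdempotentElem e)

/-- The radical of the corner ring `eAe` is contained in the radical of `A`. -/
theorem jacobson_corner_le (x : he.Corner) (hx : x ∈ Ring.jacobson he.Corner) :
    x.1 ∈ Ring.jacobson A := by
  have hkill : ∀ (T : Type u) [AddCommGroup T] [Module A T] [IsSimpleModule A T] (z : T),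
      x.1 • z = 0 := by
    intro T _ _ _ z
    have hz : x.1 • z = x.1 • (e • z) := by
      rw [← mul_smul, corner_mul_right he x]
    rw [hz]
    by_cases h0 : e • z = 0
    · rw [h0, smul_zero]
    · let w : eSub e T := ⟨e • z, smul_mem_eSub he T z⟩
      have hw : w ≠ 0 := fun h => h0 (congrArg Subtype.val h)
      have hnt : Nontrivial (eSub e T) := ⟨⟨w, 0, hw⟩⟩
      have hsimple : IsSimpleModule he.Corner (eSub e T) := by
        rw [isSimpleModule_iff_toSpanSingleton_surjective]
        refine ⟨hnt, fun n hn n' => ?_⟩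
        have hn1 : (n : T) ≠ 0 := fun h => hn (Subtype.ext h)
        obtain ⟨a, ha⟩ := IsSimpleModule.toSpanSingleton_surjective A hn1 (n' : T)
        have ha' : a • (n : T) = (n' : T) := ha
        refine ⟨cornerElt he a, ?_⟩
        apply Subtype.ext
        show (e * a * e) • (n : T) = (n' : T)
        have hn2 : e • (n : T) = (n : T) := n.2
        have hn3 : e • (n' : T) = (n' : T) := n'.2
        rw [mul_smul, hn2, mul_smul, ha', hn3]
      have hann := IsSemisimpleModule.jacobson_le_annihilator (R := he.Corner)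
        (M := eSub e T) hx
      have h1 : x • w = 0 := Module.mem_annihilator.mp hann w
      exact congrArg Subtype.val h1
  show x.1 ∈ Module.jacobson A A
  rw [Module.jacobson]
  refine Submodule.mem_sInf.mpr (fun m hm => ?_)
  have hsimple : IsSimpleModule A (A ⧸ m) := isSimpleModule_iff_isCoatom.mpr hm
  have h1 := hkill (A ⧸ m) (Submodule.Quotient.mk (1 : A))
  rw [← Submodule.Quotient.mk_smul, smul_eq_mul, mul_one] at h1
  exact (Submodule.Quotient.mk_eq_zero m).mp h1

variable [IsArtinianRing A]

include he in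
/-- If at most two radical layers of `A` have infinite projective dimension and `e` annihilates
the simple modules of finite projective dimension, then `e a e b e = 0` for `a, b ∈ rad(A)`. -/
theorem two_layer_mul
    (hB : ∀ S : ModuleCat.{u} A, IsSimpleModule A S → (∃ m, HasProjectiveDimensionLE S m) →
      ∀ x : S, e • x = 0)
    (s : Finset ℕ) (hs : s.card ≤ 2)
    (h : ∀ i : ℕ, i ∉ s → ∃ n : ℕ, HasProjectiveDimensionLE (ModuleCat.of A ↥(Submodule.map
      (Submodule.mkQ (Ring.jacobson A ^ (i + 1))) (Ring.jacobson A ^ i))) n)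
    (a : A) (ha : a ∈ Ring.jacobson A) (b : A) (hb : b ∈ Ring.jacobson A) :
    e * a * (e * b * e) = 0 := by
  by_contra hne
  set J : Ideal A := Ring.jacobson A with hJ
  have hord : ∀ x : A, x ≠ 0 → e * x = x → ∃ i ∈ s, x ∈ J ^ i ∧ x ∉ J ^ (i + 1) := by
    intro x hx hex
    obtain ⟨i, hi1, hi2⟩ := exists_order hx
    refine ⟨i, ?_, hi1, hi2⟩
    by_contra his
    apply hi2
    rw [← hex]
    exact idem_mul_mem_of_layer e hB i (h i his) hi1
  have hstep : ∀ (x r : A) (i : ℕ), r ∈ J → x ∈ J ^ i → ∀ j, e * r * x ∈ J ^ j →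
      e * r * x ∉ J ^ (j + 1) → i < j := by
    intro x r i hr hx j hj1 hj2
    by_contra hlt
    apply hj2
    have h1 : r * x ∈ J ^ (i + 1) := mul_mem_pow_succ J hr i hx
    have h2 : e * r * x ∈ J ^ (i + 1) := by
      rw [mul_assoc]
      exact Ideal.mul_mem_left _ e h1
    exact Ideal.pow_le_pow_right (by omega) h2
  have hee : ∀ y : A, e * (e * y) = e * y := fun y => by rw [← mul_assoc, he.eq]
  have hx₁0 : e * b * e ≠ 0 := by
    intro h0
    apply hne
    rw [h0, mul_zero]
  have he0 : e ≠ 0 := by
    intro h0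
    apply hx₁0
    rw [h0, mul_zero]
  have hfix₁ : e * (e * b * e) = e * b * e := by
    rw [mul_assoc e b e]
    exact hee _
  have hfix₂ : e * (e * a * (e * b * e)) = e * a * (e * b * e) := by
    rw [mul_assoc e a]
    exact hee _
  obtain ⟨i₀, hi₀s, hi₀a, hi₀b⟩ := hord e he0 he.eq
  obtain ⟨i₁, hi₁s, hi₁a, hi₁b⟩ := hord _ hx₁0 hfix₁
  obtain ⟨i₂, hi₂s, hi₂a, hi₂b⟩ := hord _ hne hfix₂
  have h01 : i₀ < i₁ := hstep e b i₀ hb hi₀a i₁ hi₁a hi₁b
  have h12 : i₁ < i₂ := hstep _ a i₁ ha hi₁a i₂ hi₂a hi₂b
  have hsub : ({i₀, i₁, i₂} : Finset ℕ) ⊆ s := by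
    intro j hj
    simp only [Finset.mem_insert, Finset.mem_singleton] at hj
    rcases hj with rfl | rfl | rfl <;> assumption
  have hcard : ({i₀, i₁, i₂} : Finset ℕ).card = 3 := by
    rw [Finset.card_insert_of_notMem, Finset.card_insert_of_notMem, Finset.card_singleton]
    all_goals simp only [Finset.mem_insert, Finset.mem_singleton]; omega
  have h4 := Finset.card_le_card hsub
  omega

/-- Under the hypotheses of `two_layer_mul`, the corner ring `eAe` has radical square zero. -/
theorem corner_rad_sq_zero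
    (hB : ∀ S : ModuleCat.{u} A, IsSimpleModule A S → (∃ m, HasProjectiveDimensionLE S m) →
      ∀ x : S, e • x = 0)
    (s : Finset ℕ) (hs : s.card ≤ 2)
    (h : ∀ i : ℕ, i ∉ s → ∃ n : ℕ, HasProjectiveDimensionLE (ModuleCat.of A ↥(Submodule.map
      (Submodule.mkQ (Ring.jacobson A ^ (i + 1))) (Ring.jacobson A ^ i))) n) :
    ∀ x ∈ Ring.jacobson he.Corner, ∀ y ∈ Ring.jacobson he.Corner, x * y = 0 := by
  intro x hx y hy
  have h1 := two_layer_mul he hB s hs h x.1 (jacobson_corner_le he x hx) y.1
    (jacobson_corner_le he y hy)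
  rw [corner_mul_left he x, corner_mul_left he y, corner_mul_right he y] at h1
  exact Subtype.ext h1

end Corner

end Vale.Agent.Helper2.ARRad
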