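import Vale.Agent.Helper2.Corner

/-!
# Self-orthogonal modules of finite syzygy type (helper module for P195)

Let `M` be a module over a ring `R` with `Ext^i(M, M) = 0 = Ext^i(M, R)` for all `i > n`.  The
main observation is: a module which is a direct summand of an `a`-th syzygy and of a `b`-th
syzygy of `M` with `b > a + n` is projective.  Consequently, if the syzygies of `M` are direct
sums of copies of finitely many fixed modules, then `M` has projective dimension at most `n`.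
-/

universe u

open CategoryTheory Abelian

namespace Vale.Agent.Helper2.ARSyz

open Vale.Agent.Helper2.Corner

variable {R : Type u} [Ring R]

/-- Vanishing of an Ext group transfers along an isomorphism of the first argument. -/
theorem ext_eq_zero_of_iso_left {N N' Y : ModuleCat.{u} R} (f : N ≅ N') {q : ℕ}
    (h : ∀ y : Ext N' Y q, y = 0) (x : Ext N Y q) : x = 0 := by
  have h1 : x = (Ext.mk₀ f.hom).comp ((Ext.mk₀ f.inv).comp x (zero_add q)) (zero_add q) := by
    rw [Ext.mk₀_comp_mk₀_assoc, f.hom_inv_id, Ext.mk₀_id_comp]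
  rw [h1, h ((Ext.mk₀ f.inv).comp x (zero_add q)), Ext.comp_zero]

/-- Vanishing of an Ext group passes to retracts of the second argument. -/
theorem ext_eq_zero_of_retract_right {M X Y : ModuleCat.{u} R} (r : Retract X Y) {q : ℕ}
    (h : ∀ y : Ext M Y q, y = 0) (x : Ext M X q) : x = 0 := by
  have h1 : x = (x.comp (Ext.mk₀ r.i) (add_zero q)).comp (Ext.mk₀ r.r) (add_zero q) := by
    rw [Ext.comp_assoc_of_third_deg_zero, Ext.mk₀_comp_mk₀, r.retract, Ext.comp_mk₀_id]
  rw [h1, h (x.comp (Ext.mk₀ r.i) (add_zero q)), Ext.zero_comp]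

theorem ext_cast {N Y : ModuleCat.{u} R} {q q' : ℕ} (hq : q = q')
    (h : ∀ x : Ext N Y q, x = 0) : ∀ x : Ext N Y q', x = 0 := by
  subst hq
  exact h

/-- `FGProj P`: the module `P` is a retract of a finitely generated free module. -/
def FGProj (P : ModuleCat.{u} R) : Prop :=
  ∃ r : ℕ, Nonempty (Retract P (ModuleCat.of R (Fin r → R)))

theorem FGProj.projective {P : ModuleCat.{u} R} (h : FGProj P) : Projective P := by
  obtain ⟨r, ⟨ρ⟩⟩ := h
  have hproj : Projective (ModuleCat.of R (Fin r → R)) :=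
    ModuleCat.projective_of_categoryTheory_projective _
  exact ρ.projective

theorem FGProj.ext_eq_zero {P : ModuleCat.{u} R} (h : FGProj P) (M : ModuleCat.{u} R) (q : ℕ)
    (hMR : ∀ x : Ext M (ModuleCat.of R R) q, x = 0) (x : Ext M P q) : x = 0 := by
  obtain ⟨r, ⟨ρ⟩⟩ := h
  exact ext_eq_zero_of_retract_right ρ (ext_free_eq_zero M q hMR r) x

/-- `IsSyz n M K`: there are short exact sequences `0 → K_{i+1} → P_i → K_i → 0`, `i < n`, with
`K_0 ≅ M`, `K_n ≅ K`, and every `P_i` a retract of a finitely generated free module. -/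
def IsSyz : ℕ → ModuleCat.{u} R → ModuleCat.{u} R → Prop
  | 0, M, K => Nonempty (K ≅ M)
  | n + 1, M, K => ∃ S : ShortComplex (ModuleCat.{u} R),
      S.ShortExact ∧ FGProj S.X₂ ∧ Nonempty (S.X₁ ≅ K) ∧ IsSyz n M S.X₃

/-- Dimension shifting in the second variable. -/
theorem ext_syz_right (M N : ModuleCat.{u} R) (n0 : ℕ)
    (hMR : ∀ q, n0 < q → ∀ x : Ext M (ModuleCat.of R R) q, x = 0)
    (hMN : ∀ q, n0 < q → ∀ x : Ext M N q, x = 0) :
    ∀ (a : ℕ) (K : ModuleCat.{u} R), IsSyz a N K → ∀ q, n0 + a < q → ∀ x : Ext M K q, x = 0 := by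
  intro a
  induction a with
  | zero =>
    intro K hK q hq x
    obtain ⟨f⟩ := hK
    exact ext_eq_zero_of_iso f (hMN q (by omega)) x
  | succ a ih =>
    intro K hK q hq x
    obtain ⟨S, hS, hP, ⟨f⟩, hsyz⟩ := hK
    refine ext_eq_zero_of_iso f.symm ?_ x
    intro x₁
    obtain ⟨q', rfl⟩ : ∃ q', q = q' + 1 := ⟨q - 1, by omega⟩
    obtain ⟨x₃, rfl⟩ := Ext.covariant_sequence_exact₁ M hS x₁
      (hP.ext_eq_zero M (q' + 1) (hMR (q' + 1) (by omega)) _) rfl
    rw [ih S.X₃ hsyz q' (by omega) x₃, Ext.zero_comp]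

/-- Dimension shifting in the first variable. -/
theorem ext_syz_left (N Y : ModuleCat.{u} R) :
    ∀ (b : ℕ) (K : ModuleCat.{u} R), IsSyz b N K → ∀ j : ℕ,
      (∀ x : Ext N Y (j + 1 + b), x = 0) → ∀ x : Ext K Y (j + 1), x = 0 := by
  intro b
  induction b with
  | zero =>
    intro K hK j h x
    obtain ⟨f⟩ := hK
    exact ext_eq_zero_of_iso_left f h x
  | succ b ih =>
    intro K hK j h x
    obtain ⟨S, hS, hP, ⟨f⟩, hsyz⟩ := hK
    refine ext_eq_zero_of_iso_left f.symm ?_ x
    intro x₁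
    have h3 : ∀ x : Ext S.X₃ Y (j + 1 + 1), x = 0 :=
      ih S.X₃ hsyz (j + 1) (ext_cast (by omega) h)
    obtain ⟨x₂, rfl⟩ := Ext.contravariant_sequence_exact₁ hS Y x₁ (add_comm 1 (j + 1)) (h3 _)
    have hproj := hP.projective
    rw [Ext.eq_zero_of_projective x₂, Ext.comp_zero]

/-- A retract `X` of a `(b+1)`-st syzygy of `N` with `Ext^{b+1}(N, X) = 0` is projective. -/
theorem projective_of_retract_syz (N X : ModuleCat.{u} R) (b : ℕ) (K : ModuleCat.{u} R)
    (hK : IsSyz (b + 1) N K) (ρ : Retract X K) (h : ∀ x : Ext N X (b + 1), x = 0) :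
    Projective X := by
  obtain ⟨S, hS, hP, ⟨f⟩, hsyz⟩ := hK
  have h1 : ∀ x : Ext S.X₃ X (0 + 1), x = 0 :=
    ext_syz_left N X b S.X₃ hsyz 0 (ext_cast (by omega) h)
  obtain ⟨x₂, hx₂⟩ := Ext.contravariant_sequence_exact₁ hS X (Ext.mk₀ (f.hom ≫ ρ.r))
    (add_comm 1 0) (h1 _)
  obtain ⟨g, rfl⟩ := (Ext.mk₀_bijective _ _).2 x₂
  rw [Ext.mk₀_comp_mk₀, (Ext.mk₀_bijective _ _).1.eq_iff] at hx₂
  have hproj := hP.projective
  have hret : Retract X S.X₂ :=
    { i := ρ.i ≫ f.inv ≫ S.f
      r := g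
      retract := by
        rw [Category.assoc, Category.assoc, hx₂, Iso.inv_hom_id_assoc, ρ.retract] }
  exact hret.projective

/-- **Key lemma.**  Let `Ext^q(M, M) = 0 = Ext^q(M, R)` for all `q > n0`.  A module which is a
retract of an `a`-th syzygy and of a `b`-th syzygy of `M`, where `b > n0 + a`, is projective. -/
theorem projective_of_common_retract (M : ModuleCat.{u} R) (n0 : ℕ)
    (hMM : ∀ q, n0 < q → ∀ x : Ext M M q, x = 0)
    (hMR : ∀ q, n0 < q → ∀ x : Ext M (ModuleCat.of R R) q, x = 0)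
    {a b : ℕ} (hab : n0 + a < b) {Ka Kb X : ModuleCat.{u} R} (ha : IsSyz a M Ka)
    (hb : IsSyz b M Kb) (ρa : Retract X Ka) (ρb : Retract X Kb) : Projective X := by
  obtain ⟨b', rfl⟩ : ∃ b', b = b' + 1 := ⟨b - 1, by omega⟩
  have h1 : ∀ x : Ext M Ka (b' + 1), x = 0 :=
    ext_syz_right M M n0 hMR hMM a Ka ha (b' + 1) hab
  exact projective_of_retract_syz M X b' Kb hb ρb
    (fun x => ext_eq_zero_of_retract_right ρa h1 x)

/-- Descent: if a `(i+1)`-st syzygy of `M` is finitely generated projective and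
`Ext^{i+1}(M, R) = 0`, then some `i`-th syzygy of `M` is finitely generated projective. -/
theorem fgProj_descent (M : ModuleCat.{u} R) (i : ℕ)
    (hMR : ∀ x : Ext M (ModuleCat.of R R) (i + 1), x = 0) (K' : ModuleCat.{u} R)
    (hK' : IsSyz (i + 1) M K') (hproj : FGProj K') :
    ∃ K : ModuleCat.{u} R, IsSyz i M K ∧ FGProj K := by
  obtain ⟨S, hS, hP, ⟨f⟩, hsyz⟩ := hK'
  refine ⟨S.X₃, hsyz, ?_⟩
  have h0 : ∀ x : Ext M S.X₁ (i + 1), x = 0 := fun x =>
    ext_eq_zero_of_iso f (fun y => hproj.ext_eq_zero M (i + 1) hMR y) x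
  have h1 : ∀ x : Ext S.X₃ S.X₁ (0 + 1), x = 0 :=
    ext_syz_left M S.X₁ i S.X₃ hsyz 0 (ext_cast (by omega) h0)
  obtain ⟨x₂, hx₂⟩ := Ext.covariant_sequence_exact₃ S.X₃ hS (Ext.mk₀ (𝟙 S.X₃)) (zero_add 1)
    (h1 _)
  obtain ⟨s, rfl⟩ := (Ext.mk₀_bijective _ _).2 x₂
  rw [Ext.mk₀_comp_mk₀, (Ext.mk₀_bijective _ _).1.eq_iff] at hx₂
  obtain ⟨r, ⟨ρ⟩⟩ := hP
  exact ⟨r, ⟨(Retract.mk s S.g hx₂).trans ρ⟩⟩

theorem fgProj_descent_iter (M : ModuleCat.{u} R) (n0 : ℕ)
    (hMR : ∀ q, n0 < q → ∀ x : Ext M (ModuleCat.of R R) q, x = 0) :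
    ∀ (d : ℕ) (K' : ModuleCat.{u} R), IsSyz (n0 + d) M K' → FGProj K' →
      ∃ K : ModuleCat.{u} R, IsSyz n0 M K ∧ FGProj K := by
  intro d
  induction d with
  | zero => exact fun K' h1 h2 => ⟨K', h1, h2⟩
  | succ d ih =>
    intro K' h1 h2
    obtain ⟨K, h3, h4⟩ := fgProj_descent M (n0 + d) (hMR _ (by omega)) K' h1 h2
    exact ih K h3 h4

/-- If an `i`-th syzygy of `M` has projective dimension `< d + 1` then `M` has projective
dimension `< i + d + 1`. -/
theorem pd_of_syz (M : ModuleCat.{u} R) :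
    ∀ (i d : ℕ) (K : ModuleCat.{u} R), IsSyz i M K → HasProjectiveDimensionLT K (d + 1) →
      HasProjectiveDimensionLT M (i + d + 1) := by
  intro i
  induction i with
  | zero =>
    intro d K hK hpd
    obtain ⟨f⟩ := hK
    have h := hasProjectiveDimensionLT_of_iso f (d + 1)
    exact hasProjectiveDimensionLT_of_ge M (d + 1) (0 + d + 1) (by omega)
  | succ i ih =>
    intro d K hK hpd
    obtain ⟨S, hS, hP, ⟨f⟩, hsyz⟩ := hK
    have h1 : HasProjectiveDimensionLT S.X₁ (d + 1) := hasProjectiveDimensionLT_of_iso f.symm (d + 1)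
    have h3 : HasProjectiveDimensionLT S.X₃ (d + 1 + 1) :=
      (hS.hasProjectiveDimensionLT_X₃_iff d hP.projective).mpr h1
    have h4 := ih (d + 1) S.X₃ hsyz h3
    exact hasProjectiveDimensionLT_of_ge M (i + (d + 1) + 1) (i + 1 + d + 1) (by omega)

theorem IsSyz.of_iso {i : ℕ} {M K K' : ModuleCat.{u} R} (h : IsSyz i M K) (f : K' ≅ K) :
    IsSyz i M K' := by
  cases i with
  | zero =>
    obtain ⟨g⟩ := h
    exact ⟨f ≪≫ g⟩
  | succ i =>
    obtain ⟨S, hS, hP, ⟨g⟩, hsyz⟩ := h
    exact ⟨S, hS, hP, ⟨g ≪≫ f.symm⟩, hsyz⟩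

theorem IsSyz.append {i : ℕ} {M K K' : ModuleCat.{u} R} (h : IsSyz i M K) (h' : IsSyz 1 K K') :
    IsSyz (i + 1) M K' := by
  obtain ⟨S, hS, hP, hf, ⟨g⟩⟩ := h'
  exact ⟨S, hS, hP, hf, h.of_iso g⟩

theorem IsSyz.congr_n {i i' : ℕ} (h : i = i') {M K : ModuleCat.{u} R} (hK : IsSyz i M K) :
    IsSyz i' M K := by
  subst h
  exact hK

/-- A finitely generated projective module is a retract of a finitely generated free module. -/
theorem fgProj_of_finite_projective (Q : Type u) [AddCommGroup Q] [Module R Q] [Module.Finite R Q]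
    [Module.Projective R Q] : FGProj (ModuleCat.of R Q) := by
  obtain ⟨r, π, hπ⟩ := Module.Finite.exists_fin' R Q
  obtain ⟨s, hs⟩ := Module.projective_lifting_property π LinearMap.id hπ
  exact ⟨r, ⟨{ i := ModuleCat.ofHom s
               r := ModuleCat.ofHom π
               retract := by
                 rw [← ModuleCat.ofHom_comp, hs]
                 rfl }⟩⟩

section Chain

theorem isSyz_of_chain (M : ModuleCat.{u} R)
    (K : ℕ → Type u) [∀ i, AddCommGroup (K i)] [∀ i, Module R (K i)]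
    (r : ℕ → ℕ) (π : ∀ i, (Fin (r i) → R) →ₗ[R] K i) (hπ : ∀ i, Function.Surjective (π i))
    (e0 : Nonempty (K 0 ≃ₗ[R] M)) (eK : ∀ i, Nonempty (K (i + 1) ≃ₗ[R] LinearMap.ker (π i))) :
    ∀ i, IsSyz i M (ModuleCat.of R (K i)) := by
  intro i
  induction i with
  | zero =>
    obtain ⟨e⟩ := e0
    exact ⟨e.toModuleIso⟩
  | succ i ih =>
    obtain ⟨e⟩ := eK i
    exact ⟨(π i).shortComplexKer, LinearMap.shortExact_shortComplexKer (hπ i),
      ⟨r i, ⟨Retract.refl _⟩⟩, ⟨e.symm.toModuleIso⟩, ih⟩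

theorem projective_pi_fin {m : ℕ} (Y : Fin m → Type u) [∀ j, AddCommGroup (Y j)]
    [∀ j, Module R (Y j)] (h : ∀ j, Module.Projective R (Y j)) :
    Module.Projective R ((j : Fin m) → Y j) := by
  classical
  exact Module.Projective.of_equiv (DFinsupp.linearEquivFunOnFintype (R := R) (M := Y))

/-- A finite direct sum of copies of finitely many modules which is not projective has a
non-projective direct summand among these modules. -/
theorem exists_nonprojective_summand {m : ℕ} (X : Fin m → Type u) [∀ j, AddCommGroup (X j)]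
    [∀ j, Module R (X j)] (c : Fin m → ℕ) (L : Type u) [AddCommGroup L] [Module R L]
    (e : L ≃ₗ[R] ((j : Fin m) → Fin (c j) → X j)) (hL : ¬ Module.Projective R L) :
    ∃ j, ¬ Module.Projective R (X j) ∧
      Nonempty (Retract (ModuleCat.of R (X j)) (ModuleCat.of R L)) := by
  classical
  have h1 : ∃ j, 0 < c j ∧ ¬ Module.Projective R (X j) := by
    by_contra hcon
    push Not at hcon
    apply hL
    have h2 : ∀ j, Module.Projective R (Fin (c j) → X j) := by
      intro j
      rcases Nat.eq_zero_or_pos (c j) with h0 | hpos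
      · have hsub : Subsingleton (Fin (c j) → X j) := by
          rw [h0]
          infer_instance
        infer_instance
      · have := hcon j hpos
        exact projective_pi_fin (fun _ : Fin (c j) => X j) (fun _ => this)
    have h3 := projective_pi_fin (fun j : Fin m => Fin (c j) → X j) h2
    exact Module.Projective.of_equiv e.symm
  obtain ⟨j, hc, hj⟩ := h1
  refine ⟨j, hj, ?_⟩
  let s : X j →ₗ[R] L := e.symm.toLinearMap ∘ₗ
    (LinearMap.single R (fun j : Fin m => Fin (c j) → X j) j) ∘ₗ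
    (LinearMap.single R (fun _ : Fin (c j) => X j) ⟨0, hc⟩)
  let p : L →ₗ[R] X j := (LinearMap.proj (⟨0, hc⟩ : Fin (c j))) ∘ₗ
    (LinearMap.proj j) ∘ₗ e.toLinearMap
  have hps : p ∘ₗ s = LinearMap.id := by
    ext x
    simp [s, p]
  exact ⟨{ i := ModuleCat.ofHom s
           r := ModuleCat.ofHom p
           retract := by
             rw [← ModuleCat.ofHom_comp, hps]
             rfl }⟩

/-- **Finite syzygy type.**  Let `M` be a module with `Ext^q(M, M) = 0 = Ext^q(M, R)` for all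
`q > n0`, and suppose `M` has a resolution by finitely generated free modules whose syzygy modules
`K i` (`i ≥ i₀`) are finite direct sums of copies of finitely many fixed modules.  Then `M` has
projective dimension at most `n0`. -/
theorem pd_le_of_finite_syzygy_type (M : ModuleCat.{u} R) (n0 : ℕ)
    (hMM : ∀ q, n0 < q → ∀ x : Ext M M q, x = 0)
    (hMR : ∀ q, n0 < q → ∀ x : Ext M (ModuleCat.of R R) q, x = 0)
    (K : ℕ → Type u) [∀ i, AddCommGroup (K i)] [∀ i, Module R (K i)]
    (r : ℕ → ℕ) (π : ∀ i, (Fin (r i) → R) →ₗ[R] K i) (hπ : ∀ i, Function.Surjective (π i))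
    (e0 : Nonempty (K 0 ≃ₗ[R] M)) (eK : ∀ i, Nonempty (K (i + 1) ≃ₗ[R] LinearMap.ker (π i)))
    (m : ℕ) (X : Fin m → Type u) [∀ j, AddCommGroup (X j)] [∀ j, Module R (X j)] (i₀ : ℕ)
    (hfin : ∀ i, i₀ ≤ i → ∃ c : Fin m → ℕ,
      Nonempty (K i ≃ₗ[R] ((j : Fin m) → Fin (c j) → X j))) :
    HasProjectiveDimensionLE M n0 := by
  have hsyz := isSyz_of_chain M K r π hπ e0 eK
  have hex : ∃ i, Module.Projective R (K i) := by
    by_contra hcon
    push Not at hcon
    have hj : ∀ t : ℕ, ∃ j : Fin m, ¬ Module.Projective R (X j) ∧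
        Nonempty (Retract (ModuleCat.of R (X j)) (ModuleCat.of R (K (i₀ + t)))) := by
      intro t
      obtain ⟨c, ⟨e⟩⟩ := hfin (i₀ + t) (Nat.le_add_right _ _)
      exact exists_nonprojective_summand X c (K (i₀ + t)) e (hcon _)
    choose f hf using hj
    obtain ⟨j, hjinf⟩ := Finite.exists_infinite_fiber f
    have hinf : (f ⁻¹' {j}).Infinite := Set.infinite_coe_iff.mp hjinf
    obtain ⟨a, ha⟩ := hinf.nonempty
    obtain ⟨b, hb, hab⟩ := hinf.exists_gt (n0 + a)
    have ha' : f a = j := ha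
    have hb' : f b = j := hb
    have h1 := hf a
    have h2 := hf b
    rw [ha'] at h1
    rw [hb'] at h2
    obtain ⟨ρa⟩ := h1.2
    obtain ⟨ρb⟩ := h2.2
    have hproj : Projective (ModuleCat.of R (X j)) :=
      projective_of_common_retract M n0 hMM hMR (by omega) (hsyz (i₀ + a)) (hsyz (i₀ + b)) ρa ρb
    exact h1.1 ((IsProjective.iff_projective (X j)).mpr hproj)
  obtain ⟨i, hi⟩ := hex
  have hfg : FGProj (ModuleCat.of R (K i)) := by
    obtain ⟨s, hs⟩ := Module.projective_lifting_property (π i) LinearMap.id (hπ i)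
    exact ⟨r i, ⟨{ i := ModuleCat.ofHom s
                   r := ModuleCat.ofHom (π i)
                   retract := by
                     rw [← ModuleCat.ofHom_comp, hs]
                     rfl }⟩⟩
  by_cases hin : i ≤ n0
  · have hp := hfg.projective
    have h1 : HasProjectiveDimensionLT (ModuleCat.of R (K i)) (0 + 1) := by
      rw [zero_add]
      exact projective_iff_hasProjectiveDimensionLT_one.mp hp
    have h2 := pd_of_syz M i 0 _ (hsyz i) h1
    exact hasProjectiveDimensionLT_of_ge M (i + 0 + 1) (n0 + 1) (by omega)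
  · obtain ⟨d, rfl⟩ : ∃ d, i = n0 + d := ⟨i - n0, by omega⟩
    obtain ⟨K', h3, h4⟩ := fgProj_descent_iter M n0 hMR d _ (hsyz _) hfg
    have hp := h4.projective
    have h1 : HasProjectiveDimensionLT K' (0 + 1) := by
      rw [zero_add]
      exact projective_iff_hasProjectiveDimensionLT_one.mp hp
    exact pd_of_syz M n0 0 K' h3 h1

end Chain

end Vale.Agent.Helper2.ARSyz
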