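import Mathlib

/-!
# Definitions for the statement of `P002.FreeTimesAbelian`

Representations of the group `F_m × ∏_j ℤ/(q j)` in `SL_r(ℂ)` as tuples of matrices, integrality
of matrix entries, and conjugation-invariant polynomials in the matrix entries.  The proofs are
in `Vale.Agent.Helper2.CharVar`.
-/

namespace Vale.Agent.Helper2.CharVar

open Matrix

/-- `z` lies in the subring of `ℂ` generated by `√2` and the `N`-th roots of unity; this is a
subring of the ring of integers of the number field `ℚ(√2, e^{2πi/N})`. -/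
def IsInt (N : ℕ) (z : ℂ) : Prop :=
  z ∈ Subring.closure ({((Real.sqrt 2 : ℝ) : ℂ)} ∪ {w : ℂ | w ^ N = 1})

/-- The level used for rank `r` and torsion orders `q`: `r! * ∏ (q j or 1)`. -/
def level (r : ℕ) {n : ℕ} (q : Fin n → ℕ) : ℕ :=
  r.factorial * ∏ j, (if q j = 0 then 1 else q j)

/-- Value of a polynomial in the matrix entries at a tuple of `r × r` matrices. -/
noncomputable def evalAt {ι : Type*} {r : ℕ} (A : ι → Matrix (Fin r) (Fin r) ℂ)
    (f : MvPolynomial (ι × Fin r × Fin r) ℂ) : ℂ :=
  MvPolynomial.eval (fun p => A p.1 p.2.1 p.2.2) f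

/-- The polynomial `f` is invariant under simultaneous conjugation of the tuple. -/
def ConjInvariant {ι : Type*} {r : ℕ} (f : MvPolynomial (ι × Fin r × Fin r) ℂ) : Prop :=
  ∀ P Q : Matrix (Fin r) (Fin r) ℂ, P * Q = 1 →
    ∀ A : ι → Matrix (Fin r) (Fin r) ℂ, evalAt (fun i => P * A i * Q) f = evalAt A f

/-- `(A, B)` is a representation in `SL_r(ℂ)` of the group `F_m × ∏_j ℤ/(q j)` (with
`ℤ/0 = ℤ`): the `A i` are the images of the free generators, the `B j` the images of the
generators of the abelian factor, `B j` has order dividing `q j`, every `A i` commutes with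
every `B j`, and the `B j` are simultaneously diagonalisable (so the restriction to the abelian
factor is semisimple; in particular the `B j` commute with each other).  In addition the tuple of
the images `B j` of the torsion generators (`q j ≠ 0`) is required to lie in the prescribed set
`K` of tuples. -/
def IsRep {m n r : ℕ} (q : Fin n → ℕ)
    (K : Set ({j : Fin n // q j ≠ 0} → Matrix (Fin r) (Fin r) ℂ))
    (A : Fin m → Matrix (Fin r) (Fin r) ℂ) (B : Fin n → Matrix (Fin r) (Fin r) ℂ) : Prop :=
  (∀ i, (A i).det = 1) ∧ (∀ j, (B j).det = 1) ∧ (∀ j, B j ^ q j = 1) ∧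
  (fun j : {j : Fin n // q j ≠ 0} => B j) ∈ K ∧ (∀ i j, A i * B j = B j * A i) ∧
  ∃ P Q : Matrix (Fin r) (Fin r) ℂ, P * Q = 1 ∧
    ∀ j, ∃ d : Fin r → ℂ, B j = P * Matrix.diagonal d * Q

end Vale.Agent.Helper2.CharVar
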