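import Mathlib
import Vale.Agent.Helper2.CharVarDefs

/-!
# Definitions for the statement of `P002.ProductOfFreeGroups`

Representations of a product of free groups and finite cyclic groups in `SL_r(ℂ)` that are
simultaneously conjugate to a block-tensor normal form.  The proofs are in
`Vale.Agent.Helper2.CharProd`.
-/

namespace Vale.Agent.Helper2.CharProd

open Matrix

/-- For dimensions `δ 0, ..., δ (s-1)`, the matrix on the tensor product of the spaces `ℂ^(δ i)`
(with basis indexed by the tuples `x`, `x i < δ i`) that acts as `g` on the `l`-th tensor factor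
and as the identity on the other factors. -/
def slotMat {s : ℕ} (δ : Fin s → ℕ) (l : Fin s) (g : Matrix (Fin (δ l)) (Fin (δ l)) ℂ) :
    Matrix ((i : Fin s) → Fin (δ i)) ((i : Fin s) → Fin (δ i)) ℂ :=
  fun x y => if ∀ i, i ≠ l → x i = y i then g (x l) (y l) else 0

/-- A direct sum of `t` tensor products: block `k` is the tensor product of spaces of dimensions
`d k 0, ..., d k (s-1)`, and `φ` numbers the basis vectors of the direct sum by `Fin r`.  The
matrix `slotEmb d φ l g` acts on block `k` as `g k` on the `l`-th tensor factor and as the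
identity on the other tensor factors. -/
def slotEmb {s t r : ℕ} (d : Fin t → Fin s → ℕ)
    (φ : (Σ k : Fin t, (i : Fin s) → Fin (d k i)) ≃ Fin r) (l : Fin s)
    (g : (k : Fin t) → Matrix (Fin (d k l)) (Fin (d k l)) ℂ) : Matrix (Fin r) (Fin r) ℂ :=
  Matrix.reindex φ φ (Matrix.blockDiagonal' (fun k => slotMat (d k) l (g k)))

/-- The matrix acting on block `k` as the scalar `ω k`. -/
def scalEmb {s t r : ℕ} (d : Fin t → Fin s → ℕ)
    (φ : (Σ k : Fin t, (i : Fin s) → Fin (d k i)) ≃ Fin r) (ω : Fin t → ℂ) :
    Matrix (Fin r) (Fin r) ℂ :=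
  Matrix.diagonal (fun a => ω (φ.symm a).1)

/-- `(A, B)` is a representation in `SL_r(ℂ)` of the group
`F_(a 0) × ... × F_(a (s-1)) × ∏_j ℤ/(q j)` in block-tensor normal form: `A l i` is the image of
the `i`-th free generator of the `l`-th free factor and `B j` the image of the generator of
`ℤ/(q j)`.  All these matrices have determinant one, `B j ^ q j = 1`, generators of different
factors commute, and after one simultaneous conjugation the space is a direct sum of tensor
products `V_(k,0) ⊗ ... ⊗ V_(k,s-1)` on which the `l`-th free factor acts through the `l`-th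
tensor factor and the cyclic factors act by scalars.  In addition the tuple `B` is required to
lie in the prescribed set `K`. -/
def IsRepProd {s n r : ℕ} (a : Fin s → ℕ) (q : Fin n → ℕ)
    (K : Set (Fin n → Matrix (Fin r) (Fin r) ℂ))
    (A : (l : Fin s) → Fin (a l) → Matrix (Fin r) (Fin r) ℂ)
    (B : Fin n → Matrix (Fin r) (Fin r) ℂ) : Prop :=
  (∀ l i, (A l i).det = 1) ∧ (∀ j, (B j).det = 1) ∧ (∀ j, B j ^ q j = 1) ∧ B ∈ K ∧
  (∀ l l' i i', l ≠ l' → A l i * A l' i' = A l' i' * A l i) ∧
  (∀ l i j, A l i * B j = B j * A l i) ∧ (∀ j j', B j * B j' = B j' * B j) ∧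
  ∃ (t : ℕ) (d : Fin t → Fin s → ℕ) (φ : (Σ k : Fin t, (i : Fin s) → Fin (d k i)) ≃ Fin r)
    (P Q : Matrix (Fin r) (Fin r) ℂ), P * Q = 1 ∧
    (∀ l i, ∃ g : (k : Fin t) → Matrix (Fin (d k l)) (Fin (d k l)) ℂ,
      A l i = P * slotEmb d φ l g * Q) ∧
    (∀ j, ∃ ω : Fin t → ℂ, B j = P * scalEmb d φ ω * Q)

end Vale.Agent.Helper2.CharProd
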