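import Mathlib
import Vale.Agent.Results.P002.AbelianPi1
import Vale.Agent.Helper2.CharVarDefs

namespace Vale.Agent.Helper2.CharVar

set_option linter.unusedSectionVars false
set_option linter.unusedSimpArgs false

open Matrix
open Vale.Agent.Results.P002.AbelianPi1 (IsZsqrt2 unitSet unitSet_infinite unitSet_ne_zero
  unitSet_inv unitSet_mul unitSet_one unitSet_prod prod_update_two prod_split_two)

/-! ### Laurent functions of one variable -/

/-- `g` agrees on `ℂ \ {0}` with a Laurent polynomial. -/
def LaurentFn (g : ℂ → ℂ) : Prop :=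
  ∃ (N : ℕ) (Q : Polynomial ℂ), ∀ t : ℂ, t ≠ 0 → t ^ N * g t = Q.eval t

theorem LaurentFn.const (a : ℂ) : LaurentFn (fun _ => a) :=
  ⟨0, Polynomial.C a, fun t _ => by simp⟩

theorem LaurentFn.add {g h : ℂ → ℂ} (hg : LaurentFn g) (hh : LaurentFn h) :
    LaurentFn (fun t => g t + h t) := by
  obtain ⟨N, Q, hQ⟩ := hg
  obtain ⟨M, R, hR⟩ := hh
  refine ⟨N + M, Polynomial.X ^ M * Q + Polynomial.X ^ N * R, fun t ht => ?_⟩
  simp only [Polynomial.eval_add, Polynomial.eval_mul, Polynomial.eval_pow, Polynomial.eval_X]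
  rw [← hQ t ht, ← hR t ht]
  ring

theorem LaurentFn.mul {g h : ℂ → ℂ} (hg : LaurentFn g) (hh : LaurentFn h) :
    LaurentFn (fun t => g t * h t) := by
  obtain ⟨N, Q, hQ⟩ := hg
  obtain ⟨M, R, hR⟩ := hh
  refine ⟨N + M, Q * R, fun t ht => ?_⟩
  simp only [Polynomial.eval_mul]
  rw [← hQ t ht, ← hR t ht]
  ring

theorem LaurentFn.id : LaurentFn (fun t => t) :=
  ⟨0, Polynomial.X, fun t _ => by simp⟩

theorem LaurentFn.inv : LaurentFn (fun t => t⁻¹) :=
  ⟨1, 1, fun t ht => by simp [ht]⟩

theorem LaurentFn.pow {g : ℂ → ℂ} (hg : LaurentFn g) (k : ℕ) : LaurentFn (fun t => g t ^ k) := by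
  induction k with
  | zero => simpa using LaurentFn.const 1
  | succ k ih =>
    have := ih.mul hg
    simpa [pow_succ] using this

theorem LaurentFn.zpow (z : ℤ) : LaurentFn (fun t => t ^ z) := by
  rcases Int.eq_nat_or_neg z with ⟨k, rfl | rfl⟩
  · simpa using LaurentFn.id.pow k
  · have := LaurentFn.inv.pow k
    simpa [_root_.zpow_neg, inv_pow] using this

theorem LaurentFn.sum {α : Type*} (s : Finset α) (g : α → ℂ → ℂ)
    (h : ∀ a ∈ s, LaurentFn (g a)) : LaurentFn (fun t => ∑ a ∈ s, g a t) := by
  classical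
  induction s using Finset.induction_on with
  | empty => simpa using LaurentFn.const 0
  | insert a s ha ih =>
    have h1 := (h a (Finset.mem_insert_self a s)).add
      (ih (fun b hb => h b (Finset.mem_insert_of_mem hb)))
    simpa [Finset.sum_insert ha] using h1

theorem LaurentFn.eval {σ : Type*} (x : ℂ → σ → ℂ) (hx : ∀ p, LaurentFn (fun t => x t p))
    (f : MvPolynomial σ ℂ) : LaurentFn (fun t => MvPolynomial.eval (x t) f) := by
  induction f using MvPolynomial.induction_on with
  | C a => simpa using LaurentFn.const a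
  | add f g hf hg => simpa using hf.add hg
  | mul_X f p hf => simpa using hf.mul (hx p)

theorem LaurentFn.vanish {g : ℂ → ℂ} (hg : LaurentFn g) (U : Set ℂ) (hU : U.Infinite)
    (h : ∀ t ∈ U, g t = 0) : ∀ t : ℂ, t ≠ 0 → g t = 0 := by
  obtain ⟨N, Q, hQ⟩ := hg
  have hQ0 : Q = 0 := by
    apply Polynomial.eq_zero_of_infinite_isRoot
    apply Set.Infinite.mono _ (hU.sdiff (Set.finite_singleton (0 : ℂ)))
    intro t ht
    have ht0 : t ≠ 0 := by
      intro h0
      exact ht.2 (by simp [h0])
    show Q.IsRoot t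
    rw [Polynomial.IsRoot, ← hQ t ht0, h t ht.1, mul_zero]
  intro t ht
  have := hQ t ht
  rw [hQ0, Polynomial.eval_zero] at this
  rcases mul_eq_zero.mp this with h1 | h1
  · exact absurd h1 (pow_ne_zero N ht)
  · exact h1

/-! ### The closure argument -/

section Closure

variable {ι : Type*} [DecidableEq ι] {r : ℕ}

/-- The tuples `T` such that `f` vanishes at `T * H` for every tuple `H` from the sets `G`. -/
def WSet (f : MvPolynomial (ι × Fin r × Fin r) ℂ) (G : ι → Set (Matrix (Fin r) (Fin r) ℂ)) :
    Set (ι → Matrix (Fin r) (Fin r) ℂ) :=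
  {T | ∀ H : ι → Matrix (Fin r) (Fin r) ℂ, (∀ i, H i ∈ G i) → evalAt (fun i => T i * H i) f = 0}

theorem one_mem_WSet (f : MvPolynomial (ι × Fin r × Fin r) ℂ)
    (G : ι → Set (Matrix (Fin r) (Fin r) ℂ))
    (hvan : ∀ H : ι → Matrix (Fin r) (Fin r) ℂ, (∀ i, H i ∈ G i) → evalAt H f = 0) :
    (fun _ => (1 : Matrix (Fin r) (Fin r) ℂ)) ∈ WSet f G := by
  intro H hH
  simpa using hvan H hH

theorem move_mem_WSet (f : MvPolynomial (ι × Fin r × Fin r) ℂ)
    (G : ι → Set (Matrix (Fin r) (Fin r) ℂ))
    (T : ι → Matrix (Fin r) (Fin r) ℂ) (hT : T ∈ WSet f G) (i₀ : ι)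
    (hmul : ∀ X ∈ G i₀, ∀ Y ∈ G i₀, X * Y ∈ G i₀)
    (γ : ℂ → Matrix (Fin r) (Fin r) ℂ) (hγ : ∀ a b, LaurentFn (fun t => γ t a b))
    (U : Set ℂ) (hU : U.Infinite) (hUG : ∀ t ∈ U, γ t ∈ G i₀) :
    ∀ t : ℂ, t ≠ 0 → Function.update T i₀ (T i₀ * γ t) ∈ WSet f G := by
  intro t ht H hH
  have hL : LaurentFn (fun t => evalAt (fun i => Function.update T i₀ (T i₀ * γ t) i * H i) f) := by
    unfold evalAt
    apply LaurentFn.eval
    rintro ⟨i, a, b⟩
    by_cases hi : i = i₀
    · subst hi
      simp only [Function.update_self, Matrix.mul_apply, Finset.sum_mul]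
      apply LaurentFn.sum
      intro x _
      apply LaurentFn.sum
      intro y _
      exact ((LaurentFn.const _).mul (hγ y x)).mul (LaurentFn.const _)
    · simp only [Function.update_of_ne hi]
      exact LaurentFn.const _
  refine hL.vanish U hU (fun s hs => ?_) t ht
  have h1 : (fun i => Function.update T i₀ (T i₀ * γ s) i * H i)
      = fun i => T i * Function.update H i₀ (γ s * H i₀) i := by
    funext i
    by_cases hi : i = i₀
    · subst hi
      simp [Matrix.mul_assoc]
    · simp [Function.update_of_ne hi]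
  rw [h1]
  apply hT
  intro i
  by_cases hi : i = i₀
  · subst hi
    simp only [Function.update_self]
    exact hmul _ (hUG s hs) _ (hH i)
  · simp only [Function.update_of_ne hi]
    exact hH i

/-- Coordinatewise reachability: if right multiplication of a coordinate by a matrix with
property `Rch i` preserves `WSet`, then every tuple with all coordinates in `Rch` is in `WSet`. -/
theorem mem_WSet_of_reach [Fintype ι] (f : MvPolynomial (ι × Fin r × Fin r) ℂ)
    (G : ι → Set (Matrix (Fin r) (Fin r) ℂ))
    (hvan : ∀ H : ι → Matrix (Fin r) (Fin r) ℂ, (∀ i, H i ∈ G i) → evalAt H f = 0)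
    (Rch : ι → Matrix (Fin r) (Fin r) ℂ → Prop)
    (hstep : ∀ i, ∀ M, Rch i M → ∀ T ∈ WSet f G, Function.update T i (T i * M) ∈ WSet f G)
    (T : ι → Matrix (Fin r) (Fin r) ℂ) (hT : ∀ i, Rch i (T i)) : T ∈ WSet f G := by
  have key : ∀ S : Finset ι, (fun i => if i ∈ S then T i else 1) ∈ WSet f G := by
    intro S
    induction S using Finset.induction_on with
    | empty => simpa using one_mem_WSet f G hvan
    | insert i₀ S hi ih =>
      have h1 := hstep i₀ (T i₀) (hT i₀) _ ih
      have h2 : Function.update (fun i => if i ∈ S then T i else 1) i₀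
          ((if i₀ ∈ S then T i₀ else 1) * T i₀) = fun i => if i ∈ insert i₀ S then T i else 1 := by
        funext i
        by_cases hii : i = i₀
        · subst hii
          simp [hi]
        · simp [Function.update_of_ne hii, Finset.mem_insert, hii]
      rw [h2] at h1
      exact h1
  have := key Finset.univ
  simpa using this

end Closure

/-! ### Integrality lemmas -/

theorem isInt_zero (N : ℕ) : IsInt N 0 := Subring.zero_mem _

theorem isInt_one (N : ℕ) : IsInt N 1 := Subring.one_mem _

theorem isInt_add {N : ℕ} {x y : ℂ} (hx : IsInt N x) (hy : IsInt N y) : IsInt N (x + y) :=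
  Subring.add_mem _ hx hy

theorem isInt_mul {N : ℕ} {x y : ℂ} (hx : IsInt N x) (hy : IsInt N y) : IsInt N (x * y) :=
  Subring.mul_mem _ hx hy

theorem isInt_natCast (N k : ℕ) : IsInt N (k : ℂ) := natCast_mem _ k

theorem isInt_intCast (N : ℕ) (k : ℤ) : IsInt N (k : ℂ) := intCast_mem _ k

theorem isInt_sqrt2 (N : ℕ) : IsInt N ((Real.sqrt 2 : ℝ) : ℂ) :=
  Subring.subset_closure (Or.inl rfl)

theorem isInt_root {N : ℕ} {w : ℂ} (h : w ^ N = 1) : IsInt N w :=
  Subring.subset_closure (Or.inr h)

theorem isInt_of_isZsqrt2 {N : ℕ} {z : ℂ} (h : IsZsqrt2 z) : IsInt N z := by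
  obtain ⟨a, b, rfl⟩ := h
  exact isInt_add (isInt_intCast N a) (isInt_mul (isInt_intCast N b) (isInt_sqrt2 N))

theorem isInt_sum {N : ℕ} {α : Type*} (s : Finset α) (g : α → ℂ) (h : ∀ a ∈ s, IsInt N (g a)) :
    IsInt N (∑ a ∈ s, g a) :=
  Subring.sum_mem _ h

/-! ### Block matrices and generation of the block group -/

section Blocks

variable {X : Type*} [DecidableEq X] {r : ℕ} (c : Fin r → X)

/-- Matrices that are block diagonal with respect to the partition of the indices given by `c`. -/
def Blk (M : Matrix (Fin r) (Fin r) ℂ) : Prop := ∀ a b, c a ≠ c b → M a b = 0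

theorem Blk.one : Blk c 1 := by
  intro a b hab
  have : a ≠ b := fun h => hab (by rw [h])
  simp [Matrix.one_apply, this]

theorem Blk.mul {M N : Matrix (Fin r) (Fin r) ℂ} (hM : Blk c M) (hN : Blk c N) :
    Blk c (M * N) := by
  intro a b hab
  rw [Matrix.mul_apply]
  apply Finset.sum_eq_zero
  intro x _
  by_cases h : c a = c x
  · rw [hN x b (by rw [← h]; exact hab), mul_zero]
  · rw [hM a x h, zero_mul]

theorem Blk.diagonal (D : Fin r → ℂ) : Blk c (Matrix.diagonal D) := by
  intro a b hab
  have : a ≠ b := fun h => hab (by rw [h])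
  simp [Matrix.diagonal_apply, this]

theorem Blk.transvection {k l : Fin r} (h : c k = c l) (t : ℂ) :
    Blk c (Matrix.transvection k l t) := by
  intro a b hab
  have hne : a ≠ b := fun h => hab (by rw [h])
  simp only [Matrix.transvection, Matrix.add_apply, Matrix.one_apply_ne hne, zero_add,
    Matrix.single_apply]
  rw [if_neg]
  rintro ⟨rfl, rfl⟩
  exact hab h

/-- The diagonal matrix with `t` at `k`, `t⁻¹` at `l` and ones elsewhere. -/
noncomputable def dlt (k l : Fin r) (t : ℂ) : Matrix (Fin r) (Fin r) ℂ :=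
  Matrix.diagonal (Function.update (Function.update (fun _ => (1 : ℂ)) k t) l t⁻¹)

theorem det_dlt {k l : Fin r} (h : k ≠ l) {t : ℂ} (ht : t ≠ 0) : (dlt k l t).det = 1 := by
  rw [dlt, Matrix.det_diagonal, prod_update_two _ l k h]
  simp [ht]

/-- Products of transvections inside blocks and of the matrices `dlt`. -/
inductive AReach : Matrix (Fin r) (Fin r) ℂ → Prop
  | one : AReach 1
  | mulE (M : Matrix (Fin r) (Fin r) ℂ) (k l : Fin r) (t : ℂ) (hkl : k ≠ l) (hc : c k = c l) :
      AReach M → AReach (M * Matrix.transvection k l t)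
  | mulD (M : Matrix (Fin r) (Fin r) ℂ) (k l : Fin r) (t : ℂ) (hkl : k ≠ l) (ht : t ≠ 0) :
      AReach M → AReach (M * dlt k l t)

/-- Products of transvections inside blocks and of invertible diagonal matrices. -/
inductive GReach : Matrix (Fin r) (Fin r) ℂ → Prop
  | one : GReach 1
  | mulE (M : Matrix (Fin r) (Fin r) ℂ) (k l : Fin r) (t : ℂ) (hkl : k ≠ l) (hc : c k = c l) :
      GReach M → GReach (M * Matrix.transvection k l t)
  | mulD (M : Matrix (Fin r) (Fin r) ℂ) (D : Fin r → ℂ) (hD : ∀ k, D k ≠ 0) :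
      GReach M → GReach (M * Matrix.diagonal D)

theorem GReach.mul {M N : Matrix (Fin r) (Fin r) ℂ} (hM : GReach c M) (hN : GReach c N) :
    GReach c (M * N) := by
  induction hN with
  | one => simpa using hM
  | mulE N k l t hkl hc _ ih =>
    rw [← Matrix.mul_assoc]
    exact GReach.mulE _ k l t hkl hc ih
  | mulD N D hD _ ih =>
    rw [← Matrix.mul_assoc]
    exact GReach.mulD _ D hD ih

theorem AReach.det {M : Matrix (Fin r) (Fin r) ℂ} (h : AReach c M) : M.det = 1 := by
  induction h with
  | one => simp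
  | mulE M k l t hkl hc _ ih =>
    rw [Matrix.det_mul, ih, Matrix.det_transvection_of_ne _ _ hkl, one_mul]
  | mulD M k l t hkl ht _ ih =>
    rw [Matrix.det_mul, ih, det_dlt hkl ht, one_mul]

theorem AReach.mul_diag {M : Matrix (Fin r) (Fin r) ℂ} (hM : AReach c M) (D : Fin r → ℂ)
    (hD : ∏ k, D k = 1) : AReach c (M * Matrix.diagonal D) := by
  rcases Nat.eq_zero_or_pos r with rfl | hr
  · have : Matrix.diagonal D = 1 := Subsingleton.elim _ _
    rw [this, Matrix.mul_one]
    exact hM
  · obtain ⟨k₀⟩ : Nonempty (Fin r) := ⟨⟨0, hr⟩⟩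
    have hne : ∀ k, D k ≠ 0 := by
      intro k hk
      have : ∏ k, D k = 0 := Finset.prod_eq_zero (Finset.mem_univ k) hk
      rw [hD] at this
      exact one_ne_zero this
    have key : ∀ S : Finset (Fin r), k₀ ∉ S →
        AReach c (M * Matrix.diagonal
          (fun k => if k ∈ S then D k else if k = k₀ then (∏ l ∈ S, D l)⁻¹ else 1)) := by
      intro S
      induction S using Finset.induction_on with
      | empty =>
        intro _
        have : (fun k : Fin r => if k ∈ (∅ : Finset (Fin r)) then D k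
            else if k = k₀ then (∏ l ∈ (∅ : Finset (Fin r)), D l)⁻¹ else 1) = fun _ => 1 := by
          funext k
          simp
        rw [this, Matrix.diagonal_one, Matrix.mul_one]
        exact hM
      | insert l S hl ih =>
        intro hk₀
        have hlk : l ≠ k₀ := fun h => hk₀ (by rw [← h]; exact Finset.mem_insert_self l S)
        have hk₀S : k₀ ∉ S := fun h => hk₀ (Finset.mem_insert_of_mem h)
        have h1 := AReach.mulD _ l k₀ (D l) hlk (hne l) (ih hk₀S)
        have h2 : Matrix.diagonal
              (fun k => if k ∈ S then D k else if k = k₀ then (∏ l ∈ S, D l)⁻¹ else 1)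
              * dlt l k₀ (D l)
            = Matrix.diagonal (fun k => if k ∈ insert l S then D k
                else if k = k₀ then (∏ l ∈ insert l S, D l)⁻¹ else 1) := by
          rw [dlt, Matrix.diagonal_mul_diagonal]
          congr 1
          funext k
          by_cases hkl : k = l
          · subst hkl
            simp [hl, hlk]
          · by_cases hkk : k = k₀
            · subst hkk
              simp [hk₀S, hkl, Finset.prod_insert hl, mul_inv, mul_comm]
            · simp [hkl, hkk, Finset.mem_insert]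
        rw [Matrix.mul_assoc, h2] at h1
        exact h1
    have h3 := key (Finset.univ.erase k₀) (Finset.notMem_erase k₀ _)
    have h4 : (fun k => if k ∈ Finset.univ.erase k₀ then D k
        else if k = k₀ then (∏ l ∈ Finset.univ.erase k₀, D l)⁻¹ else 1) = D := by
      funext k
      by_cases hk : k = k₀
      · subst hk
        have h5 := Finset.mul_prod_erase Finset.univ D (Finset.mem_univ k)
        rw [hD] at h5
        simp only [Finset.mem_erase, ne_eq, not_true_eq_false, false_and, if_false, if_true]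
        exact (eq_inv_of_mul_eq_one_left h5).symm
      · simp [hk]
    rw [h4] at h3
    exact h3

theorem GReach.normal {M : Matrix (Fin r) (Fin r) ℂ} (h : GReach c M) :
    ∃ D : Fin r → ℂ, (∀ k, D k ≠ 0) ∧ AReach c (M * Matrix.diagonal D) := by
  induction h with
  | one => exact ⟨fun _ => 1, fun _ => one_ne_zero, by simpa using AReach.one⟩
  | mulE M k l t hkl hc _ ih =>
    obtain ⟨D, hD, hA⟩ := ih
    refine ⟨D, hD, ?_⟩
    have h1 : Matrix.transvection k l t * Matrix.diagonal D
        = Matrix.diagonal D * Matrix.transvection k l (t * D l / D k) := by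
      ext a b
      rw [Matrix.mul_diagonal, Matrix.diagonal_mul]
      simp only [Matrix.transvection, Matrix.add_apply, Matrix.single_apply]
      by_cases hab : k = a ∧ l = b
      · obtain ⟨rfl, rfl⟩ := hab
        have := hD k
        simp only [and_self, if_true, Matrix.one_apply_ne hkl]
        field_simp
        ring
      · rw [if_neg hab, if_neg hab]
        by_cases h : a = b
        · subst h
          simp [mul_comm]
        · simp [Matrix.one_apply_ne h]
    rw [Matrix.mul_assoc, h1, ← Matrix.mul_assoc]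
    exact AReach.mulE _ k l _ hkl hc hA
  | mulD M D₁ hD₁ _ ih =>
    obtain ⟨D, hD, hA⟩ := ih
    refine ⟨fun k => D k / D₁ k, fun k => div_ne_zero (hD k) (hD₁ k), ?_⟩
    have h1 : Matrix.diagonal D₁ * Matrix.diagonal (fun k => D k / D₁ k) = Matrix.diagonal D := by
      rw [Matrix.diagonal_mul_diagonal]
      congr 1
      funext k
      exact mul_div_cancel₀ _ (hD₁ k)
    rw [Matrix.mul_assoc, h1]
    exact hA

theorem GReach.toA {M : Matrix (Fin r) (Fin r) ℂ} (h : GReach c M) (hdet : M.det = 1) :
    AReach c M := by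
  obtain ⟨D, hD, hA⟩ := h.normal
  have h1 := hA.det
  rw [Matrix.det_mul, hdet, one_mul, Matrix.det_diagonal] at h1
  have h2 : ∏ k, (D k)⁻¹ = 1 := by rw [Finset.prod_inv_distrib, h1, inv_one]
  have h3 := hA.mul_diag c (fun k => (D k)⁻¹) h2
  have h4 : Matrix.diagonal D * Matrix.diagonal (fun k => (D k)⁻¹) = 1 := by
    rw [Matrix.diagonal_mul_diagonal, ← Matrix.diagonal_one]
    congr 1
    funext k
    exact mul_inv_cancel₀ (hD k)
  rw [Matrix.mul_assoc, h4, Matrix.mul_one] at h3
  exact h3

/-- Embedding of a matrix on the class `κ` as a block of an `r × r` matrix, the identity on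
the other classes. -/
noncomputable def emb (κ : X) (N : Matrix {a : Fin r // c a = κ} {a : Fin r // c a = κ} ℂ) :
    Matrix (Fin r) (Fin r) ℂ :=
  Matrix.reindexAlgEquiv ℂ ℂ (Equiv.sumCompl (fun a : Fin r => c a = κ))
    (Matrix.fromBlocks N 0 0 1)

theorem emb_mul (κ : X) (N₁ N₂ : Matrix {a : Fin r // c a = κ} {a : Fin r // c a = κ} ℂ) :
    emb c κ (N₁ * N₂) = emb c κ N₁ * emb c κ N₂ := by
  unfold emb
  rw [← map_mul, Matrix.fromBlocks_multiply]
  simp

theorem det_emb (κ : X) (N : Matrix {a : Fin r // c a = κ} {a : Fin r // c a = κ} ℂ) :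
    (emb c κ N).det = N.det := by
  unfold emb
  rw [Matrix.det_reindexAlgEquiv, Matrix.det_fromBlocks_zero₂₁, Matrix.det_one, mul_one]

theorem emb_apply (κ : X) (N : Matrix {a : Fin r // c a = κ} {a : Fin r // c a = κ} ℂ)
    (a b : Fin r) : emb c κ N a b =
      if ha : c a = κ then (if hb : c b = κ then N ⟨a, ha⟩ ⟨b, hb⟩ else 0)
      else (if c b = κ then 0 else (1 : Matrix (Fin r) (Fin r) ℂ) a b) := by
  unfold emb
  rw [Matrix.coe_reindexAlgEquiv, Matrix.reindex_apply, Matrix.submatrix_apply]
  by_cases ha : c a = κ <;> by_cases hb : c b = κ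
  · rw [dif_pos ha, dif_pos hb, Equiv.sumCompl_symm_apply_of_pos (p := fun a : Fin r => c a = κ) ha,
      Equiv.sumCompl_symm_apply_of_pos (p := fun a : Fin r => c a = κ) hb, Matrix.fromBlocks_apply₁₁]
  · rw [dif_pos ha, dif_neg hb, Equiv.sumCompl_symm_apply_of_pos (p := fun a : Fin r => c a = κ) ha,
      Equiv.sumCompl_symm_apply_of_neg (p := fun a : Fin r => c a = κ) hb, Matrix.fromBlocks_apply₁₂, Matrix.zero_apply]
  · rw [dif_neg ha, if_pos hb, Equiv.sumCompl_symm_apply_of_neg (p := fun a : Fin r => c a = κ) ha,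
      Equiv.sumCompl_symm_apply_of_pos (p := fun a : Fin r => c a = κ) hb, Matrix.fromBlocks_apply₂₁, Matrix.zero_apply]
  · rw [dif_neg ha, if_neg hb, Equiv.sumCompl_symm_apply_of_neg (p := fun a : Fin r => c a = κ) ha,
      Equiv.sumCompl_symm_apply_of_neg (p := fun a : Fin r => c a = κ) hb, Matrix.fromBlocks_apply₂₂]
    simp [Matrix.one_apply, Subtype.ext_iff]

theorem emb_transvection (κ : X) (t : Matrix.TransvectionStruct {a : Fin r // c a = κ} ℂ) :
    emb c κ t.toMatrix = Matrix.transvection (t.i : Fin r) (t.j : Fin r) t.c := by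
  unfold emb
  rw [← Matrix.TransvectionStruct.toMatrix_sumInl, ← Matrix.TransvectionStruct.toMatrix_reindexEquiv]
  rfl

theorem emb_diagonal (κ : X) (D : {a : Fin r // c a = κ} → ℂ) :
    emb c κ (Matrix.diagonal D)
      = Matrix.diagonal (fun a => if h : c a = κ then D ⟨a, h⟩ else 1) := by
  ext a b
  rw [emb_apply]
  by_cases hab : a = b
  · subst hab
    by_cases ha : c a = κ
    · simp [ha]
    · simp [ha]
  · rw [Matrix.diagonal_apply_ne _ hab]
    by_cases ha : c a = κ
    · by_cases hb : c b = κ
      · rw [dif_pos ha, dif_pos hb, Matrix.diagonal_apply_ne]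
        intro h
        exact hab (Subtype.ext_iff.mp h)
      · rw [dif_pos ha, dif_neg hb]
    · by_cases hb : c b = κ
      · rw [dif_neg ha, if_pos hb]
      · rw [dif_neg ha, if_neg hb, Matrix.one_apply_ne hab]

theorem GReach.of_emb (κ : X) (N : Matrix {a : Fin r // c a = κ} {a : Fin r // c a = κ} ℂ)
    (hN : N.det ≠ 0) : GReach c (emb c κ N) := by
  refine Matrix.diagonal_transvection_induction_of_det_ne_zero (fun N => GReach c (emb c κ N)) N hN
    ?_ ?_ ?_
  · intro D hD
    rw [emb_diagonal, ← Matrix.one_mul (Matrix.diagonal _)]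
    refine GReach.mulD _ _ ?_ GReach.one
    intro k
    by_cases hk : c k = κ
    · rw [dif_pos hk]
      intro h0
      apply hD
      rw [Matrix.det_diagonal]
      exact Finset.prod_eq_zero (Finset.mem_univ _) h0
    · rw [dif_neg hk]
      exact one_ne_zero
  · intro t
    rw [emb_transvection, ← Matrix.one_mul (Matrix.transvection _ _ _)]
    refine GReach.mulE _ _ _ _ ?_ ?_ GReach.one
    · intro h
      exact t.hij (Subtype.ext h)
    · rw [t.i.2, t.j.2]
  · intro A B _ _ hA hB
    rw [emb_mul]
    exact hA.mul c hB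

/-- `M` on the rows whose class lies in `S`, the identity on the other rows. -/
def MS (M : Matrix (Fin r) (Fin r) ℂ) (S : Finset X) : Matrix (Fin r) (Fin r) ℂ :=
  fun a b => if c a ∈ S then M a b else (1 : Matrix (Fin r) (Fin r) ℂ) a b

theorem MS_apply (M : Matrix (Fin r) (Fin r) ℂ) (S : Finset X) (a b : Fin r) :
    MS c M S a b = if c a ∈ S then M a b else (1 : Matrix (Fin r) (Fin r) ℂ) a b := rfl

theorem MS_mul {M : Matrix (Fin r) (Fin r) ℂ} (hM : Blk c M) (S : Finset X)
    (N : Matrix (Fin r) (Fin r) ℂ)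
    (hN : ∀ x b, c x ∈ S → N x b = (1 : Matrix (Fin r) (Fin r) ℂ) x b) (a b : Fin r) :
    (MS c M S * N) a b = if c a ∈ S then M a b else N a b := by
  rw [Matrix.mul_apply]
  by_cases ha : c a ∈ S
  · rw [if_pos ha]
    have h1 : ∀ x ∈ Finset.univ,
        MS c M S a x * N x b = M a x * (1 : Matrix (Fin r) (Fin r) ℂ) x b := by
      intro x _
      rw [MS_apply, if_pos ha]
      by_cases hx : c a = c x
      · rw [hN x b (hx ▸ ha)]
      · rw [hM a x hx, zero_mul, zero_mul]
    rw [Finset.sum_congr rfl h1, ← Matrix.mul_apply, Matrix.mul_one]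
  · rw [if_neg ha]
    have h1 : ∀ x ∈ Finset.univ,
        MS c M S a x * N x b = (1 : Matrix (Fin r) (Fin r) ℂ) a x * N x b := by
      intro x _
      rw [MS_apply, if_neg ha]
    rw [Finset.sum_congr rfl h1, ← Matrix.mul_apply, Matrix.one_mul]

theorem MS_singleton {M : Matrix (Fin r) (Fin r) ℂ} (hM : Blk c M) (κ : X) :
    MS c M {κ} = emb c κ (M.submatrix Subtype.val Subtype.val) := by
  ext a b
  rw [emb_apply, MS_apply]
  by_cases ha : c a = κ
  · rw [if_pos (Finset.mem_singleton.mpr ha), dif_pos ha]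
    by_cases hb : c b = κ
    · rw [dif_pos hb, Matrix.submatrix_apply]
    · rw [dif_neg hb]
      exact hM a b (fun h => hb (by rw [← h]; exact ha))
  · rw [if_neg (fun h => ha (Finset.mem_singleton.mp h)), dif_neg ha]
    by_cases hb : c b = κ
    · rw [if_pos hb]
      apply Matrix.one_apply_ne
      intro h
      exact ha (by rw [h]; exact hb)
    · rw [if_neg hb]

theorem GReach.of_blk {M : Matrix (Fin r) (Fin r) ℂ} (hM : Blk c M) (hdet : M.det ≠ 0) :
    GReach c M := by
  have hdetS : ∀ S : Finset X, (MS c M S).det ≠ 0 := by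
    intro S h0
    have h1 : MS c M S * (Matrix.of fun a b => if c a ∈ S then (1 : Matrix (Fin r) (Fin r) ℂ) a b
        else M a b) = M := by
      ext a b
      rw [MS_mul c hM S _ (fun x b hx => by simp only [Matrix.of_apply, if_pos hx])]
      by_cases ha : c a ∈ S
      · rw [if_pos ha]
      · rw [if_neg ha]
        simp only [Matrix.of_apply, if_neg ha]
    apply hdet
    rw [← h1, Matrix.det_mul, h0, zero_mul]
  have hκ : ∀ κ : X, GReach c (MS c M {κ}) := by
    intro κ
    have h1 := MS_singleton c hM κ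
    have h2 := hdetS {κ}
    rw [h1, det_emb] at h2
    rw [h1]
    exact GReach.of_emb c κ _ h2
  have key : ∀ S : Finset X, GReach c (MS c M S) := by
    intro S
    induction S using Finset.induction_on with
    | empty =>
      have : MS c M ∅ = 1 := by
        ext a b
        simp [MS_apply]
      rw [this]
      exact GReach.one
    | insert κ S hκS ih =>
      have h1 : MS c M S * MS c M {κ} = MS c M (insert κ S) := by
        ext a b
        rw [MS_mul c hM S _ (fun x b hx => by
          have hne : c x ≠ κ := fun h => hκS (h ▸ hx)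
          rw [MS_apply, if_neg (fun h => hne (Finset.mem_singleton.mp h))])]
        by_cases ha : c a ∈ S
        · rw [if_pos ha, MS_apply, if_pos (Finset.mem_insert_of_mem ha)]
        · rw [if_neg ha, MS_apply, MS_apply]
          by_cases hκa : c a = κ
          · rw [if_pos (Finset.mem_singleton.mpr hκa),
              if_pos (by rw [hκa]; exact Finset.mem_insert_self κ S)]
          · rw [if_neg (fun h => hκa (Finset.mem_singleton.mp h)), if_neg]
            intro h
            rcases Finset.mem_insert.mp h with h | h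
            · exact hκa h
            · exact ha h
      rw [← h1]
      exact ih.mul c (hκ κ)
  have h3 := key (Finset.univ.image c)
  have h4 : MS c M (Finset.univ.image c) = M := by
    ext a b
    rw [MS_apply, if_pos (Finset.mem_image_of_mem c (Finset.mem_univ a))]
  rw [h4] at h3
  exact h3

theorem AReach.of_blk {M : Matrix (Fin r) (Fin r) ℂ} (hM : Blk c M) (hdet : M.det = 1) :
    AReach c M :=
  (GReach.of_blk c hM (by rw [hdet]; exact one_ne_zero)).toA c hdet

end Blocks

/-! ### The torus part -/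

theorem unitSet_pow {u : ℂ} (hu : u ∈ unitSet) (k : ℕ) : u ^ k ∈ unitSet := by
  induction k with
  | zero => simpa using unitSet_one
  | succ k ih =>
    rw [pow_succ]
    exact unitSet_mul ih hu

theorem pow_eq_one_of_dvd {w : ℂ} {q N : ℕ} (h : w ^ q = 1) (hd : q ∣ N) : w ^ N = 1 := by
  obtain ⟨t, rfl⟩ := hd
  rw [pow_mul, h, one_pow]

section Torus

variable {X : Type*} [DecidableEq X] {r : ℕ} (c : Fin r → X)

/-- Functions on the indices that are constant on the classes of `c`. -/
def Cst (e : Fin r → ℂ) : Prop := ∀ k l, c k = c l → e k = e l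

/-- The size of the class of `k`. -/
def csize (k : Fin r) : ℕ := (Finset.univ.filter (fun l => c l = c k)).card

theorem csize_pos (k : Fin r) : 0 < csize c k :=
  Finset.card_pos.mpr ⟨k, by simp⟩

theorem csize_dvd (k : Fin r) : csize c k ∣ r.factorial := by
  apply Nat.dvd_factorial (csize_pos c k)
  have := Finset.card_le_univ (Finset.univ.filter (fun l => c l = c k))
  simpa [csize] using this

/-- The multiplier of a one-parameter move of the torus part: a power of `s` on the class of
`k₁`, a power of `s⁻¹` on the class of `k₀`, with total product one. -/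
noncomputable def mult (k₀ k₁ : Fin r) (s : ℂ) (k : Fin r) : ℂ :=
  if c k = c k₁ then s ^ csize c k₀ else if c k = c k₀ then s⁻¹ ^ csize c k₁ else 1

theorem prod_mult {k₀ k₁ : Fin r} (h : c k₁ ≠ c k₀) {s : ℂ} (hs : s ≠ 0) :
    ∏ k, mult c k₀ k₁ s k = 1 := by
  have h1 : ∀ k, mult c k₀ k₁ s k = (if c k = c k₁ then s ^ csize c k₀ else 1)
      * (if c k = c k₀ then s⁻¹ ^ csize c k₁ else 1) := by
    intro k
    unfold mult
    by_cases hk1 : c k = c k₁
    · have hk0 : c k ≠ c k₀ := fun hk0 => h (hk1.symm.trans hk0)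
      rw [if_pos hk1, if_pos hk1, if_neg hk0, mul_one]
    · rw [if_neg hk1, if_neg hk1, one_mul]
  rw [Finset.prod_congr rfl (fun k _ => h1 k), Finset.prod_mul_distrib, Finset.prod_ite,
    Finset.prod_ite, Finset.prod_const_one, Finset.prod_const_one, mul_one, mul_one,
    Finset.prod_const, Finset.prod_const]
  show (s ^ csize c k₀) ^ csize c k₁ * (s⁻¹ ^ csize c k₁) ^ csize c k₀ = 1
  rw [← pow_mul, ← pow_mul, mul_comm (csize c k₁) (csize c k₀), ← mul_pow, mul_inv_cancel₀ hs,
    one_pow]

theorem mult_cst (k₀ k₁ : Fin r) (s : ℂ) : Cst c (mult c k₀ k₁ s) := by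
  intro k l hkl
  simp only [mult, hkl]

theorem mult_unit (k₀ k₁ : Fin r) {u : ℂ} (hu : u ∈ unitSet) (k : Fin r) :
    mult c k₀ k₁ u k ∈ unitSet := by
  unfold mult
  split_ifs
  · exact unitSet_pow hu _
  · exact unitSet_pow (unitSet_inv hu) _
  · exact unitSet_one

theorem mult_laurent (k₀ k₁ k : Fin r) : LaurentFn (fun s => mult c k₀ k₁ s k) := by
  unfold mult
  by_cases h1 : c k = c k₁
  · simp only [if_pos h1]
    exact LaurentFn.id.pow _
  · simp only [if_neg h1]
    by_cases h0 : c k = c k₀
    · simp only [if_pos h0]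
      exact LaurentFn.inv.pow _
    · simp only [if_neg h0]
      exact LaurentFn.const 1

/-- Diagonal entries reachable from `1` by the one-parameter moves. -/
inductive TReach (k₀ : Fin r) : (Fin r → ℂ) → Prop
  | one : TReach k₀ (fun _ => 1)
  | step (e : Fin r → ℂ) (k₁ : Fin r) (s : ℂ) (hk : c k₁ ≠ c k₀) (hs : s ≠ 0) :
      TReach k₀ e → TReach k₀ (fun k => e k * mult c k₀ k₁ s k)

theorem TReach.prod {k₀ : Fin r} {e : Fin r → ℂ} (h : TReach c k₀ e) : ∏ k, e k = 1 := by
  induction h with
  | one => simp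
  | step e k₁ s hk hs _ ih => rw [Finset.prod_mul_distrib, ih, one_mul, prod_mult c hk hs]

theorem TReach.exists_of_cst (k₀ : Fin r) (e : Fin r → ℂ) (he : Cst c e)
    (hprod : ∏ k, e k = 1) :
    ∃ (e' : Fin r → ℂ) (ω : ℂ), TReach c k₀ e' ∧ ω ^ csize c k₀ = 1 ∧
      ∀ k, e k = e' k * (if c k = c k₀ then ω else 1) := by
  have hne : ∀ k, e k ≠ 0 := by
    intro k hk
    have : ∏ k, e k = 0 := Finset.prod_eq_zero (Finset.mem_univ k) hk
    rw [hprod] at this
    exact one_ne_zero this
  have hpos := csize_pos c k₀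
  have key : ∀ S : Finset X, c k₀ ∉ S → ∃ e' : Fin r → ℂ, TReach c k₀ e' ∧
      (∀ k, c k ∈ S → e' k = e k) ∧ (∀ k, c k ∉ S → c k ≠ c k₀ → e' k = 1) ∧ Cst c e' := by
    intro S
    induction S using Finset.induction_on with
    | empty =>
      intro _
      exact ⟨fun _ => 1, TReach.one, fun k hk => absurd hk (Finset.notMem_empty _),
        fun _ _ _ => rfl, fun _ _ _ => rfl⟩
    | insert κ S hκS ih =>
      intro h0
      have h0S : c k₀ ∉ S := fun h => h0 (Finset.mem_insert_of_mem h)
      have hκ0 : κ ≠ c k₀ := fun h => h0 (by rw [← h]; exact Finset.mem_insert_self κ S)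
      obtain ⟨e', hT, h1, h2, h3⟩ := ih h0S
      by_cases hex : ∃ k₁, c k₁ = κ
      · obtain ⟨k₁, hk₁⟩ := hex
        obtain ⟨s, hs⟩ := IsAlgClosed.exists_pow_nat_eq (e k₁) hpos
        have hs0 : s ≠ 0 := by
          rintro rfl
          rw [zero_pow hpos.ne'] at hs
          exact hne k₁ hs.symm
        refine ⟨fun k => e' k * mult c k₀ k₁ s k,
          TReach.step e' k₁ s (by rw [hk₁]; exact hκ0) hs0 hT, ?_, ?_, ?_⟩
        · intro k hk
          rcases Finset.mem_insert.mp hk with hk | hk
          · have hck : c k = c k₁ := by rw [hk, hk₁]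
            have h4 : e' k = 1 := h2 k (by rw [hk]; exact hκS) (by rw [hk]; exact hκ0)
            show e' k * mult c k₀ k₁ s k = e k
            rw [h4, one_mul, mult, if_pos hck, hs]
            exact (he k k₁ hck).symm
          · have hck : c k ≠ c k₁ := by
              rw [hk₁]
              exact fun h => hκS (h ▸ hk)
            have hck0 : c k ≠ c k₀ := fun h => h0S (h ▸ hk)
            show e' k * mult c k₀ k₁ s k = e k
            rw [mult, if_neg hck, if_neg hck0, mul_one]
            exact h1 k hk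
        · intro k hk hk0
          have hkS : c k ∉ S := fun h => hk (Finset.mem_insert_of_mem h)
          have hck : c k ≠ c k₁ := by
            rw [hk₁]
            exact fun h => hk (by rw [h]; exact Finset.mem_insert_self κ S)
          show e' k * mult c k₀ k₁ s k = 1
          rw [mult, if_neg hck, if_neg hk0, mul_one]
          exact h2 k hkS hk0
        · intro k l hkl
          show e' k * mult c k₀ k₁ s k = e' l * mult c k₀ k₁ s l
          rw [h3 k l hkl, mult_cst c k₀ k₁ s k l hkl]
      · refine ⟨e', hT, ?_, ?_, h3⟩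
        · intro k hk
          rcases Finset.mem_insert.mp hk with hk | hk
          · exact absurd ⟨k, hk⟩ hex
          · exact h1 k hk
        · intro k hk hk0
          exact h2 k (fun h => hk (Finset.mem_insert_of_mem h)) hk0
  obtain ⟨e', hT, h1, h2, h3⟩ := key ((Finset.univ.image c).erase (c k₀)) (Finset.notMem_erase _ _)
  have hprod' := hT.prod
  have hv : e' k₀ ≠ 0 := by
    intro hk
    have : ∏ k, e' k = 0 := Finset.prod_eq_zero (Finset.mem_univ k₀) hk
    rw [hprod'] at this
    exact one_ne_zero this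
  have hfact : ∀ k, e k = e' k * (if c k = c k₀ then e k₀ / e' k₀ else 1) := by
    intro k
    by_cases hk : c k = c k₀
    · rw [if_pos hk, he k k₀ hk, h3 k k₀ hk]
      field_simp
    · rw [if_neg hk, mul_one]
      exact (h1 k (Finset.mem_erase.mpr ⟨hk, Finset.mem_image_of_mem c (Finset.mem_univ k)⟩)).symm
  refine ⟨e', e k₀ / e' k₀, hT, ?_, hfact⟩
  have h5 : ∏ k, e k = (∏ k, e' k) * ∏ k, (if c k = c k₀ then e k₀ / e' k₀ else 1) := by
    rw [← Finset.prod_mul_distrib]
    exact Finset.prod_congr rfl (fun k _ => hfact k)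
  rw [hprod, hprod', one_mul, Finset.prod_ite, Finset.prod_const_one, mul_one,
    Finset.prod_const] at h5
  exact h5.symm

end Torus

/-! ### Assembly -/

section Assembly

variable {X : Type*} [DecidableEq X] {r : ℕ} (c : Fin r → X)

/-- Integral block matrices of determinant one. -/
def GA (N : ℕ) : Set (Matrix (Fin r) (Fin r) ℂ) :=
  {M | (∀ a b, IsInt N (M a b)) ∧ Blk c M ∧ M.det = 1}

/-- Integral diagonal matrices of determinant one, constant on classes, of order dividing `q`. -/
def GB (N q : ℕ) : Set (Matrix (Fin r) (Fin r) ℂ) :=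
  {M | ∃ w : Fin r → ℂ, M = Matrix.diagonal w ∧ Cst c w ∧ (∀ k, IsInt N (w k)) ∧
    ∏ k, w k = 1 ∧ ∀ k, w k ^ q = 1}

theorem GA_mul (N : ℕ) {M M' : Matrix (Fin r) (Fin r) ℂ} (h : M ∈ GA c N) (h' : M' ∈ GA c N) :
    M * M' ∈ GA c N := by
  obtain ⟨h1, h2, h3⟩ := h
  obtain ⟨h1', h2', h3'⟩ := h'
  refine ⟨fun a b => ?_, h2.mul c h2', by rw [Matrix.det_mul, h3, h3', one_mul]⟩
  rw [Matrix.mul_apply]
  exact isInt_sum _ _ (fun x _ => isInt_mul (h1 a x) (h1' x b))

theorem GB_mul (N q : ℕ) {M M' : Matrix (Fin r) (Fin r) ℂ} (h : M ∈ GB c N q)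
    (h' : M' ∈ GB c N q) : M * M' ∈ GB c N q := by
  obtain ⟨w, rfl, h1, h2, h3, h4⟩ := h
  obtain ⟨w', rfl, h1', h2', h3', h4'⟩ := h'
  refine ⟨fun k => w k * w' k, Matrix.diagonal_mul_diagonal _ _,
    fun k l hkl => by
      show w k * w' k = w l * w' l
      rw [h1 k l hkl, h1' k l hkl], fun k => isInt_mul (h2 k) (h2' k), ?_,
    fun k => by
      show (w k * w' k) ^ q = 1
      rw [mul_pow, h4 k, h4' k, one_mul]⟩
  rw [Finset.prod_mul_distrib, h3, h3', one_mul]

theorem step_A {ι : Type*} [DecidableEq ι] (f : MvPolynomial (ι × Fin r × Fin r) ℂ)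
    (G : ι → Set (Matrix (Fin r) (Fin r) ℂ))
    (N : ℕ) (i : ι) (hmul : ∀ X ∈ G i, ∀ Y ∈ G i, X * Y ∈ G i) (hG : GA c N ⊆ G i)
    (M : Matrix (Fin r) (Fin r) ℂ) (hM : AReach c M) :
    ∀ T ∈ WSet f G, Function.update T i (T i * M) ∈ WSet f G := by
  induction hM with
  | one =>
    intro T hT
    rw [Matrix.mul_one, Function.update_eq_self]
    exact hT
  | mulE M k l t hkl hc _ ih =>
    intro T hT
    have h1 := ih T hT
    by_cases ht : t = 0
    · rw [ht, Matrix.transvection_zero, Matrix.mul_one]
      exact h1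
    · have h2 := move_mem_WSet f G _ h1 i hmul (fun s => Matrix.transvection k l s) ?_
        (Set.range (Nat.cast : ℕ → ℂ)) ?_ ?_ t ht
      · simp only [Function.update_self, Function.update_idem, Matrix.mul_assoc] at h2
        exact h2
      · intro a b
        simp only [Matrix.transvection, Matrix.add_apply, Matrix.single_apply]
        by_cases hab : k = a ∧ l = b
        · simp only [if_pos hab]
          exact (LaurentFn.const _).add LaurentFn.id
        · simp only [if_neg hab]
          exact (LaurentFn.const _).add (LaurentFn.const _)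
      · exact Set.infinite_range_of_injective Nat.cast_injective
      · rintro s ⟨p, rfl⟩
        apply hG
        refine ⟨fun a b => ?_, Blk.transvection c hc _, Matrix.det_transvection_of_ne _ _ hkl _⟩
        simp only [Matrix.transvection, Matrix.add_apply, Matrix.single_apply, Matrix.one_apply]
        apply isInt_add
        · split_ifs
          · exact isInt_one N
          · exact isInt_zero N
        · split_ifs
          · exact isInt_natCast N p
          · exact isInt_zero N
  | mulD M k l t hkl ht _ ih =>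
    intro T hT
    have h1 := ih T hT
    have h2 := move_mem_WSet f G _ h1 i hmul (fun s => dlt k l s) ?_ unitSet unitSet_infinite
      ?_ t ht
    · simp only [Function.update_self, Function.update_idem, Matrix.mul_assoc] at h2
      exact h2
    · intro a b
      by_cases hab : a = b
      · subst hab
        simp only [dlt, Matrix.diagonal_apply_eq]
        by_cases hal : a = l
        · subst hal
          simp only [Function.update_self]
          exact LaurentFn.inv
        · simp only [Function.update_of_ne hal]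
          by_cases hak : a = k
          · subst hak
            simp only [Function.update_self]
            exact LaurentFn.id
          · simp only [Function.update_of_ne hak]
            exact LaurentFn.const 1
      · simp only [dlt, Matrix.diagonal_apply_ne _ hab]
        exact LaurentFn.const 0
    · intro u hu
      apply hG
      refine ⟨fun a b => ?_, Blk.diagonal c _, det_dlt hkl (unitSet_ne_zero hu)⟩
      unfold dlt
      by_cases hab : a = b
      · subst hab
        rw [Matrix.diagonal_apply_eq]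
        by_cases hal : a = l
        · subst hal
          rw [Function.update_self]
          exact isInt_of_isZsqrt2 (unitSet_inv hu).1
        · rw [Function.update_of_ne hal]
          by_cases hak : a = k
          · subst hak
            rw [Function.update_self]
            exact isInt_of_isZsqrt2 hu.1
          · rw [Function.update_of_ne hak]
            exact isInt_one N
      · rw [Matrix.diagonal_apply_ne _ hab]
        exact isInt_zero N

theorem step_B {ι : Type*} [DecidableEq ι] (f : MvPolynomial (ι × Fin r × Fin r) ℂ)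
    (G : ι → Set (Matrix (Fin r) (Fin r) ℂ))
    (N q : ℕ) (hq : q = 0) (i : ι) (hmul : ∀ X ∈ G i, ∀ Y ∈ G i, X * Y ∈ G i)
    (hG : GB c N q ⊆ G i) (k₀ : Fin r) (e : Fin r → ℂ) (he : TReach c k₀ e) :
    ∀ T ∈ WSet f G, Function.update T i (T i * Matrix.diagonal e) ∈ WSet f G := by
  induction he with
  | one =>
    intro T hT
    rw [Matrix.diagonal_one, Matrix.mul_one, Function.update_eq_self]
    exact hT
  | step e k₁ s hk hs _ ih =>
    intro T hT
    have h1 := ih T hT
    have h2 := move_mem_WSet f G _ h1 i hmul (fun s => Matrix.diagonal (mult c k₀ k₁ s)) ?_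
      unitSet unitSet_infinite ?_ s hs
    · simp only [Function.update_self, Function.update_idem, Matrix.mul_assoc,
        Matrix.diagonal_mul_diagonal] at h2
      exact h2
    · intro a b
      by_cases hab : a = b
      · subst hab
        simp only [Matrix.diagonal_apply_eq]
        exact mult_laurent c k₀ k₁ a
      · simp only [Matrix.diagonal_apply_ne _ hab]
        exact LaurentFn.const 0
    · intro u hu
      apply hG
      exact ⟨_, rfl, mult_cst c k₀ k₁ u, fun k => isInt_of_isZsqrt2 (mult_unit c k₀ k₁ hu k).1,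
        prod_mult c hk (unitSet_ne_zero hu), fun k => by rw [hq, pow_zero]⟩

end Assembly

/-- The block form of the density statement. -/
theorem block_vanish {X : Type*} [DecidableEq X] {m n r : ℕ} (hr : 0 < r) (q : Fin n → ℕ) (N : ℕ)
    (hN1 : r.factorial ∣ N)
    (f : MvPolynomial ((Fin m ⊕ Fin n) × Fin r × Fin r) ℂ) (c : Fin r → X)
    (d : Fin n → Fin r → ℂ) (hd : ∀ j, Cst c (d j)) (hdprod : ∀ j, ∏ k, d j k = 1)
    (hvan : ∀ H : Fin m ⊕ Fin n → Matrix (Fin r) (Fin r) ℂ,
      (∀ i, H (Sum.inl i) ∈ GA c N) → (∀ j, q j = 0 → H (Sum.inr j) ∈ GB c N (q j)) →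
      (∀ j, q j ≠ 0 → H (Sum.inr j) = Matrix.diagonal (d j)) → evalAt H f = 0)
    (A : Fin m → Matrix (Fin r) (Fin r) ℂ) (hA : ∀ i, Blk c (A i)) (hAdet : ∀ i, (A i).det = 1) :
    evalAt (Sum.elim A (fun j => Matrix.diagonal (d j))) f = 0 := by
  obtain ⟨k₀⟩ : Nonempty (Fin r) := ⟨⟨0, hr⟩⟩
  let G : Fin m ⊕ Fin n → Set (Matrix (Fin r) (Fin r) ℂ) :=
    Sum.elim (fun _ => GA c N)
      (fun j => {M | (q j = 0 → M ∈ GB c N (q j)) ∧ (q j ≠ 0 → M = Matrix.diagonal (d j))})
  have hmulA : ∀ i : Fin m, ∀ X ∈ G (Sum.inl i), ∀ Y ∈ G (Sum.inl i), X * Y ∈ G (Sum.inl i) :=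
    fun i X hX Y hY => GA_mul c N hX hY
  have hmulB : ∀ j : Fin n, q j = 0 →
      ∀ X ∈ G (Sum.inr j), ∀ Y ∈ G (Sum.inr j), X * Y ∈ G (Sum.inr j) :=
    fun j hq X hX Y hY => ⟨fun _ => GB_mul c N (q j) (hX.1 hq) (hY.1 hq), fun h => absurd hq h⟩
  have hvan' : ∀ H : Fin m ⊕ Fin n → Matrix (Fin r) (Fin r) ℂ, (∀ i, H i ∈ G i) →
      evalAt H f = 0 :=
    fun H hH => hvan H (fun i => hH (Sum.inl i)) (fun j => (hH (Sum.inr j)).1)
      (fun j => (hH (Sum.inr j)).2)
  have hB : ∀ j, ∃ T₀ H : Matrix (Fin r) (Fin r) ℂ,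
      (T₀ = 1 ∨ (q j = 0 ∧ ∃ e, TReach c k₀ e ∧ T₀ = Matrix.diagonal e)) ∧
        ((q j = 0 → H ∈ GB c N (q j)) ∧ (q j ≠ 0 → H = Matrix.diagonal (d j))) ∧
        T₀ * H = Matrix.diagonal (d j) := by
    intro j
    by_cases hq : q j = 0
    · obtain ⟨e', ω, hT, hω, hfact⟩ := TReach.exists_of_cst c k₀ (d j) (hd j) (hdprod j)
      refine ⟨Matrix.diagonal e', Matrix.diagonal (fun k => if c k = c k₀ then ω else 1),
        Or.inr ⟨hq, e', hT, rfl⟩, ⟨fun _ => ⟨_, rfl, ?_, ?_, ?_, ?_⟩, fun h => absurd hq h⟩, ?_⟩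
      · intro k l hkl
        simp only [hkl]
      · intro k
        by_cases hk : c k = c k₀
        · simp only [if_pos hk]
          exact isInt_root (pow_eq_one_of_dvd hω ((csize_dvd c k₀).trans hN1))
        · simp only [if_neg hk]
          exact isInt_one N
      · rw [Finset.prod_ite, Finset.prod_const_one, mul_one, Finset.prod_const]
        exact hω
      · intro k
        rw [hq, pow_zero]
      · rw [Matrix.diagonal_mul_diagonal]
        congr 1
        funext k
        exact (hfact k).symm
    · exact ⟨1, Matrix.diagonal (d j), Or.inl rfl, ⟨fun h => absurd h hq, fun _ => rfl⟩,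
        Matrix.one_mul _⟩
  choose T₀ H hT₀ hH hTH using hB
  have hreach := mem_WSet_of_reach f G hvan'
    (Sum.elim (fun _ M => AReach c M)
      (fun j M => M = 1 ∨ (q j = 0 ∧ ∃ e, TReach c k₀ e ∧ M = Matrix.diagonal e)))
    ?_ (Sum.elim A T₀) ?_
  · have h1 := hreach (Sum.elim (fun _ => 1) H) ?_
    · have h2 : (fun i => Sum.elim A T₀ i * Sum.elim (fun _ => (1 : Matrix (Fin r) (Fin r) ℂ)) H i)
          = Sum.elim A (fun j => Matrix.diagonal (d j)) := by
        funext i
        rcases i with i | j
        · simp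
        · simp [hTH j]
      rw [h2] at h1
      exact h1
    · rintro (i | j)
      · refine ⟨fun a b => ?_, Blk.one c, Matrix.det_one⟩
        show IsInt N ((1 : Matrix (Fin r) (Fin r) ℂ) a b)
        rw [Matrix.one_apply]
        split_ifs
        · exact isInt_one N
        · exact isInt_zero N
      · exact hH j
  · rintro (i | j) M hM T hT
    · exact step_A c f G N (Sum.inl i) (hmulA i) (fun M hM => hM) M hM T hT
    · have hM' : M = 1 ∨ (q j = 0 ∧ ∃ e, TReach c k₀ e ∧ M = Matrix.diagonal e) := hM
      rcases hM' with rfl | ⟨hq, e, he, rfl⟩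
      · rw [Matrix.mul_one, Function.update_eq_self]
        exact hT
      · exact step_B c f G N (q j) hq (Sum.inr j) (hmulB j hq)
          (fun M hM => ⟨fun _ => hM, fun h => absurd hq h⟩) k₀ e he T hT
  · rintro (i | j)
    · exact AReach.of_blk c (hA i) (hAdet i)
    · exact hT₀ j

/-- Integral points are Zariski dense in the `SL_r` character variety of
`F_m × ∏_j ℤ/(q j)`, with conditions on the torsion generators: statement used by the hand-in
`P002.FreeTimesAbelian`. -/
theorem main (m n r : ℕ) (q : Fin n → ℕ)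
    (K : Set ({j : Fin n // q j ≠ 0} → Matrix (Fin r) (Fin r) ℂ))
    (hK : ∀ P Q : Matrix (Fin r) (Fin r) ℂ, P * Q = 1 → ∀ T ∈ K, (fun j => P * T j * Q) ∈ K)
    (f : MvPolynomial ((Fin m ⊕ Fin n) × Fin r × Fin r) ℂ) (hf : ConjInvariant f)
    (hvan : ∀ (A : Fin m → Matrix (Fin r) (Fin r) ℂ) (B : Fin n → Matrix (Fin r) (Fin r) ℂ),
      IsRep q K A B → (∀ i a b, IsInt (level r q) (A i a b)) →
      (∀ j a b, IsInt (level r q) (B j a b)) → evalAt (Sum.elim A B) f = 0) :
    ∀ (A : Fin m → Matrix (Fin r) (Fin r) ℂ) (B : Fin n → Matrix (Fin r) (Fin r) ℂ),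
      IsRep q K A B → evalAt (Sum.elim A B) f = 0 := by
  classical
  intro A B hrep
  rcases Nat.eq_zero_or_pos r with rfl | hr
  · exact hvan A B hrep (fun i a => a.elim0) (fun j a => a.elim0)
  obtain ⟨hAdet, hBdet, hBq, hBK, hcomm, P, Q, hPQ, hd⟩ := hrep
  choose d hd using hd
  have hQP : Q * P = 1 := mul_eq_one_comm.mp hPQ
  have hdetPQ : P.det * Q.det = 1 := by rw [← Matrix.det_mul, hPQ, Matrix.det_one]
  let c : Fin r → (Fin n → ℂ) := fun k j => d j k
  have hQBP : ∀ j, Q * B j * P = Matrix.diagonal (d j) := by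
    intro j
    rw [hd j]
    calc Q * (P * Matrix.diagonal (d j) * Q) * P
        = (Q * P) * Matrix.diagonal (d j) * (Q * P) := by simp only [Matrix.mul_assoc]
      _ = Matrix.diagonal (d j) := by rw [hQP, Matrix.one_mul, Matrix.mul_one]
  have hconj : (fun i => Q * Sum.elim A B i * P)
      = Sum.elim (fun i => Q * A i * P) (fun j => Matrix.diagonal (d j)) := by
    funext i
    rcases i with i | j
    · rfl
    · simp only [Sum.elim_inr]
      exact hQBP j
  rw [← hf Q P hQP (Sum.elim A B), hconj]
  have hdprod : ∀ j, ∏ k, d j k = 1 := by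
    intro j
    have h1 := hBdet j
    rw [hd j, Matrix.det_mul, Matrix.det_mul, Matrix.det_diagonal] at h1
    calc ∏ k, d j k = (P.det * Q.det) * ∏ k, d j k := by rw [hdetPQ, one_mul]
      _ = P.det * (∏ k, d j k) * Q.det := by ring
      _ = 1 := h1
  have hdq : ∀ j k, d j k ^ q j = 1 := by
    intro j k
    have hpow : ∀ t : ℕ, (P * Matrix.diagonal (d j) * Q) ^ t
        = P * Matrix.diagonal (d j) ^ t * Q := by
      intro t
      induction t with
      | zero => simp [hPQ]
      | succ t ih =>
        rw [pow_succ, ih, pow_succ]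
        calc P * Matrix.diagonal (d j) ^ t * Q * (P * Matrix.diagonal (d j) * Q)
            = P * Matrix.diagonal (d j) ^ t * ((Q * P) * (Matrix.diagonal (d j) * Q)) := by
              simp only [Matrix.mul_assoc]
          _ = P * (Matrix.diagonal (d j) ^ t * Matrix.diagonal (d j)) * Q := by
              rw [hQP, Matrix.one_mul]
              simp only [Matrix.mul_assoc]
    have h1 := hBq j
    rw [hd j, hpow, Matrix.diagonal_pow] at h1
    have h2 : Matrix.diagonal (d j ^ q j) = 1 := by
      calc Matrix.diagonal (d j ^ q j)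
          = (Q * P) * Matrix.diagonal (d j ^ q j) * (Q * P) := by
            rw [hQP, Matrix.one_mul, Matrix.mul_one]
        _ = Q * (P * Matrix.diagonal (d j ^ q j) * Q) * P := by simp only [Matrix.mul_assoc]
        _ = 1 := by rw [h1, Matrix.mul_one, hQP]
    have h3 := congrFun (congrFun h2 k) k
    simpa using h3
  have hblk : ∀ i, Blk c (Q * A i * P) := by
    intro i a b hab
    obtain ⟨j, hj⟩ := Function.ne_iff.mp hab
    have h1 : (Q * A i * P) * Matrix.diagonal (d j) = Matrix.diagonal (d j) * (Q * A i * P) := by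
      calc (Q * A i * P) * Matrix.diagonal (d j)
          = Q * A i * (P * Matrix.diagonal (d j) * Q) * P := by
            have : P * Matrix.diagonal (d j) * Q * P = P * Matrix.diagonal (d j) := by
              rw [Matrix.mul_assoc, hQP, Matrix.mul_one]
            rw [Matrix.mul_assoc (Q * A i) P,
              Matrix.mul_assoc (Q * A i) (P * Matrix.diagonal (d j) * Q) P, this]
        _ = Q * (A i * B j) * P := by
            rw [← hd j]
            simp only [Matrix.mul_assoc]
        _ = Q * (B j * A i) * P := by rw [hcomm i j]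
        _ = (Q * P) * Matrix.diagonal (d j) * (Q * A i * P) := by
            rw [hd j]
            simp only [Matrix.mul_assoc]
        _ = Matrix.diagonal (d j) * (Q * A i * P) := by rw [hQP, Matrix.one_mul]
    have h2 := congrFun (congrFun h1 a) b
    rw [Matrix.mul_diagonal, Matrix.diagonal_mul] at h2
    have h3 : (Q * A i * P) a b * (d j b - d j a) = 0 := by
      rw [mul_sub, h2]
      ring
    rcases mul_eq_zero.mp h3 with h4 | h4
    · exact h4
    · exact absurd (sub_eq_zero.mp h4).symm hj
  have hdetA : ∀ i, (Q * A i * P).det = 1 := by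
    intro i
    rw [Matrix.det_mul, Matrix.det_mul, hAdet i, mul_one, mul_comm, hdetPQ]
  have hcst : ∀ j, Cst c (d j) := fun j k l hkl => congrFun hkl j
  have hN2 : ∀ j, q j ≠ 0 → q j ∣ level r q := by
    intro j hj
    have h1 : (if q j = 0 then 1 else q j) ∣ ∏ j, (if q j = 0 then 1 else q j) :=
      Finset.dvd_prod_of_mem (fun j => if q j = 0 then 1 else q j) (Finset.mem_univ j)
    rw [if_neg hj] at h1
    exact dvd_mul_of_dvd_right h1 _
  have hdK : (fun j : {j : Fin n // q j ≠ 0} => Matrix.diagonal (d j)) ∈ K := by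
    have h1 := hK Q P hQP _ hBK
    have h2 : (fun j : {j : Fin n // q j ≠ 0} => Q * B j * P)
        = fun j : {j : Fin n // q j ≠ 0} => Matrix.diagonal (d j) := funext (fun j => hQBP j)
    rw [h2] at h1
    exact h1
  apply block_vanish hr q (level r q) (Dvd.intro _ rfl) f c d hcst hdprod ?_ _ hblk hdetA
  intro H hHA hHB hHt
  -- every abelian coordinate of `H` is a diagonal matrix with good entries
  have hdiag : ∀ j, ∃ w : Fin r → ℂ, H (Sum.inr j) = Matrix.diagonal w ∧ Cst c w ∧
      (∀ k, IsInt (level r q) (w k)) ∧ ∏ k, w k = 1 ∧ ∀ k, w k ^ q j = 1 := by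
    intro j
    by_cases hq : q j = 0
    · exact hHB j hq
    · exact ⟨d j, hHt j hq, hcst j,
        fun k => isInt_root (pow_eq_one_of_dvd (hdq j k) (hN2 j hq)), hdprod j, hdq j⟩
  have h1 := hvan (fun i => H (Sum.inl i)) (fun j => H (Sum.inr j)) ?_
    (fun i a b => (hHA i).1 a b) ?_
  · have h2 : Sum.elim (fun i => H (Sum.inl i)) (fun j => H (Sum.inr j)) = H := by
      funext i
      rcases i with i | j <;> rfl
    rw [h2] at h1
    exact h1
  · refine ⟨fun i => (hHA i).2.2, ?_, ?_, ?_, ?_, 1, 1, Matrix.one_mul 1, ?_⟩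
    · intro j
      obtain ⟨w, hw, _, _, hprod, _⟩ := hdiag j
      show (H (Sum.inr j)).det = 1
      rw [hw, Matrix.det_diagonal, hprod]
    · intro j
      obtain ⟨w, hw, _, _, _, hpow⟩ := hdiag j
      show H (Sum.inr j) ^ q j = 1
      rw [hw, Matrix.diagonal_pow, ← Matrix.diagonal_one]
      congr 1
      funext k
      exact hpow k
    · have h3 : (fun j : {j : Fin n // q j ≠ 0} => H (Sum.inr j))
          = fun j : {j : Fin n // q j ≠ 0} => Matrix.diagonal (d j) :=
        funext (fun j => hHt j j.2)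
      show (fun j : {j : Fin n // q j ≠ 0} => H (Sum.inr j)) ∈ K
      rw [h3]
      exact hdK
    · intro i j
      obtain ⟨w, hw, hcstw, _, _, _⟩ := hdiag j
      show H (Sum.inl i) * H (Sum.inr j) = H (Sum.inr j) * H (Sum.inl i)
      rw [hw]
      ext a b
      rw [Matrix.mul_diagonal, Matrix.diagonal_mul]
      by_cases hab : c a = c b
      · rw [hcstw a b hab, mul_comm]
      · rw [(hHA i).2.1 a b hab, zero_mul, mul_zero]
    · intro j
      obtain ⟨w, hw, _⟩ := hdiag j
      exact ⟨w, by rw [Matrix.one_mul, Matrix.mul_one]; exact hw⟩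
  · intro j a b
    obtain ⟨w, hw, _, hint, _, _⟩ := hdiag j
    show IsInt (level r q) (H (Sum.inr j) a b)
    rw [hw]
    by_cases hab : a = b
    · subst hab
      rw [Matrix.diagonal_apply_eq]
      exact hint a
    · rw [Matrix.diagonal_apply_ne _ hab]
      exact isInt_zero _

end Vale.Agent.Helper2.CharVar
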