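import Mathlib
import Vale.Agent.Helper2.CharVar
import Vale.Agent.Helper2.CharProdDefs

namespace Vale.Agent.Helper2.CharProd

set_option linter.unusedSectionVars false
set_option linter.unusedSimpArgs false

open Matrix Kronecker
open Vale.Agent.Results.P002.AbelianPi1 (IsZsqrt2 unitSet unitSet_infinite unitSet_ne_zero
  unitSet_inv unitSet_mul unitSet_one unitSet_prod)
open Vale.Agent.Helper2.CharVar

/-! ### Slot matrices -/

section Slot

variable {s : ℕ} (δ : Fin s → ℕ) (l : Fin s)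

theorem slotMat_eq (g : Matrix (Fin (δ l)) (Fin (δ l)) ℂ) :
    slotMat δ l g = (g ⊗ₖ (1 : Matrix ((j : {j // j ≠ l}) → Fin (δ j))
      ((j : {j // j ≠ l}) → Fin (δ j)) ℂ)).submatrix
        (Equiv.piSplitAt l (fun i => Fin (δ i))) (Equiv.piSplitAt l (fun i => Fin (δ i))) := by
  ext x y
  simp only [slotMat, Matrix.submatrix_apply, Equiv.piSplitAt_apply, Matrix.kroneckerMap_apply,
    Matrix.one_apply]
  by_cases h : ∀ i, i ≠ l → x i = y i
  · rw [if_pos h, if_pos (funext fun j => h j.1 j.2), mul_one]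
  · rw [if_neg h, if_neg, mul_zero]
    intro h2
    apply h
    intro i hi
    exact congrFun h2 ⟨i, hi⟩

theorem slotMat_mul (g g' : Matrix (Fin (δ l)) (Fin (δ l)) ℂ) :
    slotMat δ l (g * g') = slotMat δ l g * slotMat δ l g' := by
  rw [slotMat_eq, slotMat_eq, slotMat_eq, Matrix.submatrix_mul_equiv, ← Matrix.mul_kronecker_mul,
    Matrix.one_mul]

theorem slotMat_one : slotMat δ l 1 = 1 := by
  rw [slotMat_eq, Matrix.one_kronecker_one, Matrix.submatrix_one_equiv]

theorem det_slotMat (g : Matrix (Fin (δ l)) (Fin (δ l)) ℂ) :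
    (slotMat δ l g).det = g.det ^ Fintype.card ((j : {j // j ≠ l}) → Fin (δ j)) := by
  rw [slotMat_eq, Matrix.det_submatrix_equiv_self, Matrix.det_kronecker, Matrix.det_one, one_pow,
    mul_one]

theorem slotMat_mul_slotMat_of_ne {l l' : Fin s} (h : l ≠ l')
    (G : Matrix (Fin (δ l)) (Fin (δ l)) ℂ) (G' : Matrix (Fin (δ l')) (Fin (δ l')) ℂ)
    (x y : (i : Fin s) → Fin (δ i)) :
    (slotMat δ l G * slotMat δ l' G') x y
      = if ∀ i, i ≠ l → i ≠ l' → x i = y i then G (x l) (y l) * G' (x l') (y l') else 0 := by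
  rw [Matrix.mul_apply, Finset.sum_eq_single (Function.update x l (y l))]
  · have h1 : ∀ i, i ≠ l → x i = Function.update x l (y l) i := fun i hi => by
      rw [Function.update_of_ne hi]
    have h2 : (∀ i, i ≠ l' → Function.update x l (y l) i = y i)
        ↔ ∀ i, i ≠ l → i ≠ l' → x i = y i := by
      constructor
      · intro h3 i hi hi'
        have := h3 i hi'
        rwa [Function.update_of_ne hi] at this
      · intro h3 i hi'
        by_cases hi : i = l
        · subst hi
          rw [Function.update_self]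
        · rw [Function.update_of_ne hi]
          exact h3 i hi hi'
    simp only [slotMat]
    rw [if_pos h1, Function.update_self, Function.update_of_ne (Ne.symm h)]
    by_cases h3 : ∀ i, i ≠ l → i ≠ l' → x i = y i
    · rw [if_pos (h2.mpr h3), if_pos h3]
    · rw [if_neg (fun h4 => h3 (h2.mp h4)), if_neg h3, mul_zero]
  · intro z _ hz
    simp only [slotMat]
    by_cases h1 : ∀ i, i ≠ l → x i = z i
    · by_cases h2 : ∀ i, i ≠ l' → z i = y i
      · exfalso
        apply hz
        funext i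
        by_cases hi : i = l
        · subst hi
          rw [Function.update_self]
          exact h2 i h
        · rw [Function.update_of_ne hi]
          exact (h1 i hi).symm
      · rw [if_neg h2, mul_zero]
    · rw [if_neg h1, zero_mul]
  · intro h1
    exact absurd (Finset.mem_univ _) h1

theorem slotMat_comm_of_ne {l l' : Fin s} (h : l ≠ l')
    (G : Matrix (Fin (δ l)) (Fin (δ l)) ℂ) (G' : Matrix (Fin (δ l')) (Fin (δ l')) ℂ) :
    slotMat δ l G * slotMat δ l' G' = slotMat δ l' G' * slotMat δ l G := by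
  ext x y
  rw [slotMat_mul_slotMat_of_ne δ h, slotMat_mul_slotMat_of_ne δ (Ne.symm h)]
  by_cases h3 : ∀ i, i ≠ l → i ≠ l' → x i = y i
  · rw [if_pos h3, if_pos (fun i hi hi' => h3 i hi' hi), mul_comm]
  · rw [if_neg h3, if_neg (fun h4 => h3 (fun i hi hi' => h4 i hi' hi))]

end Slot

/-! ### The block embedding -/

section Emb

variable {s t r : ℕ} (d : Fin t → Fin s → ℕ)
  (φ : (Σ k : Fin t, (i : Fin s) → Fin (d k i)) ≃ Fin r) (l : Fin s)

theorem slotEmb_apply (g : (k : Fin t) → Matrix (Fin (d k l)) (Fin (d k l)) ℂ)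
    (p q : Σ k : Fin t, (i : Fin s) → Fin (d k i)) :
    slotEmb d φ l g (φ p) (φ q) = Matrix.blockDiagonal' (fun k => slotMat (d k) l (g k)) p q := by
  simp [slotEmb, Matrix.reindex_apply, Matrix.submatrix_apply]

theorem slotEmb_apply_same (g : (k : Fin t) → Matrix (Fin (d k l)) (Fin (d k l)) ℂ) (k : Fin t)
    (u v : (i : Fin s) → Fin (d k i)) :
    slotEmb d φ l g (φ ⟨k, u⟩) (φ ⟨k, v⟩)
      = if ∀ i, i ≠ l → u i = v i then g k (u l) (v l) else 0 := by
  rw [slotEmb_apply, Matrix.blockDiagonal'_apply_eq]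
  rfl

theorem slotEmb_apply_ne (g : (k : Fin t) → Matrix (Fin (d k l)) (Fin (d k l)) ℂ) {k k' : Fin t}
    (h : k ≠ k') (u : (i : Fin s) → Fin (d k i)) (v : (i : Fin s) → Fin (d k' i)) :
    slotEmb d φ l g (φ ⟨k, u⟩) (φ ⟨k', v⟩) = 0 := by
  rw [slotEmb_apply, Matrix.blockDiagonal'_apply_ne _ _ _ h]

theorem slotEmb_apply_ne' (g : (k : Fin t) → Matrix (Fin (d k l)) (Fin (d k l)) ℂ) (x y : Fin r)
    (h : (φ.symm x).1 ≠ (φ.symm y).1) : slotEmb d φ l g x y = 0 := by
  obtain ⟨p, rfl⟩ := φ.surjective x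
  obtain ⟨q, rfl⟩ := φ.surjective y
  obtain ⟨k, u⟩ := p
  obtain ⟨k', v⟩ := q
  simp only [Equiv.symm_apply_apply] at h
  exact slotEmb_apply_ne d φ l g h u v

theorem slotEmb_mul (g g' : (k : Fin t) → Matrix (Fin (d k l)) (Fin (d k l)) ℂ) :
    slotEmb d φ l (g * g') = slotEmb d φ l g * slotEmb d φ l g' := by
  unfold slotEmb
  rw [Matrix.reindex_apply, Matrix.reindex_apply, Matrix.reindex_apply,
    Matrix.submatrix_mul_equiv, ← Matrix.blockDiagonal'_mul]
  congr 2
  funext k
  exact slotMat_mul (d k) l (g k) (g' k)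

theorem slotEmb_one : slotEmb d φ l 1 = 1 := by
  unfold slotEmb
  have h : (fun k => slotMat (d k) l
      ((1 : (k : Fin t) → Matrix (Fin (d k l)) (Fin (d k l)) ℂ) k)) = 1 :=
    funext fun k => slotMat_one (d k) l
  rw [h, Matrix.blockDiagonal'_one, Matrix.reindex_apply, Matrix.submatrix_one_equiv]

/-- The weight of block `k` for the slot `l`: the dimension of the other tensor factors. -/
def wgt (k : Fin t) : ℕ := Fintype.card ((j : {j // j ≠ l}) → Fin (d k j))

theorem det_slotEmb (g : (k : Fin t) → Matrix (Fin (d k l)) (Fin (d k l)) ℂ) :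
    (slotEmb d φ l g).det = ∏ k, (g k).det ^ wgt d l k := by
  have hbt : (slotEmb d φ l g).BlockTriangular (fun a => (φ.symm a).1) := by
    intro x y hlt
    exact slotEmb_apply_ne' d φ l g x y (ne_of_gt hlt)
  rw [hbt.det_fintype]
  apply Finset.prod_congr rfl
  intro k _
  have hinj : Function.Injective (fun u : (i : Fin s) → Fin (d k i) =>
      (⟨φ ⟨k, u⟩, by simp⟩ : {a : Fin r // (φ.symm a).1 = k})) := by
    intro u v huv
    have h1 : φ ⟨k, u⟩ = φ ⟨k, v⟩ := congrArg Subtype.val huv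
    have h2 := φ.injective h1
    exact eq_of_heq (Sigma.mk.inj h2).2
  have hsurj : Function.Surjective (fun u : (i : Fin s) → Fin (d k i) =>
      (⟨φ ⟨k, u⟩, by simp⟩ : {a : Fin r // (φ.symm a).1 = k})) := by
    rintro ⟨a, ha⟩
    obtain ⟨p, rfl⟩ := φ.surjective a
    obtain ⟨k', u⟩ := p
    simp only [Equiv.symm_apply_apply] at ha
    subst ha
    exact ⟨u, rfl⟩
  have h1 : ((slotEmb d φ l g).toSquareBlock (fun a => (φ.symm a).1) k).submatrix
      (Equiv.ofBijective _ ⟨hinj, hsurj⟩) (Equiv.ofBijective _ ⟨hinj, hsurj⟩)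
      = slotMat (d k) l (g k) := by
    ext u v
    show slotEmb d φ l g (φ ⟨k, u⟩) (φ ⟨k, v⟩) = slotMat (d k) l (g k) u v
    rw [slotEmb_apply_same]
    rfl
  rw [← Matrix.det_submatrix_equiv_self (Equiv.ofBijective _ ⟨hinj, hsurj⟩), h1, det_slotMat]
  rfl

/-- The class function of the slot `l`: the block and the `l`-th tensor coordinate. -/
def slotClass (a : Fin r) : Σ k : Fin t, Fin (d k l) := ⟨(φ.symm a).1, (φ.symm a).2 l⟩

theorem slotClass_apply (k : Fin t) (u : (i : Fin s) → Fin (d k i)) :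
    slotClass d φ l (φ ⟨k, u⟩) = ⟨k, u l⟩ := by
  unfold slotClass
  rw [Equiv.symm_apply_apply]

theorem slotEmb_diagonal (D : (k : Fin t) → Fin (d k l) → ℂ) :
    slotEmb d φ l (fun k => Matrix.diagonal (D k))
      = Matrix.diagonal (fun a => D (slotClass d φ l a).1 (slotClass d φ l a).2) := by
  ext x y
  obtain ⟨p, rfl⟩ := φ.surjective x
  obtain ⟨q, rfl⟩ := φ.surjective y
  obtain ⟨k, u⟩ := p
  obtain ⟨k', v⟩ := q
  by_cases hk : k = k'
  · subst hk
    rw [slotEmb_apply_same]
    by_cases huv : u = v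
    · subst huv
      rw [if_pos (fun _ _ => rfl), Matrix.diagonal_apply_eq, Matrix.diagonal_apply_eq,
        slotClass_apply]
    · have hne : φ ⟨k, u⟩ ≠ φ ⟨k, v⟩ := fun h => huv (eq_of_heq (Sigma.mk.inj (φ.injective h)).2)
      rw [Matrix.diagonal_apply_ne _ hne]
      by_cases h1 : ∀ i, i ≠ l → u i = v i
      · rw [if_pos h1, Matrix.diagonal_apply_ne]
        intro h2
        apply huv
        funext i
        by_cases hi : i = l
        · subst hi
          exact h2
        · exact h1 i hi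
      · rw [if_neg h1]
  · rw [slotEmb_apply_ne d φ l _ hk]
    have hne : φ ⟨k, u⟩ ≠ φ ⟨k', v⟩ := fun h => hk (Sigma.mk.inj (φ.injective h)).1
    rw [Matrix.diagonal_apply_ne _ hne]

theorem slotEmb_entry (x y : Fin r) :
    (∀ g : (k : Fin t) → Matrix (Fin (d k l)) (Fin (d k l)) ℂ, slotEmb d φ l g x y = 0) ∨
    (∃ (k : Fin t) (p p' : Fin (d k l)),
      ∀ g : (k : Fin t) → Matrix (Fin (d k l)) (Fin (d k l)) ℂ, slotEmb d φ l g x y = g k p p') := by
  obtain ⟨p, rfl⟩ := φ.surjective x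
  obtain ⟨q, rfl⟩ := φ.surjective y
  obtain ⟨k, u⟩ := p
  obtain ⟨k', v⟩ := q
  by_cases hk : k = k'
  · subst hk
    by_cases h1 : ∀ i, i ≠ l → u i = v i
    · right
      refine ⟨k, u l, v l, fun g => ?_⟩
      rw [slotEmb_apply_same, if_pos h1]
    · left
      intro g
      rw [slotEmb_apply_same, if_neg h1]
  · left
    intro g
    exact slotEmb_apply_ne d φ l g hk u v

theorem slotEmb_comm_of_ne {l l' : Fin s} (h : l ≠ l')
    (g : (k : Fin t) → Matrix (Fin (d k l)) (Fin (d k l)) ℂ)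
    (g' : (k : Fin t) → Matrix (Fin (d k l')) (Fin (d k l')) ℂ) :
    slotEmb d φ l g * slotEmb d φ l' g' = slotEmb d φ l' g' * slotEmb d φ l g := by
  unfold slotEmb
  rw [Matrix.reindex_apply, Matrix.reindex_apply, Matrix.submatrix_mul_equiv,
    Matrix.submatrix_mul_equiv, ← Matrix.blockDiagonal'_mul, ← Matrix.blockDiagonal'_mul]
  congr 2
  funext k
  exact slotMat_comm_of_ne (d k) h (g k) (g' k)

theorem slotEmb_comm_scal (g : (k : Fin t) → Matrix (Fin (d k l)) (Fin (d k l)) ℂ)
    (ω : Fin t → ℂ) : slotEmb d φ l g * scalEmb d φ ω = scalEmb d φ ω * slotEmb d φ l g := by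
  unfold scalEmb
  ext x y
  rw [Matrix.mul_diagonal, Matrix.diagonal_mul]
  by_cases h : (φ.symm x).1 = (φ.symm y).1
  · rw [h, mul_comm]
  · rw [slotEmb_apply_ne' d φ l g x y h, zero_mul, mul_zero]

end Emb

theorem transvection_mul_diagonal {m : Type*} [Fintype m] [DecidableEq m] {k l : m} (hkl : k ≠ l)
    (x : ℂ) (D : m → ℂ) (hD : ∀ k, D k ≠ 0) :
    Matrix.transvection k l x * Matrix.diagonal D
      = Matrix.diagonal D * Matrix.transvection k l (x * D l / D k) := by
  ext a b
  rw [Matrix.mul_diagonal, Matrix.diagonal_mul]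
  simp only [Matrix.transvection, Matrix.add_apply, Matrix.single_apply]
  by_cases hab : k = a ∧ l = b
  · obtain ⟨rfl, rfl⟩ := hab
    have := hD k
    simp only [and_self, if_true, Matrix.one_apply_ne hkl]
    field_simp
    ring
  · rw [if_neg hab, if_neg hab]
    by_cases h : a = b
    · subst h
      simp [mul_comm]
    · simp [Matrix.one_apply_ne h]

/-! ### Generation of the slot group -/

section Gen

variable {s t : ℕ} (d : Fin t → Fin s → ℕ) (l : Fin s)

/-- The family that is the transvection `1 + x E_(p,p')` in block `k` and `1` elsewhere. -/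
noncomputable def tfam (k : Fin t) (p p' : Fin (d k l)) (x : ℂ) :
    (k : Fin t) → Matrix (Fin (d k l)) (Fin (d k l)) ℂ :=
  Function.update 1 k (Matrix.transvection p p' x)

/-- The family of diagonal matrices with entries `D`. -/
def dfam (D : (k : Fin t) → Fin (d k l) → ℂ) :
    (k : Fin t) → Matrix (Fin (d k l)) (Fin (d k l)) ℂ :=
  fun k => Matrix.diagonal (D k)

theorem tfam_apply_same (k : Fin t) (p p' : Fin (d k l)) (x : ℂ) :
    tfam d l k p p' x k = Matrix.transvection p p' x := by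
  unfold tfam
  rw [Function.update_self]

theorem tfam_apply_ne (k : Fin t) (p p' : Fin (d k l)) (x : ℂ) {k' : Fin t} (h : k' ≠ k) :
    tfam d l k p p' x k' = 1 := by
  unfold tfam
  rw [Function.update_of_ne h]
  rfl

theorem tfam_det (k : Fin t) {p p' : Fin (d k l)} (hp : p ≠ p') (x : ℂ) (k' : Fin t) :
    (tfam d l k p p' x k').det = 1 := by
  by_cases h : k' = k
  · subst h
    rw [tfam_apply_same, Matrix.det_transvection_of_ne _ _ hp]
  · rw [tfam_apply_ne d l k p p' x h, Matrix.det_one]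

theorem tfam_zero (k : Fin t) (p p' : Fin (d k l)) : tfam d l k p p' 0 = 1 := by
  funext k'
  by_cases h : k' = k
  · subst h
    rw [tfam_apply_same, Matrix.transvection_zero]
    rfl
  · rw [tfam_apply_ne d l k p p' 0 h]
    rfl

theorem tfam_mul_dfam (k : Fin t) {p p' : Fin (d k l)} (hp : p ≠ p') (x : ℂ)
    (D : (k : Fin t) → Fin (d k l) → ℂ) (hD : ∀ k p, D k p ≠ 0) :
    tfam d l k p p' x * dfam d l D = dfam d l D * tfam d l k p p' (x * D k p' / D k p) := by
  funext k'
  simp only [Pi.mul_apply]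
  by_cases h : k' = k
  · subst h
    rw [tfam_apply_same, tfam_apply_same]
    exact transvection_mul_diagonal hp x (D k') (hD k')
  · rw [tfam_apply_ne d l k p p' _ h, tfam_apply_ne d l k p p' _ h, one_mul, mul_one]

/-- Products of transvection families. -/
inductive FA : ((k : Fin t) → Matrix (Fin (d k l)) (Fin (d k l)) ℂ) → Prop
  | one : FA 1
  | mulE (g : (k : Fin t) → Matrix (Fin (d k l)) (Fin (d k l)) ℂ) (k : Fin t)
      (p p' : Fin (d k l)) (x : ℂ) (hp : p ≠ p') : FA g → FA (g * tfam d l k p p' x)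

/-- Products of transvection families and invertible diagonal families. -/
inductive FG : ((k : Fin t) → Matrix (Fin (d k l)) (Fin (d k l)) ℂ) → Prop
  | one : FG 1
  | mulE (g : (k : Fin t) → Matrix (Fin (d k l)) (Fin (d k l)) ℂ) (k : Fin t)
      (p p' : Fin (d k l)) (x : ℂ) (hp : p ≠ p') : FG g → FG (g * tfam d l k p p' x)
  | mulD (g : (k : Fin t) → Matrix (Fin (d k l)) (Fin (d k l)) ℂ)
      (D : (k : Fin t) → Fin (d k l) → ℂ) (hD : ∀ k p, D k p ≠ 0) : FG g → FG (g * dfam d l D)

theorem FG.mul {g h : (k : Fin t) → Matrix (Fin (d k l)) (Fin (d k l)) ℂ} (hg : FG d l g)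
    (hh : FG d l h) : FG d l (g * h) := by
  induction hh with
  | one => simpa using hg
  | mulE h k p p' x hp _ ih =>
    rw [← mul_assoc]
    exact FG.mulE _ k p p' x hp ih
  | mulD h D hD _ ih =>
    rw [← mul_assoc]
    exact FG.mulD _ D hD ih

theorem FA.det {g : (k : Fin t) → Matrix (Fin (d k l)) (Fin (d k l)) ℂ} (hg : FA d l g)
    (k : Fin t) : (g k).det = 1 := by
  induction hg with
  | one => exact Matrix.det_one
  | mulE g k₁ p p' x hp _ ih =>
    rw [Pi.mul_apply, Matrix.det_mul, ih, tfam_det d l k₁ hp, one_mul]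

theorem dfam_one : dfam d l (fun _ _ => 1) = 1 := by
  funext k
  exact Matrix.diagonal_one

theorem dfam_mul (D D' : (k : Fin t) → Fin (d k l) → ℂ) :
    dfam d l D * dfam d l D' = dfam d l (fun k p => D k p * D' k p) := by
  funext k
  exact Matrix.diagonal_mul_diagonal _ _

theorem FG.normal {g : (k : Fin t) → Matrix (Fin (d k l)) (Fin (d k l)) ℂ} (hg : FG d l g) :
    ∃ D : (k : Fin t) → Fin (d k l) → ℂ, (∀ k p, D k p ≠ 0) ∧ FA d l (g * dfam d l D) := by
  induction hg with
  | one =>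
    refine ⟨fun _ _ => 1, fun _ _ => one_ne_zero, ?_⟩
    rw [dfam_one, mul_one]
    exact FA.one
  | mulE g k p p' x hp _ ih =>
    obtain ⟨D, hD, hA⟩ := ih
    refine ⟨D, hD, ?_⟩
    rw [mul_assoc, tfam_mul_dfam d l k hp x D hD, ← mul_assoc]
    exact FA.mulE _ k p p' _ hp hA
  | mulD g D₁ hD₁ _ ih =>
    obtain ⟨D, hD, hA⟩ := ih
    refine ⟨fun k p => D k p / D₁ k p, fun k p => div_ne_zero (hD k p) (hD₁ k p), ?_⟩
    have h1 : dfam d l D₁ * dfam d l (fun k p => D k p / D₁ k p) = dfam d l D := by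
      rw [dfam_mul]
      congr 1
      funext k p
      exact mul_div_cancel₀ _ (hD₁ k p)
    rw [mul_assoc, h1]
    exact hA

/-- The family that is `N` in block `k₀` and `1` elsewhere. -/
def ufam (k₀ : Fin t) (N : Matrix (Fin (d k₀ l)) (Fin (d k₀ l)) ℂ) :
    (k : Fin t) → Matrix (Fin (d k l)) (Fin (d k l)) ℂ :=
  Function.update 1 k₀ N

theorem ufam_apply_same (k₀ : Fin t) (N : Matrix (Fin (d k₀ l)) (Fin (d k₀ l)) ℂ) :
    ufam d l k₀ N k₀ = N := by
  unfold ufam
  rw [Function.update_self]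

theorem ufam_apply_ne (k₀ : Fin t) (N : Matrix (Fin (d k₀ l)) (Fin (d k₀ l)) ℂ) {k : Fin t}
    (h : k ≠ k₀) : ufam d l k₀ N k = 1 := by
  unfold ufam
  rw [Function.update_of_ne h]
  rfl

theorem FG.single (k₀ : Fin t) (N : Matrix (Fin (d k₀ l)) (Fin (d k₀ l)) ℂ) (hN : N.det ≠ 0) :
    FG d l (ufam d l k₀ N) := by
  refine Matrix.diagonal_transvection_induction_of_det_ne_zero
    (fun N => FG d l (ufam d l k₀ N)) N hN ?_ ?_ ?_
  · intro D₀ hD₀
    have h1 : ufam d l k₀ (Matrix.diagonal D₀)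
        = dfam d l (Function.update (fun _ _ => (1 : ℂ)) k₀ D₀) := by
      funext k
      by_cases h : k = k₀
      · subst h
        rw [ufam_apply_same]
        simp [dfam]
      · rw [ufam_apply_ne d l k₀ _ h]
        simp [dfam, Function.update_of_ne h]
    rw [h1, ← one_mul (dfam d l _)]
    refine FG.mulD _ _ ?_ FG.one
    intro k p
    by_cases h : k = k₀
    · subst h
      rw [Function.update_self]
      intro h0
      apply hD₀
      rw [Matrix.det_diagonal]
      exact Finset.prod_eq_zero (Finset.mem_univ p) h0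
    · rw [Function.update_of_ne h]
      exact one_ne_zero
  · intro tr
    have h1 : ufam d l k₀ tr.toMatrix = tfam d l k₀ tr.i tr.j tr.c := rfl
    rw [h1, ← one_mul (tfam d l k₀ _ _ _)]
    exact FG.mulE _ k₀ tr.i tr.j tr.c tr.hij FG.one
  · intro A B _ _ hA hB
    have h1 : ufam d l k₀ (A * B) = ufam d l k₀ A * ufam d l k₀ B := by
      funext k
      rw [Pi.mul_apply]
      by_cases h : k = k₀
      · subst h
        rw [ufam_apply_same, ufam_apply_same, ufam_apply_same]
      · rw [ufam_apply_ne d l k₀ _ h, ufam_apply_ne d l k₀ _ h, ufam_apply_ne d l k₀ _ h, one_mul]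
    rw [h1]
    exact hA.mul d l hB

theorem FG.of_det_ne_zero (g : (k : Fin t) → Matrix (Fin (d k l)) (Fin (d k l)) ℂ)
    (hg : ∀ k, (g k).det ≠ 0) : FG d l g := by
  have key : ∀ S : Finset (Fin t), FG d l (fun k => if k ∈ S then g k else 1) := by
    intro S
    induction S using Finset.induction_on with
    | empty =>
      have : (fun k => if k ∈ (∅ : Finset (Fin t)) then g k else 1) = 1 := by
        funext k
        simp
      rw [this]
      exact FG.one
    | insert k₀ S hk₀ ih =>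
      have h1 : (fun k => if k ∈ S then g k else 1) * ufam d l k₀ (g k₀)
          = fun k => if k ∈ insert k₀ S then g k else 1 := by
        funext k
        rw [Pi.mul_apply]
        by_cases h : k = k₀
        · subst h
          rw [ufam_apply_same, if_neg hk₀, if_pos (Finset.mem_insert_self k S), one_mul]
        · rw [ufam_apply_ne d l k₀ _ h, mul_one]
          by_cases hS : k ∈ S
          · rw [if_pos hS, if_pos (Finset.mem_insert_of_mem hS)]
          · rw [if_neg hS, if_neg]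
            intro h2
            rcases Finset.mem_insert.mp h2 with h3 | h3
            · exact h h3
            · exact hS h3
      rw [← h1]
      exact ih.mul d l (FG.single d l k₀ (g k₀) (hg k₀))
  have h2 := key Finset.univ
  simpa using h2

end Gen

/-! ### Decomposition of the slot group and the moves -/

section Emb2

variable {s t r : ℕ} (d : Fin t → Fin s → ℕ)
  (φ : (Σ k : Fin t, (i : Fin s) → Fin (d k i)) ≃ Fin r) (l : Fin s)

theorem slotEmb_dfam (D : (k : Fin t) → Fin (d k l) → ℂ) :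
    slotEmb d φ l (dfam d l D)
      = Matrix.diagonal (fun a => D (slotClass d φ l a).1 (slotClass d φ l a).2) :=
  slotEmb_diagonal d φ l D

theorem det_slotEmb_of_FA {h : (k : Fin t) → Matrix (Fin (d k l)) (Fin (d k l)) ℂ}
    (hh : FA d l h) : (slotEmb d φ l h).det = 1 := by
  rw [det_slotEmb]
  apply Finset.prod_eq_one
  intro k _
  rw [hh.det d l k, one_pow]

theorem slotMat_congr_of_wgt {k : Fin t} (hw : wgt d l k = 0)
    (g g' : Matrix (Fin (d k l)) (Fin (d k l)) ℂ) :
    slotMat (d k) l g = slotMat (d k) l g' := by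
  have h1 : IsEmpty ((j : {j // j ≠ l}) → Fin (d k j)) := Fintype.card_eq_zero_iff.mp hw
  ext x y
  exact absurd (⟨fun j => x j.1⟩ : Nonempty ((j : {j // j ≠ l}) → Fin (d k j)))
    (not_nonempty_iff.mpr h1)

theorem slot_decomp (g : (k : Fin t) → Matrix (Fin (d k l)) (Fin (d k l)) ℂ)
    (hdet : (slotEmb d φ l g).det = 1) (k₀ : Fin r) :
    ∃ (h : (k : Fin t) → Matrix (Fin (d k l)) (Fin (d k l)) ℂ) (e' : Fin r → ℂ) (w : ℂ),
      FA d l h ∧ TReach (slotClass d φ l) k₀ e' ∧ w ^ csize (slotClass d φ l) k₀ = 1 ∧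
      slotEmb d φ l g = slotEmb d φ l h * Matrix.diagonal e'
        * Matrix.diagonal (fun a => if slotClass d φ l a = slotClass d φ l k₀ then w else 1) := by
  classical
  -- replace the blocks of weight zero
  have hw : ∀ k, (g k).det = 0 → wgt d l k = 0 := by
    intro k h0
    by_contra hne
    have h1 := det_slotEmb d φ l g
    rw [hdet] at h1
    have h2 : ∏ k, (g k).det ^ wgt d l k = 0 :=
      Finset.prod_eq_zero (Finset.mem_univ k) (by rw [h0, zero_pow hne])
    rw [h2] at h1
    exact one_ne_zero h1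
  let g' : (k : Fin t) → Matrix (Fin (d k l)) (Fin (d k l)) ℂ :=
    fun k => if (g k).det = 0 then 1 else g k
  have hg' : ∀ k, (g' k).det ≠ 0 := by
    intro k
    by_cases h0 : (g k).det = 0
    · simp only [g', if_pos h0, Matrix.det_one]
      exact one_ne_zero
    · simp only [g', if_neg h0]
      exact h0
  have heq : slotEmb d φ l g' = slotEmb d φ l g := by
    unfold slotEmb
    congr 2
    funext k
    by_cases h0 : (g k).det = 0
    · exact slotMat_congr_of_wgt d l (hw k h0) _ _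
    · simp only [g', if_neg h0]
  obtain ⟨D, hD, hA⟩ := (FG.of_det_ne_zero d l g' hg').normal
  let e : Fin r → ℂ := fun a => (D (slotClass d φ l a).1 (slotClass d φ l a).2)⁻¹
  have h1 : slotEmb d φ l (g' * dfam d l D) * Matrix.diagonal e = slotEmb d φ l g := by
    rw [slotEmb_mul, slotEmb_dfam, heq, Matrix.mul_assoc, Matrix.diagonal_mul_diagonal]
    have h2 : (fun a => D (slotClass d φ l a).1 (slotClass d φ l a).2 * e a) = fun _ => 1 := by
      funext a
      exact mul_inv_cancel₀ (hD _ _)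
    rw [h2, Matrix.diagonal_one, Matrix.mul_one]
  have hcst : Cst (slotClass d φ l) e := by
    intro k k' hkk'
    exact congrArg (fun x : Σ k : Fin t, Fin (d k l) => (D x.1 x.2)⁻¹) hkk'
  have hprod : ∏ k, e k = 1 := by
    have h2 := congrArg Matrix.det h1
    rw [Matrix.det_mul, det_slotEmb_of_FA d φ l hA, one_mul, Matrix.det_diagonal, hdet] at h2
    exact h2
  obtain ⟨e', w, hT, hw1, hfact⟩ := TReach.exists_of_cst (slotClass d φ l) k₀ e hcst hprod
  refine ⟨g' * dfam d l D, e', w, hA, hT, hw1, ?_⟩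
  rw [Matrix.mul_assoc, Matrix.diagonal_mul_diagonal, ← h1]
  congr 2
  funext a
  exact hfact a

theorem diag_cst_eq_slot (e : Fin r → ℂ) (he : Cst (slotClass d φ l) e) :
    ∃ D : (k : Fin t) → Fin (d k l) → ℂ, Matrix.diagonal e = slotEmb d φ l (dfam d l D) := by
  classical
  refine ⟨fun k p => if h : ∃ a, slotClass d φ l a = ⟨k, p⟩ then e (Classical.choose h) else 1, ?_⟩
  rw [slotEmb_dfam]
  congr 1
  funext a
  have h : ∃ a', slotClass d φ l a' = ⟨(slotClass d φ l a).1, (slotClass d φ l a).2⟩ := ⟨a, rfl⟩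
  rw [dif_pos h]
  exact (he _ _ (Classical.choose_spec h)).symm

/-- Integral slot matrices of determinant one. -/
def GS (N : ℕ) : Set (Matrix (Fin r) (Fin r) ℂ) :=
  {M | (∃ g : (k : Fin t) → Matrix (Fin (d k l)) (Fin (d k l)) ℂ, M = slotEmb d φ l g) ∧
    (∀ x y, IsInt N (M x y)) ∧ M.det = 1}

theorem GS_mul (N : ℕ) {M M' : Matrix (Fin r) (Fin r) ℂ} (h : M ∈ GS d φ l N)
    (h' : M' ∈ GS d φ l N) : M * M' ∈ GS d φ l N := by
  obtain ⟨⟨g, rfl⟩, h2, h3⟩ := h
  obtain ⟨⟨g', rfl⟩, h2', h3'⟩ := h'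
  refine ⟨⟨g * g', (slotEmb_mul d φ l g g').symm⟩, fun x y => ?_,
    by rw [Matrix.det_mul, h3, h3', one_mul]⟩
  rw [Matrix.mul_apply]
  exact isInt_sum _ _ (fun z _ => isInt_mul (h2 x z) (h2' z y))

theorem GB_subset_GS (N : ℕ) : GB (slotClass d φ l) N 0 ⊆ GS d φ l N := by
  rintro M ⟨w, rfl, hcst, hint, hprod, _⟩
  obtain ⟨D, hD⟩ := diag_cst_eq_slot d φ l w hcst
  refine ⟨⟨_, hD⟩, fun x y => ?_, by rw [Matrix.det_diagonal, hprod]⟩
  by_cases hxy : x = y
  · subst hxy
    rw [Matrix.diagonal_apply_eq]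
    exact hint x
  · rw [Matrix.diagonal_apply_ne _ hxy]
    exact isInt_zero N

theorem slotEmb_tfam_entry (k : Fin t) (p p' : Fin (d k l)) (x y : Fin r) :
    ∃ c0 c1 : ℤ, ∀ z : ℂ, slotEmb d φ l (tfam d l k p p' z) x y = (c0 : ℂ) + (c1 : ℂ) * z := by
  rcases slotEmb_entry d φ l x y with h0 | ⟨k', u, u', h1⟩
  · exact ⟨0, 0, fun z => by rw [h0]; simp⟩
  · by_cases hk : k' = k
    · subst hk
      refine ⟨if u = u' then 1 else 0, if p = u ∧ p' = u' then 1 else 0, fun z => ?_⟩
      rw [h1, tfam_apply_same]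
      simp only [Matrix.transvection, Matrix.add_apply, Matrix.one_apply, Matrix.single_apply]
      split_ifs <;> simp
    · refine ⟨if u = u' then 1 else 0, 0, fun z => ?_⟩
      rw [h1, tfam_apply_ne d l k p p' z hk]
      simp only [Matrix.one_apply]
      split_ifs <;> simp

theorem step_S {ι : Type*} [DecidableEq ι] (f : MvPolynomial (ι × Fin r × Fin r) ℂ)
    (G : ι → Set (Matrix (Fin r) (Fin r) ℂ)) (N : ℕ) (i : ι)
    (hmul : ∀ X ∈ G i, ∀ Y ∈ G i, X * Y ∈ G i) (hG : GS d φ l N ⊆ G i)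
    (h : (k : Fin t) → Matrix (Fin (d k l)) (Fin (d k l)) ℂ) (hh : FA d l h) :
    ∀ T ∈ WSet f G, Function.update T i (T i * slotEmb d φ l h) ∈ WSet f G := by
  induction hh with
  | one =>
    intro T hT
    rw [slotEmb_one, Matrix.mul_one, Function.update_eq_self]
    exact hT
  | mulE g k p p' x hp _ ih =>
    intro T hT
    have h1 := ih T hT
    by_cases hx : x = 0
    · rw [hx, tfam_zero, mul_one]
      exact h1
    · have h2 := move_mem_WSet f G _ h1 i hmul (fun z => slotEmb d φ l (tfam d l k p p' z)) ?_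
        (Set.range (Nat.cast : ℕ → ℂ)) ?_ ?_ x hx
      · simp only [Function.update_self, Function.update_idem, Matrix.mul_assoc] at h2
        rw [slotEmb_mul]
        exact h2
      · intro a b
        obtain ⟨c0, c1, hc⟩ := slotEmb_tfam_entry d φ l k p p' a b
        simp only [hc]
        exact (LaurentFn.const _).add ((LaurentFn.const _).mul LaurentFn.id)
      · exact Set.infinite_range_of_injective Nat.cast_injective
      · rintro z ⟨m, rfl⟩
        apply hG
        refine ⟨⟨_, rfl⟩, fun a b => ?_, ?_⟩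
        · obtain ⟨c0, c1, hc⟩ := slotEmb_tfam_entry d φ l k p p' a b
          rw [hc]
          exact isInt_add (isInt_intCast N c0) (isInt_mul (isInt_intCast N c1) (isInt_natCast N m))
        · rw [det_slotEmb]
          apply Finset.prod_eq_one
          intro k' _
          rw [tfam_det d l k hp, one_pow]

end Emb2

/-! ### Assembly -/

theorem conj_cancel {r : ℕ} {P Q : Matrix (Fin r) (Fin r) ℂ} (hQP : Q * P = 1)
    (X : Matrix (Fin r) (Fin r) ℂ) : Q * (P * X * Q) * P = X := by
  calc Q * (P * X * Q) * P = (Q * P) * X * (Q * P) := by simp only [Matrix.mul_assoc]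
    _ = X := by rw [hQP, Matrix.one_mul, Matrix.mul_one]

theorem conj_pow {r : ℕ} {P Q : Matrix (Fin r) (Fin r) ℂ} (hPQ : P * Q = 1) (hQP : Q * P = 1)
    (X : Matrix (Fin r) (Fin r) ℂ) (m : ℕ) : (P * X * Q) ^ m = P * X ^ m * Q := by
  induction m with
  | zero => simp [hPQ]
  | succ m ih =>
    rw [pow_succ, ih, pow_succ]
    calc P * X ^ m * Q * (P * X * Q) = P * X ^ m * ((Q * P) * (X * Q)) := by
          simp only [Matrix.mul_assoc]
      _ = P * (X ^ m * X) * Q := by
          rw [hQP, Matrix.one_mul]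
          simp only [Matrix.mul_assoc]

/-- The normal form of the density statement. -/
theorem slot_vanish {s t n r : ℕ} (hr : 0 < r) (a : Fin s → ℕ) (N : ℕ) (hN1 : r.factorial ∣ N)
    (d : Fin t → Fin s → ℕ) (φ : (Σ k : Fin t, (i : Fin s) → Fin (d k i)) ≃ Fin r)
    (f : MvPolynomial ((((l : Fin s) × Fin (a l)) ⊕ Fin n) × Fin r × Fin r) ℂ)
    (ω : Fin n → Fin t → ℂ)
    (hvan : ∀ H : ((l : Fin s) × Fin (a l)) ⊕ Fin n → Matrix (Fin r) (Fin r) ℂ,
      (∀ p, H (Sum.inl p) ∈ GS d φ p.1 N) → (∀ j, H (Sum.inr j) = scalEmb d φ (ω j)) →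
      evalAt H f = 0)
    (g : (l : Fin s) → Fin (a l) → (k : Fin t) → Matrix (Fin (d k l)) (Fin (d k l)) ℂ)
    (hdet : ∀ l i, (slotEmb d φ l (g l i)).det = 1) :
    evalAt (Sum.elim (fun p : (l : Fin s) × Fin (a l) => slotEmb d φ p.1 (g p.1 p.2))
      (fun j => scalEmb d φ (ω j))) f = 0 := by
  classical
  obtain ⟨k₀⟩ : Nonempty (Fin r) := ⟨⟨0, hr⟩⟩
  let G : ((l : Fin s) × Fin (a l)) ⊕ Fin n → Set (Matrix (Fin r) (Fin r) ℂ) :=
    Sum.elim (fun p => GS d φ p.1 N) (fun j => {M | M = scalEmb d φ (ω j)})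
  have hmulA : ∀ p : (l : Fin s) × Fin (a l),
      ∀ X ∈ G (Sum.inl p), ∀ Y ∈ G (Sum.inl p), X * Y ∈ G (Sum.inl p) :=
    fun p X hX Y hY => GS_mul d φ p.1 N hX hY
  have hvan' : ∀ H : ((l : Fin s) × Fin (a l)) ⊕ Fin n → Matrix (Fin r) (Fin r) ℂ,
      (∀ i, H i ∈ G i) → evalAt H f = 0 :=
    fun H hH => hvan H (fun p => hH (Sum.inl p)) (fun j => hH (Sum.inr j))
  have hdec := fun p : (l : Fin s) × Fin (a l) => slot_decomp d φ p.1 (g p.1 p.2) (hdet p.1 p.2) k₀
  choose h e' w hFA hTR hw hfact using hdec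
  have hreach := mem_WSet_of_reach f G hvan'
    (Sum.elim (fun p M => ∃ (h : (k : Fin t) → Matrix (Fin (d k p.1)) (Fin (d k p.1)) ℂ)
        (e' : Fin r → ℂ), FA d p.1 h ∧ TReach (slotClass d φ p.1) k₀ e' ∧
          M = slotEmb d φ p.1 h * Matrix.diagonal e')
      (fun _ M => M = 1))
    ?_ (Sum.elim (fun p => slotEmb d φ p.1 (h p) * Matrix.diagonal (e' p)) (fun _ => 1)) ?_
  · have h1 := hreach (Sum.elim (fun p => Matrix.diagonal
        (fun x => if slotClass d φ p.1 x = slotClass d φ p.1 k₀ then w p else 1))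
        (fun j => scalEmb d φ (ω j))) ?_
    · have h2 : (fun i => Sum.elim (fun p => slotEmb d φ p.1 (h p) * Matrix.diagonal (e' p))
            (fun _ => (1 : Matrix (Fin r) (Fin r) ℂ)) i
          * Sum.elim (fun p => Matrix.diagonal
            (fun x => if slotClass d φ p.1 x = slotClass d φ p.1 k₀ then w p else 1))
            (fun j => scalEmb d φ (ω j)) i)
          = Sum.elim (fun p : (l : Fin s) × Fin (a l) => slotEmb d φ p.1 (g p.1 p.2))
            (fun j => scalEmb d φ (ω j)) := by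
        funext i
        rcases i with p | j
        · simp only [Sum.elim_inl]
          exact (hfact p).symm
        · simp
      rw [h2] at h1
      exact h1
    · rintro (p | j)
      · apply GB_subset_GS d φ p.1 N
        refine ⟨_, rfl, ?_, ?_, ?_, fun k => pow_zero _⟩
        · intro k k' hkk'
          simp only [hkk']
        · intro k
          by_cases hk : slotClass d φ p.1 k = slotClass d φ p.1 k₀
          · simp only [if_pos hk]
            exact isInt_root (pow_eq_one_of_dvd (hw p)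
              ((csize_dvd (slotClass d φ p.1) k₀).trans hN1))
          · simp only [if_neg hk]
            exact isInt_one N
        · rw [Finset.prod_ite, Finset.prod_const_one, mul_one, Finset.prod_const]
          exact hw p
      · rfl
  · rintro (p | j) M hM T hT
    · obtain ⟨h₁, e₁, hFA₁, hTR₁, rfl⟩ := hM
      have h1 := step_S d φ p.1 f G N (Sum.inl p) (hmulA p) (fun M hM => hM) h₁ hFA₁ T hT
      have h2 := step_B (slotClass d φ p.1) f G N 0 rfl (Sum.inl p) (hmulA p)
        (GB_subset_GS d φ p.1 N) k₀ e₁ hTR₁ _ h1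
      simp only [Function.update_self, Function.update_idem, Matrix.mul_assoc] at h2
      exact h2
    · have hM' : M = 1 := hM
      rw [hM', Matrix.mul_one, Function.update_eq_self]
      exact hT
  · rintro (p | j)
    · exact ⟨h p, e' p, hFA p, hTR p, rfl⟩
    · rfl

theorem scalEmb_mul_comm {s t r : ℕ} (d : Fin t → Fin s → ℕ)
    (φ : (Σ k : Fin t, (i : Fin s) → Fin (d k i)) ≃ Fin r) (ω ω' : Fin t → ℂ) :
    scalEmb d φ ω * scalEmb d φ ω' = scalEmb d φ ω' * scalEmb d φ ω := by
  unfold scalEmb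
  rw [Matrix.diagonal_mul_diagonal, Matrix.diagonal_mul_diagonal]
  congr 1
  funext x
  exact mul_comm _ _

/-- Integral points are Zariski dense in the `SL_r` character variety of a product of free
groups and finite cyclic groups (block-tensor normal form), with conditions on the torsion
generators: statement used by the hand-in `P002.ProductOfFreeGroups`. -/
theorem main (s n r : ℕ) (a : Fin s → ℕ) (q : Fin n → ℕ) (hq : ∀ j, q j ≠ 0)
    (K : Set (Fin n → Matrix (Fin r) (Fin r) ℂ))
    (hK : ∀ P Q : Matrix (Fin r) (Fin r) ℂ, P * Q = 1 → ∀ T ∈ K, (fun j => P * T j * Q) ∈ K)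
    (f : MvPolynomial ((((l : Fin s) × Fin (a l)) ⊕ Fin n) × Fin r × Fin r) ℂ)
    (hf : ConjInvariant f)
    (hvan : ∀ (A : (l : Fin s) → Fin (a l) → Matrix (Fin r) (Fin r) ℂ)
      (B : Fin n → Matrix (Fin r) (Fin r) ℂ), IsRepProd a q K A B →
      (∀ l i x y, IsInt (level r q) (A l i x y)) → (∀ j x y, IsInt (level r q) (B j x y)) →
      evalAt (Sum.elim (fun p : (l : Fin s) × Fin (a l) => A p.1 p.2) B) f = 0) :
    ∀ (A : (l : Fin s) → Fin (a l) → Matrix (Fin r) (Fin r) ℂ)
      (B : Fin n → Matrix (Fin r) (Fin r) ℂ), IsRepProd a q K A B →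
      evalAt (Sum.elim (fun p : (l : Fin s) × Fin (a l) => A p.1 p.2) B) f = 0 := by
  classical
  intro A B hrep
  rcases Nat.eq_zero_or_pos r with rfl | hr
  · exact hvan A B hrep (fun l i x => x.elim0) (fun j x => x.elim0)
  obtain ⟨hAdet, hBdet, hBq, hBK, -, -, -, t, d, φ, P, Q, hPQ, hA, hB⟩ := hrep
  choose g hg using hA
  choose ω hω using hB
  have hQP : Q * P = 1 := mul_eq_one_comm.mp hPQ
  have hdetPQ : P.det * Q.det = 1 := by rw [← Matrix.det_mul, hPQ, Matrix.det_one]
  have hdetconj : ∀ X : Matrix (Fin r) (Fin r) ℂ, (P * X * Q).det = X.det := by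
    intro X
    rw [Matrix.det_mul, Matrix.det_mul]
    calc P.det * X.det * Q.det = (P.det * Q.det) * X.det := by ring
      _ = X.det := by rw [hdetPQ, one_mul]
  have hQBP : ∀ j, Q * B j * P = scalEmb d φ (ω j) := by
    intro j
    rw [hω j]
    exact conj_cancel hQP _
  have hconj : (fun i => Q * Sum.elim (fun p : (l : Fin s) × Fin (a l) => A p.1 p.2) B i * P)
      = Sum.elim (fun p : (l : Fin s) × Fin (a l) => slotEmb d φ p.1 (g p.1 p.2))
        (fun j => scalEmb d φ (ω j)) := by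
    funext i
    rcases i with p | j
    · simp only [Sum.elim_inl]
      rw [hg p.1 p.2]
      exact conj_cancel hQP _
    · simp only [Sum.elim_inr]
      exact hQBP j
  rw [← hf Q P hQP (Sum.elim (fun p : (l : Fin s) × Fin (a l) => A p.1 p.2) B), hconj]
  have hdetg : ∀ l i, (slotEmb d φ l (g l i)).det = 1 := by
    intro l i
    rw [← hdetconj, ← hg l i]
    exact hAdet l i
  have hdetω : ∀ j, (scalEmb d φ (ω j)).det = 1 := by
    intro j
    rw [← hdetconj, ← hω j]
    exact hBdet j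
  have hpowω : ∀ j, scalEmb d φ (ω j) ^ q j = 1 := by
    intro j
    have h1 := hBq j
    rw [hω j, conj_pow hPQ hQP] at h1
    calc scalEmb d φ (ω j) ^ q j = Q * (P * scalEmb d φ (ω j) ^ q j * Q) * P :=
          (conj_cancel hQP _).symm
      _ = 1 := by rw [h1, Matrix.mul_one, hQP]
  have hN2 : ∀ j, q j ∣ level r q := by
    intro j
    have h1 : (if q j = 0 then 1 else q j) ∣ ∏ j, (if q j = 0 then 1 else q j) :=
      Finset.dvd_prod_of_mem (fun j => if q j = 0 then 1 else q j) (Finset.mem_univ j)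
    rw [if_neg (hq j)] at h1
    exact dvd_mul_of_dvd_right h1 _
  have hωK : (fun j => scalEmb d φ (ω j)) ∈ K := by
    have h1 := hK Q P hQP _ hBK
    have h2 : (fun j => Q * B j * P) = fun j => scalEmb d φ (ω j) := funext hQBP
    rw [h2] at h1
    exact h1
  apply slot_vanish hr a (level r q) (Dvd.intro _ rfl) d φ f ω ?_ g hdetg
  intro H hHA hHB
  have h1 := hvan (fun l i => H (Sum.inl ⟨l, i⟩)) (fun j => H (Sum.inr j)) ?_
    (fun l i x y => (hHA ⟨l, i⟩).2.1 x y) ?_
  · have h2 : Sum.elim (fun p : (l : Fin s) × Fin (a l) => H (Sum.inl ⟨p.1, p.2⟩))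
        (fun j => H (Sum.inr j)) = H := by
      funext i
      rcases i with p | j <;> rfl
    rw [h2] at h1
    exact h1
  · refine ⟨fun l i => (hHA ⟨l, i⟩).2.2, ?_, ?_, ?_, ?_, ?_, ?_, t, d, φ, 1, 1,
      Matrix.one_mul 1, ?_, ?_⟩
    · intro j
      show (H (Sum.inr j)).det = 1
      rw [hHB j]
      exact hdetω j
    · intro j
      show H (Sum.inr j) ^ q j = 1
      rw [hHB j]
      exact hpowω j
    · have h3 : (fun j => H (Sum.inr j)) = fun j => scalEmb d φ (ω j) := funext hHB
      show (fun j => H (Sum.inr j)) ∈ K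
      rw [h3]
      exact hωK
    · intro l l' i i' hll'
      obtain ⟨g₁, hg₁⟩ := (hHA ⟨l, i⟩).1
      obtain ⟨g₂, hg₂⟩ := (hHA ⟨l', i'⟩).1
      show H (Sum.inl ⟨l, i⟩) * H (Sum.inl ⟨l', i'⟩) = H (Sum.inl ⟨l', i'⟩) * H (Sum.inl ⟨l, i⟩)
      rw [hg₁, hg₂]
      exact slotEmb_comm_of_ne d φ hll' g₁ g₂
    · intro l i j
      obtain ⟨g₁, hg₁⟩ := (hHA ⟨l, i⟩).1
      show H (Sum.inl ⟨l, i⟩) * H (Sum.inr j) = H (Sum.inr j) * H (Sum.inl ⟨l, i⟩)
      rw [hg₁, hHB j]
      exact slotEmb_comm_scal d φ l g₁ (ω j)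
    · intro j j'
      show H (Sum.inr j) * H (Sum.inr j') = H (Sum.inr j') * H (Sum.inr j)
      rw [hHB j, hHB j']
      exact scalEmb_mul_comm d φ _ _
    · intro l i
      obtain ⟨g₁, hg₁⟩ := (hHA ⟨l, i⟩).1
      exact ⟨g₁, by rw [Matrix.one_mul, Matrix.mul_one]; exact hg₁⟩
    · intro j
      exact ⟨ω j, by rw [Matrix.one_mul, Matrix.mul_one]; exact hHB j⟩
  · intro j x y
    show IsInt (level r q) (H (Sum.inr j) x y)
    rw [hHB j]
    have h3 := hpowω j
    unfold scalEmb at h3 ⊢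
    by_cases hxy : x = y
    · subst hxy
      rw [Matrix.diagonal_apply_eq]
      rw [Matrix.diagonal_pow] at h3
      have h4 := congrFun (congrFun h3 x) x
      rw [Matrix.diagonal_apply_eq, Matrix.one_apply_eq] at h4
      exact isInt_root (pow_eq_one_of_dvd h4 (hN2 j))
    · rw [Matrix.diagonal_apply_ne _ hxy]
      exact isInt_zero _

end Vale.Agent.Helper2.CharProd
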