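import Mathlib
import Vale.Agent.Helper2.CharVarDefs

/-!
# Definitions for the statement of `P002.NilpotentPi1`

Representations of a group that are twists of an integral representation by characters with
values in block-scalar matrices.  The proofs are in `Vale.Agent.Helper2.CharTwist`.
-/

namespace Vale.Agent.Helper2.CharTwist

open Matrix Vale.Agent.Helper2.CharVar

/-- For homomorphisms `v 0, ..., v (b-1) : Γ → ℤ` and parameters `s i x` (`i < b`, `x < r`), the
diagonal entries `∏ i, (s i x) ^ (v i g)` of the value at `g` of the character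
`g ↦ diag (∏ i, (s i) ^ (v i g))` of `Γ` with values in diagonal `r × r` matrices. -/
noncomputable def twistChar {Γ : Type*} {b r : ℕ} (v : Fin b → Γ → ℤ) (s : Fin b → Fin r → ℂ)
    (g : Γ) : Fin r → ℂ :=
  fun x => ∏ i, s i x ^ v i g

/-- `ρ` is a representation of `Γ` in `SL_r(ℂ)` that is, up to conjugation, a twist by
characters of an integral representation from the set `B` of base representations: there are a
partition of the basis into blocks (the fibres of `c`), a representation `σ ∈ B` of `Γ` by block
diagonal matrices with entries in the ring generated by `√2` and the `N₀`-th roots of unity and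
with determinants of order dividing `N₀`, and nonzero parameters `s i x`, constant on the
blocks, such that `ρ g = P * (diag (twistChar v s g) * σ g) * Q` for all `g`, with `P * Q = 1`.
In other words `ρ` is isomorphic to a direct sum `⊕_k χ_k ⊗ σ_k`, where the `σ_k` are the blocks
of `σ` and `χ_k = ∏ i, (s i k) ^ (v i ·)` are characters of `Γ`. -/
def IsTwistRep {Γ : Type*} [Group Γ] {b r : ℕ} (v : Fin b → Γ → ℤ) (N₀ : ℕ)
    (B : Set (Γ →* Matrix (Fin r) (Fin r) ℂ)) (ρ : Γ →* Matrix (Fin r) (Fin r) ℂ) : Prop :=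
  (∀ g, (ρ g).det = 1) ∧
  ∃ (t : ℕ) (c : Fin r → Fin t) (P Q : Matrix (Fin r) (Fin r) ℂ)
    (σ : Γ →* Matrix (Fin r) (Fin r) ℂ) (s : Fin b → Fin r → ℂ), σ ∈ B ∧ P * Q = 1 ∧
    (∀ g x y, c x ≠ c y → σ g x y = 0) ∧ (∀ g x y, IsInt N₀ (σ g x y)) ∧
    (∀ g, (σ g).det ^ N₀ = 1) ∧
    (∀ i x y, c x = c y → s i x = s i y) ∧ (∀ i x, s i x ≠ 0) ∧
    ∀ g, ρ g = P * (Matrix.diagonal (twistChar v s g) * σ g) * Q

end Vale.Agent.Helper2.CharTwist
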