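import Mathlib
import Vale.Agent.Helper2.CharVar
import Vale.Agent.Helper2.CharTwistDefs

namespace Vale.Agent.Helper2.CharTwist

set_option linter.unusedSectionVars false
set_option linter.unusedSimpArgs false

open Matrix
open Vale.Agent.Results.P002.AbelianPi1 (IsZsqrt2 unitSet unitSet_infinite unitSet_ne_zero
  unitSet_inv unitSet_mul unitSet_one unitSet_prod)
open Vale.Agent.Helper2.CharVar

/-! ### An abstract form of the closure argument -/

section AbsClosure

variable {ι : Type*} [DecidableEq ι] {M : Type*} [Monoid M]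

/-- The tuples `T` such that `F` vanishes at `T * H` for every tuple `H` from the sets `G`. -/
def WS (F : (ι → M) → ℂ) (G : ι → Set M) : Set (ι → M) :=
  {T | ∀ H : ι → M, (∀ i, H i ∈ G i) → F (fun i => T i * H i) = 0}

theorem one_mem_WS (F : (ι → M) → ℂ) (G : ι → Set M)
    (hvan : ∀ H : ι → M, (∀ i, H i ∈ G i) → F H = 0) : (fun _ => (1 : M)) ∈ WS F G := by
  intro H hH
  simpa using hvan H hH

theorem move_mem_WS (F : (ι → M) → ℂ) (G : ι → Set M) (T : ι → M) (hT : T ∈ WS F G) (i₀ : ι)
    (G0 : Set M) (hmul : ∀ X ∈ G0, ∀ Y ∈ G i₀, X * Y ∈ G i₀) (γ : ℂ → M)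
    (hγ : ∀ T H : ι → M,
      LaurentFn (fun t => F (fun i => Function.update T i₀ (T i₀ * γ t) i * H i)))
    (U : Set ℂ) (hU : U.Infinite) (hUG : ∀ t ∈ U, γ t ∈ G0) :
    ∀ t : ℂ, t ≠ 0 → Function.update T i₀ (T i₀ * γ t) ∈ WS F G := by
  intro t ht H hH
  refine (hγ T H).vanish U hU (fun s hs => ?_) t ht
  have h1 : (fun i => Function.update T i₀ (T i₀ * γ s) i * H i)
      = fun i => T i * Function.update H i₀ (γ s * H i₀) i := by
    funext i
    by_cases hi : i = i₀
    · subst hi
      simp [mul_assoc]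
    · simp [Function.update_of_ne hi]
  rw [h1]
  apply hT
  intro i
  by_cases hi : i = i₀
  · subst hi
    simp only [Function.update_self]
    exact hmul _ (hUG s hs) _ (hH i)
  · simp only [Function.update_of_ne hi]
    exact hH i

theorem mem_WS_of_reach [Fintype ι] (F : (ι → M) → ℂ) (G : ι → Set M)
    (hvan : ∀ H : ι → M, (∀ i, H i ∈ G i) → F H = 0) (Rch : ι → M → Prop)
    (hstep : ∀ i, ∀ m, Rch i m → ∀ T ∈ WS F G, Function.update T i (T i * m) ∈ WS F G)
    (T : ι → M) (hT : ∀ i, Rch i (T i)) : T ∈ WS F G := by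
  have key : ∀ S : Finset ι, (fun i => if i ∈ S then T i else 1) ∈ WS F G := by
    intro S
    induction S using Finset.induction_on with
    | empty => simpa using one_mem_WS F G hvan
    | insert i₀ S hi ih =>
      have h1 := hstep i₀ (T i₀) (hT i₀) _ ih
      have h2 : Function.update (fun i => if i ∈ S then T i else 1) i₀
          ((if i₀ ∈ S then T i₀ else 1) * T i₀) = fun i => if i ∈ insert i₀ S then T i else 1 := by
        funext i
        by_cases hii : i = i₀
        · subst hii
          simp [hi]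
        · simp [Function.update_of_ne hii, Finset.mem_insert, hii]
      rw [h2] at h1
      exact h1
  have := key Finset.univ
  simpa using this

end AbsClosure

/-! ### Integrality lemmas -/

theorem isInt_mono {N₀ N : ℕ} (h : N₀ ∣ N) {z : ℂ} (hz : IsInt N₀ z) : IsInt N z := by
  refine Subring.closure_mono ?_ hz
  rintro w (hw | hw)
  · exact Or.inl hw
  · exact Or.inr (pow_eq_one_of_dvd hw h)

theorem isInt_pow {N : ℕ} {u : ℂ} (hu : IsInt N u) (k : ℕ) : IsInt N (u ^ k) :=
  Subring.pow_mem _ hu k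

theorem isInt_zpow {N : ℕ} {u : ℂ} (hu : IsInt N u) (hu' : IsInt N u⁻¹) (z : ℤ) :
    IsInt N (u ^ z) := by
  rcases Int.eq_nat_or_neg z with ⟨k, rfl | rfl⟩
  · rw [_root_.zpow_natCast]
    exact isInt_pow hu k
  · rw [_root_.zpow_neg, _root_.zpow_natCast, ← inv_pow]
    exact isInt_pow hu' k

theorem isInt_prod {N : ℕ} {α : Type*} (s : Finset α) (g : α → ℂ) (h : ∀ a ∈ s, IsInt N (g a)) :
    IsInt N (∏ a ∈ s, g a) :=
  Subring.prod_mem _ h

/-! ### The torus part for nonvanishing functions -/

theorem exists_of_cst' {X : Type*} [DecidableEq X] {r : ℕ} (c : Fin r → X) (k₀ : Fin r)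
    (e : Fin r → ℂ) (he : Cst c e) (hne : ∀ k, e k ≠ 0) :
    ∃ (e' : Fin r → ℂ) (w : ℂ), TReach c k₀ e' ∧ w ^ csize c k₀ = ∏ k, e k ∧
      ∀ k, e k = e' k * (if c k = c k₀ then w else 1) := by
  have hpos := csize_pos c k₀
  have hprodne : ∏ k, e k ≠ 0 := Finset.prod_ne_zero_iff.mpr (fun k _ => hne k)
  obtain ⟨w₀, hw₀⟩ := IsAlgClosed.exists_pow_nat_eq (∏ k, e k) hpos
  have hw₀ne : w₀ ≠ 0 := by
    rintro rfl
    rw [zero_pow hpos.ne'] at hw₀
    exact hprodne hw₀.symm
  have hcard : ∏ k : Fin r, (if c k = c k₀ then w₀⁻¹ else 1) = (w₀⁻¹) ^ csize c k₀ := by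
    rw [Finset.prod_ite, Finset.prod_const_one, mul_one, Finset.prod_const]
    rfl
  have h1 : Cst c (fun k => e k * (if c k = c k₀ then w₀⁻¹ else 1)) := by
    intro k l hkl
    show e k * (if c k = c k₀ then w₀⁻¹ else 1) = e l * (if c l = c k₀ then w₀⁻¹ else 1)
    rw [he k l hkl, hkl]
  have h2 : ∏ k, e k * (if c k = c k₀ then w₀⁻¹ else 1) = 1 := by
    rw [Finset.prod_mul_distrib, hcard, inv_pow, hw₀]
    exact mul_inv_cancel₀ hprodne
  obtain ⟨e', ω, hT, hω, hfact⟩ := TReach.exists_of_cst c k₀ _ h1 h2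
  refine ⟨e', ω * w₀, hT, by rw [mul_pow, hω, one_mul, hw₀], fun k => ?_⟩
  have h3 := hfact k
  by_cases hk : c k = c k₀
  · simp only [if_pos hk] at h3 ⊢
    calc e k = e k * w₀⁻¹ * w₀ := by rw [mul_assoc, inv_mul_cancel₀ hw₀ne, mul_one]
      _ = e' k * ω * w₀ := by rw [h3]
      _ = e' k * (ω * w₀) := by ring
  · simp only [if_neg hk, mul_one] at h3 ⊢
    exact h3

theorem mult_zpow_laurent {X : Type*} [DecidableEq X] {r : ℕ} (c : Fin r → X) (k₀ k₁ k : Fin r)
    (z : ℤ) : LaurentFn (fun x => mult c k₀ k₁ x k ^ z) := by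
  unfold mult
  by_cases h1 : c k = c k₁
  · simp only [if_pos h1]
    have h2 : (fun x : ℂ => (x ^ csize c k₀) ^ z) = fun x => x ^ ((csize c k₀ : ℤ) * z) := by
      funext x
      rw [_root_.zpow_mul, _root_.zpow_natCast]
    rw [h2]
    exact LaurentFn.zpow _
  · simp only [if_neg h1]
    by_cases h0 : c k = c k₀
    · simp only [if_pos h0]
      have h2 : (fun x : ℂ => (x⁻¹ ^ csize c k₁) ^ z) = fun x => x ^ (-(csize c k₁ : ℤ) * z) := by
        funext x
        rw [_root_.zpow_mul, _root_.zpow_neg, _root_.zpow_natCast, inv_pow]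
      rw [h2]
      exact LaurentFn.zpow _
    · simp only [if_neg h0, _root_.one_zpow]
      exact LaurentFn.const 1

theorem LaurentFn.prod {α : Type*} (s : Finset α) (g : α → ℂ → ℂ)
    (h : ∀ a ∈ s, LaurentFn (g a)) : LaurentFn (fun t => ∏ a ∈ s, g a t) := by
  classical
  induction s using Finset.induction_on with
  | empty => simpa using LaurentFn.const 1
  | insert a s ha ih =>
    have h1 := (h a (Finset.mem_insert_self a s)).mul
      (ih (fun b hb => h b (Finset.mem_insert_of_mem hb)))
    simpa [Finset.prod_insert ha] using h1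

/-! ### Twisting characters -/

section Twist

variable {Γ : Type*} [Group Γ] {b r : ℕ} (v : Fin b → Γ → ℤ)

theorem twistChar_cst {X : Type*} (c : Fin r → X) (s : Fin b → Fin r → ℂ)
    (hs : ∀ i, Cst c (s i)) (g : Γ) : Cst c (twistChar v s g) := by
  intro k l hkl
  unfold twistChar
  apply Finset.prod_congr rfl
  intro i _
  rw [hs i k l hkl]

theorem twistChar_mul (hv : ∀ i x y, v i (x * y) = v i x + v i y) (s : Fin b → Fin r → ℂ)
    (hs : ∀ i x, s i x ≠ 0) (g h : Γ) (x : Fin r) :
    twistChar v s (g * h) x = twistChar v s g x * twistChar v s h x := by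
  unfold twistChar
  rw [← Finset.prod_mul_distrib]
  apply Finset.prod_congr rfl
  intro i _
  rw [hv i g h, _root_.zpow_add₀ (hs i x)]

theorem twistChar_of_zero (s : Fin b → Fin r → ℂ) (g : Γ) (hg : ∀ i, v i g = 0) :
    twistChar v s g = fun _ => 1 := by
  funext x
  unfold twistChar
  apply Finset.prod_eq_one
  intro i _
  rw [hg i, _root_.zpow_zero]

theorem prod_twistChar (s : Fin b → Fin r → ℂ) (g : Γ) :
    ∏ x, twistChar v s g x = ∏ i, (∏ x, s i x) ^ v i g := by
  unfold twistChar
  rw [Finset.prod_comm]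
  apply Finset.prod_congr rfl
  intro i _
  rw [Finset.prod_zpow]

theorem blk_comm_diag {X : Type*} (c : Fin r → X) {M : Matrix (Fin r) (Fin r) ℂ}
    (hM : ∀ x y, c x ≠ c y → M x y = 0) {e : Fin r → ℂ} (he : Cst c e) :
    M * Matrix.diagonal e = Matrix.diagonal e * M := by
  ext x y
  rw [Matrix.mul_diagonal, Matrix.diagonal_mul]
  by_cases h : c x = c y
  · rw [he x y h, mul_comm]
  · rw [hM x y h, zero_mul, mul_zero]

end Twist

/-! ### The density theorem for twist families -/

theorem conj_cancel' {r : ℕ} {P Q : Matrix (Fin r) (Fin r) ℂ} (hQP : Q * P = 1)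
    (X : Matrix (Fin r) (Fin r) ℂ) : Q * (P * X * Q) * P = X := by
  calc Q * (P * X * Q) * P = (Q * P) * X * (Q * P) := by simp only [Matrix.mul_assoc]
    _ = X := by rw [hQP, Matrix.one_mul, Matrix.mul_one]

/-- Integral points are Zariski dense in every family of twists of an integral representation by
characters: statement used by the hand-in `P002.NilpotentPi1`. -/
theorem main {Γ : Type*} [Group Γ] (b n n' r N₀ : ℕ) (v : Fin b → Γ → ℤ)
    (hv : ∀ i x y, v i (x * y) = v i x + v i y)
    (hdual : ∃ h : Fin b → Γ, ∀ i j, v i (h j) = if i = j then 1 else 0)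
    (g : Fin n → Γ) (γ : Fin n' → Γ) (hγ : ∀ i j, v i (γ j) = 0)
    (B : Set (Γ →* Matrix (Fin r) (Fin r) ℂ))
    (K : Set (Fin n' → Matrix (Fin r) (Fin r) ℂ))
    (hK : ∀ P Q : Matrix (Fin r) (Fin r) ℂ, P * Q = 1 → ∀ T ∈ K, (fun j => P * T j * Q) ∈ K)
    (f : MvPolynomial (Fin n × Fin r × Fin r) ℂ) (hf : ConjInvariant f)
    (hvan : ∀ ρ : Γ →* Matrix (Fin r) (Fin r) ℂ, IsTwistRep v N₀ B ρ → (fun j => ρ (γ j)) ∈ K →
      (∀ x a a', IsInt (r.factorial * N₀) (ρ x a a')) → evalAt (fun i => ρ (g i)) f = 0) :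
    ∀ ρ : Γ →* Matrix (Fin r) (Fin r) ℂ, IsTwistRep v N₀ B ρ → (fun j => ρ (γ j)) ∈ K →
      evalAt (fun i => ρ (g i)) f = 0 := by
  classical
  intro ρ hρ hρK
  rcases Nat.eq_zero_or_pos r with rfl | hr
  · exact hvan ρ hρ hρK (fun x a => a.elim0)
  obtain ⟨k₀⟩ : Nonempty (Fin r) := ⟨⟨0, hr⟩⟩
  obtain ⟨hdet, t, c, P, Q, σ, s, hσB, hPQ, hσblk, hσint, hσdet, hscst, hsne, hρeq⟩ := hρ
  obtain ⟨hd, hhd⟩ := hdual
  have hQP : Q * P = 1 := mul_eq_one_comm.mp hPQ
  have hdetPQ : P.det * Q.det = 1 := by rw [← Matrix.det_mul, hPQ, Matrix.det_one]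
  -- the function on the parameter space
  let F : (Fin b → Fin r → ℂ) → ℂ := fun s' =>
    evalAt (fun i => Matrix.diagonal (twistChar v s' (g i)) * σ (g i)) f
  have hconj : ∀ x, Q * ρ x * P = Matrix.diagonal (twistChar v s x) * σ x := by
    intro x
    rw [hρeq x]
    exact conj_cancel' hQP _
  have hgoal : evalAt (fun i => ρ (g i)) f = F s := by
    rw [← hf Q P hQP (fun i => ρ (g i))]
    show evalAt (fun i => Q * ρ (g i) * P) f
      = evalAt (fun i => Matrix.diagonal (twistChar v s (g i)) * σ (g i)) f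
    congr 1
    funext i
    exact hconj (g i)
  rw [hgoal]
  -- determinants
  let S : Fin b → ℂ := fun i => ∏ x, s i x
  have hSne : ∀ i, S i ≠ 0 := fun i => Finset.prod_ne_zero_iff.mpr (fun x _ => hsne i x)
  have hv1 : ∀ i, v i 1 = 0 := by
    intro i
    have h1 := hv i 1 1
    rw [mul_one] at h1
    omega
  have hdetS : ∀ x, (∏ i, S i ^ v i x) * (σ x).det = 1 := by
    intro x
    have h1 := hdet x
    rw [hρeq x, Matrix.det_mul, Matrix.det_mul, Matrix.det_mul, Matrix.det_diagonal,
      prod_twistChar] at h1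
    calc (∏ i, S i ^ v i x) * (σ x).det
        = (P.det * Q.det) * ((∏ i, S i ^ v i x) * (σ x).det) := by rw [hdetPQ, one_mul]
      _ = P.det * ((∏ i, (∏ x, s i x) ^ v i x) * (σ x).det) * Q.det := by ring
      _ = 1 := h1
  have hSpow : ∀ j, S j ^ N₀ = 1 := by
    intro j
    have h1 := hdetS (hd j)
    have h2 : ∏ i, S i ^ v i (hd j) = S j := by
      rw [Finset.prod_eq_single j]
      · rw [hhd j j, if_pos rfl, _root_.zpow_one]
      · intro i _ hij
        rw [hhd i j, if_neg hij, _root_.zpow_zero]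
      · intro h
        exact absurd (Finset.mem_univ j) h
    rw [h2] at h1
    have h3 := congrArg (fun z => z ^ N₀) h1
    simp only [mul_pow, hσdet, mul_one, one_pow] at h3
    exact h3
  -- decomposition of the parameters
  have hdec := fun i => exists_of_cst' c k₀ (s i) (hscst i) (hsne i)
  choose e' w hTR hw hfact using hdec
  let G : Fin b → Set (Fin r → ℂ) := fun i =>
    {h | Cst c h ∧ ∏ x, h x = S i ∧
      ∀ x, IsInt (r.factorial * N₀) (h x) ∧ IsInt (r.factorial * N₀) (h x)⁻¹}
  let G0 : Set (Fin r → ℂ) :=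
    {m | Cst c m ∧ ∏ x, m x = 1 ∧
      ∀ x, IsInt (r.factorial * N₀) (m x) ∧ IsInt (r.factorial * N₀) (m x)⁻¹}
  have hmul : ∀ i, ∀ X ∈ G0, ∀ Y ∈ G i, X * Y ∈ G i := by
    rintro i X ⟨hX1, hX2, hX3⟩ Y ⟨hY1, hY2, hY3⟩
    refine ⟨fun k l hkl => ?_, ?_, fun x => ⟨?_, ?_⟩⟩
    · show X k * Y k = X l * Y l
      rw [hX1 k l hkl, hY1 k l hkl]
    · show ∏ x, (X x * Y x) = S i
      rw [Finset.prod_mul_distrib, hX2, hY2, one_mul]
    · exact isInt_mul (hX3 x).1 (hY3 x).1
    · show IsInt (r.factorial * N₀) (X x * Y x)⁻¹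
      rw [mul_inv]
      exact isInt_mul (hX3 x).2 (hY3 x).2
  have hvan' : ∀ H : Fin b → Fin r → ℂ, (∀ i, H i ∈ G i) → F H = 0 := by
    intro H hH
    have hHne : ∀ i x, H i x ≠ 0 := by
      intro i x hx
      have h1 : ∏ x, H i x = 0 := Finset.prod_eq_zero (Finset.mem_univ x) hx
      rw [(hH i).2.1] at h1
      exact hSne i h1
    have hHcst : ∀ i, Cst c (H i) := fun i => (hH i).1
    let ρH : Γ →* Matrix (Fin r) (Fin r) ℂ :=
      { toFun := fun x => Matrix.diagonal (twistChar v H x) * σ x
        map_one' := by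
          show Matrix.diagonal (twistChar v H 1) * σ 1 = 1
          rw [twistChar_of_zero v H 1 hv1, map_one, Matrix.diagonal_one, Matrix.one_mul]
        map_mul' := by
          intro x y
          show Matrix.diagonal (twistChar v H (x * y)) * σ (x * y)
            = Matrix.diagonal (twistChar v H x) * σ x * (Matrix.diagonal (twistChar v H y) * σ y)
          have h1 : Matrix.diagonal (twistChar v H (x * y))
              = Matrix.diagonal (twistChar v H x) * Matrix.diagonal (twistChar v H y) := by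
            rw [Matrix.diagonal_mul_diagonal]
            congr 1
            funext a
            exact twistChar_mul v hv H hHne x y a
          rw [h1, map_mul]
          calc Matrix.diagonal (twistChar v H x) * Matrix.diagonal (twistChar v H y) * (σ x * σ y)
              = Matrix.diagonal (twistChar v H x)
                  * (Matrix.diagonal (twistChar v H y) * σ x) * σ y := by
                simp only [Matrix.mul_assoc]
            _ = Matrix.diagonal (twistChar v H x)
                  * (σ x * Matrix.diagonal (twistChar v H y)) * σ y := by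
                rw [blk_comm_diag c (hσblk x) (twistChar_cst v c H hHcst y)]
            _ = Matrix.diagonal (twistChar v H x) * σ x
                  * (Matrix.diagonal (twistChar v H y) * σ y) := by
                simp only [Matrix.mul_assoc] }
    have hρH : ∀ x, ρH x = Matrix.diagonal (twistChar v H x) * σ x := fun x => rfl
    have h1 := hvan ρH ?_ ?_ ?_
    · exact h1
    · refine ⟨fun x => ?_, t, c, 1, 1, σ, H, hσB, Matrix.one_mul 1, hσblk, hσint, hσdet, hHcst,
        hHne, fun x => ?_⟩
      · rw [hρH, Matrix.det_mul, Matrix.det_diagonal, prod_twistChar]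
        have h2 : ∀ i, ∏ x, H i x = S i := fun i => (hH i).2.1
        simp only [h2]
        exact hdetS x
      · rw [hρH, Matrix.one_mul, Matrix.mul_one]
    · have h2 : (fun j => ρH (γ j)) = fun j => Q * ρ (γ j) * P := by
        funext j
        rw [hρH, hconj, twistChar_of_zero v H (γ j) (fun i => hγ i j),
          twistChar_of_zero v s (γ j) (fun i => hγ i j)]
      rw [h2]
      exact hK Q P hQP _ hρK
    · intro x a a'
      rw [hρH, Matrix.diagonal_mul]
      refine isInt_mul ?_ (isInt_mono (Dvd.intro_left _ rfl) (hσint x a a'))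
      unfold twistChar
      exact isInt_prod _ _ (fun i _ => isInt_zpow ((hH i).2.2 a).1 ((hH i).2.2 a).2 _)
  have hstep : ∀ i, ∀ m, TReach c k₀ m → ∀ T ∈ WS F G,
      Function.update T i (T i * m) ∈ WS F G := by
    intro i m hm
    induction hm with
    | one =>
      intro T hT
      have h1 : T i * (fun _ => (1 : ℂ)) = T i := by
        funext x
        simp
      rw [h1, Function.update_eq_self]
      exact hT
    | step e k₁ x hk hx _ ih =>
      intro T hT
      have h1 := ih T hT
      have h2 := move_mem_WS F G _ h1 i G0 (hmul i) (fun x => mult c k₀ k₁ x) ?_ unitSet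
        unitSet_infinite ?_ x hx
      · simp only [Function.update_self, Function.update_idem, mul_assoc] at h2
        exact h2
      · intro T' H'
        show LaurentFn (fun x => evalAt (fun j => Matrix.diagonal (twistChar v
          (fun i' => Function.update T' i (T' i * mult c k₀ k₁ x) i' * H' i') (g j)) * σ (g j)) f)
        unfold evalAt
        apply LaurentFn.eval
        rintro ⟨j, a, a'⟩
        simp only [Matrix.diagonal_mul]
        refine LaurentFn.mul ?_ (LaurentFn.const _)
        unfold twistChar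
        apply LaurentFn.prod
        intro i' _
        by_cases hi : i' = i
        · subst hi
          simp only [Function.update_self, Pi.mul_apply, mul_zpow]
          exact ((LaurentFn.const _).mul (mult_zpow_laurent c k₀ k₁ a _)).mul (LaurentFn.const _)
        · simp only [Function.update_of_ne hi]
          exact LaurentFn.const _
      · intro u hu
        refine ⟨mult_cst c k₀ k₁ u, prod_mult c hk (unitSet_ne_zero hu), fun a => ⟨?_, ?_⟩⟩
        · exact isInt_of_isZsqrt2 (mult_unit c k₀ k₁ hu a).1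
        · exact isInt_of_isZsqrt2 (unitSet_inv (mult_unit c k₀ k₁ hu a)).1
  have hreach := mem_WS_of_reach F G hvan' (fun _ m => TReach c k₀ m) hstep e' hTR
  have h1 := hreach (fun i x => if c x = c k₀ then w i else 1) ?_
  · have h2 : (fun i => e' i * fun x => if c x = c k₀ then w i else 1) = s := by
      funext i x
      exact (hfact i x).symm
    rw [h2] at h1
    exact h1
  · intro i
    have hwN : w i ^ (r.factorial * N₀) = 1 := by
      have h3 : w i ^ (csize c k₀ * N₀) = 1 := by
        rw [pow_mul, hw i]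
        exact hSpow i
      exact pow_eq_one_of_dvd h3 (Nat.mul_dvd_mul_right (csize_dvd c k₀) N₀)
    refine ⟨fun k l hkl => ?_, ?_, fun x => ?_⟩
    · show (if c k = c k₀ then w i else 1) = if c l = c k₀ then w i else 1
      rw [hkl]
    · show ∏ x, (if c x = c k₀ then w i else 1) = S i
      rw [Finset.prod_ite, Finset.prod_const_one, mul_one, Finset.prod_const]
      exact hw i
    · by_cases hx : c x = c k₀
      · simp only [if_pos hx]
        exact ⟨isInt_root hwN, isInt_root (by rw [inv_pow, hwN, inv_one])⟩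
      · simp only [if_neg hx, inv_one]
        exact ⟨isInt_one _, isInt_one _⟩

end Vale.Agent.Helper2.CharTwist
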