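import Vale.Agent.Helper2.ITLayers

/-!
# Two ideals with `I₁ I₂ rad(A) = 0` (helper module for P176)

Let `A` be a left Artinian ring and `I₁`, `I₂` two-sided ideals with `I₁ I₂ rad(A) = 0` such that
the finitely generated modules annihilated by `I₁` lie in `add V₁` and those annihilated by `I₂`
lie in `add V₂` (that is, `A / I₁` and `A / I₂` are representation-finite).  Then the finitistic
dimension of `A` is finite (Xi).  This is the case `e = 1` of `layer_bound`.
-/

universe u

open CategoryTheory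

namespace Vale.Agent.Helper2.IT

variable {A : Type u} [Ring A]

theorem ideals_bound [IsArtinianRing A] (I₁ I₂ : Ideal A) [I₁.IsTwoSided] [I₂.IsTwoSided]
    (hI : ∀ a ∈ I₁, ∀ b ∈ I₂, ∀ c ∈ Ring.jacobson A, a * b * c = 0)
    (V₁ V₂ : ModuleCat.{u} A) (hV₁ : Module.Finite A V₁) (hV₂ : Module.Finite A V₂)
    (h₁ : ∀ M : ModuleCat.{u} A, Module.Finite A M → (∀ a ∈ I₁, ∀ x : M, a • x = 0) →
      InAdd V₁ M)
    (h₂ : ∀ M : ModuleCat.{u} A, Module.Finite A M → (∀ b ∈ I₂, ∀ x : M, b • x = 0) →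
      InAdd V₂ M) :
    ∃ d : ℕ, ∀ M : ModuleCat.{u} A, Module.Finite A M → (∃ m, HasProjectiveDimensionLE M m) →
      HasProjectiveDimensionLE M d := by
  refine layer_bound (1 : A) IsIdempotentElem.one ?_ I₁ I₂ ?_ V₁ V₂ hV₁ hV₂ h₁ h₂
  · intro S hS hx
    exfalso
    have hnt := IsSimpleModule.nontrivial A S
    obtain ⟨x, hx0⟩ := exists_ne (0 : S)
    exact hx0 (by rw [← one_smul A x]; exact hx x)
  · intro a ha b hb c hc
    simp only [one_mul, mul_one]
    exact hI a ha b hb c hc

end Vale.Agent.Helper2.IT
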