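import Mathlib
import Vale.Agent.Helper2.ITDefs
import Vale.Agent.Helper2.ITMain
import Vale.Agent.Helper2.ITCorner
import Vale.Agent.Helper2.ITLayers
import Vale.Agent.Helper2.ITXi

/-!
# Corner rings and subrings with idealized radical (helper module for P176)

This file proves three consequences of the formalised Igusa-Todorov lemma, due to C. C. Xi:

* `corner_gldim_three`: if a left Artinian ring `A` has global dimension at most three, then
  the finitistic dimension of every corner ring `eAe` is finite;
* `subring_bound`: if `B` is a left Artinian subring of `A` whose radical is a left ideal of `A`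
  and the submodules of finitely generated free `A`-modules have two-term `add V`-resolutions,
  then the finitistic dimension of `B` is finite;
* `chain_bound`: if `C ⊆ B ⊆ A` are rings such that the radical of `C` is a left ideal of `B`,
  the radical of `B` is a left ideal of `A`, and `A` is representation-finite, then the
  finitistic dimension of `C` is finite.
-/

universe u

open Function CategoryTheory

namespace Vale.Agent.Helper2.IT

variable {A : Type u} [Ring A]

/-! ### Corner rings of rings of global dimension at most three -/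

theorem corner_gldim_three [IsArtinianRing A]
    (hgl : ∀ M : ModuleCat.{u} A, HasProjectiveDimensionLE M 3)
    (e : A) (he : IsIdempotentElem e) :
    ∃ d : ℕ, ∀ X : ModuleCat.{u} he.Corner, Module.Finite he.Corner X →
      (∃ m, HasProjectiveDimensionLE X m) → HasProjectiveDimensionLE X d := by
  refine corner_it_bound he (ModuleCat.of A A) (inferInstanceAs (Module.Finite A A)) 2 le_rfl ?_
  intro Y hY
  obtain ⟨K, hK, hKf⟩ := exists_isSyz 2 Y hY
  have hKpd : PdLE K 1 := hK.pdLE_of (c := 1) ((pdLE_iff Y 3).mpr (hgl Y))
  obtain ⟨m, f, hf⟩ := Module.Finite.exists_fin' A K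
  have hsyz1 : IsSyz 1 K (ModuleCat.of A (LinearMap.ker f)) :=
    ⟨ModuleCat.of A (Fin m → A), ModuleCat.of A (LinearMap.ker f), (LinearMap.ker f).subtype, f,
      inferInstance, inferInstance, isSES_ker f hf, ⟨LinearEquiv.refl A _⟩⟩
  have hLproj : Module.Projective A (LinearMap.ker f) :=
    projective_of_pdLE_zero (hsyz1.pdLE_of (c := 0) hKpd)
  have hLfin : Module.Finite A (LinearMap.ker f) := inferInstance
  exact ⟨K, ModuleCat.of A (LinearMap.ker f), ModuleCat.of A (Fin m → A),
    (LinearMap.ker f).subtype, f, hK, isSES_ker f hf,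
    inAdd_of_projective _ hLproj hLfin, inAdd_of_projective _ inferInstance inferInstance⟩

/-! ### Subrings whose radical is a left ideal of the big ring -/

/-- The coordinatewise inclusion `B^m → A^m`. -/
def inclPi (B : Subring A) (m : ℕ) : (Fin m → B) →ₗ[B] (Fin m → A) where
  toFun v k := (v k : A)
  map_add' v w := by
    funext k
    rfl
  map_smul' b v := by
    funext k
    rfl

theorem inclPi_injective (B : Subring A) (m : ℕ) : Injective (inclPi B m) := by
  intro v w h
  funext k
  exact Subtype.ext (congrFun h k)

theorem finite_restrict (B : Subring A) [Module.Finite B A] (V : Type u) [AddCommGroup V]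
    [Module A V] [Module.Finite A V] : Module.Finite B V := by
  obtain ⟨k, f, hf⟩ := Module.Finite.exists_fin' A V
  have h1 : Module.Finite B (Fin k → A) := inferInstance
  exact Module.Finite.of_surjective (f.restrictScalars B) hf

theorem finite_of_restrict (B : Subring A) (X : Type u) [AddCommGroup X] [Module A X]
    [h : Module.Finite B X] : Module.Finite A X := by
  obtain ⟨s, hs⟩ := h.fg_top
  refine ⟨⟨s, ?_⟩⟩
  rw [eq_top_iff]
  intro x _
  have h1 : x ∈ Submodule.span B (s : Set X) := by
    rw [hs]
    exact Submodule.mem_top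
  exact Submodule.span_le_restrictScalars B A (s : Set X) h1

theorem InAdd.restrict (B : Subring A) {V M : ModuleCat.{u} A} (h : InAdd V M) :
    InAdd (ModuleCat.of B V) (ModuleCat.of B M) := by
  obtain ⟨m, i, p, hpi⟩ := h
  refine ⟨m, i.restrictScalars B, p.restrictScalars B, ?_⟩
  ext x
  exact congrArg (fun g : M →ₗ[A] M => g x) hpi

/-- The key lemma: if the radical of the left Artinian subring `B` is a left ideal of `A` and
`Z` is a finitely generated `B`-module which embeds into an `A`-module, then `Z` has a
projective presentation over `B` whose kernel is (the restriction of) a submodule of a free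
`A`-module. -/
theorem key_subring (B : Subring A) [IsArtinianRing B]
    (hrad : ∀ (a : A) (r : B), r ∈ Ring.jacobson B →
      ∃ r' : B, r' ∈ Ring.jacobson B ∧ (r' : A) = a * r)
    (Z : ModuleCat.{u} B) (hZ : Module.Finite B Z)
    (N : Type u) [AddCommGroup N] [Module A N] (ι : Z →ₗ[B] N) (hι : Injective ι) :
    ∃ (P : ModuleCat.{u} B) (p : P →ₗ[B] Z) (m : ℕ) (T : Submodule A (Fin m → A)),
      Module.Projective B P ∧ Module.Finite B P ∧ Surjective p ∧
      Nonempty (LinearMap.ker p ≃ₗ[B] T) := by
  obtain ⟨P, p, hP, hPf, hp, hker⟩ := exists_min_presentation Z hZ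
  obtain ⟨m, π, hπ⟩ := Module.Finite.exists_fin' B P
  obtain ⟨s, hs⟩ := Module.projective_lifting_property π LinearMap.id hπ
  have hsπ : ∀ x : P, π (s x) = x := fun x => congrArg (fun g : P →ₗ[B] P => g x) hs
  have hsinj : Injective s := fun x y hxy => by rw [← hsπ x, ← hsπ y, hxy]
  let j : P →ₗ[B] (Fin m → A) := inclPi B m ∘ₗ s
  have hjinj : Injective j := (inclPi_injective B m).comp hsinj
  have hstep : ∀ k : P, k ∈ Ring.jacobson B • (⊤ : Submodule B P) →
      ∀ a : A, ∃ k' : P, j k' = a • j k ∧ ι (p k') = a • ι (p k) := by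
    intro k hk
    refine Submodule.smul_induction_on hk ?_ ?_
    · intro r hr q _ a
      obtain ⟨r', hr', hra⟩ := hrad a r hr
      refine ⟨r' • q, ?_, ?_⟩
      · have h1 : j (r' • q) = (r' : A) • j q := map_smul j r' q
        have h2 : j (r • q) = (r : A) • j q := map_smul j r q
        rw [h1, h2, hra, mul_smul]
      · have h1 : ι (p (r' • q)) = (r' : A) • ι (p q) := by
          rw [map_smul, map_smul]
          rfl
        have h2 : ι (p (r • q)) = (r : A) • ι (p q) := by
          rw [map_smul, map_smul]
          rfl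
        rw [h1, h2, hra, mul_smul]
    · intro x y hx hy a
      obtain ⟨x', hx1, hx2⟩ := hx a
      obtain ⟨y', hy1, hy2⟩ := hy a
      refine ⟨x' + y', ?_, ?_⟩
      · rw [map_add, map_add, hx1, hy1, smul_add]
      · rw [map_add, map_add, map_add, map_add, hx2, hy2, smul_add]
  let T : Submodule A (Fin m → A) :=
    { carrier := {w | ∃ k : P, p k = 0 ∧ j k = w}
      zero_mem' := ⟨0, map_zero p, map_zero j⟩
      add_mem' := by
        rintro _ _ ⟨k₁, h₁, rfl⟩ ⟨k₂, h₂, rfl⟩
        exact ⟨k₁ + k₂, by rw [map_add, h₁, h₂, add_zero], map_add j k₁ k₂⟩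
      smul_mem' := by
        rintro a _ ⟨k, hk, rfl⟩
        obtain ⟨k', hk1, hk2⟩ := hstep k (hker k hk) a
        refine ⟨k', hι ?_, hk1⟩
        rw [hk2, hk, map_zero, smul_zero] }
  let f : LinearMap.ker p →ₗ[B] T :=
    { toFun := fun k => ⟨j k, k, k.2, rfl⟩
      map_add' := fun x y => Subtype.ext (map_add j (x : P) (y : P))
      map_smul' := fun b x => Subtype.ext (map_smul j b (x : P)) }
  have hf : Bijective f := by
    constructor
    · intro x y hxy
      exact Subtype.ext (hjinj (congrArg Subtype.val hxy))
    · rintro ⟨w, k, hk, rfl⟩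
      exact ⟨⟨k, hk⟩, rfl⟩
  exact ⟨P, p, m, T, hP, hPf, hp, ⟨LinearEquiv.ofBijective f hf⟩⟩

/-- Let `B` be a left Artinian subring of `A` such that `A` is finitely generated as a left
`B`-module and the radical of `B` is a left ideal of `A`.  If every submodule of a finitely
generated free `A`-module is the cokernel of an injective map between modules in `add V`, for
a fixed finitely generated `A`-module `V`, then the finitistic dimension of `B` is finite. -/
theorem subring_bound (B : Subring A) [IsArtinianRing B] [Module.Finite B A]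
    (hrad : ∀ (a : A) (r : B), r ∈ Ring.jacobson B →
      ∃ r' : B, r' ∈ Ring.jacobson B ∧ (r' : A) = a * r)
    (V : ModuleCat.{u} A) (hV : Module.Finite A V)
    (hstar : ∀ (m : ℕ) (T : Submodule A (Fin m → A)), ∃ (V₁ V₀ : ModuleCat.{u} A)
      (i : V₁ →ₗ[A] V₀) (p : V₀ →ₗ[A] T), IsSES i p ∧ InAdd V V₁ ∧ InAdd V V₀) :
    ∃ d : ℕ, ∀ M : ModuleCat.{u} B, Module.Finite B M → (∃ m, HasProjectiveDimensionLE M m) →
      HasProjectiveDimensionLE M d := by
  have hVB : Module.Finite B V := finite_restrict B V
  refine it_algebra_bound (A := B) 2 (ModuleCat.of B V) hVB ?_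
  intro M hM _
  obtain ⟨n, π₁, hπ₁⟩ := Module.Finite.exists_fin' B M
  have hK₁f : Module.Finite B (LinearMap.ker π₁) := inferInstance
  let ι : LinearMap.ker π₁ →ₗ[B] (Fin n → A) := inclPi B n ∘ₗ (LinearMap.ker π₁).subtype
  have hι : Injective ι := (inclPi_injective B n).comp Subtype.val_injective
  obtain ⟨P, p, m, T, hP, hPf, hp, ⟨eq⟩⟩ :=
    key_subring B hrad (ModuleCat.of B (LinearMap.ker π₁)) hK₁f (Fin n → A) ι hι
  obtain ⟨V₁, V₀, i, q, hs, h1, h0⟩ := hstar m T
  have hs' : IsSES (i.restrictScalars B) (q.restrictScalars B) := hs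
  refine ⟨ModuleCat.of B (LinearMap.ker p), ModuleCat.of B V₁, ModuleCat.of B V₀,
    i.restrictScalars B, (eq.symm : T →ₗ[B] LinearMap.ker p) ∘ₗ q.restrictScalars B, ?_,
    hs'.comp_equiv eq.symm, h1.restrict B, h0.restrict B⟩
  exact ⟨ModuleCat.of B (Fin n → B), ModuleCat.of B (LinearMap.ker π₁),
    (LinearMap.ker π₁).subtype, π₁, inferInstance, inferInstance, isSES_ker π₁ hπ₁,
    P, ModuleCat.of B (LinearMap.ker p), (LinearMap.ker p).subtype, p, hP, hPf,
    isSES_ker p hp, ⟨LinearEquiv.refl B _⟩⟩

theorem isArtinianRing_of_finite_subring (B : Type u) [Ring B] (C : Subring B)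
    [IsArtinianRing C] [Module.Finite C B] : IsArtinianRing B := by
  have h1 : IsArtinian C B := isArtinian_of_fg_of_artinian'
  exact (Submodule.restrictScalarsEmbedding C B B).wellFoundedLT

/-- Let `C ⊆ B ⊆ A` be rings such that `C` is left Artinian, `B` is finitely generated over `C`
and `A` over `B`, the radical of `C` is a left ideal of `B` and the radical of `B` is a left
ideal of `A`.  If `A` is representation-finite (every finitely generated `A`-module lies in
`add V` for a fixed finitely generated `V`), then the finitistic dimension of `C` is finite. -/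
theorem chain_bound (B : Subring A) (C : Subring B) [IsArtinianRing C] [Module.Finite C B]
    [Module.Finite B A]
    (hradC : ∀ (b : B) (r : C), r ∈ Ring.jacobson C →
      ∃ r' : C, r' ∈ Ring.jacobson C ∧ (r' : B) = b * r)
    (hradB : ∀ (a : A) (r : B), r ∈ Ring.jacobson B →
      ∃ r' : B, r' ∈ Ring.jacobson B ∧ (r' : A) = a * r)
    (V : ModuleCat.{u} A) (hV : Module.Finite A V)
    (hfin : ∀ M : ModuleCat.{u} A, Module.Finite A M → InAdd V M) :
    ∃ d : ℕ, ∀ M : ModuleCat.{u} C, Module.Finite C M → (∃ m, HasProjectiveDimensionLE M m) →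
      HasProjectiveDimensionLE M d := by
  have hArtB : IsArtinianRing B := isArtinianRing_of_finite_subring B C
  have hVB : Module.Finite B V := finite_restrict B V
  let V' : ModuleCat.{u} B := ModuleCat.of B (B × V)
  have hV' : Module.Finite B V' := inferInstanceAs (Module.Finite B (B × V))
  refine subring_bound (A := B) C hradC V' hV' ?_
  intro m T
  have hTf : Module.Finite B T := inferInstance
  let ι : T →ₗ[B] (Fin m → A) := inclPi B m ∘ₗ T.subtype
  have hι : Injective ι := (inclPi_injective B m).comp Subtype.val_injective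
  obtain ⟨P, p, m', T', hP, hPf, hp, ⟨eq⟩⟩ :=
    key_subring B hradB (ModuleCat.of B T) hTf (Fin m → A) ι hι
  have hNP : IsNoetherian B P := isNoetherian_of_isNoetherianRing_of_finite B P
  have hkf : Module.Finite B (LinearMap.ker p) := inferInstance
  have hT'B : Module.Finite B T' :=
    Module.Finite.of_surjective (eq : LinearMap.ker p →ₗ[B] T') eq.surjective
  have hT'A : Module.Finite A T' := finite_of_restrict B T'
  have h1 : InAdd V (ModuleCat.of A T') := hfin _ hT'A
  have h2 : InAdd (ModuleCat.of B V) (ModuleCat.of B T') := h1.restrict B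
  have h3 : InAdd (ModuleCat.of B V) (ModuleCat.of B (LinearMap.ker p)) := h2.of_equiv eq
  have h4 : InAdd V' (ModuleCat.of B (LinearMap.ker p)) :=
    (inAdd_snd (ModuleCat.of B B) (ModuleCat.of B V)).trans h3
  have h5 : InAdd (ModuleCat.of B B) P := inAdd_of_projective P hP hPf
  have h6 : InAdd V' P := (inAdd_fst (ModuleCat.of B B) (ModuleCat.of B V)).trans h5
  exact ⟨ModuleCat.of B (LinearMap.ker p), P, (LinearMap.ker p).subtype, p, isSES_ker p hp,
    h4, h6⟩

end Vale.Agent.Helper2.IT
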