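import Mathlib

/-!
Convolution ring of norm-summable complex functions on a group, bounded traces attached to
conjugation-invariant sets, character twists, and a rigidity lemma for traces of nearby idempotents.
-/

namespace Vale.Agent.Helper2.L1Conv

open scoped BigOperators
open Filter Topology

/-! ### Abstract rigidity lemma -/

/-- In a ring with a submultiplicative nonnegative gauge `N` and an additive map `τ` that is
bounded by `N` and vanishes on commutators, two idempotents at gauge distance `< 1` have equal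
`τ`. -/
theorem trace_idem_eq {R : Type*} [Ring R] (N : R → ℝ) (τ : R →+ ℂ)
    (hN0 : ∀ x, 0 ≤ N x) (hNm : ∀ x y, N (x * y) ≤ N x * N y)
    (hτb : ∀ x, ‖τ x‖ ≤ N x) (hτt : ∀ x y, τ (x * y) = τ (y * x))
    (p q : R) (hp : p * p = p) (hq : q * q = q) (hpq : N (p - q) < 1) : τ p = τ q := by
  set d := p - q with hd
  set s := 1 - p - q with hs
  set c := d * d with hc
  have h1 : d * s = q * p - p * q := by
    simp only [hd, hs, mul_sub, sub_mul, mul_one, hp, hq]; abel
  have h1' : s * d = p * q - q * p := by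
    simp only [hd, hs, mul_sub, sub_mul, one_mul, hp, hq]; abel
  have h1'' : s * d = -(d * s) := by rw [h1, h1']; abel
  have h2 : 1 - c = s * s := by
    simp only [hc, hd, hs, mul_sub, sub_mul, mul_one, one_mul, hp, hq]; abel
  have h3 : Commute s c := by
    show s * c = c * s
    calc s * (d * d) = (s * d) * d := by rw [mul_assoc]
      _ = -(d * s) * d := by rw [h1'']
      _ = -(d * (s * d)) := by rw [neg_mul, mul_assoc]
      _ = -(d * (-(d * s))) := by rw [h1'']
      _ = d * d * s := by rw [mul_neg, neg_neg, mul_assoc]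
  have key : ∀ k : ℕ, τ (d * c ^ k * (1 - c)) = 0 := by
    intro k
    have hk : s * c ^ k = c ^ k * s := (h3.pow_right k)
    have e1 : τ (d * c ^ k * (s * s)) = τ (s * (d * c ^ k * s)) := by
      rw [← mul_assoc (d * c ^ k) s s, hτt]
    have e2 : s * (d * c ^ k * s) = -(d * c ^ k * (s * s)) := by
      calc s * (d * c ^ k * s) = (s * d) * c ^ k * s := by simp only [mul_assoc]
        _ = -(d * s) * c ^ k * s := by rw [h1'']
        _ = -(d * (s * c ^ k) * s) := by simp only [neg_mul, mul_assoc]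
        _ = -(d * (c ^ k * s) * s) := by rw [hk]
        _ = -(d * c ^ k * (s * s)) := by simp only [mul_assoc]
    rw [h2]
    have e3 : τ (d * c ^ k * (s * s)) = -τ (d * c ^ k * (s * s)) := by
      conv_lhs => rw [e1, e2, map_neg]
    exact self_eq_neg.mp e3
  have step : ∀ k : ℕ, τ (d * c ^ (k + 1)) = τ (d * c ^ k) := by
    intro k
    have : d * c ^ (k + 1) = d * c ^ k - d * c ^ k * (1 - c) := by
      rw [pow_succ, mul_sub, mul_one, sub_sub_cancel, mul_assoc]
    rw [this, map_sub, key k, sub_zero]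
  have all : ∀ k : ℕ, τ (d * c ^ k) = τ d := by
    intro k
    induction k with
    | zero => simp
    | succ k ih => rw [step k, ih]
  have bound : ∀ k : ℕ, N (d * c ^ k) ≤ N d ^ (2 * k + 1) := by
    intro k
    induction k with
    | zero => simp
    | succ k ih =>
      have hcc : N c ≤ N d * N d := hNm d d
      calc N (d * c ^ (k + 1)) = N (d * c ^ k * c) := by rw [pow_succ, mul_assoc]
        _ ≤ N (d * c ^ k) * N c := hNm _ _
        _ ≤ N d ^ (2 * k + 1) * (N d * N d) :=
            mul_le_mul ih hcc (hN0 _) (pow_nonneg (hN0 _) _)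
        _ = N d ^ (2 * (k + 1) + 1) := by ring
  have hle : ∀ k : ℕ, ‖τ d‖ ≤ N d ^ (2 * k + 1) := by
    intro k
    calc ‖τ d‖ = ‖τ (d * c ^ k)‖ := by rw [all k]
      _ ≤ N (d * c ^ k) := hτb _
      _ ≤ N d ^ (2 * k + 1) := bound k
  have hlim : Tendsto (fun k : ℕ => N d ^ (2 * k + 1)) atTop (𝓝 0) := by
    have h0 := tendsto_pow_atTop_nhds_zero_of_lt_one (hN0 d) hpq
    have h1 : Tendsto (fun k : ℕ => 2 * k + 1) atTop atTop := by
      apply tendsto_atTop_mono (fun k => ?_) tendsto_id
      simp only [id]; omega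
    exact h0.comp h1
  have hz : ‖τ d‖ ≤ 0 := ge_of_tendsto' hlim hle
  have hd0 : τ d = 0 := norm_le_zero_iff.mp hz
  have : τ p - τ q = 0 := by rw [← map_sub]; exact hd0
  exact sub_eq_zero.mp this

/-! ### Summability lemmas on `G × G` -/

section Analytic

variable {G : Type*} [Group G]

/-- The shear `(g, h) ↦ (h, h⁻¹ g)` of `G × G`. -/
def shear (G : Type*) [Group G] : G × G ≃ G × G where
  toFun p := (p.2, p.2⁻¹ * p.1)
  invFun p := (p.1 * p.2, p.1)
  left_inv p := by simp
  right_inv p := by simp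

theorem summable_shear {u v : G → ℝ} (hu : Summable u) (hv : Summable v)
    (hu0 : 0 ≤ u) (hv0 : 0 ≤ v) :
    Summable (fun p : G × G => u p.2 * v (p.2⁻¹ * p.1)) :=
  (shear G).summable_iff.mpr (hu.mul_of_nonneg hv hu0 hv0)

theorem tsum_shear {u v : G → ℝ} (hu : Summable u) (hv : Summable v)
    (hu0 : 0 ≤ u) (hv0 : 0 ≤ v) :
    ∑' p : G × G, u p.2 * v (p.2⁻¹ * p.1) = (∑' g, u g) * ∑' g, v g := by
  rw [hu.tsum_mul_tsum hv (hu.mul_of_nonneg hv hu0 hv0)]
  exact (shear G).tsum_eq (fun p : G × G => u p.1 * v p.2)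

/-- The pointwise convolution of two functions. -/
noncomputable def conv (a b : G → ℂ) : G → ℂ := fun g => ∑' h, a h * b (h⁻¹ * g)

theorem summable_norm_pair {a b : G → ℂ} (ha : Summable fun g => ‖a g‖)
    (hb : Summable fun g => ‖b g‖) :
    Summable (fun p : G × G => ‖a p.2‖ * ‖b (p.2⁻¹ * p.1)‖) :=
  summable_shear (u := fun g => ‖a g‖) (v := fun g => ‖b g‖) ha hb
    (fun _ => norm_nonneg _) (fun _ => norm_nonneg _)

theorem summable_fiber {a b : G → ℂ} (ha : Summable fun g => ‖a g‖)
    (hb : Summable fun g => ‖b g‖) (g : G) : Summable (fun h => a h * b (h⁻¹ * g)) := by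
  have h := (summable_norm_pair ha hb).prod_factor g
  refine Summable.of_norm ?_
  simpa [norm_mul] using h

theorem summable_conv {a b : G → ℂ} (ha : Summable fun g => ‖a g‖)
    (hb : Summable fun g => ‖b g‖) : Summable (fun g => ‖conv a b g‖) := by
  have h := (summable_norm_pair ha hb).prod
  refine Summable.of_nonneg_of_le (fun g => norm_nonneg _) (fun g => ?_) h
  have hf := (summable_norm_pair ha hb).prod_factor g
  calc ‖conv a b g‖ ≤ ∑' h, ‖a h * b (h⁻¹ * g)‖ := by
        apply norm_tsum_le_tsum_norm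
        simpa [norm_mul] using hf
    _ = ∑' h, ‖a h‖ * ‖b (h⁻¹ * g)‖ := by simp

theorem tsum_norm_conv_le {a b : G → ℂ} (ha : Summable fun g => ‖a g‖)
    (hb : Summable fun g => ‖b g‖) :
    ∑' g, ‖conv a b g‖ ≤ (∑' g, ‖a g‖) * ∑' g, ‖b g‖ := by
  have hp := summable_norm_pair ha hb
  rw [← tsum_shear (u := fun g => ‖a g‖) (v := fun g => ‖b g‖) ha hb
    (fun _ => norm_nonneg _) (fun _ => norm_nonneg _), hp.tsum_prod]
  refine (summable_conv ha hb).tsum_le_tsum (fun g => ?_) hp.prod
  have hf := hp.prod_factor g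
  calc ‖conv a b g‖ ≤ ∑' h, ‖a h * b (h⁻¹ * g)‖ := by
        apply norm_tsum_le_tsum_norm
        simpa [norm_mul] using hf
    _ = ∑' h, ‖a h‖ * ‖b (h⁻¹ * g)‖ := by simp

omit [Group G] in
theorem norm_le_tsum_norm {c : G → ℂ} (hc : Summable fun g => ‖c g‖) (x : G) :
    ‖c x‖ ≤ ∑' g, ‖c g‖ :=
  hc.le_tsum x (fun _ _ => norm_nonneg _)

theorem conv_assoc {a b c : G → ℂ} (ha : Summable fun g => ‖a g‖)
    (hb : Summable fun g => ‖b g‖) (hc : Summable fun g => ‖c g‖) :
    conv (conv a b) c = conv a (conv b c) := by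
  funext g
  have hsum : Summable (Function.uncurry fun h k : G => a k * b (k⁻¹ * h) * c (h⁻¹ * g)) := by
    refine Summable.of_norm_bounded ((summable_norm_pair ha hb).mul_right (∑' x, ‖c x‖))
      (fun p => ?_)
    simp only [Function.uncurry, norm_mul]
    exact mul_le_mul_of_nonneg_left (norm_le_tsum_norm hc _)
      (mul_nonneg (norm_nonneg _) (norm_nonneg _))
  calc conv (conv a b) c g = ∑' h, ∑' k, a k * b (k⁻¹ * h) * c (h⁻¹ * g) := by
        simp only [conv, tsum_mul_right]
    _ = ∑' k, ∑' h, a k * b (k⁻¹ * h) * c (h⁻¹ * g) := (hsum.tsum_comm).symm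
    _ = conv a (conv b c) g := by
        simp only [conv]
        refine tsum_congr (fun k => ?_)
        rw [← tsum_mul_left]
        rw [← (Equiv.mulLeft k⁻¹).tsum_eq (fun m => a k * (b m * c (m⁻¹ * (k⁻¹ * g))))]
        refine tsum_congr (fun h => ?_)
        simp only [Equiv.coe_mulLeft, mul_inv_rev, inv_inv, mul_assoc, mul_inv_cancel_left]

end Analytic

/-! ### Traces attached to sets closed under `x y ↦ y x` -/

section Trace

variable {G : Type*} [Group G]

theorem tsum_indicator_conv (C : Set G) {a b : G → ℂ} (ha : Summable fun g => ‖a g‖)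
    (hb : Summable fun g => ‖b g‖) :
    ∑' g, C.indicator (conv a b) g
      = ∑' p : G × G, {p : G × G | p.1 * p.2 ∈ C}.indicator (fun p => a p.1 * b p.2) p := by
  have hP : Summable (fun p : G × G =>
      {p : G × G | p.1 * p.2 ∈ C}.indicator (fun p => a p.1 * b p.2) p) :=
    (summable_mul_of_summable_norm ha hb).indicator _
  rw [hP.tsum_prod]
  have inner : ∀ h : G,
      ∑' k, {p : G × G | p.1 * p.2 ∈ C}.indicator (fun p => a p.1 * b p.2) (h, k)
        = ∑' g, C.indicator (fun g => a h * b (h⁻¹ * g)) g := by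
    intro h
    rw [← (Equiv.mulLeft h⁻¹).tsum_eq
      (fun k => {p : G × G | p.1 * p.2 ∈ C}.indicator (fun p => a p.1 * b p.2) (h, k))]
    refine tsum_congr (fun g => ?_)
    have e : h * (h⁻¹ * g) = g := mul_inv_cancel_left h g
    show {p : G × G | p.1 * p.2 ∈ C}.indicator (fun p => a p.1 * b p.2) (h, h⁻¹ * g)
      = C.indicator (fun g => a h * b (h⁻¹ * g)) g
    by_cases hg : g ∈ C
    · have hg' : (h, h⁻¹ * g) ∈ {p : G × G | p.1 * p.2 ∈ C} := by
        show h * (h⁻¹ * g) ∈ C
        rw [e]; exact hg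
      rw [Set.indicator_of_mem hg, Set.indicator_of_mem hg']
    · have hg' : (h, h⁻¹ * g) ∉ {p : G × G | p.1 * p.2 ∈ C} := by
        show ¬ h * (h⁻¹ * g) ∈ C
        rw [e]; exact hg
      rw [Set.indicator_of_notMem hg, Set.indicator_of_notMem hg']
  simp_rw [inner]
  have hQ : Summable (Function.uncurry fun h g : G =>
      C.indicator (fun g => a h * b (h⁻¹ * g)) g) := by
    refine Summable.of_norm_bounded ((summable_norm_pair ha hb).prod_symm) (fun p => ?_)
    obtain ⟨h, g⟩ := p
    simp only [Function.uncurry, Prod.swap]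
    refine (norm_indicator_le_norm_self _ _).trans ?_
    simp
  rw [← hQ.tsum_comm]
  refine tsum_congr (fun g => ?_)
  by_cases hg : g ∈ C <;> simp [Set.indicator, hg, conv]

theorem tsum_indicator_conv_comm (C : Set G) (hC : ∀ x y : G, x * y ∈ C ↔ y * x ∈ C)
    {a b : G → ℂ} (ha : Summable fun g => ‖a g‖) (hb : Summable fun g => ‖b g‖) :
    ∑' g, C.indicator (conv a b) g = ∑' g, C.indicator (conv b a) g := by
  rw [tsum_indicator_conv C ha hb, tsum_indicator_conv C hb ha]
  rw [← (Equiv.prodComm G G).tsum_eq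
    (fun p : G × G => {p : G × G | p.1 * p.2 ∈ C}.indicator (fun p => b p.1 * a p.2) p)]
  refine tsum_congr (fun p => ?_)
  by_cases hp : p.1 * p.2 ∈ C
  · have hp' : p.2 * p.1 ∈ C := (hC _ _).1 hp
    simp [Set.indicator, hp, hp', mul_comm]
  · have hp' : ¬ p.2 * p.1 ∈ C := fun h => hp ((hC _ _).2 h)
    simp [Set.indicator, hp, hp']

end Trace

/-! ### The ring of norm-summable functions -/

section Ring

variable {G : Type*} [Group G]

/-- Norm-summable complex functions on `G`, as an additive subgroup of all functions. -/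
def l1 (G : Type*) : AddSubgroup (G → ℂ) where
  carrier := {f | Summable fun g => ‖f g‖}
  add_mem' := by
    intro a b ha hb
    exact Summable.of_nonneg_of_le (fun g => norm_nonneg _) (fun g => norm_add_le _ _)
      (Summable.add ha hb)
  zero_mem' := by
    show Summable fun g : G => ‖(0 : G → ℂ) g‖
    simp
  neg_mem' := by
    intro a ha
    show Summable fun g : G => ‖(-a) g‖
    simpa using ha

/-- The type of norm-summable complex functions on `G`. -/
abbrev L1 (G : Type*) := ↥(l1 G)

omit [Group G] in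
theorem L1.summable (a : L1 G) : Summable fun g => ‖(a : G → ℂ) g‖ := a.2

open Classical in
/-- The unit: the indicator of the identity element. -/
noncomputable def oneFun (G : Type*) [Group G] : G → ℂ := Pi.single (1 : G) (1 : ℂ)

theorem oneFun_summable : Summable fun g : G => ‖oneFun G g‖ := by
  classical
  apply summable_of_ne_finset_zero (s := {1})
  intro g hg
  have hg' : g ≠ 1 := by simpa using hg
  simp [oneFun, hg']

theorem conv_one_left (a : G → ℂ) : conv (oneFun G) a = a := by
  classical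
  funext g
  simp only [conv]
  rw [tsum_eq_single (1 : G)]
  · simp [oneFun]
  · intro h hh
    simp [oneFun, hh]

theorem conv_one_right (a : G → ℂ) : conv a (oneFun G) = a := by
  classical
  funext g
  simp only [conv]
  rw [tsum_eq_single g]
  · simp [oneFun]
  · intro h hh
    have : h⁻¹ * g ≠ 1 := by
      intro h1
      apply hh
      have := congrArg (fun x => h * x) h1
      simpa using this.symm
    simp [oneFun, this]

theorem conv_add_left {a b c : G → ℂ} (ha : Summable fun g => ‖a g‖)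
    (hb : Summable fun g => ‖b g‖) (hc : Summable fun g => ‖c g‖) :
    conv (a + b) c = conv a c + conv b c := by
  funext g
  simp only [conv, Pi.add_apply, add_mul]
  exact (summable_fiber ha hc g).tsum_add (summable_fiber hb hc g)

theorem conv_add_right {a b c : G → ℂ} (ha : Summable fun g => ‖a g‖)
    (hb : Summable fun g => ‖b g‖) (hc : Summable fun g => ‖c g‖) :
    conv a (b + c) = conv a b + conv a c := by
  funext g
  simp only [conv, Pi.add_apply, mul_add]
  exact (summable_fiber ha hb g).tsum_add (summable_fiber ha hc g)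

noncomputable instance instRingL1 : Ring (L1 G) :=
  { (inferInstance : AddCommGroup (L1 G)) with
    mul := fun a b => ⟨conv a.1 b.1, summable_conv a.2 b.2⟩
    one := ⟨oneFun G, oneFun_summable⟩
    mul_assoc := fun a b c => Subtype.ext (conv_assoc a.2 b.2 c.2)
    one_mul := fun a => Subtype.ext (conv_one_left a.1)
    mul_one := fun a => Subtype.ext (conv_one_right a.1)
    left_distrib := fun a b c => Subtype.ext (conv_add_right a.2 b.2 c.2)
    right_distrib := fun a b c => Subtype.ext (conv_add_left a.2 b.2 c.2)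
    zero_mul := fun a => Subtype.ext (by
      funext g; show conv (0 : G → ℂ) a.1 g = 0; simp [conv])
    mul_zero := fun a => Subtype.ext (by
      funext g; show conv a.1 (0 : G → ℂ) g = 0; simp [conv]) }

theorem L1.coe_mul (a b : L1 G) : ((a * b : L1 G) : G → ℂ) = conv a.1 b.1 := rfl

theorem L1.coe_one : ((1 : L1 G) : G → ℂ) = oneFun G := rfl

end Ring

/-! ### Gauge, traces and character twists on `L1 G` -/

section Gauge

variable {G : Type*} [Group G]

/-- The `ℓ¹` gauge. -/
noncomputable def nrm (a : L1 G) : ℝ := ∑' g, ‖(a : G → ℂ) g‖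

omit [Group G] in
theorem nrm_nonneg (a : L1 G) : 0 ≤ nrm a := tsum_nonneg (fun _ => norm_nonneg _)

theorem nrm_mul_le (a b : L1 G) : nrm (a * b) ≤ nrm a * nrm b :=
  tsum_norm_conv_le a.2 b.2

omit [Group G] in
theorem nrm_zero : nrm (0 : L1 G) = 0 := by simp [nrm]

omit [Group G] in
theorem nrm_add_le (a b : L1 G) : nrm (a + b) ≤ nrm a + nrm b := by
  unfold nrm
  rw [← (L1.summable a).tsum_add (L1.summable b)]
  refine (L1.summable (a + b)).tsum_le_tsum (fun g => ?_) ((L1.summable a).add (L1.summable b))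
  exact norm_add_le _ _

theorem nrm_sum_le {ι : Type*} (s : Finset ι) (f : ι → L1 G) :
    nrm (∑ i ∈ s, f i) ≤ ∑ i ∈ s, nrm (f i) := by
  classical
  induction s using Finset.induction_on with
  | empty => simp [nrm_zero]
  | insert i s hi ih =>
    rw [Finset.sum_insert hi, Finset.sum_insert hi]
    exact (nrm_add_le _ _).trans (add_le_add le_rfl ih)

/-- The trace attached to a set `C`: the sum of the values on `C`. -/
noncomputable def trC (C : Set G) : L1 G →+ ℂ :=
  AddMonoidHom.mk' (fun a => ∑' g, C.indicator (a : G → ℂ) g) (by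
    intro a b
    have ha : Summable (C.indicator (a : G → ℂ)) := (Summable.of_norm (L1.summable a)).indicator C
    have hb : Summable (C.indicator (b : G → ℂ)) := (Summable.of_norm (L1.summable b)).indicator C
    rw [← ha.tsum_add hb]
    refine tsum_congr (fun g => ?_)
    rw [AddSubgroup.coe_add, Set.indicator_add']
    rfl)

theorem trC_apply (C : Set G) (a : L1 G) : trC C a = ∑' g, C.indicator (a : G → ℂ) g := rfl

theorem norm_trC_le (C : Set G) (a : L1 G) : ‖trC C a‖ ≤ nrm a := by
  rw [trC_apply]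
  have h1 : Summable fun g => ‖C.indicator (a : G → ℂ) g‖ :=
    Summable.of_nonneg_of_le (fun g => norm_nonneg _)
      (fun g => norm_indicator_le_norm_self _ _) (L1.summable a)
  refine (norm_tsum_le_tsum_norm h1).trans ?_
  exact h1.tsum_le_tsum (fun g => norm_indicator_le_norm_self _ _) (L1.summable a)

theorem trC_mul_comm (C : Set G) (hC : ∀ x y : G, x * y ∈ C ↔ y * x ∈ C) (a b : L1 G) :
    trC C (a * b) = trC C (b * a) := by
  rw [trC_apply, trC_apply, L1.coe_mul, L1.coe_mul]
  exact tsum_indicator_conv_comm C hC a.2 b.2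

/-- Twisting by a unitary character is a ring endomorphism of `L1 G`. -/
noncomputable def twist (χ : G →* ℂ) (hχ : ∀ g, ‖χ g‖ = 1) : L1 G →+* L1 G where
  toFun a := ⟨fun g => χ g * (a : G → ℂ) g, by
    have h := L1.summable a
    show Summable fun g => ‖χ g * (a : G → ℂ) g‖
    simpa [norm_mul, hχ] using h⟩
  map_one' := Subtype.ext (by
    classical
    funext g
    show χ g * oneFun G g = oneFun G g
    by_cases hg : g = 1
    · subst hg; simp [oneFun]
    · simp [oneFun, hg])
  map_mul' := fun a b => Subtype.ext (by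
    funext g
    show χ g * conv a.1 b.1 g = conv (fun g => χ g * a.1 g) (fun g => χ g * b.1 g) g
    simp only [conv]
    rw [← tsum_mul_left]
    refine tsum_congr (fun h => ?_)
    have e : χ g = χ h * χ (h⁻¹ * g) := by rw [← map_mul, mul_inv_cancel_left]
    rw [e]; ring)
  map_zero' := Subtype.ext (by funext g; simp)
  map_add' := fun a b => Subtype.ext (by funext g; simp [mul_add])

theorem twist_apply (χ : G →* ℂ) (hχ : ∀ g, ‖χ g‖ = 1) (a : L1 G) (g : G) :
    ((twist χ hχ a : L1 G) : G → ℂ) g = χ g * (a : G → ℂ) g := rfl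

theorem trC_twist (C : Set G) (χ : G →* ℂ) (hχ : ∀ g, ‖χ g‖ = 1) (z : ℂ)
    (hz : ∀ g ∈ C, χ g = z) (a : L1 G) : trC C (twist χ hχ a) = z * trC C a := by
  rw [trC_apply, trC_apply, ← tsum_mul_left]
  refine tsum_congr (fun g => ?_)
  by_cases hg : g ∈ C
  · rw [Set.indicator_of_mem hg, Set.indicator_of_mem hg, twist_apply, hz g hg]
  · rw [Set.indicator_of_notMem hg, Set.indicator_of_notMem hg, mul_zero]

theorem nrm_twist_sub (χ : G →* ℂ) (hχ : ∀ g, ‖χ g‖ = 1) (a : L1 G) :
    nrm (twist χ hχ a - a) = ∑' g, ‖(χ g - 1) * (a : G → ℂ) g‖ := by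
  unfold nrm
  refine tsum_congr (fun g => ?_)
  rw [AddSubgroup.coe_sub, Pi.sub_apply, twist_apply, sub_mul, one_mul]

end Gauge

/-! ### Matrices over `L1 G` -/

section Mat

variable {G : Type*} [Group G] {n : Type*} [Fintype n] [DecidableEq n]

/-- Entrywise `ℓ¹` gauge of a matrix. -/
noncomputable def matN (M : Matrix n n (L1 G)) : ℝ := ∑ i, ∑ j, nrm (M i j)

omit [DecidableEq n] [Group G] in
theorem matN_nonneg (M : Matrix n n (L1 G)) : 0 ≤ matN M :=
  Finset.sum_nonneg (fun _ _ => Finset.sum_nonneg (fun _ _ => nrm_nonneg _))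

omit [DecidableEq n] in
theorem matN_mul_le (A B : Matrix n n (L1 G)) : matN (A * B) ≤ matN A * matN B := by
  unfold matN
  calc ∑ i, ∑ j, nrm ((A * B) i j)
      ≤ ∑ i, ∑ j, ∑ k, nrm (A i k) * nrm (B k j) := by
        refine Finset.sum_le_sum (fun i _ => Finset.sum_le_sum (fun j _ => ?_))
        rw [Matrix.mul_apply]
        exact (nrm_sum_le _ _).trans (Finset.sum_le_sum (fun k _ => nrm_mul_le _ _))
    _ = ∑ i, ∑ k, nrm (A i k) * ∑ j, nrm (B k j) := by
        refine Finset.sum_congr rfl (fun i _ => ?_)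
        rw [Finset.sum_comm]
        refine Finset.sum_congr rfl (fun k _ => ?_)
        rw [Finset.mul_sum]
    _ ≤ ∑ i, ∑ k, nrm (A i k) * ∑ l, ∑ j, nrm (B l j) := by
        refine Finset.sum_le_sum (fun i _ => Finset.sum_le_sum (fun k _ => ?_))
        refine mul_le_mul_of_nonneg_left ?_ (nrm_nonneg _)
        exact Finset.single_le_sum (f := fun l => ∑ j, nrm (B l j))
          (fun l _ => Finset.sum_nonneg (fun _ _ => nrm_nonneg _)) (Finset.mem_univ k)
    _ = (∑ i, ∑ k, nrm (A i k)) * ∑ l, ∑ j, nrm (B l j) := by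
        rw [Finset.sum_mul]
        refine Finset.sum_congr rfl (fun i _ => ?_)
        rw [Finset.sum_mul]

/-- The trace on matrices induced by `trC C`. -/
noncomputable def matTr (C : Set G) : Matrix n n (L1 G) →+ ℂ :=
  AddMonoidHom.mk' (fun M => ∑ i, trC C (M i i)) (by
    intro A B
    simp only [Matrix.add_apply, map_add, Finset.sum_add_distrib])

omit [DecidableEq n] in
theorem matTr_apply (C : Set G) (M : Matrix n n (L1 G)) : matTr C M = ∑ i, trC C (M i i) := rfl

omit [DecidableEq n] in
theorem norm_matTr_le (C : Set G) (M : Matrix n n (L1 G)) : ‖matTr C M‖ ≤ matN M := by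
  rw [matTr_apply]
  refine (norm_sum_le _ _).trans ?_
  unfold matN
  refine Finset.sum_le_sum (fun i _ => ?_)
  refine (norm_trC_le C _).trans ?_
  exact Finset.single_le_sum (f := fun j => nrm (M i j)) (fun j _ => nrm_nonneg _)
    (Finset.mem_univ i)

omit [DecidableEq n] in
theorem matTr_mul_comm (C : Set G) (hC : ∀ x y : G, x * y ∈ C ↔ y * x ∈ C)
    (A B : Matrix n n (L1 G)) : matTr C (A * B) = matTr C (B * A) := by
  simp only [matTr_apply, Matrix.mul_apply, map_sum]
  rw [Finset.sum_comm]
  refine Finset.sum_congr rfl (fun i _ => Finset.sum_congr rfl (fun k _ => ?_))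
  exact trC_mul_comm C hC _ _

end Mat

/-! ### Rigidity of the trace under character twists -/

section Main

variable {G : Type*} [Group G]

theorem matTr_twist_eq {n : Type*} [Fintype n] [DecidableEq n] (C : Set G)
    (hC : ∀ x y : G, x * y ∈ C ↔ y * x ∈ C) (χ : G →* ℂ) (hχ : ∀ g, ‖χ g‖ = 1) (z : ℂ)
    (hz : ∀ g ∈ C, χ g = z) (E : Matrix n n (L1 G)) (hE : E * E = E)
    (hsmall : matN ((twist χ hχ).mapMatrix E - E) < 1) : z * matTr C E = matTr C E := by
  have hN0 : ∀ x : Matrix n n (L1 G), 0 ≤ matN x := matN_nonneg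
  have hNm : ∀ x y : Matrix n n (L1 G), matN (x * y) ≤ matN x * matN y := matN_mul_le
  have hb : ∀ x : Matrix n n (L1 G), ‖matTr C x‖ ≤ matN x := norm_matTr_le C
  have ht : ∀ x y : Matrix n n (L1 G), matTr C (x * y) = matTr C (y * x) := matTr_mul_comm C hC
  have hq : (twist χ hχ).mapMatrix E * (twist χ hχ).mapMatrix E = (twist χ hχ).mapMatrix E :=
    (map_mul _ E E).symm.trans (congrArg _ hE)
  have h := trace_idem_eq (R := Matrix n n (L1 G)) matN (matTr C) hN0 hNm hb ht
    ((twist χ hχ).mapMatrix E) E hq hE hsmall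
  refine Eq.trans ?_ h
  rw [matTr_apply, matTr_apply, Finset.mul_sum]
  refine Finset.sum_congr rfl (fun i _ => ?_)
  rw [RingHom.mapMatrix_apply, Matrix.map_apply, trC_twist C χ hχ z hz]

/-- The unitary character `g ↦ exp (i θ φ g)` attached to an additive real character `φ`. -/
noncomputable def expChar (φ : G → ℝ) (hφ : ∀ g h, φ (g * h) = φ g + φ h) (θ : ℝ) : G →* ℂ where
  toFun g := Complex.exp (((θ * φ g : ℝ) : ℂ) * Complex.I)
  map_one' := by
    have h1 : φ 1 = 0 := by
      have := hφ 1 1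
      rw [mul_one] at this
      linarith
    simp [h1]
  map_mul' := fun g h => by
    rw [hφ, ← Complex.exp_add]
    congr 1
    push_cast
    ring

theorem expChar_apply (φ : G → ℝ) (hφ : ∀ g h, φ (g * h) = φ g + φ h) (θ : ℝ) (g : G) :
    expChar φ hφ θ g = Complex.exp (((θ * φ g : ℝ) : ℂ) * Complex.I) := rfl

theorem norm_expChar (φ : G → ℝ) (hφ : ∀ g h, φ (g * h) = φ g + φ h) (θ : ℝ) (g : G) :
    ‖expChar φ hφ θ g‖ = 1 := by
  rw [expChar_apply]
  exact Complex.norm_exp_ofReal_mul_I _

theorem tendsto_nrm_twist (φ : G → ℝ) (hφ : ∀ g h, φ (g * h) = φ g + φ h) (a : L1 G) :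
    Tendsto (fun θ : ℝ => nrm (twist (expChar φ hφ θ) (norm_expChar φ hφ θ) a - a))
      (𝓝 0) (𝓝 0) := by
  have h0 : (∑' _ : G, (0 : ℝ)) = 0 := tsum_zero
  simp_rw [nrm_twist_sub]
  rw [← h0]
  refine tendsto_tsum_of_dominated_convergence (bound := fun g => 2 * ‖(a : G → ℂ) g‖)
    ((L1.summable a).mul_left 2) (fun g => ?_) (Filter.Eventually.of_forall (fun θ g => ?_))
  · have hc : Continuous (fun θ : ℝ =>
        ‖(Complex.exp (((θ * φ g : ℝ) : ℂ) * Complex.I) - 1) * (a : G → ℂ) g‖) := by
      fun_prop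
    have := hc.tendsto 0
    simpa [expChar_apply] using this
  · rw [norm_norm, norm_mul]
    refine mul_le_mul_of_nonneg_right ?_ (norm_nonneg _)
    calc ‖expChar φ hφ θ g - 1‖ ≤ ‖expChar φ hφ θ g‖ + ‖(1 : ℂ)‖ := norm_sub_le _ _
      _ = 2 := by rw [norm_expChar, norm_one]; norm_num

theorem tendsto_matN_twist {n : Type*} [Fintype n] [DecidableEq n] (φ : G → ℝ)
    (hφ : ∀ g h, φ (g * h) = φ g + φ h) (E : Matrix n n (L1 G)) :
    Tendsto (fun θ : ℝ =>
      matN ((twist (expChar φ hφ θ) (norm_expChar φ hφ θ)).mapMatrix E - E)) (𝓝 0) (𝓝 0) := by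
  unfold matN
  have h0 : (∑ _i : n, ∑ _j : n, (0 : ℝ)) = 0 := by simp
  rw [← h0]
  refine tendsto_finsetSum _ (fun i _ => tendsto_finsetSum _ (fun j _ => ?_))
  simpa [RingHom.mapMatrix_apply, Matrix.map_apply, Matrix.sub_apply] using
    tendsto_nrm_twist φ hφ (E i j)

/-- Main theorem: for an idempotent matrix with norm-summable entries over the convolution
algebra of any group, the sum of the diagonal entries over a conjugacy class vanishes as soon as
some additive real character is nonzero on that class. -/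
theorem character_vanishing (q : ℕ) (e : Fin q → Fin q → G → ℂ)
    (hs : ∀ i j, Summable fun g => ‖e i j g‖)
    (he : ∀ i j g, e i j g = ∑ k, ∑' h, e i k h * e k j (h⁻¹ * g))
    (φ : G → ℝ) (hφ : ∀ g h, φ (g * h) = φ g + φ h) (g₀ : G) (h₀ : φ g₀ ≠ 0) :
    ∑ i, ∑' g : {g : G // IsConj g₀ g}, e i i g = 0 := by
  classical
  let E : Matrix (Fin q) (Fin q) (L1 G) := fun i j => ⟨e i j, hs i j⟩
  have hE : E * E = E := by
    refine Matrix.ext (fun i j => Subtype.ext (funext fun g => ?_))
    rw [Matrix.mul_apply, AddSubmonoidClass.coe_finsetSum, Finset.sum_apply]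
    exact (he i j g).symm
  set C : Set G := {g | IsConj g₀ g} with hCdef
  have hC : ∀ x y : G, x * y ∈ C ↔ y * x ∈ C := by
    have key : ∀ x y : G, IsConj (x * y) (y * x) := fun x y =>
      isConj_iff.2 ⟨x⁻¹, by group⟩
    intro x y
    exact ⟨fun h => IsConj.trans h (key x y), fun h => IsConj.trans h (key y x)⟩
  have h1 : φ 1 = 0 := by
    have := hφ 1 1
    rw [mul_one] at this
    linarith
  have hφC : ∀ g ∈ C, φ g = φ g₀ := by
    intro g hg
    obtain ⟨c, hc⟩ := isConj_iff.1 hg
    have hcc : φ c + φ c⁻¹ = 0 := by rw [← hφ, mul_inv_cancel, h1]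
    rw [← hc, hφ, hφ]
    linarith
  have hz : ∀ θ : ℝ, ∀ g ∈ C,
      expChar φ hφ θ g = Complex.exp (((θ * φ g₀ : ℝ) : ℂ) * Complex.I) := by
    intro θ g hg
    rw [expChar_apply, hφC g hg]
  have hev := (tendsto_order.1 (tendsto_matN_twist φ hφ E)).2 1 zero_lt_one
  obtain ⟨ε, hε, hball⟩ := Metric.eventually_nhds_iff.1 hev
  set c := φ g₀ with hc
  have hcpos : 0 < |c| := abs_pos.2 h₀
  set θ : ℝ := min (ε / 2) (1 / |c|) with hθ
  have hθpos : 0 < θ := lt_min (by linarith) (by positivity)
  have hθε : dist θ 0 < ε := by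
    rw [Real.dist_eq, sub_zero, abs_of_pos hθpos]
    exact lt_of_le_of_lt (min_le_left _ _) (by linarith)
  have hsmall := hball hθε
  have hT := matTr_twist_eq C hC (expChar φ hφ θ) (norm_expChar φ hφ θ) _ (hz θ) E hE hsmall
  have hzne : Complex.exp (((θ * c : ℝ) : ℂ) * Complex.I) ≠ 1 := by
    intro h
    rw [Complex.exp_eq_one_iff] at h
    obtain ⟨m, hm⟩ := h
    have him := congrArg Complex.im hm
    simp at him
    have habs : |θ * c| ≤ 1 := by
      rw [abs_mul, abs_of_pos hθpos]
      calc θ * |c| ≤ (1 / |c|) * |c| := mul_le_mul_of_nonneg_right (min_le_right _ _) hcpos.le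
        _ = 1 := by field_simp
    have hne : θ * c ≠ 0 := mul_ne_zero hθpos.ne' h₀
    rcases eq_or_ne m 0 with hm0 | hm0
    · rw [hm0] at him
      simp at him
      rcases him with h | h
      · exact hθpos.ne' h
      · exact h₀ h
    · have hm1 : (1 : ℝ) ≤ |(m : ℝ)| := by
        have : (1 : ℤ) ≤ |m| := Int.one_le_abs hm0
        exact_mod_cast this
      have : |θ * c| = |(m : ℝ)| * (2 * Real.pi) := by
        rw [him, abs_mul, abs_of_pos (by positivity : (0 : ℝ) < 2 * Real.pi)]
      have hpi : (3 : ℝ) < Real.pi := Real.pi_gt_three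
      nlinarith
  have hT0 : matTr C E = 0 := by
    have : (Complex.exp (((θ * c : ℝ) : ℂ) * Complex.I) - 1) * matTr C E = 0 := by
      rw [sub_mul, one_mul, hT, sub_self]
    rcases mul_eq_zero.1 this with h | h
    · exact absurd (sub_eq_zero.1 h) hzne
    · exact h
  rw [matTr_apply] at hT0
  rw [← hT0]
  refine Finset.sum_congr rfl (fun i _ => ?_)
  rw [trC_apply]
  exact tsum_subtype C (e i i)

end Main

end Vale.Agent.Helper2.L1Conv
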