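import Vale.Agent.Helper2.L1Conv

/-!
Twisting matrices over `L1 G` by a bounded finite-dimensional matrix representation of `G`,
rigidity of the traces `matTr C` along continuous families of representations, and the monomial
representations induced from additive characters of finite-index subgroups.
-/

namespace Vale.Agent.Helper2.L1Conv

open scoped BigOperators
open Filter Topology

section Rep

variable {G : Type*} [Group G]

/-- Multiplication of an `L1` function by a bounded scalar function, as an additive map. -/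
noncomputable def smulHom (f : G → ℂ) (B : ℝ) (hf : ∀ g, ‖f g‖ ≤ B) : L1 G →+ L1 G :=
  AddMonoidHom.mk' (fun a => ⟨fun g => f g * (a : G → ℂ) g, by
    show Summable fun g => ‖f g * (a : G → ℂ) g‖
    refine Summable.of_nonneg_of_le (fun g => norm_nonneg _) (fun g => ?_)
      ((L1.summable a).mul_left B)
    rw [norm_mul]
    exact mul_le_mul_of_nonneg_right (hf g) (norm_nonneg _)⟩) (by
    intro a b
    refine Subtype.ext (funext fun g => ?_)
    show f g * ((a + b : L1 G) : G → ℂ) g = f g * (a : G → ℂ) g + f g * (b : G → ℂ) g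
    rw [AddSubgroup.coe_add, Pi.add_apply, mul_add])

theorem smulHom_apply (f : G → ℂ) (B : ℝ) (hf : ∀ g, ‖f g‖ ≤ B) (a : L1 G) (g : G) :
    ((smulHom f B hf a : L1 G) : G → ℂ) g = f g * (a : G → ℂ) g := rfl

theorem smulHom_summable (f : G → ℂ) (B : ℝ) (hf : ∀ g, ‖f g‖ ≤ B) (a : L1 G) :
    Summable fun g => ‖f g * (a : G → ℂ) g‖ := L1.summable (smulHom f B hf a)

variable {m : Type*} [Fintype m] [DecidableEq m] {n : Type*} [Fintype n] [DecidableEq n]

/-- The underlying function of `repTwist`. -/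
noncomputable def repTwistFun (π : G → Matrix m m ℂ) (B : ℝ) (hπb : ∀ g k l, ‖π g k l‖ ≤ B)
    (E : Matrix n n (L1 G)) : Matrix (n × m) (n × m) (L1 G) :=
  Matrix.of fun p p' => smulHom (fun g => π g p.2 p'.2) B (fun g => hπb g _ _) (E p.1 p'.1)

omit [DecidableEq m] [DecidableEq n] [Fintype m] [Fintype n] in
theorem repTwistFun_apply (π : G → Matrix m m ℂ) (B : ℝ) (hπb : ∀ g k l, ‖π g k l‖ ≤ B)
    (E : Matrix n n (L1 G)) (p p' : n × m) :
    repTwistFun π B hπb E p p'
      = smulHom (fun g => π g p.2 p'.2) B (fun g => hπb g _ _) (E p.1 p'.1) := rfl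

omit [Fintype m] [Fintype n] in
theorem repTwistFun_one (π : G → Matrix m m ℂ) (B : ℝ) (hπb : ∀ g k l, ‖π g k l‖ ≤ B)
    (hπ1 : π 1 = 1) : repTwistFun π B hπb (1 : Matrix n n (L1 G)) = 1 := by
  classical
  refine Matrix.ext (fun p p' => Subtype.ext (funext fun g => ?_))
  obtain ⟨i, k⟩ := p
  obtain ⟨j, l⟩ := p'
  show π g k l * (((1 : Matrix n n (L1 G)) i j : L1 G) : G → ℂ) g
    = (((1 : Matrix (n × m) (n × m) (L1 G)) (i, k) (j, l) : L1 G) : G → ℂ) g
  by_cases hij : i = j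
  · subst hij
    rw [Matrix.one_apply_eq, L1.coe_one]
    by_cases hkl : k = l
    · subst hkl
      rw [Matrix.one_apply_eq, L1.coe_one]
      by_cases hg : g = 1
      · subst hg; simp [hπ1]
      · simp [oneFun, hg]
    · have hne : ((i, k) : n × m) ≠ (i, l) := fun h => hkl (Prod.ext_iff.1 h).2
      rw [Matrix.one_apply_ne hne]
      by_cases hg : g = 1
      · subst hg; simp [hπ1, Matrix.one_apply_ne hkl]
      · simp [oneFun, hg]
  · have hne : ((i, k) : n × m) ≠ (j, l) := fun h => hij (Prod.ext_iff.1 h).1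
    rw [Matrix.one_apply_ne hij, Matrix.one_apply_ne hne]
    simp

omit [DecidableEq m] [DecidableEq n] in
theorem repTwistFun_mul (π : G → Matrix m m ℂ) (B : ℝ) (hπb : ∀ g k l, ‖π g k l‖ ≤ B)
    (hπm : ∀ g h, π (g * h) = π g * π h) (E F : Matrix n n (L1 G)) :
    repTwistFun π B hπb (E * F) = repTwistFun π B hπb E * repTwistFun π B hπb F := by
  refine Matrix.ext (fun p p' => Subtype.ext (funext fun g => ?_))
  obtain ⟨i, k⟩ := p
  obtain ⟨j, l⟩ := p'
  show π g k l * (((E * F) i j : L1 G) : G → ℂ) g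
    = (((repTwistFun π B hπb E * repTwistFun π B hπb F) (i, k) (j, l) : L1 G) : G → ℂ) g
  rw [Matrix.mul_apply, Matrix.mul_apply, AddSubmonoidClass.coe_finsetSum,
    AddSubmonoidClass.coe_finsetSum, Finset.sum_apply, Finset.sum_apply,
    Fintype.sum_prod_type, Finset.mul_sum]
  refine Finset.sum_congr rfl (fun i' _ => ?_)
  show π g k l * conv (E i i').1 (F i' j).1 g
    = ∑ k', conv (fun h => π h k k' * (E i i').1 h) (fun h => π h k' l * (F i' j).1 h) g
  simp only [conv]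
  rw [← Summable.tsum_finsetSum, ← tsum_mul_left]
  · refine tsum_congr (fun h => ?_)
    have hπ : π g k l = ∑ k', π h k k' * π (h⁻¹ * g) k' l := by
      rw [← Matrix.mul_apply, ← hπm, mul_inv_cancel_left]
    rw [hπ, Finset.sum_mul]
    refine Finset.sum_congr rfl (fun k' _ => ?_)
    ring
  · intro k' _
    exact summable_fiber (smulHom_summable _ B (fun g => hπb g k k') (E i i'))
      (smulHom_summable _ B (fun g => hπb g k' l) (F i' j)) g

/-- Twisting a matrix over `L1 G` by a bounded matrix representation `π` of `G`: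
the `((i,k),(j,l))` entry of the result is `g ↦ π g k l * E i j g`. -/
noncomputable def repTwist (π : G → Matrix m m ℂ) (B : ℝ) (hπb : ∀ g k l, ‖π g k l‖ ≤ B)
    (hπ1 : π 1 = 1) (hπm : ∀ g h, π (g * h) = π g * π h) :
    Matrix n n (L1 G) →+* Matrix (n × m) (n × m) (L1 G) where
  toFun E := repTwistFun π B hπb E
  map_one' := repTwistFun_one π B hπb hπ1
  map_mul' := repTwistFun_mul π B hπb hπm
  map_zero' := by
    refine Matrix.ext (fun p p' => ?_)
    rw [repTwistFun_apply, Matrix.zero_apply, Matrix.zero_apply, map_zero]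
  map_add' := fun E F => by
    refine Matrix.ext (fun p p' => ?_)
    rw [repTwistFun_apply, Matrix.add_apply, Matrix.add_apply, map_add, repTwistFun_apply,
      repTwistFun_apply]

theorem repTwist_apply (π : G → Matrix m m ℂ) (B : ℝ) (hπb : ∀ g k l, ‖π g k l‖ ≤ B)
    (hπ1 : π 1 = 1) (hπm : ∀ g h, π (g * h) = π g * π h) (E : Matrix n n (L1 G))
    (p p' : n × m) (g : G) :
    ((repTwist π B hπb hπ1 hπm E p p' : L1 G) : G → ℂ) g
      = π g p.2 p'.2 * ((E p.1 p'.1 : L1 G) : G → ℂ) g := rfl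

theorem matTr_repTwist (C : Set G) (π : G → Matrix m m ℂ) (B : ℝ)
    (hπb : ∀ g k l, ‖π g k l‖ ≤ B) (hπ1 : π 1 = 1) (hπm : ∀ g h, π (g * h) = π g * π h)
    (z : ℂ) (hz : ∀ g ∈ C, Matrix.trace (π g) = z) (E : Matrix n n (L1 G)) :
    matTr C (repTwist π B hπb hπ1 hπm E) = z * matTr C E := by
  rw [matTr_apply, matTr_apply, Fintype.sum_prod_type, Finset.mul_sum]
  refine Finset.sum_congr rfl (fun i _ => ?_)
  rw [← map_sum, trC_apply, trC_apply, ← tsum_mul_left]
  refine tsum_congr (fun g => ?_)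
  by_cases hg : g ∈ C
  · rw [Set.indicator_of_mem hg, Set.indicator_of_mem hg, AddSubmonoidClass.coe_finsetSum,
      Finset.sum_apply, ← hz g hg, Matrix.trace, Finset.sum_mul]
    rfl
  · rw [Set.indicator_of_notMem hg, Set.indicator_of_notMem hg, mul_zero]

theorem tendsto_nrm_smulHom (f : ℝ → G → ℂ) (B : ℝ) (hf : ∀ θ g, ‖f θ g‖ ≤ B)
    (hc : ∀ g, Continuous fun θ => f θ g) (a : L1 G) (θ₀ : ℝ) :
    Tendsto (fun θ : ℝ => nrm (smulHom (f θ) B (hf θ) a - smulHom (f θ₀) B (hf θ₀) a))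
      (𝓝 θ₀) (𝓝 0) := by
  have h0 : (∑' _ : G, (0 : ℝ)) = 0 := tsum_zero
  have hB : 0 ≤ B := (norm_nonneg _).trans (hf θ₀ 1)
  have key : ∀ θ : ℝ, nrm (smulHom (f θ) B (hf θ) a - smulHom (f θ₀) B (hf θ₀) a)
      = ∑' g, ‖(f θ g - f θ₀ g) * (a : G → ℂ) g‖ := by
    intro θ
    unfold nrm
    refine tsum_congr (fun g => ?_)
    rw [AddSubgroup.coe_sub, Pi.sub_apply, smulHom_apply, smulHom_apply, sub_mul]
  simp_rw [key]
  rw [← h0]
  refine tendsto_tsum_of_dominated_convergence (bound := fun g => (2 * B) * ‖(a : G → ℂ) g‖)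
    ((L1.summable a).mul_left (2 * B)) (fun g => ?_) (Filter.Eventually.of_forall (fun θ g => ?_))
  · have hcont : Continuous (fun θ : ℝ => ‖(f θ g - f θ₀ g) * (a : G → ℂ) g‖) := by
      have := hc g
      fun_prop
    have := hcont.tendsto θ₀
    simpa using this
  · rw [norm_norm, norm_mul]
    refine mul_le_mul_of_nonneg_right ?_ (norm_nonneg _)
    calc ‖f θ g - f θ₀ g‖ ≤ ‖f θ g‖ + ‖f θ₀ g‖ := norm_sub_le _ _
      _ ≤ B + B := add_le_add (hf θ g) (hf θ₀ g)
      _ = 2 * B := by ring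

theorem tendsto_matN_repTwist (π : ℝ → G → Matrix m m ℂ) (B : ℝ)
    (hπb : ∀ θ g k l, ‖π θ g k l‖ ≤ B) (hπ1 : ∀ θ, π θ 1 = 1)
    (hπm : ∀ θ g h, π θ (g * h) = π θ g * π θ h)
    (hπc : ∀ g k l, Continuous fun θ => π θ g k l) (E : Matrix n n (L1 G)) (θ₀ : ℝ) :
    Tendsto (fun θ : ℝ => matN (repTwist (π θ) B (hπb θ) (hπ1 θ) (hπm θ) E
      - repTwist (π θ₀) B (hπb θ₀) (hπ1 θ₀) (hπm θ₀) E)) (𝓝 θ₀) (𝓝 0) := by
  unfold matN
  have h0 : (∑ _p : n × m, ∑ _p' : n × m, (0 : ℝ)) = 0 := by simp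
  rw [← h0]
  refine tendsto_finsetSum _ (fun p _ => tendsto_finsetSum _ (fun p' _ => ?_))
  exact tendsto_nrm_smulHom (fun θ g => π θ g p.2 p'.2) B (fun θ g => hπb θ g _ _)
    (fun g => hπc g _ _) (E p.1 p'.1) θ₀

/-- Local rigidity: along a continuous bounded family of representations, the product of the
character on `C` with the trace of an idempotent is locally constant. -/
theorem rep_rigidity_local (C : Set G) (hC : ∀ x y : G, x * y ∈ C ↔ y * x ∈ C)
    (π : ℝ → G → Matrix m m ℂ) (B : ℝ)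
    (hπb : ∀ θ g k l, ‖π θ g k l‖ ≤ B) (hπ1 : ∀ θ, π θ 1 = 1)
    (hπm : ∀ θ g h, π θ (g * h) = π θ g * π θ h)
    (hπc : ∀ g k l, Continuous fun θ => π θ g k l)
    (z : ℝ → ℂ) (hz : ∀ θ, ∀ g ∈ C, Matrix.trace (π θ g) = z θ)
    (E : Matrix n n (L1 G)) (hE : E * E = E) (θ₀ : ℝ) :
    ∀ᶠ θ in 𝓝 θ₀, z θ * matTr C E = z θ₀ * matTr C E := by
  have hev := (tendsto_order.1 (tendsto_matN_repTwist π B hπb hπ1 hπm hπc E θ₀)).2 1 zero_lt_one
  refine hev.mono (fun θ hθ => ?_)
  have hN0 : ∀ x : Matrix (n × m) (n × m) (L1 G), 0 ≤ matN x := matN_nonneg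
  have hNm : ∀ x y : Matrix (n × m) (n × m) (L1 G), matN (x * y) ≤ matN x * matN y :=
    matN_mul_le
  have hb : ∀ x : Matrix (n × m) (n × m) (L1 G), ‖matTr C x‖ ≤ matN x := norm_matTr_le C
  have ht : ∀ x y : Matrix (n × m) (n × m) (L1 G), matTr C (x * y) = matTr C (y * x) :=
    matTr_mul_comm C hC
  have hp : repTwist (π θ) B (hπb θ) (hπ1 θ) (hπm θ) E * repTwist (π θ) B (hπb θ) (hπ1 θ) (hπm θ) E
      = repTwist (π θ) B (hπb θ) (hπ1 θ) (hπm θ) E :=
    (map_mul _ E E).symm.trans (congrArg _ hE)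
  have hq : repTwist (π θ₀) B (hπb θ₀) (hπ1 θ₀) (hπm θ₀) E
      * repTwist (π θ₀) B (hπb θ₀) (hπ1 θ₀) (hπm θ₀) E
      = repTwist (π θ₀) B (hπb θ₀) (hπ1 θ₀) (hπm θ₀) E :=
    (map_mul _ E E).symm.trans (congrArg _ hE)
  have h := trace_idem_eq (R := Matrix (n × m) (n × m) (L1 G)) matN (matTr C) hN0 hNm hb ht
    _ _ hp hq hθ
  rw [matTr_repTwist C (π θ) B (hπb θ) (hπ1 θ) (hπm θ) (z θ) (hz θ),
    matTr_repTwist C (π θ₀) B (hπb θ₀) (hπ1 θ₀) (hπm θ₀) (z θ₀) (hz θ₀)] at h
  exact h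

end Rep

/-! ### Concrete idempotents and conjugacy classes -/

section Concrete

variable {G : Type*} [Group G]

/-- The matrix over `L1 G` given by norm-summable entries. -/
noncomputable def mkE (q : ℕ) (e : Fin q → Fin q → G → ℂ)
    (hs : ∀ i j, Summable fun g => ‖e i j g‖) : Matrix (Fin q) (Fin q) (L1 G) :=
  fun i j => ⟨e i j, hs i j⟩

theorem mkE_idem (q : ℕ) (e : Fin q → Fin q → G → ℂ)
    (hs : ∀ i j, Summable fun g => ‖e i j g‖)
    (he : ∀ i j g, e i j g = ∑ k, ∑' h, e i k h * e k j (h⁻¹ * g)) :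
    mkE q e hs * mkE q e hs = mkE q e hs := by
  refine Matrix.ext (fun i j => Subtype.ext (funext fun g => ?_))
  rw [Matrix.mul_apply, AddSubmonoidClass.coe_finsetSum, Finset.sum_apply]
  exact (he i j g).symm

theorem conjClass_comm (g₀ : G) (x y : G) :
    x * y ∈ {g : G | IsConj g₀ g} ↔ y * x ∈ {g : G | IsConj g₀ g} := by
  have key : ∀ x y : G, IsConj (x * y) (y * x) := fun x y =>
    isConj_iff.2 ⟨x⁻¹, by group⟩
  exact ⟨fun h => IsConj.trans h (key x y), fun h => IsConj.trans h (key y x)⟩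

theorem matTr_mkE (q : ℕ) (e : Fin q → Fin q → G → ℂ)
    (hs : ∀ i j, Summable fun g => ‖e i j g‖) (g₀ : G) :
    matTr {g : G | IsConj g₀ g} (mkE q e hs) = ∑ i, ∑' g : {g : G // IsConj g₀ g}, e i i g := by
  rw [matTr_apply]
  refine Finset.sum_congr rfl (fun i _ => ?_)
  rw [trC_apply]
  exact (tsum_subtype {g : G | IsConj g₀ g} (e i i)).symm

theorem trace_conj_eq {m : Type*} [Fintype m] [DecidableEq m] (π : G → Matrix m m ℂ)
    (hπ1 : π 1 = 1) (hπm : ∀ g h, π (g * h) = π g * π h) (g₀ g : G) (hg : IsConj g₀ g) :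
    Matrix.trace (π g) = Matrix.trace (π g₀) := by
  obtain ⟨c, hc⟩ := isConj_iff.1 hg
  rw [← hc, hπm, hπm, Matrix.trace_mul_cycle, ← hπm, inv_mul_cancel, hπ1, one_mul]

/-- Deformation criterion: along a continuous, uniformly bounded family of finite-dimensional
matrix representations, character times Hattori-Stallings coefficient is constant. -/
theorem deformation_criterion (q : ℕ) (e : Fin q → Fin q → G → ℂ)
    (hs : ∀ i j, Summable fun g => ‖e i j g‖)
    (he : ∀ i j g, e i j g = ∑ k, ∑' h, e i k h * e k j (h⁻¹ * g))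
    {m : Type*} [Fintype m] [DecidableEq m] (π : ℝ → G → Matrix m m ℂ) (B : ℝ)
    (hπb : ∀ θ g k l, ‖π θ g k l‖ ≤ B) (hπ1 : ∀ θ, π θ 1 = 1)
    (hπm : ∀ θ g h, π θ (g * h) = π θ g * π θ h)
    (hπc : ∀ g k l, Continuous fun θ => π θ g k l) (g₀ : G) (θ θ' : ℝ) :
    Matrix.trace (π θ g₀) * (∑ i, ∑' g : {g : G // IsConj g₀ g}, e i i g)
      = Matrix.trace (π θ' g₀) * (∑ i, ∑' g : {g : G // IsConj g₀ g}, e i i g) := by
  classical
  rw [← matTr_mkE q e hs g₀]
  have hloc : IsLocallyConstant (fun θ : ℝ =>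
      Matrix.trace (π θ g₀) * matTr {g : G | IsConj g₀ g} (mkE q e hs)) := by
    rw [IsLocallyConstant.iff_eventually_eq]
    intro θ₀
    exact rep_rigidity_local {g : G | IsConj g₀ g} (conjClass_comm g₀) π B hπb hπ1 hπm hπc
      (fun θ => Matrix.trace (π θ g₀))
      (fun θ g hg => trace_conj_eq (π θ) (hπ1 θ) (hπm θ) g₀ g hg)
      (mkE q e hs) (mkE_idem q e hs he) θ₀
  exact hloc.apply_eq_of_preconnectedSpace θ θ'

end Concrete

/-! ### Representations induced from characters of finite-index subgroups -/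

section Induced

variable {G : Type*} [Group G] (H : Subgroup G)

theorem smul_eq_iff (g : G) (x y : G ⧸ H) : g • y = x ↔ x.out⁻¹ * g * y.out ∈ H := by
  have hy : g • y = (QuotientGroup.mk (g * y.out) : G ⧸ H) := by
    conv_lhs => rw [← QuotientGroup.out_eq' y]
    exact MulAction.Quotient.smul_mk H g y.out
  have key : (QuotientGroup.mk x.out : G ⧸ H) = QuotientGroup.mk (g * y.out)
      ↔ x.out⁻¹ * (g * y.out) ∈ H := QuotientGroup.eq
  constructor
  · intro h
    rw [mul_assoc]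
    refine key.1 ?_
    rw [QuotientGroup.out_eq', ← hy]
    exact h.symm
  · intro h
    rw [mul_assoc] at h
    have h2 := key.2 h
    rw [QuotientGroup.out_eq'] at h2
    rw [hy]
    exact h2.symm

/-- The monomial matrices of the representation induced from the character `exp (i θ φ)` of
`H`. -/
noncomputable def indRep [DecidableEq (G ⧸ H)] (φ : G → ℝ) (θ : ℝ) (g : G) :
    Matrix (G ⧸ H) (G ⧸ H) ℂ :=
  Matrix.of fun x y =>
    if g • y = x then Complex.exp (((θ * φ (x.out⁻¹ * g * y.out) : ℝ) : ℂ) * Complex.I) else 0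

theorem indRep_apply [DecidableEq (G ⧸ H)] (φ : G → ℝ) (θ : ℝ) (g : G) (x y : G ⧸ H) :
    indRep H φ θ g x y
      = if g • y = x then Complex.exp (((θ * φ (x.out⁻¹ * g * y.out) : ℝ) : ℂ) * Complex.I)
        else 0 := rfl

theorem indRep_one [Fintype (G ⧸ H)] [DecidableEq (G ⧸ H)] (φ : G → ℝ) (hφ1 : φ 1 = 0)
    (θ : ℝ) : indRep H φ θ 1 = 1 := by
  refine Matrix.ext (fun x y => ?_)
  rw [indRep_apply, Matrix.one_apply, one_smul]
  by_cases hxy : y = x
  · subst hxy
    simp [hφ1]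
  · have hxy' : ¬ x = y := fun h => hxy h.symm
    simp [hxy, hxy']

theorem indRep_mul [Fintype (G ⧸ H)] [DecidableEq (G ⧸ H)] (φ : G → ℝ)
    (hφ : ∀ a ∈ H, ∀ b ∈ H, φ (a * b) = φ a + φ b) (θ : ℝ) (g g' : G) :
    indRep H φ θ (g * g') = indRep H φ θ g * indRep H φ θ g' := by
  refine Matrix.ext (fun x z => ?_)
  rw [Matrix.mul_apply, Finset.sum_eq_single (g' • z)]
  · rw [indRep_apply, indRep_apply, indRep_apply, mul_smul, if_pos rfl]
    by_cases hx : g • g' • z = x
    · rw [if_pos hx, if_pos hx, ← Complex.exp_add]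
      have h1 : x.out⁻¹ * g * (g' • z).out ∈ H := (smul_eq_iff H g x (g' • z)).1 hx
      have h2 : (g' • z).out⁻¹ * g' * z.out ∈ H := (smul_eq_iff H g' (g' • z) z).1 rfl
      have h3 : x.out⁻¹ * (g * g') * z.out
          = (x.out⁻¹ * g * (g' • z).out) * ((g' • z).out⁻¹ * g' * z.out) := by group
      rw [h3, hφ _ h1 _ h2]
      congr 1
      push_cast
      ring
    · rw [if_neg hx, if_neg hx, zero_mul]
  · intro y _ hy
    have hy' : ¬ g' • z = y := fun h => hy h.symm
    rw [indRep_apply H φ θ g' y z, if_neg hy', mul_zero]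
  · intro h
    exact absurd (Finset.mem_univ _) h

theorem norm_indRep_le [DecidableEq (G ⧸ H)] (φ : G → ℝ) (θ : ℝ) (g : G) (x y : G ⧸ H) :
    ‖indRep H φ θ g x y‖ ≤ 1 := by
  rw [indRep_apply]
  by_cases h : g • y = x
  · rw [if_pos h, Complex.norm_exp_ofReal_mul_I]
  · rw [if_neg h, norm_zero]; exact zero_le_one

theorem continuous_indRep [DecidableEq (G ⧸ H)] (φ : G → ℝ) (g : G) (x y : G ⧸ H) :
    Continuous fun θ : ℝ => indRep H φ θ g x y := by
  simp only [indRep_apply]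
  by_cases h : g • y = x
  · simp only [if_pos h]
    fun_prop
  · simp only [if_neg h]
    exact continuous_const

/-- Virtual character vanishing, extended-function form. -/
theorem virtual_vanishing_aux [H.FiniteIndex] (q : ℕ) (e : Fin q → Fin q → G → ℂ)
    (hs : ∀ i j, Summable fun g => ‖e i j g‖)
    (he : ∀ i j g, e i j g = ∑ k, ∑' h, e i k h * e k j (h⁻¹ * g))
    (φ : G → ℝ) (hφ : ∀ a ∈ H, ∀ b ∈ H, φ (a * b) = φ a + φ b)
    (g₀ : G) (hg₀ : g₀ ∈ H) (h₀ : φ g₀ ≠ 0) :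
    ∑ i, ∑' g : {g : G // IsConj g₀ g}, e i i g = 0 := by
  classical
  have : Fintype (G ⧸ H) := Subgroup.fintypeQuotientOfFiniteIndex
  have hφ1 : φ 1 = 0 := by
    have := hφ 1 H.one_mem 1 H.one_mem
    rw [mul_one] at this
    linarith
  set T := ∑ i, ∑' g : {g : G // IsConj g₀ g}, e i i g with hT
  have hcrit : ∀ θ θ' : ℝ, Matrix.trace (indRep H φ θ g₀) * T
      = Matrix.trace (indRep H φ θ' g₀) * T := fun θ θ' =>
    deformation_criterion q e hs he (fun θ g => indRep H φ θ g) 1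
      (fun θ g k l => norm_indRep_le H φ θ g k l) (fun θ => indRep_one H φ hφ1 θ)
      (fun θ g h => indRep_mul H φ hφ θ g h) (fun g k l => continuous_indRep H φ g k l) g₀ θ θ'
  -- the coset of the identity
  set x₀ : G ⧸ H := QuotientGroup.mk 1 with hx₀
  have hout : x₀.out ∈ H := by
    have h1 : (QuotientGroup.mk x₀.out : G ⧸ H) = QuotientGroup.mk 1 := QuotientGroup.out_eq' x₀
    have h2 := QuotientGroup.eq.1 h1
    rw [mul_one] at h2
    exact (Subgroup.inv_mem_iff H).1 h2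
  have hfix : g₀ • x₀ = x₀ :=
    (smul_eq_iff H g₀ x₀ x₀).2 (H.mul_mem (H.mul_mem (H.inv_mem hout) hg₀) hout)
  have hc₀ : φ (x₀.out⁻¹ * g₀ * x₀.out) = φ g₀ := by
    have hinv : φ x₀.out⁻¹ + φ x₀.out = 0 := by
      rw [← hφ _ (H.inv_mem hout) _ hout, inv_mul_cancel, hφ1]
    rw [hφ _ (H.mul_mem (H.inv_mem hout) hg₀) _ hout, hφ _ (H.inv_mem hout) _ hg₀]
    linarith
  set c := φ g₀ with hc
  have hcpos : 0 < |c| := abs_pos.2 h₀
  set θ : ℝ := 1 / |c| with hθ
  have hθpos : 0 < θ := by positivity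
  have habs : |θ * c| = 1 := by
    rw [abs_mul, abs_of_pos hθpos, hθ]
    field_simp
  -- real parts of the two characters
  have hre : ∀ t : ℝ, (Matrix.trace (indRep H φ t g₀)).re
      = ∑ x : G ⧸ H, if g₀ • x = x then Real.cos (t * φ (x.out⁻¹ * g₀ * x.out)) else 0 := by
    intro t
    rw [Matrix.trace, Complex.re_sum]
    refine Finset.sum_congr rfl (fun x _ => ?_)
    rw [Matrix.diag_apply, indRep_apply]
    by_cases hx : g₀ • x = x
    · rw [if_pos hx, if_pos hx, Complex.exp_ofReal_mul_I_re]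
    · rw [if_neg hx, if_neg hx, Complex.zero_re]
  have hlt : (Matrix.trace (indRep H φ θ g₀)).re < (Matrix.trace (indRep H φ 0 g₀)).re := by
    rw [hre θ, hre 0]
    refine Finset.sum_lt_sum (fun x _ => ?_) ⟨x₀, Finset.mem_univ _, ?_⟩
    · by_cases hx : g₀ • x = x
      · rw [if_pos hx, if_pos hx, zero_mul, Real.cos_zero]
        exact Real.cos_le_one _
      · rw [if_neg hx, if_neg hx]
    · rw [if_pos hfix, if_pos hfix, zero_mul, Real.cos_zero, hc₀]
      refine lt_of_le_of_ne (Real.cos_le_one _) (fun hcos => ?_)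
      have hpi : (3 : ℝ) < Real.pi := Real.pi_gt_three
      have hb := abs_le.1 habs.le
      have h0 : θ * c = 0 :=
        (Real.cos_eq_one_iff_of_lt_of_lt (by linarith) (by linarith)).1 hcos
      rw [h0, abs_zero] at habs
      exact zero_ne_one habs
  have hne : Matrix.trace (indRep H φ θ g₀) ≠ Matrix.trace (indRep H φ 0 g₀) := by
    intro h
    rw [h] at hlt
    exact lt_irrefl _ hlt
  have hfin : (Matrix.trace (indRep H φ θ g₀) - Matrix.trace (indRep H φ 0 g₀)) * T = 0 := by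
    rw [sub_mul, hcrit θ 0, sub_self]
  rcases mul_eq_zero.1 hfin with h | h
  · exact absurd (sub_eq_zero.1 h) hne
  · exact h

/-- Virtual character vanishing: the Hattori-Stallings coefficient of an idempotent matrix over
`ℓ¹(G)` vanishes at the class of every element of a finite-index subgroup `H` on which some
additive real character of `H` is nonzero. -/
theorem virtual_character_vanishing [H.FiniteIndex] (q : ℕ) (e : Fin q → Fin q → G → ℂ)
    (hs : ∀ i j, Summable fun g => ‖e i j g‖)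
    (he : ∀ i j g, e i j g = ∑ k, ∑' h, e i k h * e k j (h⁻¹ * g))
    (φ : H → ℝ) (hφ : ∀ a b : H, φ (a * b) = φ a + φ b) (g₀ : H) (h₀ : φ g₀ ≠ 0) :
    ∑ i, ∑' g : {g : G // IsConj (g₀ : G) g}, e i i g = 0 := by
  classical
  refine virtual_vanishing_aux H q e hs he (fun g => if h : g ∈ H then φ ⟨g, h⟩ else 0) ?_
    (g₀ : G) g₀.2 ?_
  · intro a ha b hb
    rw [dif_pos (H.mul_mem ha hb), dif_pos ha, dif_pos hb]
    exact hφ ⟨a, ha⟩ ⟨b, hb⟩
  · rw [dif_pos g₀.2]
    exact h₀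

end Induced

end Vale.Agent.Helper2.L1Conv
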