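import Mathlib

/-!
# The dual bimodule of a finite-dimensional algebra (helper module for P176)

Let `A` be an algebra over a field `k`.  The `k`-dual `DA = Hom_k(A, k)` is a left `A`-module
via `(a • ξ)(b) = ξ(b * a)` and carries the commuting right action `(ξ ◁ a)(b) = ξ(a * b)`.
This file shows that `DA` is an injective `A`-module, that over a left Noetherian ring the
finitely supported families in a product of injective modules form an injective module
(Bass-Papp), that for finite-dimensional `A` every `A`-linear endomorphism of `DA` is a right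
multiplication, and that every simple `A`-module embeds in `DA`.
-/

universe u v w

open Function

set_option linter.unusedSectionVars false

namespace Vale.Agent.Helper2.Rk

/-! ### Generalities on injective modules -/

section Inj

variable {A : Type u} [Ring A]

/-- A retract of an injective module is injective. -/
theorem injective_of_retract {X Q : Type v} [AddCommGroup X] [Module A X] [AddCommGroup Q]
    [Module A Q] [Module.Injective A Q] (i : X →ₗ[A] Q) (p : Q →ₗ[A] X)
    (hpi : ∀ x, p (i x) = x) : Module.Injective A X := by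
  refine ⟨fun Y W _ _ _ _ f hf g => ?_⟩
  obtain ⟨h, hh⟩ := Module.Injective.out (R := A) (Q := Q) f hf (i ∘ₗ g)
  exact ⟨p ∘ₗ h, fun y => by simp [hh y, hpi]⟩

/-- A module isomorphic to an injective module is injective. -/
theorem injective_of_equiv {X Q : Type v} [AddCommGroup X] [Module A X] [AddCommGroup Q]
    [Module A Q] [Module.Injective A Q] (e : X ≃ₗ[A] Q) : Module.Injective A X :=
  injective_of_retract (e : X →ₗ[A] Q) (e.symm : Q →ₗ[A] X) (fun x => by simp)

/-- The extension property of injective modules. -/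
theorem exists_extension {X Y Q : Type v} [AddCommGroup X] [Module A X] [AddCommGroup Y]
    [Module A Y] [AddCommGroup Q] [Module A Q] [Module.Injective A Q] (f : X →ₗ[A] Y)
    (hf : Injective f) (g : X →ₗ[A] Q) : ∃ h : Y →ₗ[A] Q, ∀ x, h (f x) = g x :=
  Module.Injective.out (R := A) (Q := Q) f hf g

/-- The families with finite support in a product of modules. -/
def finSupp {J : Type w} (E : J → Type v) [∀ j, AddCommGroup (E j)] [∀ j, Module A (E j)] :
    Submodule A (∀ j, E j) where
  carrier := {v | ∃ S : Finset J, ∀ j, j ∉ S → v j = 0}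
  add_mem' := by
    classical
    rintro v w ⟨S, hS⟩ ⟨S', hS'⟩
    refine ⟨S ∪ S', fun j hj => ?_⟩
    rw [Finset.mem_union, not_or] at hj
    simp [hS j hj.1, hS' j hj.2]
  zero_mem' := ⟨∅, fun _ _ => rfl⟩
  smul_mem' := by
    rintro a v ⟨S, hS⟩
    exact ⟨S, fun j hj => by simp [hS j hj]⟩

theorem mem_finSupp {J : Type w} {E : J → Type v} [∀ j, AddCommGroup (E j)]
    [∀ j, Module A (E j)] {v : ∀ j, E j} :
    v ∈ finSupp (A := A) E ↔ ∃ S : Finset J, ∀ j, j ∉ S → v j = 0 := Iff.rfl

/-- Bass-Papp: over a left Noetherian ring, the finitely supported families in a product of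
injective modules form an injective module. -/
theorem injective_finSupp [IsNoetherianRing A] [Small.{v} A] {J : Type w} (E : J → Type v)
    [∀ j, AddCommGroup (E j)] [∀ j, Module A (E j)] (hE : ∀ j, Module.Injective A (E j)) :
    Module.Injective A (finSupp (A := A) E) := by
  classical
  apply Module.Baer.injective
  intro I g
  obtain ⟨t, ht⟩ := (Module.Finite.fg_top : (⊤ : Submodule A I).FG)
  have hS : ∀ x : I, ∃ S : Finset J, ∀ j, j ∉ S → (g x).1 j = 0 := fun x => (g x).2
  choose Sx hSx using hS
  let S : Finset J := t.biUnion Sx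
  let γ : ∀ j, I →ₗ[A] E j := fun j => LinearMap.proj j ∘ₗ (finSupp (A := A) E).subtype ∘ₗ g
  have hγ : ∀ j, j ∉ S → γ j = 0 := by
    intro j hj
    apply LinearMap.ext_on ht
    intro x hx
    have hjx : j ∉ Sx x := fun h => hj (Finset.mem_biUnion.mpr ⟨x, hx, h⟩)
    simpa [γ] using hSx x j hjx
  have hext : ∀ j, ∃ h : A →ₗ[A] E j, ∀ (x : A) (mem : x ∈ I), h x = γ j ⟨x, mem⟩ :=
    fun j => Module.Baer.of_injective (hE j) I (γ j)
  choose h hh using hext
  let g' : A →ₗ[A] finSupp (A := A) E :=
    { toFun := fun a => ⟨fun j => if j ∈ S then h j a else 0, S, fun j hj => by simp [hj]⟩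
      map_add' := fun a b => by
        apply Subtype.ext
        funext j
        by_cases hj : j ∈ S <;> simp [hj]
      map_smul' := fun a b => by
        apply Subtype.ext
        funext j
        change (if j ∈ S then h j (a • b) else 0) = a • (if j ∈ S then h j b else 0)
        by_cases hj : j ∈ S
        · rw [if_pos hj, if_pos hj, map_smul]
        · rw [if_neg hj, if_neg hj, smul_zero] }
  refine ⟨g', fun x mem => ?_⟩
  apply Subtype.ext
  funext j
  by_cases hj : j ∈ S
  · simp [g', hj, hh j x mem, γ]
  · have h0 : γ j ⟨x, mem⟩ = 0 := by rw [hγ j hj]; rfl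
    simpa [g', hj, γ] using h0.symm

/-- Over a left Noetherian ring, direct sums of copies of an injective module are
injective. -/
theorem injective_finsupp [IsNoetherianRing A] (J : Type u) (E : Type u) [AddCommGroup E]
    [Module A E] [Module.Injective A E] : Module.Injective A (J →₀ E) := by
  classical
  have h1 : Module.Injective A (finSupp (A := A) (fun _ : J => E)) :=
    injective_finSupp (fun _ : J => E) (fun _ => inferInstance)
  let i : (J →₀ E) →ₗ[A] finSupp (A := A) (fun _ : J => E) :=
    { toFun := fun f => ⟨fun j => f j, f.support, fun j hj => by simpa using hj⟩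
      map_add' := fun _ _ => rfl
      map_smul' := fun _ _ => rfl }
  let p : finSupp (A := A) (fun _ : J => E) →ₗ[A] (J →₀ E) :=
    { toFun := fun v => Finsupp.ofSupportFinite v.1 (by
        obtain ⟨S, hS⟩ := v.2
        refine S.finite_toSet.subset (fun j hj => ?_)
        by_contra hjS
        exact hj (hS j hjS))
      map_add' := fun _ _ => by ext j; rfl
      map_smul' := fun _ _ => by ext j; rfl }
  exact injective_of_retract i p (fun f => by ext j; rfl)

/-- The quotient of a product of injective modules by the submodule of finitely supported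
families is injective, and the quotient map has a linear section. -/
theorem exists_section_quot_finSupp [IsNoetherianRing A] [Small.{v} A] {J : Type w} (E : J → Type v)
    [∀ j, AddCommGroup (E j)] [∀ j, Module A (E j)] (hE : ∀ j, Module.Injective A (E j)) :
    ∃ s : ((∀ j, E j) ⧸ finSupp (A := A) E) →ₗ[A] (∀ j, E j),
      ∀ z, (finSupp (A := A) E).mkQ (s z) = z := by
  have h1 : Module.Injective A (finSupp (A := A) E) := injective_finSupp E hE
  obtain ⟨r, hr⟩ := exists_extension (finSupp (A := A) E).subtype Subtype.val_injective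
    (LinearMap.id : finSupp (A := A) E →ₗ[A] finSupp (A := A) E)
  let s₀ : (∀ j, E j) →ₗ[A] (∀ j, E j) :=
    LinearMap.id - (finSupp (A := A) E).subtype ∘ₗ r
  have hs₀ : finSupp (A := A) E ≤ LinearMap.ker s₀ := by
    intro v hv
    have := hr ⟨v, hv⟩
    simp only [Submodule.subtype_apply, LinearMap.id_apply] at this
    simp [s₀, this]
  refine ⟨(finSupp (A := A) E).liftQ s₀ hs₀, fun z => ?_⟩
  induction z using Submodule.Quotient.induction_on with
  | H v =>
    simp only [Submodule.mkQ_apply, Submodule.liftQ_apply]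
    rw [eq_comm, Submodule.Quotient.eq]
    simp [s₀]

theorem injective_quot_finSupp [IsNoetherianRing A] [Small.{v} A] {J : Type w} (E : J → Type v)
    [∀ j, AddCommGroup (E j)] [∀ j, Module A (E j)] (hE : ∀ j, Module.Injective A (E j)) :
    Module.Injective A ((∀ j, E j) ⧸ finSupp (A := A) E) := by
  obtain ⟨s, hs⟩ := exists_section_quot_finSupp E hE
  have : Module.Injective A (∀ j, E j) := inferInstance
  exact injective_of_retract s (finSupp (A := A) E).mkQ hs

end Inj

/-! ### The dual bimodule -/

section Dual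

variable (k A : Type u) [Field k] [Ring A] [Algebra k A]

/-- The `k`-dual of `A`, viewed as a left `A`-module via `(a • ξ)(b) = ξ(b * a)`. -/
def DA : Type u := A →ₗ[k] k

namespace DA

variable {k A}

instance : AddCommGroup (DA k A) := inferInstanceAs (AddCommGroup (A →ₗ[k] k))

/-- The linear functional underlying an element of `DA`. -/
def fn (ξ : DA k A) : A →ₗ[k] k := ξ

/-- The element of `DA` given by a linear functional. -/
def mk (f : A →ₗ[k] k) : DA k A := f

theorem ext {ξ η : DA k A} (h : ∀ b, ξ.fn b = η.fn b) : ξ = η := LinearMap.ext h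

@[simp] theorem fn_mk (f : A →ₗ[k] k) : (mk f).fn = f := rfl

@[simp] theorem mk_fn (ξ : DA k A) : mk ξ.fn = ξ := rfl

@[simp] theorem fn_add (ξ η : DA k A) (b : A) : (ξ + η).fn b = ξ.fn b + η.fn b := rfl

@[simp] theorem fn_zero (b : A) : (0 : DA k A).fn b = 0 := rfl

@[simp] theorem fn_neg (ξ : DA k A) (b : A) : (-ξ).fn b = -ξ.fn b := rfl

@[simp] theorem fn_sub (ξ η : DA k A) (b : A) : (ξ - η).fn b = ξ.fn b - η.fn b := rfl

instance : Module A (DA k A) where
  smul a ξ := mk (ξ.fn ∘ₗ LinearMap.mulRight k a)
  one_smul ξ := ext fun b => by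
    change ξ.fn (b * 1) = ξ.fn b
    rw [mul_one]
  mul_smul a a' ξ := ext fun b => by
    change ξ.fn (b * (a * a')) = ξ.fn (b * a * a')
    rw [mul_assoc]
  smul_zero a := rfl
  smul_add a ξ η := rfl
  add_smul a a' ξ := ext fun b => by
    change ξ.fn (b * (a + a')) = ξ.fn (b * a) + ξ.fn (b * a')
    rw [mul_add, map_add]
  zero_smul ξ := ext fun b => by
    change ξ.fn (b * 0) = 0
    rw [mul_zero, map_zero]

@[simp] theorem fn_smul (a : A) (ξ : DA k A) (b : A) : (a • ξ).fn b = ξ.fn (b * a) := rfl

/-- The right action of `A` on `DA`: `(ξ ◁ a)(b) = ξ(a * b)`. -/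
def rsmul (ξ : DA k A) (a : A) : DA k A := mk (ξ.fn ∘ₗ LinearMap.mulLeft k a)

@[simp] theorem fn_rsmul (ξ : DA k A) (a b : A) : (rsmul ξ a).fn b = ξ.fn (a * b) := rfl

theorem rsmul_add (ξ : DA k A) (a a' : A) : rsmul ξ (a + a') = rsmul ξ a + rsmul ξ a' :=
  ext fun b => by simp [add_mul]

theorem add_rsmul (ξ η : DA k A) (a : A) : rsmul (ξ + η) a = rsmul ξ a + rsmul η a :=
  ext fun b => by simp

@[simp] theorem rsmul_zero (ξ : DA k A) : rsmul ξ 0 = 0 := ext fun b => by simp

@[simp] theorem zero_rsmul (a : A) : rsmul (0 : DA k A) a = 0 := ext fun b => by simp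

@[simp] theorem rsmul_one (ξ : DA k A) : rsmul ξ 1 = ξ := ext fun b => by simp

theorem rsmul_mul (ξ : DA k A) (a a' : A) : rsmul (rsmul ξ a) a' = rsmul ξ (a * a') :=
  ext fun b => by simp [mul_assoc]

theorem smul_rsmul (a : A) (ξ : DA k A) (c : A) : rsmul (a • ξ) c = a • rsmul ξ c :=
  ext fun b => by simp [mul_assoc]

/-- Right multiplication by `a`, as an `A`-linear endomorphism of `DA`. -/
def rmul (a : A) : DA k A →ₗ[A] DA k A where
  toFun ξ := rsmul ξ a
  map_add' ξ η := add_rsmul ξ η a
  map_smul' c ξ := smul_rsmul c ξ a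

@[simp] theorem rmul_apply (a : A) (ξ : DA k A) : rmul a ξ = rsmul ξ a := rfl

theorem algebraMap_smul' (c : k) (ξ : DA k A) (b : A) :
    (algebraMap k A c • ξ).fn b = c * ξ.fn b := by
  rw [fn_smul, ← Algebra.commutes, ← Algebra.smul_def, map_smul, smul_eq_mul]

/-- If `ξ(a) = 0` for all `ξ` then `a = 0`. -/
theorem eq_zero_of_forall_fn (a : A) (h : ∀ ξ : DA k A, ξ.fn a = 0) : a = 0 :=
  (Module.forall_dual_apply_eq_zero_iff k a).mp (fun f => h (mk f))

theorem eq_zero_of_forall_rsmul (a : A) (h : ∀ ξ : DA k A, rsmul ξ a = 0) : a = 0 := by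
  apply eq_zero_of_forall_fn (k := k)
  intro ξ
  have := congrArg (fun η : DA k A => η.fn 1) (h ξ)
  simpa using this

/-- `DA` satisfies Baer's criterion. -/
theorem baer : Module.Baer A (DA k A) := by
  intro I g
  let Ik : Submodule k A := I.restrictScalars k
  let lam : Ik →ₗ[k] k :=
    { toFun := fun i => (g ⟨i.1, i.2⟩).fn 1
      map_add' := fun i i' => by
        have : (⟨(i + i').1, (i + i').2⟩ : I) = ⟨i.1, i.2⟩ + ⟨i'.1, i'.2⟩ := rfl
        rw [this, map_add, fn_add]
      map_smul' := fun c i => by
        have h1 : (⟨(c • i).1, (c • i).2⟩ : I) = algebraMap k A c • (⟨i.1, i.2⟩ : I) := by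
          apply Subtype.ext
          change c • i.1 = algebraMap k A c * i.1
          rw [Algebra.smul_def]
        rw [h1, map_smul, algebraMap_smul']
        rfl }
  obtain ⟨μ, hμ⟩ := LinearMap.exists_extend lam
  refine ⟨LinearMap.toSpanSingleton A (DA k A) (mk μ), fun x mem => ?_⟩
  apply ext
  intro b
  have hbx : b * x ∈ I := I.mul_mem_left b mem
  have h1 : μ (b * x) = lam ⟨b * x, hbx⟩ := by
    rw [← hμ]
    rfl
  have h2 : (⟨b * x, hbx⟩ : I) = b • (⟨x, mem⟩ : I) := rfl
  change μ (b * x) = (g ⟨x, mem⟩).fn b
  rw [h1]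
  change (g ⟨b * x, hbx⟩).fn 1 = (g ⟨x, mem⟩).fn b
  rw [h2, map_smul, fn_smul, one_mul]

instance : Module.Injective A (DA k A) := baer.injective

/-- `DA` is a finitely generated `A`-module when `A` is finite-dimensional. -/
instance [Module.Finite k A] : Module.Finite A (DA k A) := by
  obtain ⟨s, hs⟩ := (Module.Finite.fg_top : (⊤ : Submodule k (A →ₗ[k] k)).FG)
  refine ⟨⟨s, ?_⟩⟩
  rw [eq_top_iff]
  intro ξ _
  have hξ : ξ.fn ∈ Submodule.span k (s : Set (A →ₗ[k] k)) := by
    rw [hs]; exact Submodule.mem_top
  have key : ∀ f : A →ₗ[k] k, f ∈ Submodule.span k (s : Set (A →ₗ[k] k)) →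
      mk f ∈ Submodule.span A (show Set (DA k A) from (s : Set (A →ₗ[k] k))) := by
    intro f hf
    induction hf using Submodule.span_induction with
    | mem y hy => exact Submodule.subset_span hy
    | zero => exact Submodule.zero_mem _
    | add y z _ _ hy hz => exact Submodule.add_mem _ hy hz
    | smul c y _ hy =>
      have h1 : mk (c • y) = algebraMap k A c • mk y := by
        apply ext
        intro b
        rw [algebraMap_smul']
        rfl
      rw [h1]
      exact Submodule.smul_mem _ (algebraMap k A c) hy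
  exact key ξ.fn hξ

/-- Every `A`-linear endomorphism of `DA` is a right multiplication. -/
theorem exists_rmul [Module.Finite k A] (ψ : DA k A →ₗ[A] DA k A) :
    ∃ a : A, ∀ ξ, ψ ξ = rsmul ξ a := by
  let ε : (A →ₗ[k] k) →ₗ[k] k :=
    { toFun := fun f => (ψ (mk f)).fn 1
      map_add' := fun f f' => by
        have : mk (f + f') = mk f + mk f' := rfl
        rw [this, map_add, fn_add]
      map_smul' := fun c f => by
        have h1 : mk (c • f) = algebraMap k A c • mk f := by
          apply ext
          intro b
          rw [algebraMap_smul']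
          rfl
        rw [h1, map_smul, algebraMap_smul']
        rfl }
  refine ⟨(Module.evalEquiv k A).symm ε, fun ξ => ?_⟩
  have hε : ∀ f : A →ₗ[k] k, ε f = f ((Module.evalEquiv k A).symm ε) := by
    intro f
    have h1 : Module.evalEquiv k A ((Module.evalEquiv k A).symm ε) = ε :=
      LinearEquiv.apply_symm_apply _ _
    have h2 := congrArg (fun e : Module.Dual k (Module.Dual k A) => e f) h1
    exact h2.symm
  apply ext
  intro b
  have h3 : (ψ ξ).fn b = (ψ (b • ξ)).fn 1 := by
    rw [map_smul, fn_smul, one_mul]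
  rw [h3, fn_rsmul]
  have h4 : (ψ (b • ξ)).fn 1 = ε (b • ξ).fn := rfl
  rw [h4, hε]
  exact fn_smul b ξ _

/-- Every simple `A`-module embeds in `DA`. -/
theorem exists_injective_of_simple (S : Type u) [AddCommGroup S] [Module A S]
    [IsSimpleModule A S] : ∃ F : S →ₗ[A] DA k A, Injective F := by
  let _ : Module k S := Module.compHom S (algebraMap k A)
  have hcs : ∀ (c : k) (s : S), c • s = algebraMap k A c • s := fun _ _ => rfl
  have : Nontrivial S := IsSimpleModule.nontrivial A S
  obtain ⟨y, hy⟩ := exists_ne (0 : S)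
  obtain ⟨lam, hlam⟩ : ∃ lam : S →ₗ[k] k, lam y ≠ 0 := by
    by_contra hcon
    exact hy ((Module.forall_dual_apply_eq_zero_iff k y).mp
      (fun f => by_contra (fun hf => hcon ⟨f, hf⟩)))
  let F : S →ₗ[A] DA k A :=
    { toFun := fun s => mk
        { toFun := fun b => lam (b • s)
          map_add' := fun b b' => by rw [add_smul, map_add]
          map_smul' := fun c b => by
            have : (c • b) • s = c • (b • s) := by
              rw [hcs, Algebra.smul_def, mul_smul]
            rw [this, map_smul]
            rfl }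
      map_add' := fun s s' => by
        apply ext
        intro b
        change lam (b • (s + s')) = lam (b • s) + lam (b • s')
        rw [smul_add, map_add]
      map_smul' := fun a s => by
        apply ext
        intro b
        change lam (b • a • s) = lam ((b * a) • s)
        rw [mul_smul] }
  refine ⟨F, ?_⟩
  rcases LinearMap.injective_or_eq_zero F with h | h
  · exact h
  · exfalso
    apply hlam
    have h1 := congrArg (fun G : S →ₗ[A] DA k A => (G y).fn 1) h
    change lam ((1 : A) • y) = 0 at h1
    rwa [one_smul] at h1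

/-- Every injective module over a finite-dimensional algebra is a retract of a direct sum of
copies of `DA`. -/
theorem exists_retract_of_injective [Module.Finite k A] (I : Type u) [AddCommGroup I]
    [Module A I] [Module.Injective A I] :
    ∃ (J : Type u) (ι : I →ₗ[A] (J →₀ DA k A)) (ρ : (J →₀ DA k A) →ₗ[A] I),
      ∀ x, ρ (ι x) = x := by
  classical
  have hart : IsArtinianRing A := IsArtinianRing.of_finite k A
  let N₀ : Submodule A I := ⨆ m ∈ {m : Submodule A I | IsSimpleModule A m}, m
  have hss : IsSemisimpleModule A N₀ :=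
    isSemisimpleModule_biSup_of_isSemisimpleModule_submodule
      (s := {m : Submodule A I | IsSimpleModule A m}) (p := fun m => m)
      (fun m (hm : IsSimpleModule A m) => inferInstance)
  obtain ⟨s, e, -, hsimple⟩ := IsSemisimpleModule.exists_linearEquiv_dfinsupp A N₀
  have hex : ∀ m : s, ∃ F : m.1 →ₗ[A] DA k A, Injective F := fun m =>
    have := hsimple m
    exists_injective_of_simple (k := k) m.1
  choose F hF using hex
  let Φ : (Π₀ m : s, m.1) →ₗ[A] (Π₀ _ : s, DA k A) := DFinsupp.mapRange.linearMap F
  have hΦ : Injective Φ := by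
    intro v w hvw
    ext m : 1
    apply hF m
    have := congrArg (fun z : Π₀ _ : s, DA k A => z m) hvw
    simpa [Φ] using this
  let ef : (s →₀ DA k A) ≃ₗ[A] (Π₀ _ : s, DA k A) := finsuppLequivDFinsupp A
  let j₀ : N₀ →ₗ[A] (s →₀ DA k A) := ef.symm.toLinearMap ∘ₗ Φ ∘ₗ e.toLinearMap
  have hj₀ : Injective j₀ := by
    intro v w hvw
    apply e.injective
    apply hΦ
    exact ef.symm.injective hvw
  have hinj : Module.Injective A (s →₀ DA k A) := injective_finsupp s (DA k A)
  obtain ⟨j, hj⟩ := exists_extension N₀.subtype Subtype.val_injective j₀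
  have hjinj : Injective j := by
    rw [injective_iff_map_eq_zero]
    intro x hx
    by_contra hx0
    let C : Submodule A I := Submodule.span A {x}
    have hCker : C ≤ LinearMap.ker j := by
      rw [Submodule.span_le]
      intro y hy
      rw [Set.mem_singleton_iff] at hy
      rw [hy]
      exact hx
    have hCfin : Module.Finite A C := Module.Finite.span_singleton A x
    have hCart : IsArtinian A C := inferInstance
    have hCnt : (⊤ : Submodule A C) ≠ ⊥ := by
      intro h
      have hxC : (⟨x, Submodule.mem_span_singleton_self x⟩ : C) ∈ (⊤ : Submodule A C) :=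
        Submodule.mem_top
      rw [h, Submodule.mem_bot] at hxC
      exact hx0 (congrArg Subtype.val hxC)
    obtain ⟨m', hm', -⟩ := (eq_bot_or_exists_atom_le (⊤ : Submodule A C)).resolve_left hCnt
    have hm's : IsSimpleModule A m' := isSimpleModule_iff_isAtom.mpr hm'
    let m : Submodule A I := m'.map C.subtype
    let em : m ≃ₗ[A] m' := (Submodule.equivMapOfInjective C.subtype Subtype.val_injective m').symm
    have hms : IsSimpleModule A m := IsSimpleModule.congr em
    have hmN : m ≤ N₀ := le_biSup (fun m : Submodule A I => m) hms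
    have hmker : m ≤ LinearMap.ker j := by
      rintro y ⟨c, -, rfl⟩
      exact hCker c.2
    have hnt : Nontrivial m := IsSimpleModule.nontrivial A m
    obtain ⟨y, hy⟩ := exists_ne (0 : m)
    have h1 : j₀ ⟨y.1, hmN y.2⟩ = 0 := by
      rw [← hj ⟨y.1, hmN y.2⟩]
      exact hmker y.2
    have h2 : (⟨y.1, hmN y.2⟩ : N₀) = 0 := hj₀ (by rw [h1, map_zero])
    have h3 : (y : I) = 0 := congrArg (fun z : N₀ => (z : I)) h2
    exact hy (Subtype.ext h3)
  obtain ⟨ρ, hρ⟩ := exists_extension j hjinj (LinearMap.id : I →ₗ[A] I)
  exact ⟨s, j, ρ, hρ⟩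

end DA

end Dual

end Vale.Agent.Helper2.Rk
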