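import Mathlib

/-!
# From a complex of injective modules to the derived category (helper module for P176)

Let `L` be a K-injective cochain complex of `A`-modules which is not exact in degree `0` and
such that for every injective module `I` every cocycle `I → L^q` is a coboundary.  Then the
image `Z` of `L` in the derived category is a nonzero object with `Hom(I, Z[n]) = 0` for all
injective modules `I` and all `n`, so the localizing subcategory generated by the injective
modules is not the whole derived category.  We also provide the passage from a complex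
indexed by the natural numbers to a complex indexed by the integers.
-/

universe w u

open CategoryTheory Limits CochainComplex HomComplex

namespace Vale.Agent.Helper2.Rk

variable {A : Type u} [Ring A]

section Derived

variable [HasDerivedCategory.{w} (ModuleCat.{u} A)]

theorem hom_single_eq_zero (L : CochainComplex (ModuleCat.{u} A) ℤ) [L.IsKInjective]
    (I : ModuleCat.{u} A)
    (horth : ∀ (q : ℤ) (f : I ⟶ L.X q), f ≫ L.d q (q + 1) = 0 →
      ∃ (q' : ℤ) (_ : q' + 1 = q) (g : I ⟶ L.X q'), g ≫ L.d q' q = f)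
    (n : ℤ)
    (φ : DerivedCategory.Q.obj ((CochainComplex.singleFunctor (ModuleCat.{u} A) 0).obj I) ⟶
      DerivedCategory.Q.obj (L⟦n⟧)) : φ = 0 := by
  let K := (CochainComplex.singleFunctor (ModuleCat.{u} A) 0).obj I
  let e₁ := (DerivedCategory.quotientCompQhIso (ModuleCat.{u} A)).app K
  let e₂ := (DerivedCategory.quotientCompQhIso (ModuleCat.{u} A)).app (L⟦n⟧)
  obtain ⟨ψ, hψ⟩ := (CochainComplex.IsKInjective.Qh_map_bijective
    ((HomotopyCategory.quotient _ _).obj K) (L⟦n⟧)).surjective (e₁.hom ≫ φ ≫ e₂.inv)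
  obtain ⟨c, hc⟩ := (CohomologyClass.toHom_bijective K L n).surjective ψ
  obtain ⟨x, rfl⟩ := CohomologyClass.mk_surjective c
  obtain ⟨f, hf, rfl⟩ := Cocycle.fromSingleMk_surjective x n (zero_add n) (n + 1) rfl
  obtain ⟨q', hq', g, hg⟩ := horth n f hf
  have hx : Cocycle.fromSingleMk f (zero_add n) (n + 1) rfl hf ∈ coboundaries K L n :=
    (Cocycle.fromSingleMk_mem_coboundaries_iff f (zero_add n) (n + 1) rfl hf q' hq').mpr
      ⟨g, hg⟩
  have hψ0 : ψ = 0 := by
    rw [← hc]
    exact (CohomologyClass.toHom_mk_eq_zero_iff _).mpr hx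
  rw [hψ0, Functor.map_zero] at hψ
  have h3 : φ = e₁.inv ≫ (e₁.hom ≫ φ ≫ e₂.inv) ≫ e₂.hom := by simp
  rw [h3, ← hψ]
  simp

/-- The objects isomorphic to a shift of a given object. -/
def shiftsOf (Z : DerivedCategory (ModuleCat.{u} A)) :
    ObjectProperty (DerivedCategory (ModuleCat.{u} A)) :=
  fun Y => ∃ n : ℤ, Nonempty (Y ≅ Z⟦n⟧)

instance (Z : DerivedCategory (ModuleCat.{u} A)) : (shiftsOf Z).IsStableUnderShift ℤ where
  isStableUnderShiftBy a :=
    ⟨fun Y hY => by
      obtain ⟨n, ⟨e⟩⟩ := hY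
      exact ⟨n + a, ⟨(CategoryTheory.shiftFunctor _ a).mapIso e ≪≫
        (CategoryTheory.shiftFunctorAdd' _ n a (n + a) rfl).symm.app Z⟩⟩⟩

theorem not_injGen (L : CochainComplex (ModuleCat.{u} A) ℤ) [L.IsKInjective]
    (hH : ¬ L.ExactAt 0)
    (horth : ∀ (I : ModuleCat.{u} A), Injective I → ∀ (q : ℤ) (f : I ⟶ L.X q),
      f ≫ L.d q (q + 1) = 0 →
      ∃ (q' : ℤ) (_ : q' + 1 = q) (g : I ⟶ L.X q'), g ≫ L.d q' q = f)
    (hgen : ∀ (P : ObjectProperty (DerivedCategory (ModuleCat.{u} A))) [P.IsTriangulated]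
      [P.IsClosedUnderIsomorphisms],
      (∀ (J : Type u) (X : J → DerivedCategory (ModuleCat.{u} A)) (c : Cofan X),
        IsColimit c → (∀ j, P (X j)) → P c.pt) →
      (∀ I : ModuleCat.{u} A, Injective I →
        P ((DerivedCategory.singleFunctor (ModuleCat.{u} A) 0).obj I)) →
      ∀ X, P X) : False := by
  let Z := DerivedCategory.Q.obj L
  have hP := hgen (shiftsOf Z).leftOrthogonal
    (fun J X c hc hX Y f hY => by
      apply Cofan.IsColimit.hom_ext hc
      intro j
      rw [comp_zero]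
      exact hX j _ hY)
    (fun I hI Y f hY => by
      obtain ⟨n, ⟨e⟩⟩ := hY
      let e' := (DerivedCategory.Q.commShiftIso n).app L
      have h0 : f ≫ e.hom ≫ e'.inv = 0 :=
        hom_single_eq_zero L I (horth I hI) n (f ≫ e.hom ≫ e'.inv)
      have h1 : f = (f ≫ e.hom ≫ e'.inv) ≫ e'.hom ≫ e.inv := by simp
      rw [h1, h0, zero_comp]) Z
  have hZ : IsZero Z := by
    rw [IsZero.iff_id_eq_zero]
    have h2 := hP ((CategoryTheory.shiftFunctorZero _ ℤ).inv.app Z) ⟨0, ⟨Iso.refl _⟩⟩
    have h3 : 𝟙 Z = (CategoryTheory.shiftFunctorZero _ ℤ).inv.app Z ≫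
        (CategoryTheory.shiftFunctorZero _ ℤ).hom.app Z := by simp
    rw [h3, h2, zero_comp]
  apply hH
  rw [HomologicalComplex.exactAt_iff_isZero_homology]
  have h4 : IsZero ((DerivedCategory.homologyFunctor (ModuleCat.{u} A) 0).obj Z) :=
    Functor.map_isZero _ hZ
  exact h4.of_iso ((DerivedCategory.homologyFunctorFactors (ModuleCat.{u} A) 0).app L).symm

end Derived

/-! ### Complexes indexed by the natural numbers -/

section Nat

/-- The terms of the extension by zero of a sequence of modules to the integers. -/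
def extX (X : ℕ → ModuleCat.{u} A) : ℤ → ModuleCat.{u} A
  | Int.ofNat m => X m
  | Int.negSucc _ => ModuleCat.of A PUnit

/-- The differentials of the extension by zero. -/
def extD (X : ℕ → ModuleCat.{u} A) (d : ∀ m, X m ⟶ X (m + 1)) :
    ∀ n : ℤ, extX X n ⟶ extX X (n + 1)
  | Int.ofNat m => d m
  | Int.negSucc _ => 0

/-- The extension by zero of a cochain complex indexed by the natural numbers. -/
def extCx (X : ℕ → ModuleCat.{u} A) (d : ∀ m, X m ⟶ X (m + 1))
    (sq : ∀ m, d m ≫ d (m + 1) = 0) : CochainComplex (ModuleCat.{u} A) ℤ :=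
  CochainComplex.of (extX X) (extD X d) (by
    rintro (m | m)
    · exact sq m
    · exact zero_comp)

theorem extCx_d (X : ℕ → ModuleCat.{u} A) (d : ∀ m, X m ⟶ X (m + 1))
    (sq : ∀ m, d m ≫ d (m + 1) = 0) (m : ℕ) :
    (extCx X d sq).d (Int.ofNat m) (Int.ofNat m + 1) = d m :=
  CochainComplex.of_d (extX X) (extD X d) (Int.ofNat m)

/-- The criterion of `not_injGen` for a complex indexed by the natural numbers. -/
theorem not_injGen_of_nat [HasDerivedCategory.{w} (ModuleCat.{u} A)]
    (X : ℕ → ModuleCat.{u} A) (d : ∀ m, X m ⟶ X (m + 1)) (sq : ∀ m, d m ≫ d (m + 1) = 0)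
    (hinj : ∀ m, Injective (X m))
    (z : X 0) (hz : z ≠ 0) (hdz : (d 0).hom z = 0)
    (h0 : ∀ (I : ModuleCat.{u} A), Injective I → ∀ f : I ⟶ X 0, f ≫ d 0 = 0 → f = 0)
    (hS : ∀ (I : ModuleCat.{u} A), Injective I → ∀ (m : ℕ) (f : I ⟶ X (m + 1)),
      f ≫ d (m + 1) = 0 → ∃ g : I ⟶ X m, g ≫ d m = f)
    (hgen : ∀ (P : ObjectProperty (DerivedCategory (ModuleCat.{u} A))) [P.IsTriangulated]
      [P.IsClosedUnderIsomorphisms],
      (∀ (J : Type u) (X : J → DerivedCategory (ModuleCat.{u} A)) (c : Cofan X),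
        IsColimit c → (∀ j, P (X j)) → P c.pt) →
      (∀ I : ModuleCat.{u} A, Injective I →
        P ((DerivedCategory.singleFunctor (ModuleCat.{u} A) 0).obj I)) →
      ∀ X, P X) : False := by
  let L := extCx X d sq
  have hneg : ∀ m : ℕ, IsZero (L.X (Int.negSucc m)) := fun m =>
    ModuleCat.isZero_of_subsingleton (ModuleCat.of A PUnit)
  have hX : ∀ n : ℤ, Injective (L.X n) := by
    rintro (m | m)
    · exact hinj m
    · exact (hneg m).injective
  have hGE : L.IsStrictlyGE 0 := by
    rw [CochainComplex.isStrictlyGE_iff]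
    intro i hi
    obtain ⟨m, rfl⟩ : ∃ m, i = Int.negSucc m := Int.eq_negSucc_of_lt_zero hi
    exact hneg m
  have hK : L.IsKInjective := CochainComplex.isKInjective_of_injective L 0
  apply not_injGen L ?_ ?_ hgen
  · intro hex
    rw [HomologicalComplex.exactAt_iff' L (-1) 0 1 (by simp) (by simp),
      ShortComplex.moduleCat_exact_iff] at hex
    have hz0 : (L.d 0 1).hom z = 0 := by
      have h1 : L.d 0 1 = d 0 := extCx_d X d sq 0
      rw [h1]
      exact hdz
    obtain ⟨x₁, hx₁⟩ := hex z hz0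
    have hx₁0 : x₁ = 0 := Subsingleton.elim (α := PUnit) _ _
    apply hz
    rw [← hx₁, hx₁0]
    exact map_zero _
  · intro I hI q f hf
    rcases q with (m | m)
    · cases m with
      | zero =>
        have h1 : L.d (Int.ofNat 0) (Int.ofNat 0 + 1) = d 0 := extCx_d X d sq 0
        have hf0 : f = 0 := h0 I hI f (by rw [← h1]; exact hf)
        exact ⟨-1, rfl, 0, by rw [hf0, zero_comp]⟩
      | succ m =>
        have h1 : L.d (Int.ofNat (m + 1)) (Int.ofNat (m + 1) + 1) = d (m + 1) :=
          extCx_d X d sq (m + 1)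
        obtain ⟨g, hg⟩ := hS I hI m f (by rw [← h1]; exact hf)
        have h2 : L.d (Int.ofNat m) (Int.ofNat m + 1) = d m := extCx_d X d sq m
        exact ⟨Int.ofNat m, rfl, g, by rw [← hg, ← h2]; rfl⟩
    · exact ⟨Int.negSucc m - 1, by omega, 0, (hneg m).eq_of_tgt _ _⟩

end Nat

end Vale.Agent.Helper2.Rk
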