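import Mathlib
import Vale.Agent.Helper2.RkDual

/-!
# The Nakayama functor on projective modules (helper module for P176)

For an algebra `A` over a field `k` with dual bimodule `DA = Hom_k(A, k)` and a left `A`-module
`P` we construct the tensor product `NT k A P = DA ⊗_A P` as a quotient of `P →₀ DA`, together
with the maps `phi p : DA → DA ⊗_A P`, `x ↦ x ⊗ p`.  For finite-dimensional `A` and projective
`P` the module `DA ⊗_A P` is injective and `p ↦ phi p` is a bijection from `P` onto
`Hom_A(DA, DA ⊗_A P)`.  Consequently a linear map `D` between projective modules is a split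
monomorphism as soon as `DA ⊗_A D` is injective.
-/

universe u

open Function

set_option linter.unusedSectionVars false

namespace Vale.Agent.Helper2.Rk

noncomputable section Tensor

variable (k A : Type u) [Field k] [Ring A] [Algebra k A]
variable (P : Type u) [AddCommGroup P] [Module A P]

/-- The relations defining `DA ⊗_A P` as a quotient of `P →₀ DA`. -/
def tensorRel : Submodule A (P →₀ DA k A) :=
  Submodule.span A
    ({z | ∃ (x : DA k A) (p q : P),
        z = Finsupp.single (p + q) x - Finsupp.single p x - Finsupp.single q x} ∪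
      {z | ∃ (x : DA k A) (a : A) (p : P),
        z = Finsupp.single (a • p) x - Finsupp.single p (DA.rsmul x a)})

/-- The tensor product `DA ⊗_A P`, a left `A`-module. -/
def NT : Type u := (P →₀ DA k A) ⧸ tensorRel k A P

instance : AddCommGroup (NT k A P) :=
  inferInstanceAs (AddCommGroup ((P →₀ DA k A) ⧸ tensorRel k A P))

instance : Module A (NT k A P) :=
  inferInstanceAs (Module A ((P →₀ DA k A) ⧸ tensorRel k A P))

namespace NT

variable {k A P}

/-- The quotient map onto the tensor product. -/
def proj : (P →₀ DA k A) →ₗ[A] NT k A P := (tensorRel k A P).mkQ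

theorem proj_surjective : Surjective (proj : (P →₀ DA k A) →ₗ[A] NT k A P) :=
  (tensorRel k A P).mkQ_surjective

theorem proj_eq_zero {f : P →₀ DA k A} (h : f ∈ tensorRel k A P) : proj f = 0 :=
  (Submodule.Quotient.mk_eq_zero _).mpr h

/-- The elementary tensor `x ⊗ p`. -/
def tmul (x : DA k A) (p : P) : NT k A P := proj (Finsupp.single p x)

theorem tmul_add_left (x y : DA k A) (p : P) : tmul (x + y) p = tmul x p + tmul y p := by
  rw [tmul, Finsupp.single_add, map_add]
  rfl

theorem smul_tmul (a : A) (x : DA k A) (p : P) : a • tmul x p = tmul (a • x) p := by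
  rw [tmul, ← map_smul, Finsupp.smul_single]
  rfl

theorem tmul_add_right (x : DA k A) (p q : P) : tmul x (p + q) = tmul x p + tmul x q := by
  have h : Finsupp.single (p + q) x - Finsupp.single p x - Finsupp.single q x ∈
      tensorRel k A P := Submodule.subset_span (Or.inl ⟨x, p, q, rfl⟩)
  have h2 := proj_eq_zero h
  rw [map_sub, map_sub, sub_sub, sub_eq_zero] at h2
  exact h2

theorem tmul_smul (x : DA k A) (a : A) (p : P) : tmul x (a • p) = tmul (DA.rsmul x a) p := by
  have h : Finsupp.single (a • p) x - Finsupp.single p (DA.rsmul x a) ∈ tensorRel k A P :=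
    Submodule.subset_span (Or.inr ⟨x, a, p, rfl⟩)
  have h2 := proj_eq_zero h
  rw [map_sub, sub_eq_zero] at h2
  exact h2

theorem tmul_zero_right (x : DA k A) : tmul x (0 : P) = 0 := by
  have h := tmul_add_right x (0 : P) 0
  rw [add_zero] at h
  exact left_eq_add.mp h

theorem induction_on {C : NT k A P → Prop} (z : NT k A P) (h0 : C 0)
    (ht : ∀ (x : DA k A) (p : P), C (tmul x p)) (hadd : ∀ z w, C z → C w → C (z + w)) :
    C z := by
  obtain ⟨f, rfl⟩ := proj_surjective z
  induction f using Finsupp.induction with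
  | zero => rw [map_zero]; exact h0
  | single_add p x f _ _ ih =>
    rw [map_add]
    exact hadd _ _ (ht x p) ih

theorem hom_ext {W : Type u} [AddCommGroup W] [Module A W] {f g : NT k A P →ₗ[A] W}
    (h : ∀ (x : DA k A) (p : P), f (tmul x p) = g (tmul x p)) : f = g := by
  apply LinearMap.ext
  intro z
  induction z using induction_on with
  | h0 => rw [map_zero, map_zero]
  | ht x p => exact h x p
  | hadd z w hz hw => rw [map_add, map_add, hz, hw]

/-- The universal property of the tensor product. -/
def lift {W : Type u} [AddCommGroup W] [Module A W] (β : P → (DA k A →ₗ[A] W))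
    (hadd : ∀ p q, β (p + q) = β p + β q)
    (hsmul : ∀ (a : A) (p : P) (x : DA k A), β (a • p) x = β p (DA.rsmul x a)) :
    NT k A P →ₗ[A] W :=
  (tensorRel k A P).liftQ (Finsupp.lsum ℕ β) (by
    rw [tensorRel, Submodule.span_le]
    rintro z (⟨x, p, q, rfl⟩ | ⟨x, a, p, rfl⟩)
    · rw [SetLike.mem_coe, LinearMap.mem_ker, map_sub, map_sub, Finsupp.lsum_single,
        Finsupp.lsum_single, Finsupp.lsum_single, hadd, LinearMap.add_apply]
      abel
    · rw [SetLike.mem_coe, LinearMap.mem_ker, map_sub, Finsupp.lsum_single,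
        Finsupp.lsum_single, hsmul, sub_self])

@[simp] theorem lift_tmul {W : Type u} [AddCommGroup W] [Module A W]
    (β : P → (DA k A →ₗ[A] W)) (hadd : ∀ p q, β (p + q) = β p + β q)
    (hsmul : ∀ (a : A) (p : P) (x : DA k A), β (a • p) x = β p (DA.rsmul x a))
    (x : DA k A) (p : P) : lift β hadd hsmul (tmul x p) = β p x := by
  change (tensorRel k A P).liftQ (Finsupp.lsum ℕ β) _
    ((tensorRel k A P).mkQ (Finsupp.single p x)) = β p x
  rw [Submodule.mkQ_apply, Submodule.liftQ_apply, Finsupp.lsum_single]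

/-- The map `x ↦ x ⊗ p`. -/
def phi (p : P) : DA k A →ₗ[A] NT k A P where
  toFun x := tmul x p
  map_add' x y := tmul_add_left x y p
  map_smul' a x := (smul_tmul a x p).symm

@[simp] theorem phi_apply (p : P) (x : DA k A) : phi p x = tmul x p := rfl

theorem phi_add (p q : P) : (phi (p + q) : DA k A →ₗ[A] NT k A P) = phi p + phi q :=
  LinearMap.ext fun x => tmul_add_right x p q

theorem phi_smul (a : A) (p : P) :
    (phi (a • p) : DA k A →ₗ[A] NT k A P) = phi p ∘ₗ DA.rmul a :=
  LinearMap.ext fun x => tmul_smul x a p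

variable {P' P'' : Type u} [AddCommGroup P'] [Module A P'] [AddCommGroup P''] [Module A P'']

/-- Functoriality of the tensor product. -/
def map (f : P →ₗ[A] P') : NT k A P →ₗ[A] NT k A P' :=
  lift (fun p => phi (f p)) (fun p q => by rw [map_add, phi_add])
    (fun a p x => by rw [map_smul, phi_smul]; rfl)

@[simp] theorem map_tmul (f : P →ₗ[A] P') (x : DA k A) (p : P) :
    map f (tmul x p) = tmul x (f p) := by
  simp [map]

theorem map_comp (g : P' →ₗ[A] P'') (f : P →ₗ[A] P') :
    (map (g ∘ₗ f) : NT k A P →ₗ[A] NT k A P'') = map g ∘ₗ map f :=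
  hom_ext fun x p => by simp

theorem map_id : (map (LinearMap.id : P →ₗ[A] P) : NT k A P →ₗ[A] NT k A P) = LinearMap.id :=
  hom_ext fun x p => by simp

theorem map_zero' : (map (0 : P →ₗ[A] P') : NT k A P →ₗ[A] NT k A P') = 0 :=
  hom_ext fun x p => by simp [tmul_zero_right]

theorem map_comp_phi (f : P →ₗ[A] P') (p : P) :
    (map f ∘ₗ phi p : DA k A →ₗ[A] NT k A P') = phi (f p) :=
  LinearMap.ext fun x => by simp

/-! ### Free modules -/

section Free

variable (J : Type u)

/-- For `p` in the free module on `J`, the map `x ↦ (x ◁ p_j)_j` from `DA` to `DA^(J)`. -/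
def psi (p : J →₀ A) : DA k A →ₗ[A] (J →₀ DA k A) where
  toFun x := p.mapRange (DA.rsmul x) (DA.rsmul_zero x)
  map_add' x y := by
    ext j : 1
    simp [DA.add_rsmul]
  map_smul' a x := by
    ext j : 1
    simp [DA.smul_rsmul]

@[simp] theorem psi_apply (p : J →₀ A) (x : DA k A) (j : J) :
    psi J p x j = DA.rsmul x (p j) := rfl

/-- The map from `DA ⊗_A A^(J)` to `DA^(J)`. -/
def toFree : NT k A (J →₀ A) →ₗ[A] (J →₀ DA k A) :=
  lift (psi J)
    (fun p q => by
      apply LinearMap.ext
      intro x
      ext j : 1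
      simp [DA.rsmul_add])
    (fun a p x => by
      ext j : 1
      simp [DA.rsmul_mul])

@[simp] theorem toFree_tmul (x : DA k A) (p : J →₀ A) : toFree J (tmul x p) = psi J p x := by
  simp [toFree]

/-- The map from `DA^(J)` to `DA ⊗_A A^(J)`. -/
def ofFree : (J →₀ DA k A) →ₗ[A] NT k A (J →₀ A) :=
  Finsupp.lsum ℕ (fun j => phi (Finsupp.single j (1 : A)))

@[simp] theorem ofFree_single (j : J) (x : DA k A) :
    ofFree J (Finsupp.single j x) = tmul x (Finsupp.single j (1 : A)) := by
  rw [ofFree, Finsupp.lsum_single]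
  rfl

theorem toFree_ofFree (v : J →₀ DA k A) : toFree J (ofFree J v) = v := by
  have h : (toFree J ∘ₗ ofFree J : (J →₀ DA k A) →ₗ[A] (J →₀ DA k A)) = LinearMap.id := by
    apply Finsupp.lhom_ext
    intro j x
    ext j' : 1
    by_cases hj : j = j'
    · subst hj; simp
    · simp [hj]
  exact congrArg (fun ψ : (J →₀ DA k A) →ₗ[A] (J →₀ DA k A) => ψ v) h

theorem ofFree_psi (p : J →₀ A) (x : DA k A) : ofFree J (psi J p x) = tmul x p := by
  classical
  have h1 : psi J p x = ∑ j ∈ p.support, Finsupp.single j (DA.rsmul x (p j)) := by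
    ext j : 1
    rw [Finsupp.finsetSum_apply]
    simp only [psi_apply, Finsupp.single_apply]
    rw [Finset.sum_ite_eq']
    by_cases hj : j ∈ p.support
    · rw [if_pos hj]
    · rw [if_neg hj, Finsupp.notMem_support_iff.mp hj, DA.rsmul_zero]
  rw [h1, map_sum]
  have h2 : ∀ j ∈ p.support, ofFree J (Finsupp.single j (DA.rsmul x (p j))) =
      tmul x (Finsupp.single j (p j)) := by
    intro j _
    rw [ofFree_single, ← tmul_smul, Finsupp.smul_single, smul_eq_mul, mul_one]
  rw [Finset.sum_congr rfl h2]
  let T : (J →₀ A) →+ NT k A (J →₀ A) := AddMonoidHom.mk' (fun q => tmul x q) (tmul_add_right x)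
  have h3 : ∀ q, T q = tmul x q := fun _ => rfl
  have h4 : ∑ j ∈ p.support, tmul x (Finsupp.single j (p j)) =
      T (∑ j ∈ p.support, Finsupp.single j (p j)) := by
    rw [map_sum]
    rfl
  rw [h4, h3]
  congr 1
  exact Finsupp.sum_single p

theorem ofFree_toFree (z : NT k A (J →₀ A)) : ofFree J (toFree J z) = z := by
  have h : (ofFree J ∘ₗ toFree J : NT k A (J →₀ A) →ₗ[A] NT k A (J →₀ A)) = LinearMap.id :=
    hom_ext fun x p => by simp [ofFree_psi]
  exact congrArg (fun ψ : NT k A (J →₀ A) →ₗ[A] NT k A (J →₀ A) => ψ z) h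

/-- `DA ⊗_A A^(J) ≃ DA^(J)`. -/
def freeEquiv : NT k A (J →₀ A) ≃ₗ[A] (J →₀ DA k A) :=
  { toFree J with
    invFun := ofFree J
    left_inv := ofFree_toFree J
    right_inv := toFree_ofFree J }

variable [Module.Finite k A]

theorem injective_free : Module.Injective A (NT k A (J →₀ A)) := by
  have : IsArtinianRing A := IsArtinianRing.of_finite k A
  have : Module.Injective A (J →₀ DA k A) := injective_finsupp J (DA k A)
  exact injective_of_equiv (freeEquiv J)

theorem phi_injective_free (p : J →₀ A) (h : (phi p : DA k A →ₗ[A] NT k A (J →₀ A)) = 0) :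
    p = 0 := by
  ext j
  apply DA.eq_zero_of_forall_rsmul (k := k)
  intro ξ
  have h1 : toFree J (phi p ξ) = 0 := by rw [h]; simp
  rw [phi_apply, toFree_tmul] at h1
  exact congrArg (fun v : J →₀ DA k A => v j) h1

theorem phi_surjective_free (φ : DA k A →ₗ[A] NT k A (J →₀ A)) : ∃ p : J →₀ A, phi p = φ := by
  classical
  let φ' : DA k A →ₗ[A] (J →₀ DA k A) := toFree J ∘ₗ φ
  have hex : ∀ j, ∃ a : A, ∀ ξ, (Finsupp.lapply j ∘ₗ φ') ξ = DA.rsmul ξ a :=
    fun j => DA.exists_rmul (Finsupp.lapply j ∘ₗ φ')
  choose a ha using hex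
  obtain ⟨t, ht⟩ := (Module.Finite.fg_top : (⊤ : Submodule A (DA k A)).FG)
  let S : Finset J := t.biUnion (fun ξ => (φ' ξ).support)
  have hS : ∀ j, a j ≠ 0 → j ∈ S := by
    intro j hj
    by_contra hjS
    apply hj
    apply DA.eq_zero_of_forall_rsmul (k := k)
    have h0 : (Finsupp.lapply j ∘ₗ φ' : DA k A →ₗ[A] DA k A) = 0 := by
      apply LinearMap.ext_on ht
      intro ξ hξ
      have : j ∉ (φ' ξ).support := fun h => hjS (Finset.mem_biUnion.mpr ⟨ξ, hξ, h⟩)
      simpa using Finsupp.notMem_support_iff.mp this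
    intro ξ
    rw [← ha j ξ, h0]
    rfl
  let p : J →₀ A := Finsupp.onFinset S a hS
  have hp : psi J p = φ' := by
    apply LinearMap.ext
    intro ξ
    ext j : 1
    rw [psi_apply, Finsupp.onFinset_apply, ← ha j ξ]
    rfl
  refine ⟨p, ?_⟩
  apply LinearMap.ext
  intro ξ
  have h1 : φ ξ = ofFree J (φ' ξ) := (ofFree_toFree J (φ ξ)).symm
  rw [h1, ← hp, ofFree_psi]
  rfl

end Free

/-! ### Projective modules -/

section Projective

variable [Module.Finite k A] (P)
variable {P' : Type u} [AddCommGroup P'] [Module A P']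

theorem exists_free_retract [Module.Projective A P] :
    ∃ (i : P →ₗ[A] (P →₀ A)) (r : (P →₀ A) →ₗ[A] P), r ∘ₗ i = LinearMap.id := by
  obtain ⟨i, hi⟩ := Module.projective_lifting_property (Finsupp.linearCombination A
    (id : P → P)) LinearMap.id (Finsupp.linearCombination_id_surjective A P)
  exact ⟨i, _, hi⟩

/-- `DA ⊗_A P` is injective for projective `P`. -/
theorem injective_of_projective [Module.Projective A P] : Module.Injective A (NT k A P) := by
  obtain ⟨i, r, hri⟩ := exists_free_retract (A := A) P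
  have : Module.Injective A (NT k A (P →₀ A)) := injective_free P
  refine injective_of_retract (map i) (map r) (fun z => ?_)
  have h : (map r ∘ₗ map i : NT k A P →ₗ[A] NT k A P) = LinearMap.id := by
    rw [← map_comp, hri, map_id]
  exact congrArg (fun ψ : NT k A P →ₗ[A] NT k A P => ψ z) h

variable {P}

theorem phi_injective [Module.Projective A P] (p : P)
    (h : (phi p : DA k A →ₗ[A] NT k A P) = 0) : p = 0 := by
  obtain ⟨i, r, hri⟩ := exists_free_retract (A := A) P
  have h1 : (phi (i p) : DA k A →ₗ[A] NT k A (P →₀ A)) = 0 := by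
    rw [← map_comp_phi, h, LinearMap.comp_zero]
  have h2 : i p = 0 := phi_injective_free P (i p) h1
  have h3 : r (i p) = p := congrArg (fun ψ : P →ₗ[A] P => ψ p) hri
  rw [← h3, h2, map_zero]

theorem phi_eq_iff [Module.Projective A P] (p q : P) :
    (phi p : DA k A →ₗ[A] NT k A P) = phi q ↔ p = q := by
  constructor
  · intro h
    have h2 : (phi (p - q) : DA k A →ₗ[A] NT k A P) + phi q = phi q := by
      rw [← phi_add, sub_add_cancel]
      exact h
    have h1 : (phi (p - q) : DA k A →ₗ[A] NT k A P) = 0 := add_eq_right.mp h2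
    exact sub_eq_zero.mp (phi_injective (p - q) h1)
  · intro h
    rw [h]

theorem phi_surjective [Module.Projective A P] (φ : DA k A →ₗ[A] NT k A P) :
    ∃ p : P, phi p = φ := by
  obtain ⟨i, r, hri⟩ := exists_free_retract (A := A) P
  obtain ⟨q, hq⟩ := phi_surjective_free P (map i ∘ₗ φ)
  refine ⟨r q, ?_⟩
  rw [← map_comp_phi, hq, ← LinearMap.comp_assoc, ← map_comp, hri, map_id, LinearMap.id_comp]

/-- If `DA ⊗_A D` is injective for a linear map `D` between projective modules, then `D` is a
split monomorphism. -/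
theorem exists_retraction_of_map_injective [Module.Projective A P] [Module.Projective A P']
    (D : P →ₗ[A] P') (h : Injective (map D : NT k A P →ₗ[A] NT k A P')) :
    ∃ ρ : P' →ₗ[A] P, ∀ p, ρ (D p) = p := by
  have : Module.Injective A (NT k A P) := injective_of_projective (k := k) (A := A) P
  obtain ⟨r, hr⟩ := exists_extension (map D : NT k A P →ₗ[A] NT k A P') h
    (LinearMap.id : NT k A P →ₗ[A] NT k A P)
  have hex : ∀ p' : P', ∃ p : P, (phi p : DA k A →ₗ[A] NT k A P) = r ∘ₗ phi p' :=
    fun p' => phi_surjective _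
  choose ρ hρ using hex
  have hadd : ∀ p q : P', ρ (p + q) = ρ p + ρ q := by
    intro p q
    rw [← phi_eq_iff (k := k) (A := A), phi_add, hρ, hρ, hρ, phi_add, LinearMap.comp_add]
  have hsmul : ∀ (a : A) (p : P'), ρ (a • p) = a • ρ p := by
    intro a p
    rw [← phi_eq_iff (k := k) (A := A), phi_smul, hρ, hρ, phi_smul, LinearMap.comp_assoc]
  refine ⟨{ toFun := ρ, map_add' := hadd, map_smul' := hsmul }, fun p => ?_⟩
  change ρ (D p) = p
  rw [← phi_eq_iff (k := k) (A := A), hρ, ← map_comp_phi, ← LinearMap.comp_assoc]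
  apply LinearMap.ext
  intro x
  exact hr _

end Projective

end NT

end Tensor

end Vale.Agent.Helper2.Rk
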