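import Mathlib
import Vale.Agent.Helper2.ITFitting
import Vale.Agent.Helper2.RkDual
import Vale.Agent.Helper2.RkTensor
import Vale.Agent.Helper2.RkIface

/-!
# Injective generation and the finitistic dimension (helper module for P176)

This file proves a theorem of J. Rickard: if the injective modules generate the unbounded
derived category of a finite-dimensional algebra `A` as a localizing subcategory, then the
big finitistic dimension of `A` is finite.
-/

universe w u

open Function CategoryTheory

set_option linter.unusedSectionVars false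

namespace Vale.Agent.Helper2.Rk

open Vale.Agent.Helper2.IT

/-! ### The canonical free resolution -/

noncomputable section Resolution

variable {A : Type u} [Ring A]

/-- The canonical free cover of a module. -/
def cov (M : Type u) [AddCommGroup M] [Module A M] : (M →₀ A) →ₗ[A] M :=
  Finsupp.linearCombination A id

theorem cov_surjective (M : Type u) [AddCommGroup M] [Module A M] :
    Surjective (cov (A := A) M) :=
  Finsupp.linearCombination_id_surjective A M

/-- The canonical syzygies of a module. -/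
def syz (M : ModuleCat.{u} A) : ℕ → ModuleCat.{u} A
  | 0 => M
  | j + 1 => ModuleCat.of A (LinearMap.ker (cov (A := A) (syz M j)))

theorem syz_succ' (M : ModuleCat.{u} A) (n : ℕ) : syz M (n + 1) = syz (syz M 1) n := by
  induction n with
  | zero => rfl
  | succ n ih =>
    change ModuleCat.of A (LinearMap.ker (cov (A := A) (syz M (n + 1)))) =
      ModuleCat.of A (LinearMap.ker (cov (A := A) (syz (syz M 1) n)))
    rw [ih]

theorem isSyzygy_syz (n : ℕ) : ∀ M : ModuleCat.{u} A, Delooping.IsSyzygy n M (syz M n) := by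
  induction n with
  | zero =>
    intro M
    exact ⟨Iso.refl _⟩
  | succ n ih =>
    intro M
    have hc : Surjective (cov (A := A) M) := Finsupp.linearCombination_id_surjective A M
    have hs := isSES_ker (cov (A := A) M) hc
    have h1 : Delooping.IsSyzygy n (syz M 1) (syz M (n + 1)) := by
      rw [syz_succ' M n]
      exact ih (syz M 1)
    have h2 : Projective (ModuleCat.of A (M →₀ A)) :=
      (IsProjective.iff_projective (R := A) (M →₀ A)).mp inferInstance
    exact ⟨ModuleCat.shortComplexOfCompEqZero (LinearMap.ker (cov (A := A) M)).subtype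
      (cov (A := A) M) hs.comp_eq_zero, hs.shortExact, h2, ⟨Iso.refl _⟩, h1⟩

/-- If `pd M ≤ c + n` then the `n`-th canonical syzygy has `pd ≤ c`. -/
theorem pdLE_syz (M : ModuleCat.{u} A) (n c : ℕ) (h : PdLE M (c + n)) : PdLE (syz M n) c := by
  intro N j hj z
  exact Delooping.ext_syzygy_eq_zero n M (syz M n) (isSyzygy_syz n M) j (by omega) (j + n) rfl
    (fun x => h N (j + n) (by omega) x) z

/-- If the `n`-th canonical syzygy has `pd ≤ c` then `pd M ≤ c + n`. -/
theorem pdLE_of_syz (M : ModuleCat.{u} A) (n c : ℕ) (h : PdLE (syz M n) c) :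
    PdLE M (c + n) := by
  intro N j hj z
  exact Delooping.ext_eq_zero_of_syzygy n M (syz M n) (isSyzygy_syz n M) (j - n) (by omega)
    (fun x => h N (j - n) (by omega) x) j (by omega) z

/-- The differential of the canonical free resolution. -/
def delta (M : ModuleCat.{u} A) (j : ℕ) : (syz M (j + 1) →₀ A) →ₗ[A] (syz M j →₀ A) :=
  (LinearMap.ker (cov (A := A) (syz M j))).subtype ∘ₗ cov (A := A) (syz M (j + 1))

/-- The differential of the canonical free resolution between arbitrary positions. -/
def dG (M : ModuleCat.{u} A) (i j : ℕ) : (syz M i →₀ A) →ₗ[A] (syz M j →₀ A) :=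
  if h : i = j + 1 then by
    subst h
    exact delta M j
  else 0

theorem dG_succ (M : ModuleCat.{u} A) (j : ℕ) : dG M (j + 1) j = delta M j := by
  simp [dG]

theorem dG_of_ne (M : ModuleCat.{u} A) {i j : ℕ} (h : i ≠ j + 1) : dG M i j = 0 := by
  simp [dG, h]

theorem delta_comp (M : ModuleCat.{u} A) (j : ℕ) : delta M j ∘ₗ delta M (j + 1) = 0 := by
  apply LinearMap.ext
  intro x
  have h1 : cov (A := A) (syz M (j + 1))
      ((LinearMap.ker (cov (A := A) (syz M (j + 1)))).subtype
        (cov (A := A) (syz M (j + 2)) x)) = 0 :=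
    (cov (A := A) (syz M (j + 2)) x).2
  change (LinearMap.ker (cov (A := A) (syz M j))).subtype (cov (A := A) (syz M (j + 1))
    ((LinearMap.ker (cov (A := A) (syz M (j + 1)))).subtype
      (cov (A := A) (syz M (j + 2)) x))) = 0
  rw [h1]
  rfl

theorem dG_comp (M : ModuleCat.{u} A) (i j l : ℕ) : dG M j l ∘ₗ dG M i j = 0 := by
  by_cases h1 : i = j + 1
  · by_cases h2 : j = l + 1
    · subst h2
      subst h1
      rw [dG_succ, dG_succ]
      exact delta_comp M l
    · rw [dG_of_ne M h2, LinearMap.zero_comp]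
  · rw [dG_of_ne M h1, LinearMap.comp_zero]

theorem delta_ker (M : ModuleCat.{u} A) (j : ℕ) (x : syz M (j + 1) →₀ A)
    (hx : delta M j x = 0) : cov (A := A) (syz M (j + 1)) x = 0 := by
  apply Subtype.val_injective
  exact hx

theorem dG_ker (M : ModuleCat.{u} A) (i j : ℕ) (h : i = j + 1) (x : syz M i →₀ A)
    (hx : dG M i j x = 0) : cov (A := A) (syz M i) x = 0 := by
  subst h
  rw [dG_succ] at hx
  exact delta_ker M j x hx

theorem dG_exact (M : ModuleCat.{u} A) (i j l : ℕ) (h1 : i = j + 1) (h2 : l = i + 1)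
    (x : syz M i →₀ A) (hx : dG M i j x = 0) : ∃ y : syz M l →₀ A, dG M l i y = x := by
  subst h1
  subst h2
  rw [dG_succ] at hx
  have hx' := delta_ker M j x hx
  obtain ⟨y, hy⟩ := cov_surjective (A := A) (syz M (j + 1 + 1)) ⟨x, hx'⟩
  refine ⟨y, ?_⟩
  rw [dG_succ]
  change (LinearMap.ker (cov (A := A) (syz M (j + 1)))).subtype
    (cov (A := A) (syz M (j + 1 + 1)) y) = x
  rw [hy]
  rfl

end Resolution

/-! ### The truncated resolution in cohomological degrees -/

noncomputable section Trunc

variable {A : Type u} [Ring A]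

/-- The terms of the truncated canonical resolution of `M`, placed in cohomological degrees:
the `(e+1)`-st syzygy in degree `0` and the free module on the `(e-m)`-th syzygy in degree
`m + 1`. -/
def Tm (M : ModuleCat.{u} A) (e : ℕ) : ℕ → ModuleCat.{u} A
  | 0 => syz M (e + 1)
  | m + 1 => ModuleCat.of A (syz M (e - m) →₀ A)

/-- The differentials of the truncated canonical resolution. -/
def TD (M : ModuleCat.{u} A) (e : ℕ) : ∀ m : ℕ, Tm M e m →ₗ[A] Tm M e (m + 1)
  | 0 => (LinearMap.ker (cov (A := A) (syz M e))).subtype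
  | m + 1 => dG M (e - m) (e - (m + 1))

theorem TD_comp (M : ModuleCat.{u} A) (e m : ℕ) : TD M e (m + 1) ∘ₗ TD M e m = 0 := by
  cases m with
  | zero =>
    cases e with
    | zero =>
      apply LinearMap.ext
      intro x
      change dG M 0 0 ((LinearMap.ker (cov (A := A) (syz M 0))).subtype x) = 0
      rw [dG_of_ne M (by omega)]
      rfl
    | succ e =>
      change dG M (e + 1) e ∘ₗ (LinearMap.ker (cov (A := A) (syz M (e + 1)))).subtype = 0
      rw [dG_succ]
      apply LinearMap.ext
      intro x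
      have h1 : cov (A := A) (syz M (e + 1)) x.1 = 0 := x.2
      change (LinearMap.ker (cov (A := A) (syz M e))).subtype
        (cov (A := A) (syz M (e + 1)) x.1) = 0
      rw [h1]
      rfl
  | succ m => exact dG_comp M _ _ _

theorem TD_zero_injective (M : ModuleCat.{u} A) (e : ℕ) : Injective (TD M e 0) :=
  Subtype.val_injective

theorem TD_exact (M : ModuleCat.{u} A) (e m : ℕ) (hm : m + 1 ≤ e) (x : Tm M e (m + 1))
    (hx : TD M e (m + 1) x = 0) : ∃ y : Tm M e m, TD M e m y = x := by
  cases m with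
  | zero =>
    have h1 : cov (A := A) (syz M e) x = 0 := dG_ker M e (e - 1) (by omega) x hx
    exact ⟨⟨x, h1⟩, rfl⟩
  | succ m =>
    exact dG_exact M (e - (m + 1)) (e - (m + 1 + 1)) (e - m) (by omega) (by omega) x hx

theorem projective_Tm (M : ModuleCat.{u} A) (e : ℕ)
    (h : Module.Projective A (syz M (e + 1))) (m : ℕ) : Module.Projective A (Tm M e m) := by
  cases m with
  | zero => exact h
  | succ m =>
    change Module.Projective A (syz M (e - m) →₀ A)
    infer_instance

/-- A surjection from a projective module whose kernel is a direct summand has a projective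
target. -/
theorem projective_of_retraction {F N : Type u} [AddCommGroup F] [Module A F] [AddCommGroup N]
    [Module A N] [Module.Projective A F] (π : F →ₗ[A] N) (hπ : Surjective π)
    (ρ : F →ₗ[A] LinearMap.ker π) (hρ : ∀ x : LinearMap.ker π, ρ x.1 = x) :
    Module.Projective A N := by
  let s₀ : F →ₗ[A] F := LinearMap.id - (LinearMap.ker π).subtype ∘ₗ ρ
  have hs₀ : LinearMap.ker π ≤ LinearMap.ker s₀ := by
    intro x hx
    have := hρ ⟨x, hx⟩
    simp only [LinearMap.mem_ker, s₀, LinearMap.sub_apply, LinearMap.id_apply,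
      LinearMap.comp_apply, Submodule.subtype_apply]
    rw [this, sub_self]
  let σ : N →ₗ[A] F := (LinearMap.ker π).liftQ s₀ hs₀ ∘ₗ
    (π.quotKerEquivOfSurjective hπ).symm.toLinearMap
  refine Module.Projective.of_split σ π ?_
  apply LinearMap.ext
  intro n
  obtain ⟨f, rfl⟩ := hπ n
  have h1 : (π.quotKerEquivOfSurjective hπ).symm (π f) = (LinearMap.ker π).mkQ f := by
    rw [LinearEquiv.symm_apply_eq]
    rfl
  change π ((LinearMap.ker π).liftQ s₀ hs₀ ((π.quotKerEquivOfSurjective hπ).symm (π f))) = π f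
  rw [h1, Submodule.mkQ_apply, Submodule.liftQ_apply]
  simp only [s₀, LinearMap.sub_apply, LinearMap.id_apply, LinearMap.comp_apply,
    Submodule.subtype_apply, map_sub]
  have h2 : π (ρ f).1 = 0 := (ρ f).2
  rw [h2, sub_zero]

end Trunc

/-! ### The complex of injective modules attached to a family of modules -/

noncomputable section Family

variable (k A : Type u) [Field k] [Ring A] [Algebra k A]
variable (M : ℕ → ModuleCat.{u} A) (e : ℕ → ℕ)

/-- The Nakayama functor applied to the terms of the truncated resolution of `M i`. -/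
abbrev E (i m : ℕ) : Type u := NT k A (Tm (M i) (e i) m)

/-- The differential of the complex `E i`. -/
def ED (i m : ℕ) : E k A M e i m →ₗ[A] E k A M e i (m + 1) := NT.map (TD (M i) (e i) m)

theorem ED_comp (i m : ℕ) : ED k A M e i (m + 1) ∘ₗ ED k A M e i m = 0 := by
  rw [ED, ED, ← NT.map_comp, TD_comp, NT.map_zero']

theorem ED_phi (i m : ℕ) (p : Tm (M i) (e i) m) :
    ED k A M e i m ∘ₗ NT.phi p = NT.phi (TD (M i) (e i) m p) :=
  NT.map_comp_phi _ p

/-- The product of the complexes `E i`. -/
abbrev V (m : ℕ) : Type u := ∀ i : ℕ, E k A M e i m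

/-- The differential of the product complex. -/
def dV (m : ℕ) : V k A M e m →ₗ[A] V k A M e (m + 1) :=
  LinearMap.pi (fun i => ED k A M e i m ∘ₗ LinearMap.proj i)

@[simp] theorem dV_apply (m : ℕ) (v : V k A M e m) (i : ℕ) :
    dV k A M e m v i = ED k A M e i m (v i) := rfl

/-- The finitely supported families: the direct sum of the complexes `E i`. -/
abbrev U (m : ℕ) : Submodule A (V k A M e m) := finSupp (A := A) (fun i => E k A M e i m)

theorem dV_mem (m : ℕ) : U k A M e m ≤ (U k A M e (m + 1)).comap (dV k A M e m) := by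
  rintro v ⟨S, hS⟩
  exact ⟨S, fun i hi => by rw [dV_apply, hS i hi, map_zero]⟩

/-- The quotient of the product by the direct sum. -/
abbrev Zq (m : ℕ) : Type u := V k A M e m ⧸ U k A M e m

/-- The differential of the quotient complex. -/
def dZ (m : ℕ) : Zq k A M e m →ₗ[A] Zq k A M e (m + 1) :=
  (U k A M e m).mapQ (U k A M e (m + 1)) (dV k A M e m) (dV_mem k A M e m)

theorem dZ_mk (m : ℕ) (v : V k A M e m) :
    dZ k A M e m ((U k A M e m).mkQ v) = (U k A M e (m + 1)).mkQ (dV k A M e m v) := rfl

theorem dZ_comp (m : ℕ) : dZ k A M e (m + 1) ∘ₗ dZ k A M e m = 0 := by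
  apply LinearMap.ext
  intro z
  obtain ⟨v, rfl⟩ := (U k A M e m).mkQ_surjective z
  change dZ k A M e (m + 1) (dZ k A M e m ((U k A M e m).mkQ v)) = 0
  rw [dZ_mk, dZ_mk]
  have h : dV k A M e (m + 1) (dV k A M e m v) = 0 := by
    funext i
    rw [dV_apply, dV_apply]
    exact congrArg (fun ψ : E k A M e i m →ₗ[A] E k A M e i (m + 1 + 1) => ψ (v i))
      (ED_comp k A M e i m)
  rw [h, map_zero]

variable [Module.Finite k A]

/-- A linear map from `DA` into the product which lands in the direct sum vanishes on all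
but finitely many components. -/
theorem exists_finset_of_mem (m : ℕ) (φ : DA k A →ₗ[A] V k A M e m)
    (h : ∀ x, φ x ∈ U k A M e m) : ∃ S : Finset ℕ, ∀ i, i ∉ S → ∀ x, φ x i = 0 := by
  classical
  obtain ⟨t, ht⟩ := (Module.Finite.fg_top : (⊤ : Submodule A (DA k A)).FG)
  choose Sx hSx using h
  refine ⟨t.biUnion Sx, fun i hi => ?_⟩
  have h0 : (LinearMap.proj i ∘ₗ φ : DA k A →ₗ[A] E k A M e i m) = 0 := by
    apply LinearMap.ext_on ht
    intro ξ hξ
    have : i ∉ Sx ξ := fun h' => hi (Finset.mem_biUnion.mpr ⟨ξ, hξ, h'⟩)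
    exact hSx ξ i this
  intro x
  exact congrArg (fun ψ : DA k A →ₗ[A] E k A M e i m => ψ x) h0

variable (hproj : ∀ i, Module.Projective A (syz (M i) (e i + 1)))

include hproj

theorem projective_T (i m : ℕ) : Module.Projective A (Tm (M i) (e i) m) :=
  projective_Tm (M i) (e i) (hproj i) m

theorem injective_E (i m : ℕ) : Module.Injective A (E k A M e i m) :=
  have := projective_T A M e hproj i m
  NT.injective_of_projective _

theorem injective_Zq (m : ℕ) : Module.Injective A (Zq k A M e m) :=
  have : IsArtinianRing A := IsArtinianRing.of_finite k A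
  injective_quot_finSupp (fun i => E k A M e i m) (fun i => injective_E k A M e hproj i m)

theorem exists_section (m : ℕ) : ∃ s : Zq k A M e m →ₗ[A] V k A M e m,
    ∀ z, (U k A M e m).mkQ (s z) = z :=
  have : IsArtinianRing A := IsArtinianRing.of_finite k A
  exists_section_quot_finSupp (fun i => E k A M e i m) (fun i => injective_E k A M e hproj i m)

/-- The complex `Zq` has a nonzero cocycle in degree `0`. -/
theorem exists_cocycle (hnot : ∀ i, ¬ Module.Projective A (syz (M i) (e i))) :
    ∃ z : Zq k A M e 0, z ≠ 0 ∧ dZ k A M e 0 z = 0 := by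
  have hx : ∀ i, ∃ x : E k A M e i 0, x ≠ 0 ∧ ED k A M e i 0 x = 0 := by
    intro i
    by_contra hcon
    have hinj : Injective (ED k A M e i 0) := by
      rw [injective_iff_map_eq_zero]
      intro x hx
      by_contra hx0
      exact hcon ⟨x, hx0, hx⟩
    have h0 := projective_T A M e hproj i 0
    have h1 := projective_T A M e hproj i 1
    obtain ⟨ρ, hρ⟩ := NT.exists_retraction_of_map_injective (k := k)
      (TD (M i) (e i) 0) hinj
    apply hnot i
    have hF : Module.Projective A (syz (M i) (e i) →₀ A) := inferInstance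
    exact projective_of_retraction (cov (A := A) (syz (M i) (e i)))
      (cov_surjective (A := A) (syz (M i) (e i))) ρ hρ
  choose x hx0 hx1 using hx
  refine ⟨(U k A M e 0).mkQ x, ?_, ?_⟩
  · intro h
    rw [Submodule.mkQ_apply, Submodule.Quotient.mk_eq_zero] at h
    obtain ⟨S, hS⟩ := h
    obtain ⟨i, hi⟩ := Infinite.exists_notMem_finset S
    exact hx0 i (hS i hi)
  · rw [dZ_mk]
    have h : dV k A M e 0 x = 0 := by
      funext i
      rw [dV_apply]
      exact hx1 i
    rw [h, map_zero]

/-- Cocycles `DA → Zq (m + 1)` are coboundaries. -/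
theorem orth_DA_succ (he : ∀ i, i ≤ e i) (m : ℕ) (f : DA k A →ₗ[A] Zq k A M e (m + 1))
    (hf : dZ k A M e (m + 1) ∘ₗ f = 0) :
    ∃ g : DA k A →ₗ[A] Zq k A M e m, dZ k A M e m ∘ₗ g = f := by
  classical
  obtain ⟨s, hs⟩ := exists_section k A M e hproj (m + 1)
  let f' : DA k A →ₗ[A] V k A M e (m + 1) := s ∘ₗ f
  have hf' : ∀ x, (U k A M e (m + 1)).mkQ (f' x) = f x := fun x => hs (f x)
  have hT1 := fun i => projective_T A M e hproj i (m + 1)
  have hT2 := fun i => projective_T A M e hproj i (m + 1 + 1)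
  have hp : ∀ i, ∃ p : Tm (M i) (e i) (m + 1),
      (NT.phi p : DA k A →ₗ[A] E k A M e i (m + 1)) = LinearMap.proj i ∘ₗ f' := fun i =>
    have := hT1 i
    NT.phi_surjective _
  choose p hp using hp
  have hd : ∀ x, (dV k A M e (m + 1) ∘ₗ f') x ∈ U k A M e (m + 1 + 1) := by
    intro x
    have h1 : dZ k A M e (m + 1) (f x) = 0 :=
      congrArg (fun ψ : DA k A →ₗ[A] Zq k A M e (m + 1 + 1) => ψ x) hf
    rw [← hf' x, dZ_mk] at h1
    exact (Submodule.Quotient.mk_eq_zero _).mp h1
  obtain ⟨S, hS⟩ := exists_finset_of_mem k A M e (m + 1 + 1) (dV k A M e (m + 1) ∘ₗ f') hd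
  have hcyc : ∀ i, i ∉ S → TD (M i) (e i) (m + 1) (p i) = 0 := by
    intro i hi
    have := hT2 i
    apply NT.phi_injective (k := k) (A := A)
    rw [← ED_phi, hp i]
    apply LinearMap.ext
    intro x
    exact hS i hi x
  have hq : ∀ i, ∃ q : Tm (M i) (e i) m,
      (i ∉ S ∧ m + 1 ≤ i) → TD (M i) (e i) m q = p i := by
    intro i
    by_cases h : i ∉ S ∧ m + 1 ≤ i
    · obtain ⟨q, hq⟩ := TD_exact (M i) (e i) m (le_trans h.2 (he i)) (p i) (hcyc i h.1)
      exact ⟨q, fun _ => hq⟩
    · exact ⟨0, fun h' => absurd h' h⟩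
  choose q hq using hq
  let g' : DA k A →ₗ[A] V k A M e m := LinearMap.pi (fun i => NT.phi (q i))
  refine ⟨(U k A M e m).mkQ ∘ₗ g', ?_⟩
  apply LinearMap.ext
  intro x
  change dZ k A M e m ((U k A M e m).mkQ (g' x)) = f x
  rw [dZ_mk, ← hf' x, Submodule.mkQ_apply, Submodule.mkQ_apply, Submodule.Quotient.eq]
  refine ⟨S ∪ Finset.range (m + 1), fun i hi => ?_⟩
  rw [Finset.mem_union, not_or, Finset.mem_range, not_lt] at hi
  have h1 : (dV k A M e m (g' x) - f' x) i =
      ED k A M e i m (NT.phi (q i) x) - (LinearMap.proj i ∘ₗ f') x := rfl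
  rw [h1, ← hp i, ← LinearMap.comp_apply, ED_phi, hq i hi, sub_self]

/-- Cocycles `DA → Zq 0` vanish. -/
theorem orth_DA_zero (f : DA k A →ₗ[A] Zq k A M e 0) (hf : dZ k A M e 0 ∘ₗ f = 0) :
    f = 0 := by
  classical
  obtain ⟨s, hs⟩ := exists_section k A M e hproj 0
  let f' : DA k A →ₗ[A] V k A M e 0 := s ∘ₗ f
  have hf' : ∀ x, (U k A M e 0).mkQ (f' x) = f x := fun x => hs (f x)
  have hT0 := fun i => projective_T A M e hproj i 0
  have hT1 := fun i => projective_T A M e hproj i 1
  have hp : ∀ i, ∃ p : Tm (M i) (e i) 0,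
      (NT.phi p : DA k A →ₗ[A] E k A M e i 0) = LinearMap.proj i ∘ₗ f' := fun i =>
    have := hT0 i
    NT.phi_surjective _
  choose p hp using hp
  have hd : ∀ x, (dV k A M e 0 ∘ₗ f') x ∈ U k A M e 1 := by
    intro x
    have h1 : dZ k A M e 0 (f x) = 0 :=
      congrArg (fun ψ : DA k A →ₗ[A] Zq k A M e 1 => ψ x) hf
    rw [← hf' x, dZ_mk] at h1
    exact (Submodule.Quotient.mk_eq_zero _).mp h1
  obtain ⟨S, hS⟩ := exists_finset_of_mem k A M e 1 (dV k A M e 0 ∘ₗ f') hd
  have hcyc : ∀ i, i ∉ S → p i = 0 := by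
    intro i hi
    apply TD_zero_injective (M i) (e i)
    rw [map_zero]
    have := hT1 i
    apply NT.phi_injective (k := k) (A := A)
    rw [← ED_phi, hp i]
    apply LinearMap.ext
    intro x
    exact hS i hi x
  apply LinearMap.ext
  intro x
  rw [← hf' x, LinearMap.zero_apply, Submodule.mkQ_apply, Submodule.Quotient.mk_eq_zero]
  refine ⟨S, fun i hi => ?_⟩
  have h1 : f' x i = (LinearMap.proj i ∘ₗ f') x := rfl
  rw [h1, ← hp i, hcyc i hi]
  exact NT.tmul_zero_right x

/-- Cocycles from an injective module to `Zq (m + 1)` are coboundaries. -/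
theorem orth_succ (he : ∀ i, i ≤ e i) (I : Type u) [AddCommGroup I] [Module A I]
    [Module.Injective A I] (m : ℕ) (f : I →ₗ[A] Zq k A M e (m + 1))
    (hf : dZ k A M e (m + 1) ∘ₗ f = 0) :
    ∃ g : I →ₗ[A] Zq k A M e m, dZ k A M e m ∘ₗ g = f := by
  obtain ⟨J, ι, ρ, hρ⟩ := DA.exists_retract_of_injective (k := k) (A := A) I
  have hg : ∀ j : J, ∃ g : DA k A →ₗ[A] Zq k A M e m,
      dZ k A M e m ∘ₗ g = f ∘ₗ ρ ∘ₗ Finsupp.lsingle j := by
    intro j
    apply orth_DA_succ k A M e hproj he m
    rw [← LinearMap.comp_assoc, hf, LinearMap.zero_comp]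
  choose g hg using hg
  let G : (J →₀ DA k A) →ₗ[A] Zq k A M e m := Finsupp.lsum ℕ g
  have hG : dZ k A M e m ∘ₗ G = f ∘ₗ ρ := by
    apply Finsupp.lhom_ext
    intro j x
    have h1 := congrArg (fun ψ : DA k A →ₗ[A] Zq k A M e (m + 1) => ψ x) (hg j)
    simpa [G] using h1
  refine ⟨G ∘ₗ ι, ?_⟩
  rw [← LinearMap.comp_assoc, hG]
  apply LinearMap.ext
  intro x
  simp [hρ x]

/-- Cocycles from an injective module to `Zq 0` vanish. -/
theorem orth_zero (I : Type u) [AddCommGroup I] [Module A I] [Module.Injective A I]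
    (f : I →ₗ[A] Zq k A M e 0) (hf : dZ k A M e 0 ∘ₗ f = 0) : f = 0 := by
  obtain ⟨J, ι, ρ, hρ⟩ := DA.exists_retract_of_injective (k := k) (A := A) I
  have h0 : f ∘ₗ ρ = 0 := by
    apply Finsupp.lhom_ext
    intro j x
    have h1 : f ∘ₗ ρ ∘ₗ Finsupp.lsingle j = 0 := by
      apply orth_DA_zero k A M e hproj
      rw [← LinearMap.comp_assoc, hf, LinearMap.zero_comp]
    exact congrArg (fun ψ : DA k A →ₗ[A] Zq k A M e 0 => ψ x) h1
  apply LinearMap.ext
  intro x
  have h2 := congrArg (fun ψ : (J →₀ DA k A) →ₗ[A] Zq k A M e 0 => ψ (ι x)) h0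
  simpa [hρ x] using h2

end Family

/-! ### The theorem -/

section Final

variable (A : Type u) [Ring A]

theorem exists_family
    (hunb : ∀ d : ℕ, ∃ M : ModuleCat.{u} A,
      (∃ m : ℕ, HasProjectiveDimensionLE M m) ∧ ¬ HasProjectiveDimensionLE M d) :
    ∃ (M : ℕ → ModuleCat.{u} A) (e : ℕ → ℕ), (∀ i, i ≤ e i) ∧
      (∀ i, Module.Projective A (syz (M i) (e i + 1))) ∧
      (∀ i, ¬ Module.Projective A (syz (M i) (e i))) := by
  classical
  have key : ∀ i : ℕ, ∃ (M : ModuleCat.{u} A) (e : ℕ), i ≤ e ∧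
      Module.Projective A (syz M (e + 1)) ∧ ¬ Module.Projective A (syz M e) := by
    intro i
    obtain ⟨M, ⟨m, hm⟩, hnot⟩ := hunb i
    have hex : ∃ n, PdLE M n := ⟨m, (pdLE_iff M m).mpr hm⟩
    have hn : PdLE M (Nat.find hex) := Nat.find_spec hex
    have hmin : ∀ n', n' < Nat.find hex → ¬ PdLE M n' := fun n' h => Nat.find_min hex h
    have hni : i < Nat.find hex := by
      by_contra hcon
      exact hnot ((pdLE_iff M i).mp (hn.mono (by omega)))
    obtain ⟨e, he⟩ : ∃ e, Nat.find hex = e + 1 := ⟨Nat.find hex - 1, by omega⟩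
    refine ⟨M, e, by omega, ?_, ?_⟩
    · apply projective_of_pdLE_zero
      apply pdLE_syz M (e + 1) 0
      rw [zero_add, ← he]
      exact hn
    · intro hproj
      apply hmin e (by omega)
      have h0 := pdLE_of_syz M e 0 (pdLE_of_projective hproj 0)
      rwa [zero_add] at h0
  choose M e h1 h2 h3 using key
  exact ⟨M, e, h1, h2, h3⟩

/-- Rickard's theorem: if the injective modules generate the derived category of a
finite-dimensional algebra as a localizing subcategory, then its big finitistic dimension is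
finite. -/
theorem findim_of_injectives_generate (k : Type u) [Field k] [Algebra k A] [Module.Finite k A]
    [HasDerivedCategory.{w} (ModuleCat.{u} A)]
    (hgen : ∀ (P : ObjectProperty (DerivedCategory (ModuleCat.{u} A))) [P.IsTriangulated]
      [P.IsClosedUnderIsomorphisms],
      (∀ (J : Type u) (X : J → DerivedCategory (ModuleCat.{u} A)) (c : Limits.Cofan X),
        Limits.IsColimit c → (∀ j, P (X j)) → P c.pt) →
      (∀ I : ModuleCat.{u} A, Injective I →
        P ((DerivedCategory.singleFunctor (ModuleCat.{u} A) 0).obj I)) →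
      ∀ X, P X) :
    ∃ d : ℕ, ∀ M : ModuleCat.{u} A,
      (∃ m : ℕ, HasProjectiveDimensionLE M m) → HasProjectiveDimensionLE M d := by
  by_contra hcon
  have hunb : ∀ d : ℕ, ∃ M : ModuleCat.{u} A,
      (∃ m : ℕ, HasProjectiveDimensionLE M m) ∧ ¬ HasProjectiveDimensionLE M d := by
    intro d
    by_contra h
    apply hcon
    refine ⟨d, fun M hM => ?_⟩
    by_contra h'
    exact h ⟨M, hM, h'⟩
  obtain ⟨M, e, he, hproj, hnot⟩ := exists_family A hunb
  obtain ⟨z, hz, hdz⟩ := exists_cocycle k A M e hproj hnot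
  refine not_injGen_of_nat (fun m => ModuleCat.of A (Zq k A M e m))
    (fun m => ModuleCat.ofHom (dZ k A M e m)) ?_ ?_ z hz hdz ?_ ?_ hgen
  · intro m
    rw [← ModuleCat.ofHom_comp, dZ_comp]
    rfl
  · intro m
    have := injective_Zq k A M e hproj m
    exact Module.injective_object_of_injective_module A _
  · intro I hI f hf
    have hI' : Module.Injective A I := Module.injective_module_of_injective_object A I
    have h1 : dZ k A M e 0 ∘ₗ f.hom = 0 := congrArg ModuleCat.Hom.hom hf
    exact ModuleCat.hom_ext (orth_zero k A M e hproj I f.hom h1)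
  · intro I hI m f hf
    have hI' : Module.Injective A I := Module.injective_module_of_injective_object A I
    have h1 : dZ k A M e (m + 1) ∘ₗ f.hom = 0 := congrArg ModuleCat.Hom.hom hf
    obtain ⟨g, hg⟩ := orth_succ k A M e hproj he I m f.hom h1
    exact ⟨ModuleCat.ofHom g, ModuleCat.hom_ext hg⟩

end Final

end Vale.Agent.Helper2.Rk
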