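import Mathlib
import Vale.Agent.Helper2.ITLayers

/-!
# Left-right symmetry of finite finitistic dimension (helper module for P176)

This file contains the ingredients of the reduction of the finitistic dimension conjecture
to its left-right symmetric form:

* a Bass type lemma: over a left Artinian ring `B` with a family of elements killing the
  radical from the left whose common right annihilator is contained in the radical, every
  finitely generated module of finite projective dimension is projective;
* restriction of scalars along a surjective ring homomorphism `S' → S` for which `S` is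
  projective over `S'` preserves and reflects projective dimensions, so that a bound for
  the finitistic dimension of `S'` gives one for `S`;
* the triangular algebra `TB k R`, with underlying vector space `(k × k) × (R / rad R × R)`,
  to which the Bass type lemma applies and whose opposite algebra maps onto the opposite
  of `R` with projective image.
-/

universe u

set_option linter.unusedSectionVars false

open Function CategoryTheory

namespace Vale.Agent.Helper2.Sym

open Vale.Agent.Helper2.IT

/-! ### A Bass type lemma -/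

section Bass

variable {B : Type u} [Ring B]

/-- A finitely generated projective module annihilated by a family of elements whose common
right annihilator lies in the radical is zero. -/
theorem eq_zero_of_projective_killed (Sg : Set B)
    (hK2 : ∀ t : B, (∀ s ∈ Sg, s * t = 0) → t ∈ Ring.jacobson B)
    (N : Type u) [AddCommGroup N] [Module B N] [Module.Finite B N] [Module.Projective B N]
    (hN : ∀ s ∈ Sg, ∀ x : N, s • x = 0) : ∀ x : N, x = 0 := by
  classical
  obtain ⟨n, π, hπ⟩ := Module.Finite.exists_fin' B N
  obtain ⟨i, hi⟩ := Module.projective_lifting_property π LinearMap.id hπ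
  have hi' : ∀ x, π (i x) = x := fun x => congrArg (fun ψ : N →ₗ[B] N => ψ x) hi
  have h1 : ∀ (x : N) (j : Fin n), i x j ∈ Ring.jacobson B := by
    intro x j
    refine hK2 _ (fun s hs => ?_)
    have h0 : s • i x = 0 := by rw [← map_smul, hN s hs x, map_zero]
    exact congrFun h0 j
  have h2 : (⊤ : Submodule B N) ≤ Ring.jacobson B • (⊤ : Submodule B N) := by
    intro x _
    rw [← hi' x, LinearMap.pi_apply_eq_sum_univ π (i x)]
    exact Submodule.sum_mem _ (fun j _ => Submodule.smul_mem_smul (h1 x j) Submodule.mem_top)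
  have h3 : (⊤ : Submodule B N) = ⊥ :=
    Submodule.FG.eq_bot_of_le_jacobson_smul Module.Finite.fg_top h2
  intro x
  have hx : x ∈ (⊤ : Submodule B N) := Submodule.mem_top
  rw [h3] at hx
  exact (Submodule.mem_bot B).mp hx

/-- Let `B` be a left Artinian ring and `Sg` a family of elements with `Sg * rad B = 0` whose
common right annihilator is contained in `rad B`.  Then every finitely generated `B`-module
of finite projective dimension is projective. -/
theorem projective_of_pdLE [IsArtinianRing B] (Sg : Set B)
    (hK1 : ∀ s ∈ Sg, ∀ c ∈ Ring.jacobson B, s * c = 0)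
    (hK2 : ∀ t : B, (∀ s ∈ Sg, s * t = 0) → t ∈ Ring.jacobson B) (m : ℕ) :
    ∀ M : ModuleCat.{u} B, Module.Finite B M → PdLE M m → Module.Projective B M := by
  induction m with
  | zero =>
    intro M _ h
    exact projective_of_pdLE_zero h
  | succ m ih =>
    intro M hM h
    obtain ⟨P, p, hP, hPf, hp, hker⟩ := exists_min_presentation M hM
    have hPn : IsNoetherian B P := isNoetherian_of_isNoetherianRing_of_finite B P
    have hKfin : Module.Finite B (LinearMap.ker p) := inferInstance
    have hsyz : IsSyz 1 M (ModuleCat.of B (LinearMap.ker p)) :=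
      IsSyz.succ_of_ses (LinearMap.ker p).subtype p hP hPf (isSES_ker p hp)
        ⟨LinearEquiv.refl _ _⟩
    have hK : PdLE (ModuleCat.of B (LinearMap.ker p)) m := hsyz.pdLE_of h
    have hKproj : Module.Projective B (LinearMap.ker p) := ih _ hKfin hK
    have hkill : ∀ s ∈ Sg, ∀ x : LinearMap.ker p, s • x = 0 := by
      intro s hs x
      apply Subtype.ext
      have hx : (x : P) ∈ Ring.jacobson B • (⊤ : Submodule B P) := hker x x.2
      change s • (x : P) = 0
      refine Submodule.smul_induction_on hx ?_ ?_
      · intro c hc y _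
        rw [smul_smul, hK1 s hs c hc, zero_smul]
      · intro y z hy hz
        rw [smul_add, hy, hz, add_zero]
    have hzero := eq_zero_of_projective_killed Sg hK2 (LinearMap.ker p) hkill
    have hinj : Injective p := by
      rw [injective_iff_map_eq_zero]
      intro y hy
      have := hzero ⟨y, hy⟩
      exact congrArg Subtype.val this
    exact Module.Projective.of_equiv (LinearEquiv.ofBijective p ⟨hinj, hp⟩)

end Bass

/-! ### Restriction of scalars along a surjection with projective image -/

noncomputable section Restrict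

variable {S' S : Type u} [Ring S'] [Ring S] (φ : S' →+* S)

/-- Restriction of scalars of a module along `φ`. -/
abbrev Res (M : ModuleCat.{u} S) : ModuleCat.{u} S' := (ModuleCat.restrictScalars φ).obj M

/-- Restriction of scalars of a linear map along `φ`. -/
def resMap {M N : ModuleCat.{u} S} (g : M →ₗ[S] N) : Res φ M →ₗ[S'] Res φ N :=
  ((ModuleCat.restrictScalars φ).map (ModuleCat.ofHom g)).hom

theorem resMap_apply {M N : ModuleCat.{u} S} (g : M →ₗ[S] N) (x : M) :
    resMap φ g x = g x := rfl

theorem IsSES.res {L P M : ModuleCat.{u} S} {i : L →ₗ[S] P} {p : P →ₗ[S] M} (h : IsSES i p) :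
    IsSES (resMap φ i) (resMap φ p) := ⟨h.1, h.2.1, h.2.2⟩

variable {φ}

/-- A linear map between restricted modules is linear over the original ring, when `φ` is
surjective. -/
def unres (hφ : Surjective φ) {M N : ModuleCat.{u} S} (g : Res φ M →ₗ[S'] Res φ N) :
    M →ₗ[S] N where
  toFun := g
  map_add' := g.map_add
  map_smul' := fun r x => by
    obtain ⟨r', rfl⟩ := hφ r
    exact g.map_smul r' x

theorem unres_apply (hφ : Surjective φ) {M N : ModuleCat.{u} S}
    (g : Res φ M →ₗ[S'] Res φ N) (x : M) : unres hφ g x = g x := rfl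

theorem res_finite (hφ : Surjective φ) (M : ModuleCat.{u} S) (hM : Module.Finite S M) :
    Module.Finite S' (Res φ M) := by
  obtain ⟨s, hs⟩ := hM.fg_top
  have key : ∀ x : M, x ∈ Submodule.span S (s : Set M) →
      (show Res φ M from x) ∈ Submodule.span S' (show Set (Res φ M) from (s : Set M)) := by
    intro x hx
    induction hx using Submodule.span_induction with
    | mem y hy => exact Submodule.subset_span hy
    | zero => exact Submodule.zero_mem _
    | add y z _ _ hy hz => exact Submodule.add_mem _ hy hz
    | smul r y _ hy =>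
      obtain ⟨r', rfl⟩ := hφ r
      exact Submodule.smul_mem _ r' hy
  refine ⟨⟨s, ?_⟩⟩
  rw [eq_top_iff]
  intro x _
  exact key x (by rw [hs]; exact Submodule.mem_top)

/-- If `S` is projective over `S'` then every finitely generated projective `S`-module is
projective over `S'`. -/
theorem res_projective (hS : Module.Projective S' (Res φ (ModuleCat.of S S)))
    (P : ModuleCat.{u} S) (hP : Module.Projective S P) (hPf : Module.Finite S P) :
    Module.Projective S' (Res φ P) := by
  obtain ⟨n, π, hπ⟩ := Module.Finite.exists_fin' S P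
  obtain ⟨i, hi⟩ := Module.projective_lifting_property π LinearMap.id hπ
  have h2 : Module.Projective S' (Fin n → Res φ (ModuleCat.of S S)) :=
    projective_pi _ (fun _ => hS)
  let e : (Fin n → Res φ (ModuleCat.of S S)) ≃ₗ[S'] Res φ (ModuleCat.of S (Fin n → S)) :=
    { toFun := fun f => f
      invFun := fun f => f
      left_inv := fun _ => rfl
      right_inv := fun _ => rfl
      map_add' := fun _ _ => rfl
      map_smul' := fun _ _ => rfl }
  have h1 : Module.Projective S' (Res φ (ModuleCat.of S (Fin n → S))) :=
    Module.Projective.of_equiv e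
  exact Module.Projective.of_split (resMap φ (M := P) (N := ModuleCat.of S (Fin n → S)) i)
    (resMap φ (M := ModuleCat.of S (Fin n → S)) (N := P) π)
    (LinearMap.ext fun x => congrArg (fun ψ : P →ₗ[S] P => ψ x) hi)

/-- A module whose restriction is projective is projective, when `φ` is surjective. -/
theorem projective_of_res (hφ : Surjective φ) (X : ModuleCat.{u} S)
    (h : Module.Projective S' (Res φ X)) : Module.Projective S X := by
  let q : (X →₀ S) →ₗ[S] X := Finsupp.linearCombination S id
  have hq : Surjective q := Finsupp.linearCombination_id_surjective S X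
  obtain ⟨σ, hσ⟩ := Module.projective_lifting_property
    (resMap φ (M := ModuleCat.of S (X →₀ S)) (N := X) q) LinearMap.id hq
  exact Module.Projective.of_split (unres hφ (M := X) (N := ModuleCat.of S (X →₀ S)) σ) q
    (LinearMap.ext fun x => congrArg (fun ψ : Res φ X →ₗ[S'] Res φ X => ψ x) hσ)

theorem res_pdLE [IsNoetherianRing S] (hφ : Surjective φ)
    (hS : Module.Projective S' (Res φ (ModuleCat.of S S))) (m : ℕ) :
    ∀ M : ModuleCat.{u} S, Module.Finite S M → PdLE M m → PdLE (Res φ M) m := by
  induction m with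
  | zero =>
    intro M hM h
    exact pdLE_of_projective (res_projective hS M (projective_of_pdLE_zero h) hM) 0
  | succ m ih =>
    intro M hM h
    obtain ⟨n, π, hπ⟩ := Module.Finite.exists_fin' S M
    have hKf : Module.Finite S (LinearMap.ker π) := inferInstance
    have hsyz : IsSyz 1 M (ModuleCat.of S (LinearMap.ker π)) :=
      IsSyz.succ_of_ses (P := ModuleCat.of S (Fin n → S)) (LinearMap.ker π).subtype π
        inferInstance inferInstance (isSES_ker π hπ) ⟨LinearEquiv.refl _ _⟩
    have hK : PdLE (ModuleCat.of S (LinearMap.ker π)) m := hsyz.pdLE_of h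
    have hK' := ih _ hKf hK
    have hsyz' : IsSyz 1 (Res φ M) (Res φ (ModuleCat.of S (LinearMap.ker π))) :=
      IsSyz.succ_of_ses (P := Res φ (ModuleCat.of S (Fin n → S)))
        (resMap φ (M := ModuleCat.of S (LinearMap.ker π)) (N := ModuleCat.of S (Fin n → S))
          (LinearMap.ker π).subtype)
        (resMap φ (M := ModuleCat.of S (Fin n → S)) (N := M) π)
        (res_projective hS _ inferInstance inferInstance)
        (res_finite hφ _ inferInstance)
        (IsSES.res φ (L := ModuleCat.of S (LinearMap.ker π)) (P := ModuleCat.of S (Fin n → S))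
          (M := M) (isSES_ker π hπ)) ⟨LinearEquiv.refl _ _⟩
    exact hsyz'.pdLE_to hK'

theorem pdLE_of_res [IsNoetherianRing S] (hφ : Surjective φ)
    (hS : Module.Projective S' (Res φ (ModuleCat.of S S))) (m : ℕ) :
    ∀ M : ModuleCat.{u} S, Module.Finite S M → PdLE (Res φ M) m → PdLE M m := by
  induction m with
  | zero =>
    intro M hM h
    exact pdLE_of_projective (projective_of_res hφ M (projective_of_pdLE_zero h)) 0
  | succ m ih =>
    intro M hM h
    obtain ⟨n, π, hπ⟩ := Module.Finite.exists_fin' S M
    have hKf : Module.Finite S (LinearMap.ker π) := inferInstance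
    have hsyz : IsSyz 1 M (ModuleCat.of S (LinearMap.ker π)) :=
      IsSyz.succ_of_ses (P := ModuleCat.of S (Fin n → S)) (LinearMap.ker π).subtype π
        inferInstance inferInstance (isSES_ker π hπ) ⟨LinearEquiv.refl _ _⟩
    have hsyz' : IsSyz 1 (Res φ M) (Res φ (ModuleCat.of S (LinearMap.ker π))) :=
      IsSyz.succ_of_ses (P := Res φ (ModuleCat.of S (Fin n → S)))
        (resMap φ (M := ModuleCat.of S (LinearMap.ker π)) (N := ModuleCat.of S (Fin n → S))
          (LinearMap.ker π).subtype)
        (resMap φ (M := ModuleCat.of S (Fin n → S)) (N := M) π)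
        (res_projective hS _ inferInstance inferInstance)
        (res_finite hφ _ inferInstance)
        (IsSES.res φ (L := ModuleCat.of S (LinearMap.ker π)) (P := ModuleCat.of S (Fin n → S))
          (M := M) (isSES_ker π hπ)) ⟨LinearEquiv.refl _ _⟩
    have hK' : PdLE (Res φ (ModuleCat.of S (LinearMap.ker π))) m := hsyz'.pdLE_of h
    exact hsyz.pdLE_to (ih _ hKf hK')

/-- Transfer of a bound for the finitistic dimension along a surjection `S' → S` with `S`
projective over `S'`. -/
theorem findimLE_of_res [IsNoetherianRing S] (hφ : Surjective φ)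
    (hS : Module.Projective S' (Res φ (ModuleCat.of S S))) (d : ℕ)
    (hd : ∀ N : ModuleCat.{u} S', Module.Finite S' N →
      (∃ m : ℕ, HasProjectiveDimensionLE N m) → HasProjectiveDimensionLE N d) :
    ∀ M : ModuleCat.{u} S, Module.Finite S M →
      (∃ m : ℕ, HasProjectiveDimensionLE M m) → HasProjectiveDimensionLE M d := by
  intro M hM hm
  obtain ⟨m, hm⟩ := hm
  have h1 : PdLE (Res φ M) m := res_pdLE hφ hS m M hM ((pdLE_iff M m).mpr hm)
  have h2 : HasProjectiveDimensionLE (Res φ M) d :=
    hd _ (res_finite hφ M hM) ⟨m, (pdLE_iff _ m).mp h1⟩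
  exact (pdLE_iff M d).mp (pdLE_of_res hφ hS d M hM ((pdLE_iff _ d).mpr h2))

end Restrict

/-! ### The triangular algebra -/

section Triangular

variable (k R : Type u) [Field k] [Ring R] [Algebra k R]

/-- The underlying vector space of the triangular algebra with diagonal entries in the dual
numbers `k × k` and in `R`, and off-diagonal entries in `R / rad R`. -/
def TB : Type u := (k × k) × ((R ⧸ Ring.jacobson R) × R)

namespace TB

variable {k R}

instance : AddCommGroup (TB k R) :=
  inferInstanceAs (AddCommGroup ((k × k) × ((R ⧸ Ring.jacobson R) × R)))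

instance : Module k (TB k R) :=
  inferInstanceAs (Module k ((k × k) × ((R ⧸ Ring.jacobson R) × R)))

/-- The multiplication of the triangular algebra. -/
def mul' (s t : TB k R) : TB k R :=
  ((s.1.1 * t.1.1, s.1.1 * t.1.2 + s.1.2 * t.1.1),
    (s.1.1 • t.2.1 + s.2.1 * Ideal.Quotient.mk (Ring.jacobson R) t.2.2, s.2.2 * t.2.2))

/-- The unit of the triangular algebra. -/
def one' : TB k R := ((1, 0), (0, 1))

theorem ext' {s t : TB k R} (h1 : s.1.1 = t.1.1) (h2 : s.1.2 = t.1.2) (h3 : s.2.1 = t.2.1)
    (h4 : s.2.2 = t.2.2) : s = t :=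
  Prod.ext (Prod.ext h1 h2) (Prod.ext h3 h4)

@[simp] theorem add_11 (s t : TB k R) : (s + t).1.1 = s.1.1 + t.1.1 := rfl
@[simp] theorem add_12 (s t : TB k R) : (s + t).1.2 = s.1.2 + t.1.2 := rfl
@[simp] theorem add_21 (s t : TB k R) : (s + t).2.1 = s.2.1 + t.2.1 := rfl
@[simp] theorem add_22 (s t : TB k R) : (s + t).2.2 = s.2.2 + t.2.2 := rfl
@[simp] theorem zero_11 : (0 : TB k R).1.1 = 0 := rfl
@[simp] theorem zero_12 : (0 : TB k R).1.2 = 0 := rfl
@[simp] theorem zero_21 : (0 : TB k R).2.1 = 0 := rfl
@[simp] theorem zero_22 : (0 : TB k R).2.2 = 0 := rfl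
@[simp] theorem smul_11 (c : k) (s : TB k R) : (c • s).1.1 = c * s.1.1 := rfl
@[simp] theorem smul_12 (c : k) (s : TB k R) : (c • s).1.2 = c * s.1.2 := rfl
@[simp] theorem smul_21 (c : k) (s : TB k R) : (c • s).2.1 = c • s.2.1 := rfl
@[simp] theorem smul_22 (c : k) (s : TB k R) : (c • s).2.2 = c • s.2.2 := rfl
@[simp] theorem mul'_11 (s t : TB k R) : (mul' s t).1.1 = s.1.1 * t.1.1 := rfl
@[simp] theorem mul'_12 (s t : TB k R) : (mul' s t).1.2 = s.1.1 * t.1.2 + s.1.2 * t.1.1 := rfl
@[simp] theorem mul'_21 (s t : TB k R) : (mul' s t).2.1 =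
    s.1.1 • t.2.1 + s.2.1 * Ideal.Quotient.mk (Ring.jacobson R) t.2.2 := rfl
@[simp] theorem mul'_22 (s t : TB k R) : (mul' s t).2.2 = s.2.2 * t.2.2 := rfl
@[simp] theorem one'_11 : (one' : TB k R).1.1 = 1 := rfl
@[simp] theorem one'_12 : (one' : TB k R).1.2 = 0 := rfl
@[simp] theorem one'_21 : (one' : TB k R).2.1 = 0 := rfl
@[simp] theorem one'_22 : (one' : TB k R).2.2 = 1 := rfl

theorem mk_smul' (c : k) (x : R) : Ideal.Quotient.mk (Ring.jacobson R) (c • x) =
    c • Ideal.Quotient.mk (Ring.jacobson R) x := rfl

theorem mul'_add (s t u : TB k R) : mul' s (t + u) = mul' s t + mul' s u := by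
  refine ext' ?_ ?_ ?_ ?_
  · simp [mul_add]
  · simp [mul_add]; ring
  · simp [mul_add, smul_add]; abel
  · simp [mul_add]

theorem add_mul' (s t u : TB k R) : mul' (s + t) u = mul' s u + mul' t u := by
  refine ext' ?_ ?_ ?_ ?_
  · simp [add_mul]
  · simp [add_mul]; ring
  · simp [add_mul, add_smul]; abel
  · simp [add_mul]

theorem zero_mul' (s : TB k R) : mul' 0 s = 0 := by
  refine ext' ?_ ?_ ?_ ?_ <;> simp

theorem mul'_zero (s : TB k R) : mul' s 0 = 0 := by
  refine ext' ?_ ?_ ?_ ?_ <;> simp

theorem mul'_assoc (s t u : TB k R) : mul' (mul' s t) u = mul' s (mul' t u) := by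
  refine ext' ?_ ?_ ?_ ?_
  · simp [mul_assoc]
  · simp; ring
  · simp [add_mul, smul_add, mul_smul, mul_assoc, add_assoc]
  · simp [mul_assoc]

theorem one'_mul' (s : TB k R) : mul' one' s = s := by
  refine ext' ?_ ?_ ?_ ?_ <;> simp

theorem mul'_one' (s : TB k R) : mul' s one' = s := by
  refine ext' ?_ ?_ ?_ ?_ <;> simp

instance : Ring (TB k R) :=
  { (inferInstance : AddCommGroup (TB k R)) with
    mul := mul'
    one := one'
    left_distrib := mul'_add
    right_distrib := add_mul'
    zero_mul := zero_mul'
    mul_zero := mul'_zero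
    mul_assoc := mul'_assoc
    one_mul := one'_mul'
    mul_one := mul'_one' }

theorem mul_def (s t : TB k R) : s * t = mul' s t := rfl

theorem one_def : (1 : TB k R) = one' := rfl

instance : Algebra k (TB k R) :=
  Algebra.ofModule
    (fun c s t => by
      rw [mul_def, mul_def]
      refine ext' ?_ ?_ ?_ ?_
      · simp [mul_assoc]
      · simp; ring
      · simp [smul_add, mul_smul]
      · simp)
    (fun c s t => by
      rw [mul_def, mul_def]
      refine ext' ?_ ?_ ?_ ?_
      · simp; ring
      · simp; ring
      · simp only [mul'_21, smul_21, smul_22, smul_add, mk_smul', mul_smul_comm]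
        rw [smul_comm]
      · simp)

instance [Module.Finite k R] : Module.Finite k (TB k R) :=
  inferInstanceAs (Module.Finite k ((k × k) × ((R ⧸ Ring.jacobson R) × R)))

/-- The element of the triangular algebra with the given entries. -/
def mk (a b : k) (x : R ⧸ Ring.jacobson R) (r : R) : TB k R := ((a, b), (x, r))

@[simp] theorem mk_11 (a b : k) (x : R ⧸ Ring.jacobson R) (r : R) : (mk a b x r).1.1 = a := rfl
@[simp] theorem mk_12 (a b : k) (x : R ⧸ Ring.jacobson R) (r : R) : (mk a b x r).1.2 = b := rfl
@[simp] theorem mk_21 (a b : k) (x : R ⧸ Ring.jacobson R) (r : R) : (mk a b x r).2.1 = x := rfl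
@[simp] theorem mk_22 (a b : k) (x : R ⧸ Ring.jacobson R) (r : R) : (mk a b x r).2.2 = r := rfl

/-- The projection of the triangular algebra onto `R`. -/
def proj : TB k R →+* R where
  toFun s := s.2.2
  map_one' := rfl
  map_mul' _ _ := rfl
  map_zero' := rfl
  map_add' _ _ := rfl

/-- The character of the triangular algebra given by the first diagonal entry. -/
def chi : TB k R →+* k where
  toFun s := s.1.1
  map_one' := rfl
  map_mul' _ _ := rfl
  map_zero' := rfl
  map_add' _ _ := rfl

theorem proj_surjective : Surjective (proj : TB k R →+* R) :=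
  fun r => ⟨mk 0 0 0 r, rfl⟩

theorem chi_surjective : Surjective (chi : TB k R →+* k) :=
  fun x => ⟨mk x 0 0 0, rfl⟩

/-- Elements of the radical of the triangular algebra have first diagonal entry zero and
second diagonal entry in the radical of `R`. -/
theorem jacobson_le (t : TB k R) (ht : t ∈ Ring.jacobson (TB k R)) :
    t.1.1 = 0 ∧ t.2.2 ∈ Ring.jacobson R := by
  have : RingHomSurjective (proj : TB k R →+* R) := ⟨proj_surjective⟩
  have : RingHomSurjective (chi : TB k R →+* k) := ⟨chi_surjective⟩
  have h1 : t ∈ Ideal.comap (chi : TB k R →+* k) (Ring.jacobson k) :=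
    Ring.le_comap_jacobson (f := (chi : TB k R →+* k)) ht
  have h2 : t ∈ Ideal.comap (proj : TB k R →+* R) (Ring.jacobson R) :=
    Ring.le_comap_jacobson (f := (proj : TB k R →+* R)) ht
  rw [IsSemisimpleRing.jacobson_eq_bot] at h1
  exact ⟨h1, h2⟩

theorem isNilpotent_of [IsArtinianRing R] (v : TB k R) (h1 : v.1.1 = 0)
    (h2 : v.2.2 ∈ Ring.jacobson R) : IsNilpotent v := by
  obtain ⟨n, hn⟩ := IsArtinianRing.isNilpotent_jacobson_bot (R := R)
  have ha : v.2.2 ^ n = 0 := by
    have h3 : v.2.2 ^ n ∈ (Ideal.jacobson (⊥ : Ideal R)) ^ n :=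
      Ideal.pow_mem_pow (by rw [Ideal.jacobson_bot]; exact h2) n
    rw [hn] at h3
    exact h3
  have hmk : Ideal.Quotient.mk (Ring.jacobson R) v.2.2 = 0 :=
    Ideal.Quotient.eq_zero_iff_mem.mpr h2
  have hpow : ∀ m : ℕ, v ^ (m + 2) = mk 0 0 0 (v.2.2 ^ (m + 2)) := by
    intro m
    induction m with
    | zero =>
      rw [pow_two, mul_def]
      refine ext' ?_ ?_ ?_ ?_ <;> simp [h1, hmk, pow_two]
    | succ m ih =>
      rw [pow_succ, ih, mul_def]
      refine ext' ?_ ?_ ?_ ?_ <;> simp [pow_succ]
  refine ⟨n + 2, ?_⟩
  rw [hpow, pow_add, ha, zero_mul]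
  rfl

/-- Elements with first diagonal entry zero and second diagonal entry in the radical of `R`
lie in the radical of the triangular algebra. -/
theorem mem_jacobson [IsArtinianRing R] (t : TB k R) (h1 : t.1.1 = 0)
    (h2 : t.2.2 ∈ Ring.jacobson R) : t ∈ Ring.jacobson (TB k R) := by
  rw [← Ideal.jacobson_bot, Ideal.mem_jacobson_iff]
  intro y
  have hv1 : (y * t).1.1 = 0 := by rw [mul_def]; simp [h1]
  have hv2 : (y * t).2.2 ∈ Ring.jacobson R := by
    rw [mul_def]
    exact Ideal.mul_mem_left _ _ h2
  obtain ⟨z, hz⟩ := (isNilpotent_of (y * t) hv1 hv2).isUnit_add_one.exists_left_inv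
  refine ⟨z, ?_⟩
  have h3 : z * y * t + z = z * (y * t + 1) := by rw [mul_add, mul_one, mul_assoc]
  rw [h3, hz, sub_self]
  exact Ideal.zero_mem _

/-- The first element of the Kasch family. -/
def s1 : TB k R := mk 0 1 0 0

/-- The second element of the Kasch family. -/
def s2 : TB k R := mk 0 0 1 0

theorem s1_mul (t : TB k R) : s1 * t = mk 0 t.1.1 0 0 := by
  rw [mul_def]
  refine ext' ?_ ?_ ?_ ?_ <;> simp [s1]

theorem s2_mul (t : TB k R) :
    s2 * t = mk 0 0 (Ideal.Quotient.mk (Ring.jacobson R) t.2.2) 0 := by
  rw [mul_def]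
  refine ext' ?_ ?_ ?_ ?_ <;> simp [s2]

/-- Every finitely generated module of finite projective dimension over the triangular
algebra is projective. -/
theorem projective_of_finite_pd [Module.Finite k R] (M : ModuleCat.{u} (TB k R))
    (hM : Module.Finite (TB k R) M) (m : ℕ) (h : PdLE M m) :
    Module.Projective (TB k R) M := by
  have : IsArtinianRing R := IsArtinianRing.of_finite k R
  have : IsArtinianRing (TB k R) := IsArtinianRing.of_finite k (TB k R)
  refine projective_of_pdLE ({s1, s2} : Set (TB k R)) ?_ ?_ m M hM h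
  · intro s hs c hc
    obtain ⟨hc1, hc2⟩ := jacobson_le c hc
    rcases hs with rfl | rfl
    · rw [s1_mul, hc1]; rfl
    · rw [s2_mul, Ideal.Quotient.eq_zero_iff_mem.mpr hc2]; rfl
  · intro t ht
    have h1 := ht s1 (Set.mem_insert _ _)
    have h2 := ht s2 (Set.mem_insert_of_mem _ rfl)
    rw [s1_mul] at h1
    rw [s2_mul] at h2
    have h3 : t.1.1 = 0 := congrArg (fun v : TB k R => v.1.2) h1
    have h4 : Ideal.Quotient.mk (Ring.jacobson R) t.2.2 = 0 :=
      congrArg (fun v : TB k R => v.2.1) h2
    exact mem_jacobson t h3 (Ideal.Quotient.eq_zero_iff_mem.mp h4)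

end TB

end Triangular

/-! ### The reduction to the symmetric statement -/

noncomputable section Reduction

variable (k A : Type u) [Field k] [Ring A] [Algebra k A]

/-- The ring homomorphism from the opposite of the triangular algebra of `Aᵐᵒᵖ` onto `A`. -/
def opProj : (TB k Aᵐᵒᵖ)ᵐᵒᵖ →+* A where
  toFun b := MulOpposite.unop (MulOpposite.unop b).2.2
  map_one' := rfl
  map_mul' _ _ := rfl
  map_zero' := rfl
  map_add' _ _ := rfl

theorem opProj_surjective : Surjective (opProj k A) :=
  fun a => ⟨MulOpposite.op (TB.mk 0 0 0 (MulOpposite.op a)), rfl⟩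

/-- `A` is projective as a module over the opposite of the triangular algebra. -/
theorem opProj_projective :
    Module.Projective (TB k Aᵐᵒᵖ)ᵐᵒᵖ (Res (opProj k A) (ModuleCat.of A A)) := by
  let i : Res (opProj k A) (ModuleCat.of A A) →ₗ[(TB k Aᵐᵒᵖ)ᵐᵒᵖ] (TB k Aᵐᵒᵖ)ᵐᵒᵖ :=
    { toFun := fun a => MulOpposite.op (TB.mk 0 0 0 (MulOpposite.op (show A from a)))
      map_add' := fun a a' => by
        apply MulOpposite.unop_injective
        change TB.mk 0 0 0 (MulOpposite.op ((show A from a) + (show A from a'))) =
          TB.mk 0 0 0 (MulOpposite.op (show A from a)) +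
            TB.mk 0 0 0 (MulOpposite.op (show A from a'))
        refine TB.ext' ?_ ?_ ?_ ?_
        · simp
        · simp
        · simp
        · rfl
      map_smul' := fun b a => by
        apply MulOpposite.unop_injective
        change TB.mk 0 0 0 (MulOpposite.op (opProj k A b * (show A from a))) =
          TB.mk 0 0 0 (MulOpposite.op (show A from a)) * MulOpposite.unop b
        rw [TB.mul_def]
        refine TB.ext' ?_ ?_ ?_ ?_
        · simp
        · simp
        · simp
        · change MulOpposite.op (MulOpposite.unop (MulOpposite.unop b).2.2 * (show A from a)) =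
            MulOpposite.op (show A from a) * (MulOpposite.unop b).2.2
          rw [MulOpposite.op_mul, MulOpposite.op_unop] }
  let s : (TB k Aᵐᵒᵖ)ᵐᵒᵖ →ₗ[(TB k Aᵐᵒᵖ)ᵐᵒᵖ] Res (opProj k A) (ModuleCat.of A A) :=
    { toFun := fun b => opProj k A b
      map_add' := fun b b' => map_add (opProj k A) b b'
      map_smul' := fun b b' => map_mul (opProj k A) b b' }
  exact Module.Projective.of_split i s (LinearMap.ext fun _ => rfl)

/-- The triangular algebra of `Aᵐᵒᵖ` has finitistic dimension zero. -/
theorem findim_zero [Module.Finite k A] :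
    ∀ M : ModuleCat.{u} (TB k Aᵐᵒᵖ), Module.Finite (TB k Aᵐᵒᵖ) M →
      (∃ m : ℕ, HasProjectiveDimensionLE M m) → HasProjectiveDimensionLE M 0 := by
  intro M hM hm
  obtain ⟨m, hm⟩ := hm
  exact (pdLE_iff M 0).mp (pdLE_of_projective
    (TB.projective_of_finite_pd M hM m ((pdLE_iff M m).mpr hm)) 0)

/-- A bound for the finitistic dimension of the opposite of the triangular algebra of `Aᵐᵒᵖ`
is a bound for the finitistic dimension of `A`. -/
theorem findimLE_of_op [Module.Finite k A] (d : ℕ)
    (hd : ∀ N : ModuleCat.{u} (TB k Aᵐᵒᵖ)ᵐᵒᵖ, Module.Finite (TB k Aᵐᵒᵖ)ᵐᵒᵖ N →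
      (∃ m : ℕ, HasProjectiveDimensionLE N m) → HasProjectiveDimensionLE N d) :
    ∀ M : ModuleCat.{u} A, Module.Finite A M →
      (∃ m : ℕ, HasProjectiveDimensionLE M m) → HasProjectiveDimensionLE M d := by
  have hA : IsArtinianRing A := IsArtinianRing.of_finite k A
  exact findimLE_of_res (opProj_surjective k A) (opProj_projective k A) d hd

/-- If finiteness of the finitistic dimension is left-right symmetric for finite-dimensional
algebras over the field `k`, then every finite-dimensional `k`-algebra has finite finitistic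
dimension. -/
theorem symmetry_reduction
    (hsym : ∀ (Λ : Type u) [Ring Λ] [Algebra k Λ] [Module.Finite k Λ],
      (∃ d : ℕ, ∀ M : ModuleCat.{u} Λ, Module.Finite Λ M →
        (∃ m : ℕ, HasProjectiveDimensionLE M m) → HasProjectiveDimensionLE M d) →
      (∃ d : ℕ, ∀ M : ModuleCat.{u} Λᵐᵒᵖ, Module.Finite Λᵐᵒᵖ M →
        (∃ m : ℕ, HasProjectiveDimensionLE M m) → HasProjectiveDimensionLE M d))
    [Module.Finite k A] :
    ∃ d : ℕ, ∀ M : ModuleCat.{u} A, Module.Finite A M →
      (∃ m : ℕ, HasProjectiveDimensionLE M m) → HasProjectiveDimensionLE M d := by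
  obtain ⟨d, hd⟩ := hsym (TB k Aᵐᵒᵖ) ⟨0, findim_zero k A⟩
  exact ⟨d, findimLE_of_op k A d hd⟩

end Reduction

end Vale.Agent.Helper2.Sym
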