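import Mathlib

/-!
Closing conditions for circle-invariant metrics on the torus (used by `P205.InvariantTorus`).
Two nested intermediate-value arguments.
-/

namespace Vale.Agent.Helper2.TorusClosing

open Real Set

/-- Continuity of an implicitly defined function: the unique zero of a strictly increasing
family. -/
theorem implicit_continuousOn (P : ℝ → ℝ → ℝ) (hP : Continuous (fun p : ℝ × ℝ => P p.1 p.2))
    (a b s₁ Pstar : ℝ) (m : ℝ → ℝ)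
    (hmono : ∀ s ∈ Icc 0 s₁, ∀ x ∈ Icc a b, ∀ y ∈ Icc a b, x < y → P x s < P y s)
    (hm : ∀ s ∈ Icc 0 s₁, m s ∈ Icc a b ∧ P (m s) s = Pstar) :
    ContinuousOn m (Icc 0 s₁) := by
  intro s₀ hs₀
  rw [ContinuousWithinAt, Metric.tendsto_nhds]
  intro ε hε
  obtain ⟨hm0, hP0⟩ := hm s₀ hs₀
  have hlow : ∀ᶠ s in nhdsWithin s₀ (Icc 0 s₁), m s₀ - ε < m s := by
    by_cases hc : a ≤ m s₀ - ε
    · have hmem : m s₀ - ε ∈ Icc a b := ⟨hc, by linarith [hm0.2]⟩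
      have hlt : P (m s₀ - ε) s₀ < Pstar := by
        rw [← hP0]
        exact hmono s₀ hs₀ _ hmem _ hm0 (by linarith)
      have hcont : Continuous (fun s => P (m s₀ - ε) s) :=
        hP.comp (continuous_const.prodMk continuous_id)
      have hev : ∀ᶠ s in nhds s₀, P (m s₀ - ε) s < Pstar :=
        (hcont.tendsto s₀).eventually_lt_const hlt
      filter_upwards [mem_nhdsWithin_of_mem_nhds hev, self_mem_nhdsWithin] with s hs hsI
      by_contra hcon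
      replace hcon := not_lt.mp hcon
      obtain ⟨hms, hPs⟩ := hm s hsI
      have h1 : P (m s) s ≤ P (m s₀ - ε) s := by
        rcases eq_or_lt_of_le hcon with h | h
        · rw [h]
        · exact (hmono s hsI _ hms _ hmem h).le
      linarith
    · filter_upwards [self_mem_nhdsWithin] with s hsI
      have := (hm s hsI).1.1
      linarith
  have hhigh : ∀ᶠ s in nhdsWithin s₀ (Icc 0 s₁), m s < m s₀ + ε := by
    by_cases hc : m s₀ + ε ≤ b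
    · have hmem : m s₀ + ε ∈ Icc a b := ⟨by linarith [hm0.1], hc⟩
      have hlt : Pstar < P (m s₀ + ε) s₀ := by
        rw [← hP0]
        exact hmono s₀ hs₀ _ hm0 _ hmem (by linarith)
      have hcont : Continuous (fun s => P (m s₀ + ε) s) :=
        hP.comp (continuous_const.prodMk continuous_id)
      have hev : ∀ᶠ s in nhds s₀, Pstar < P (m s₀ + ε) s :=
        (hcont.tendsto s₀).eventually_const_lt hlt
      filter_upwards [mem_nhdsWithin_of_mem_nhds hev, self_mem_nhdsWithin] with s hs hsI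
      by_contra hcon
      replace hcon := not_lt.mp hcon
      obtain ⟨hms, hPs⟩ := hm s hsI
      have h1 : P (m s₀ + ε) s ≤ P (m s) s := by
        rcases eq_or_lt_of_le hcon with h | h
        · rw [h]
        · exact (hmono s hsI _ hmem _ hms h).le
      linarith
    · filter_upwards [self_mem_nhdsWithin] with s hsI
      have := (hm s hsI).1.2
      linarith
  filter_upwards [hlow, hhigh] with s h1 h2
  rw [Real.dist_eq, abs_lt]
  constructor <;> linarith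

/-- Abstract closing lemma: two equations modulo `1 / N` for a two-parameter family. -/
theorem abstract_closing (P Q : ℝ → ℝ → ℝ)
    (hP : Continuous (fun p : ℝ × ℝ => P p.1 p.2))
    (hQ : Continuous (fun p : ℝ × ℝ => Q p.1 p.2))
    (μ₁ μ₂ smax p₀ Qb τ : ℝ) (N : ℕ) (hN : 0 < N) (hNp : 1 / (N : ℝ) ≤ p₀)
    (hμ : μ₁ ≤ μ₂) (hs : 0 ≤ smax)
    (hmono : ∀ s ∈ Icc 0 smax, ∀ x ∈ Icc μ₁ μ₂, ∀ y ∈ Icc μ₁ μ₂, x < y → P x s < P y s)
    (h2 : P μ₁ 0 < p₀) (h3 : 2 * p₀ ≤ P μ₁ smax)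
    (h4 : ∀ s ∈ Icc 0 smax, 2 * p₀ ≤ P μ₂ s)
    (h6 : ∀ μ ∈ Icc μ₁ μ₂, p₀ ≤ P μ 0 → Q μ 0 ≤ Qb)
    (h7 : ∀ s ∈ Icc 0 smax, Qb + 1 ≤ Q μ₁ s) :
    ∃ μ ∈ Icc μ₁ μ₂, ∃ s ∈ Icc 0 smax, ∃ k₁ k₂ : ℤ,
      (N : ℝ) * (τ + P μ s) = k₁ ∧ (N : ℝ) * (τ - Q μ s) = k₂ := by
  have hNpos : (0 : ℝ) < N := by exact_mod_cast hN
  obtain ⟨k₁, hk₁⟩ : ∃ k : ℤ, k = ⌈(N : ℝ) * (τ + p₀)⌉ := ⟨_, rfl⟩
  obtain ⟨Ps, hPs⟩ : ∃ x : ℝ, x = (k₁ : ℝ) / N - τ := ⟨_, rfl⟩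
  have hPs1 : p₀ ≤ Ps := by
    have h := Int.le_ceil ((N : ℝ) * (τ + p₀))
    rw [← hk₁] at h
    have h' : τ + p₀ ≤ (k₁ : ℝ) / N := by
      rw [le_div_iff₀ hNpos]
      linarith
    rw [hPs]; linarith
  have hPs2 : Ps < 2 * p₀ := by
    have h := Int.ceil_lt_add_one ((N : ℝ) * (τ + p₀))
    rw [← hk₁] at h
    have h' : (k₁ : ℝ) / N < τ + p₀ + 1 / N := by
      rw [div_lt_iff₀ hNpos]
      have e : (τ + p₀ + 1 / (N : ℝ)) * N = N * (τ + p₀) + 1 := by field_simp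
      linarith
    rw [hPs]; linarith
  have hPsN : (N : ℝ) * (τ + Ps) = k₁ := by rw [hPs]; field_simp; ring
  -- Step A
  have hcP1 : Continuous (fun s => P μ₁ s) := hP.comp (continuous_const.prodMk continuous_id)
  have hA : ∃ s ∈ Icc 0 smax, P μ₁ s = Ps := by
    have hmem : Ps ∈ Icc (P μ₁ 0) (P μ₁ smax) := ⟨by linarith, by linarith⟩
    obtain ⟨s, hs1, hs2⟩ := intermediate_value_Icc hs hcP1.continuousOn hmem
    exact ⟨s, hs1, hs2⟩
  have hcompact : IsCompact {s | s ∈ Icc 0 smax ∧ P μ₁ s = Ps} := by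
    have e : {s | s ∈ Icc 0 smax ∧ P μ₁ s = Ps} = Icc 0 smax ∩ (fun s => P μ₁ s) ⁻¹' {Ps} := by
      ext s; simp
    rw [e]
    exact isCompact_Icc.inter_right (isClosed_singleton.preimage hcP1)
  have hne : {s | s ∈ Icc 0 smax ∧ P μ₁ s = Ps}.Nonempty := by
    obtain ⟨s, h1, h2⟩ := hA
    exact ⟨s, h1, h2⟩
  obtain ⟨s₁, ⟨hs₁I, hs₁P⟩, hs₁least⟩ := hcompact.exists_isLeast hne
  have hle : ∀ s ∈ Icc 0 s₁, P μ₁ s ≤ Ps := by
    intro s hsI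
    by_contra hcon
    replace hcon := not_le.mp hcon
    have hmem : Ps ∈ Icc (P μ₁ 0) (P μ₁ s) := ⟨by linarith, hcon.le⟩
    obtain ⟨s', hs', hs'P⟩ := intermediate_value_Icc hsI.1 hcP1.continuousOn hmem
    have h1 : s' ∈ {s | s ∈ Icc 0 smax ∧ P μ₁ s = Ps} :=
      ⟨⟨hs'.1, le_trans hs'.2 (le_trans hsI.2 hs₁I.2)⟩, hs'P⟩
    have h2 := hs₁least h1
    have h3 : s = s₁ := le_antisymm hsI.2 (le_trans h2 hs'.2)
    rw [h3, hs₁P] at hcon
    exact lt_irrefl _ hcon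
  have hsub : Icc 0 s₁ ⊆ Icc 0 smax := Icc_subset_Icc_right hs₁I.2
  -- Step B
  have hB : ∀ s ∈ Icc 0 s₁, ∃ μ, μ ∈ Icc μ₁ μ₂ ∧ P μ s = Ps := by
    intro s hsI
    have hc : Continuous (fun μ => P μ s) := hP.comp (continuous_id.prodMk continuous_const)
    have hmem : Ps ∈ Icc (P μ₁ s) (P μ₂ s) := ⟨hle s hsI, by linarith [h4 s (hsub hsI)]⟩
    obtain ⟨μ, hμI, hμP⟩ := intermediate_value_Icc hμ hc.continuousOn hmem
    exact ⟨μ, hμI, hμP⟩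
  choose! m hm using hB
  have hmc : ContinuousOn m (Icc 0 s₁) :=
    implicit_continuousOn P hP μ₁ μ₂ s₁ Ps m (fun s hsI => hmono s (hsub hsI)) hm
  have hs₁mem : s₁ ∈ Icc 0 s₁ := ⟨hs₁I.1, le_rfl⟩
  have hms₁ : m s₁ = μ₁ := by
    obtain ⟨h1, h2⟩ := hm s₁ hs₁mem
    by_contra hne'
    have hlt : μ₁ < m s₁ := lt_of_le_of_ne h1.1 (Ne.symm hne')
    have h := hmono s₁ hs₁I μ₁ ⟨le_rfl, hμ⟩ (m s₁) h1 hlt
    rw [h2, hs₁P] at h
    exact lt_irrefl _ h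
  -- Step C
  have hQt : ContinuousOn (fun s => Q (m s) s) (Icc 0 s₁) := by
    have h : ContinuousOn (fun s => (m s, s)) (Icc 0 s₁) := hmc.prodMk continuousOn_id
    exact hQ.comp_continuousOn h
  have h0mem : (0 : ℝ) ∈ Icc 0 s₁ := ⟨le_rfl, hs₁I.1⟩
  have hQ0 : Q (m 0) 0 ≤ Qb := by
    obtain ⟨h1, h2⟩ := hm 0 h0mem
    exact h6 (m 0) h1 (by rw [h2]; exact hPs1)
  have hQ1 : Qb + 1 ≤ Q (m s₁) s₁ := by rw [hms₁]; exact h7 s₁ hs₁I
  obtain ⟨k₂, hk₂⟩ : ∃ k : ℤ, k = ⌊(N : ℝ) * (τ - Q (m 0) 0)⌋ := ⟨_, rfl⟩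
  obtain ⟨Qs, hQs⟩ : ∃ x : ℝ, x = τ - (k₂ : ℝ) / N := ⟨_, rfl⟩
  have hQs1 : Q (m 0) 0 ≤ Qs := by
    have h := Int.floor_le ((N : ℝ) * (τ - Q (m 0) 0))
    rw [← hk₂] at h
    have h' : (k₂ : ℝ) / N ≤ τ - Q (m 0) 0 := by
      rw [div_le_iff₀ hNpos]; linarith
    rw [hQs]; linarith
  have hQs2 : Qs ≤ Q (m s₁) s₁ := by
    have h := Int.lt_floor_add_one ((N : ℝ) * (τ - Q (m 0) 0))
    rw [← hk₂] at h
    have h' : τ - Q (m 0) 0 - 1 / N < (k₂ : ℝ) / N := by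
      rw [lt_div_iff₀ hNpos]
      have e : (τ - Q (m 0) 0 - 1 / (N : ℝ)) * N = N * (τ - Q (m 0) 0) - 1 := by field_simp
      linarith
    have h1N : 1 / (N : ℝ) ≤ 1 := by
      rw [div_le_one hNpos]; exact_mod_cast hN
    rw [hQs]; linarith
  obtain ⟨s, hsI, hsQ⟩ := intermediate_value_Icc hs₁I.1 hQt ⟨hQs1, hQs2⟩
  obtain ⟨hmI, hmP⟩ := hm s hsI
  refine ⟨m s, hmI, s, hsub hsI, k₁, k₂, ?_, ?_⟩
  · rw [hmP]; exact hPsN
  · have e : Q (m s) s = Qs := hsQ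
    rw [e, hQs]; field_simp; ring

/-- Lower bound for an integral over `[0,1]` by a sub-interval. -/
theorem integral_ge_of_sub (h : ℝ → ℝ) (hc : Continuous h) (h0 : ∀ u, 0 ≤ h u) (a b m : ℝ)
    (ha : 0 ≤ a) (hab : a ≤ b) (hb : b ≤ 1) (hm : ∀ u ∈ Icc a b, m ≤ h u) :
    (b - a) * m ≤ ∫ u in (0 : ℝ)..1, h u := by
  have h1 : ∫ u in a..b, h u ≤ ∫ u in (0 : ℝ)..1, h u :=
    intervalIntegral.integral_mono_interval ha hab hb (Filter.Eventually.of_forall h0)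
      (hc.intervalIntegrable 0 1)
  have h2 : ∫ _u in a..b, m ≤ ∫ u in a..b, h u :=
    intervalIntegral.integral_mono_on hab (continuous_const.intervalIntegrable a b)
      (hc.intervalIntegrable a b) hm
  rw [intervalIntegral.integral_const, smul_eq_mul] at h2
  linarith

/-- Upper bound for an integral over `[0,1]`. -/
theorem integral_le_of_le (h : ℝ → ℝ) (hc : Continuous h) (M : ℝ) (hM : ∀ u, h u ≤ M) :
    ∫ u in (0 : ℝ)..1, h u ≤ M := by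
  have h2 : ∫ u in (0 : ℝ)..1, h u ≤ ∫ _u in (0 : ℝ)..1, M :=
    intervalIntegral.integral_mono_on zero_le_one (hc.intervalIntegrable 0 1)
      (continuous_const.intervalIntegrable 0 1) (fun u _ => hM u)
  rw [intervalIntegral.integral_const, smul_eq_mul] at h2
  linarith

/-- Strict monotonicity of the integral over `[0,1]`. -/
theorem integral_lt_of_lt (h₁ h₂ : ℝ → ℝ) (hc1 : Continuous h₁) (hc2 : Continuous h₂)
    (hlt : ∀ u, h₁ u < h₂ u) : ∫ u in (0 : ℝ)..1, h₁ u < ∫ u in (0 : ℝ)..1, h₂ u :=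
  intervalIntegral.integral_lt_integral_of_continuousOn_of_le_of_exists_lt zero_lt_one
    hc1.continuousOn hc2.continuousOn (fun u _ => (hlt u).le) ⟨0, ⟨le_rfl, zero_le_one⟩, hlt 0⟩

/-- Core of the closing lemma, for an abstract amplitude `D` and an abstract increasing
function `Tn` (the clamped tangent). -/
theorem closing_core (D : ℝ → ℝ → ℝ) (Tn g : ℝ → ℝ) (dmin dmax t₁ μ₁ smax p₀ Qb τ : ℝ) (N : ℕ)
    (hN0 : 0 < N) (hNp : 1 / (N : ℝ) ≤ p₀)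
    (hdmin : 0 < dmin) (hdmaxpos : 0 < dmax) (hp₀ : p₀ = dmin / 40) (hp₀pos : 0 < p₀)
    (hQb : Qb = dmax ^ 2 / p₀) (hQbpos : 0 < Qb)
    (ht₁pos : 0 < t₁) (ht₁b : t₁ ≤ p₀ / (2 * dmax)) (ht₁c : t₁ ≤ dmin / (8 * (Qb + 1)))
    (hμ₁lt : μ₁ < π / 4) (hsmaxpos : 0 < smax) (hsmax1 : smax ≤ 1)
    (hsmaxeq : μ₁ + smax = π / 4)
    (hDlow : ∀ s, 0 ≤ s → s ≤ 1 → ∀ u, dmin / 2 ≤ D s u) (hDhigh : ∀ s u, D s u ≤ dmax)
    (hD0 : ∀ s u, 0 ≤ D s u)
    (hDc : Continuous (fun p : (ℝ × ℝ) × ℝ => D p.1.2 p.2))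
    (hg : Continuous g) (hg0 : ∀ u, 0 ≤ g u)
    (hgJ : ∀ u ∈ Icc (0 : ℝ) (1 / 4), g u = 0)
    (hgK : ∀ u ∈ Icc (9 / 20 : ℝ) (11 / 20), g u = 1)
    (hTnc : Continuous Tn) (hTnpos : ∀ x, 0 < Tn x)
    (hTnmono : ∀ x y, μ₁ ≤ x → x < y → y ≤ π / 2 - μ₁ → Tn x < Tn y)
    (hTnμ₁ : Tn μ₁ = t₁) (hTn4 : Tn (π / 4) = 1)
    (hrange : ∀ μ s u, μ₁ ≤ μ → μ ≤ π / 4 → 0 ≤ s → s ≤ smax →
      (μ₁ ≤ μ + s * g u ∧ μ + s * g u ≤ π / 2 - μ₁)) :
    ∃ μ ∈ Icc μ₁ (π / 4), ∃ s ∈ Icc 0 smax, ∃ k₁ k₂ : ℤ,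
      (N : ℝ) * (τ + ∫ u in (0 : ℝ)..1, D s u * Tn (μ + s * g u)) = k₁ ∧
      (N : ℝ) * (τ - ∫ u in (0 : ℝ)..1, D s u * (Tn (μ + s * g u))⁻¹) = k₂ := by
  have hDcu : ∀ s, Continuous (fun u => D s u) := by
    intro s
    have h : Continuous ((fun p : (ℝ × ℝ) × ℝ => D p.1.2 p.2) ∘
        (fun u : ℝ => (((0 : ℝ), s), u))) := hDc.comp (by fun_prop)
    exact h
  have hFPc : Continuous (Function.uncurry
      (fun (p : ℝ × ℝ) (u : ℝ) => D p.2 u * Tn (p.1 + p.2 * g u))) := by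
    have h1 : Continuous (fun p : (ℝ × ℝ) × ℝ => Tn (p.1.1 + p.1.2 * g p.2)) :=
      hTnc.comp (by fun_prop)
    exact hDc.mul h1
  have hFQc : Continuous (Function.uncurry
      (fun (p : ℝ × ℝ) (u : ℝ) => D p.2 u * (Tn (p.1 + p.2 * g u))⁻¹)) := by
    have h1 : Continuous (fun p : (ℝ × ℝ) × ℝ => Tn (p.1.1 + p.1.2 * g p.2)) :=
      hTnc.comp (by fun_prop)
    exact hDc.mul (h1.inv₀ (fun p => (hTnpos _).ne'))
  have hPc : Continuous (fun p : ℝ × ℝ => ∫ u in (0 : ℝ)..1, D p.2 u * Tn (p.1 + p.2 * g u)) :=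
    intervalIntegral.continuous_parametric_intervalIntegral_of_continuous' hFPc 0 1
  have hQc : Continuous
      (fun p : ℝ × ℝ => ∫ u in (0 : ℝ)..1, D p.2 u * (Tn (p.1 + p.2 * g u))⁻¹) :=
    intervalIntegral.continuous_parametric_intervalIntegral_of_continuous' hFQc 0 1
  have hcu : ∀ μ s, Continuous (fun u => D s u * Tn (μ + s * g u)) := by
    intro μ s
    have h : Continuous ((Function.uncurry
        (fun (p : ℝ × ℝ) (u : ℝ) => D p.2 u * Tn (p.1 + p.2 * g u))) ∘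
        (fun u : ℝ => ((μ, s), u))) := hFPc.comp (by fun_prop)
    exact h
  have hcuQ : ∀ μ s, Continuous (fun u => D s u * (Tn (μ + s * g u))⁻¹) := by
    intro μ s
    have h : Continuous ((Function.uncurry
        (fun (p : ℝ × ℝ) (u : ℝ) => D p.2 u * (Tn (p.1 + p.2 * g u))⁻¹)) ∘
        (fun u : ℝ => ((μ, s), u))) := hFQc.comp (by fun_prop)
    exact h
  -- hypotheses of the abstract closing lemma
  have hmono : ∀ s ∈ Icc 0 smax, ∀ x ∈ Icc μ₁ (π / 4), ∀ y ∈ Icc μ₁ (π / 4), x < y →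
      (∫ u in (0 : ℝ)..1, D s u * Tn (x + s * g u))
        < ∫ u in (0 : ℝ)..1, D s u * Tn (y + s * g u) := by
    intro s hs x hx y hy hxy
    apply integral_lt_of_lt _ _ (hcu x s) (hcu y s)
    intro u
    have hDpos : 0 < D s u :=
      lt_of_lt_of_le (by positivity) (hDlow s hs.1 (le_trans hs.2 hsmax1) u)
    have h1 := hrange x s u hx.1 hx.2 hs.1 hs.2
    have h2 := hrange y s u hy.1 hy.2 hs.1 hs.2
    exact mul_lt_mul_of_pos_left (hTnmono _ _ h1.1 (by linarith) h2.2) hDpos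
  have h2 : (∫ u in (0 : ℝ)..1, D 0 u * Tn (μ₁ + 0 * g u)) < p₀ := by
    have h : (∫ u in (0 : ℝ)..1, D 0 u * Tn (μ₁ + 0 * g u)) ≤ dmax * t₁ := by
      apply integral_le_of_le _ (hcu μ₁ 0)
      intro u
      have e : μ₁ + 0 * g u = μ₁ := by ring
      rw [e, hTnμ₁]
      exact mul_le_mul_of_nonneg_right (hDhigh 0 u) ht₁pos.le
    have h' : dmax * t₁ ≤ p₀ / 2 := by
      calc dmax * t₁ ≤ dmax * (p₀ / (2 * dmax)) := mul_le_mul_of_nonneg_left ht₁b hdmaxpos.le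
        _ = p₀ / 2 := by field_simp
    linarith
  have h3 : 2 * p₀ ≤ ∫ u in (0 : ℝ)..1, D smax u * Tn (μ₁ + smax * g u) := by
    have h := integral_ge_of_sub (fun u => D smax u * Tn (μ₁ + smax * g u)) (hcu μ₁ smax)
      (fun u => mul_nonneg (hD0 smax u) (hTnpos _).le) (9 / 20) (11 / 20) (dmin / 2)
      (by norm_num) (by norm_num) (by norm_num) (by
        intro u hu
        have e : μ₁ + smax * g u = π / 4 := by rw [hgK u hu, mul_one, hsmaxeq]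
        show dmin / 2 ≤ D smax u * Tn (μ₁ + smax * g u)
        rw [e, hTn4, mul_one]
        exact hDlow smax hsmaxpos.le hsmax1 u)
    rw [hp₀]
    linarith
  have h4 : ∀ s ∈ Icc 0 smax, 2 * p₀ ≤ ∫ u in (0 : ℝ)..1, D s u * Tn (π / 4 + s * g u) := by
    intro s hs
    have h := integral_ge_of_sub (fun u => D s u * Tn (π / 4 + s * g u)) (hcu (π / 4) s)
      (fun u => mul_nonneg (hD0 s u) (hTnpos _).le) 0 1 (dmin / 2)
      le_rfl zero_le_one le_rfl (by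
        intro u _
        have hr := hrange (π / 4) s u hμ₁lt.le le_rfl hs.1 hs.2
        have hge : π / 4 ≤ π / 4 + s * g u := by
          have := mul_nonneg hs.1 (hg0 u)
          linarith
        have h1 : (1 : ℝ) ≤ Tn (π / 4 + s * g u) := by
          rcases eq_or_lt_of_le hge with h | h
          · rw [← h, hTn4]
          · rw [← hTn4]; exact (hTnmono _ _ hμ₁lt.le h hr.2).le
        have h2 := hDlow s hs.1 (le_trans hs.2 hsmax1) u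
        have h3 := mul_le_mul_of_nonneg_left h1 (hD0 s u)
        show dmin / 2 ≤ D s u * Tn (π / 4 + s * g u)
        linarith)
    rw [hp₀]
    linarith
  have h6 : ∀ μ ∈ Icc μ₁ (π / 4), p₀ ≤ (∫ u in (0 : ℝ)..1, D 0 u * Tn (μ + 0 * g u)) →
      (∫ u in (0 : ℝ)..1, D 0 u * (Tn (μ + 0 * g u))⁻¹) ≤ Qb := by
    intro μ _ hp
    have e1 : (fun u => D 0 u * Tn (μ + 0 * g u)) = fun u => D 0 u * Tn μ := by
      funext u; rw [zero_mul, add_zero]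
    have e2 : (fun u => D 0 u * (Tn (μ + 0 * g u))⁻¹) = fun u => D 0 u * (Tn μ)⁻¹ := by
      funext u; rw [zero_mul, add_zero]
    rw [e1, intervalIntegral.integral_mul_const] at hp
    rw [e2, intervalIntegral.integral_mul_const]
    have hδ : (∫ u in (0 : ℝ)..1, D 0 u) ≤ dmax := integral_le_of_le _ (hDcu 0) dmax (hDhigh 0)
    have hδ0 : 0 ≤ ∫ u in (0 : ℝ)..1, D 0 u :=
      intervalIntegral.integral_nonneg zero_le_one (fun u _ => hD0 0 u)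
    obtain ⟨δ, hδdef⟩ : ∃ x : ℝ, x = ∫ u in (0 : ℝ)..1, D 0 u := ⟨_, rfl⟩
    rw [← hδdef] at hp hδ hδ0 ⊢
    have hT := hTnpos μ
    rw [hQb, ← div_eq_mul_inv, div_le_div_iff₀ hT hp₀pos]
    have hδ2 : δ ^ 2 ≤ dmax ^ 2 := pow_le_pow_left₀ hδ0 hδ 2
    calc δ * p₀ ≤ δ * (δ * Tn μ) := mul_le_mul_of_nonneg_left hp hδ0
      _ = δ ^ 2 * Tn μ := by ring
      _ ≤ dmax ^ 2 * Tn μ := mul_le_mul_of_nonneg_right hδ2 hT.le
  have h7 : ∀ s ∈ Icc 0 smax,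
      Qb + 1 ≤ ∫ u in (0 : ℝ)..1, D s u * (Tn (μ₁ + s * g u))⁻¹ := by
    intro s hs
    have h := integral_ge_of_sub (fun u => D s u * (Tn (μ₁ + s * g u))⁻¹) (hcuQ μ₁ s)
      (fun u => mul_nonneg (hD0 s u) (inv_nonneg.mpr (hTnpos _).le)) 0 (1 / 4)
      (dmin / 2 * t₁⁻¹) le_rfl (by norm_num) (by norm_num) (by
        intro u hu
        have e : μ₁ + s * g u = μ₁ := by rw [hgJ u hu]; ring
        show dmin / 2 * t₁⁻¹ ≤ D s u * (Tn (μ₁ + s * g u))⁻¹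
        rw [e, hTnμ₁]
        exact mul_le_mul_of_nonneg_right (hDlow s hs.1 (le_trans hs.2 hsmax1) u)
          (inv_nonneg.mpr ht₁pos.le))
    have h' : Qb + 1 ≤ (1 / 4 - 0) * (dmin / 2 * t₁⁻¹) := by
      have h8 : t₁ * (8 * (Qb + 1)) ≤ dmin := by
        have h9 := ht₁c
        rw [le_div_iff₀ (by positivity)] at h9
        exact h9
      have e : (1 / 4 - 0) * (dmin / 2 * t₁⁻¹) = dmin / (8 * t₁) := by
        rw [sub_zero]; field_simp; ring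
      rw [e, le_div_iff₀ (by positivity)]
      linarith
    linarith
  exact abstract_closing
    (fun μ s => ∫ u in (0 : ℝ)..1, D s u * Tn (μ + s * g u))
    (fun μ s => ∫ u in (0 : ℝ)..1, D s u * (Tn (μ + s * g u))⁻¹)
    hPc hQc μ₁ (π / 4) smax p₀ Qb τ N hN0 hNp hμ₁lt.le hsmaxpos.le
    hmono h2 h3 h4 h6 h7

/-- The closing lemma: there are a winding number `N` and parameters `μ`, `s` for which both
phase functions close up. -/
theorem closing (d₀ q f g g' : ℝ → ℝ) (dmin dmax B : ℝ)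
    (hd : Continuous d₀) (hq : Continuous q) (hf : Continuous f) (hg : Continuous g)
    (hg'c : Continuous g')
    (hdmin : 0 < dmin) (hd1 : ∀ u, dmin ≤ d₀ u) (hd2 : ∀ u, d₀ u ≤ dmax)
    (hB : ∀ u, q u ^ 2 + g' u ^ 2 ≤ B)
    (hg0 : ∀ u, 0 ≤ g u) (hg1 : ∀ u, g u ≤ 1)
    (hgJ : ∀ u ∈ Icc (0 : ℝ) (1 / 4), g u = 0)
    (hgK : ∀ u ∈ Icc (9 / 20 : ℝ) (11 / 20), g u = 1) :
    ∃ (N : ℕ) (μ s : ℝ) (k₁ k₂ : ℤ), 0 < N ∧ 0 < μ ∧ 0 ≤ s ∧ μ + s < π / 2 ∧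
      (∀ u, 0 < d₀ u ^ 2 - (q u ^ 2 + (s * g' u) ^ 2) / (2 * π * N) ^ 2) ∧
      (N : ℝ) * (∫ u in (0 : ℝ)..1,
        (f u + √(d₀ u ^ 2 - (q u ^ 2 + (s * g' u) ^ 2) / (2 * π * N) ^ 2)
          * Real.tan (μ + s * g u))) = k₁ ∧
      (N : ℝ) * (∫ u in (0 : ℝ)..1,
        (f u - √(d₀ u ^ 2 - (q u ^ 2 + (s * g' u) ^ 2) / (2 * π * N) ^ 2)
          * (Real.tan (μ + s * g u))⁻¹)) = k₂ := by
  have hdmax : dmin ≤ dmax := le_trans (hd1 0) (hd2 0)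
  have hdmaxpos : 0 < dmax := lt_of_lt_of_le hdmin hdmax
  have hB0 : 0 ≤ B := le_trans (by positivity) (hB 0)
  obtain ⟨p₀, hp₀⟩ : ∃ x : ℝ, x = dmin / 40 := ⟨_, rfl⟩
  have hp₀pos : 0 < p₀ := by rw [hp₀]; positivity
  obtain ⟨Qb, hQb⟩ : ∃ x : ℝ, x = dmax ^ 2 / p₀ := ⟨_, rfl⟩
  have hQbpos : 0 < Qb := by rw [hQb]; positivity
  -- the winding number
  obtain ⟨N, hN1, hN2⟩ : ∃ N : ℕ, B / dmin ^ 2 ≤ N ∧ 1 / p₀ ≤ N := by
    obtain ⟨n1, h1⟩ := exists_nat_ge (B / dmin ^ 2)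
    obtain ⟨n2, h2⟩ := exists_nat_ge (1 / p₀)
    refine ⟨n1 + n2, ?_, ?_⟩
    · push_cast; linarith [Nat.cast_nonneg (α := ℝ) n2]
    · push_cast; linarith [Nat.cast_nonneg (α := ℝ) n1]
  have hNpos : (0 : ℝ) < N := lt_of_lt_of_le (by positivity) hN2
  have hN0 : 0 < N := by exact_mod_cast hNpos
  have hN1' : (1 : ℝ) ≤ N := by exact_mod_cast hN0
  have hNp : 1 / (N : ℝ) ≤ p₀ := by
    rw [div_le_iff₀ hNpos]
    rw [div_le_iff₀ hp₀pos] at hN2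
    linarith
  obtain ⟨c, hc⟩ : ∃ x : ℝ, x = 2 * π * N := ⟨_, rfl⟩
  have hc2 : 4 * (N : ℝ) ≤ c ^ 2 := by
    have hpi : (3 : ℝ) < π := Real.pi_gt_three
    have e : c ^ 2 = 4 * π ^ 2 * (N : ℝ) ^ 2 := by rw [hc]; ring
    rw [e]
    have h1 : (1 : ℝ) ≤ π ^ 2 := by nlinarith
    have h2 : (N : ℝ) ≤ (N : ℝ) ^ 2 := by nlinarith
    nlinarith
  have hcpos : 0 < c ^ 2 := by linarith
  -- the radicand and its square root
  have hRlow : ∀ s, 0 ≤ s → s ≤ 1 → ∀ u,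
      dmin ^ 2 / 4 ≤ d₀ u ^ 2 - (q u ^ 2 + (s * g' u) ^ 2) / c ^ 2 := by
    intro s hs0 hs1 u
    have h1 : q u ^ 2 + (s * g' u) ^ 2 ≤ B := by
      have h : (s * g' u) ^ 2 ≤ g' u ^ 2 := by
        rw [mul_pow]
        have hs2 : s ^ 2 ≤ 1 := by nlinarith
        nlinarith [sq_nonneg (g' u)]
      linarith [hB u]
    have h2 : (q u ^ 2 + (s * g' u) ^ 2) / c ^ 2 ≤ dmin ^ 2 / 4 := by
      rw [div_le_iff₀ hcpos]
      have h3 : B ≤ dmin ^ 2 * N := by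
        have h := hN1
        rw [div_le_iff₀ (by positivity)] at h
        linarith
      have h5 : dmin ^ 2 / 4 * (4 * (N : ℝ)) ≤ dmin ^ 2 / 4 * c ^ 2 :=
        mul_le_mul_of_nonneg_left hc2 (by positivity)
      linarith
    have h4 : dmin ^ 2 ≤ d₀ u ^ 2 := pow_le_pow_left₀ hdmin.le (hd1 u) 2
    linarith [sq_nonneg dmin]
  obtain ⟨D, hD⟩ : ∃ D : ℝ → ℝ → ℝ,
      D = fun s u => √(d₀ u ^ 2 - (q u ^ 2 + (s * g' u) ^ 2) / c ^ 2) := ⟨_, rfl⟩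
  have hDlow : ∀ s, 0 ≤ s → s ≤ 1 → ∀ u, dmin / 2 ≤ D s u := by
    intro s hs0 hs1 u
    rw [hD]
    apply Real.le_sqrt_of_sq_le
    have h := hRlow s hs0 hs1 u
    have e : (dmin / 2) ^ 2 = dmin ^ 2 / 4 := by ring
    rw [e]; exact h
  have hDhigh : ∀ s u, D s u ≤ dmax := by
    intro s u
    rw [hD]
    have h1 : d₀ u ^ 2 - (q u ^ 2 + (s * g' u) ^ 2) / c ^ 2 ≤ dmax ^ 2 := by
      have h2 : 0 ≤ (q u ^ 2 + (s * g' u) ^ 2) / c ^ 2 := by positivity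
      have h3 : d₀ u ^ 2 ≤ dmax ^ 2 :=
        pow_le_pow_left₀ (le_trans hdmin.le (hd1 u)) (hd2 u) 2
      linarith
    calc √(d₀ u ^ 2 - (q u ^ 2 + (s * g' u) ^ 2) / c ^ 2) ≤ √(dmax ^ 2) := Real.sqrt_le_sqrt h1
      _ = dmax := Real.sqrt_sq hdmaxpos.le
  have hD0 : ∀ s u, 0 ≤ D s u := by
    intro s u; rw [hD]; exact Real.sqrt_nonneg _
  have hDc : Continuous (fun p : (ℝ × ℝ) × ℝ => D p.1.2 p.2) := by
    rw [hD]
    fun_prop
  -- the small angle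
  obtain ⟨t₁, ht₁⟩ : ∃ x : ℝ,
      x = min (1 / 2) (min (p₀ / (2 * dmax)) (dmin / (8 * (Qb + 1)))) := ⟨_, rfl⟩
  have ht₁pos : 0 < t₁ := by
    rw [ht₁]
    exact lt_min (by norm_num) (lt_min (by positivity) (by positivity))
  have ht₁a : t₁ ≤ 1 / 2 := by rw [ht₁]; exact min_le_left _ _
  have ht₁b : t₁ ≤ p₀ / (2 * dmax) := by
    rw [ht₁]; exact le_trans (min_le_right _ _) (min_le_left _ _)
  have ht₁c : t₁ ≤ dmin / (8 * (Qb + 1)) := by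
    rw [ht₁]; exact le_trans (min_le_right _ _) (min_le_right _ _)
  obtain ⟨μ₁, hμ₁⟩ : ∃ x : ℝ, x = Real.arctan t₁ := ⟨_, rfl⟩
  have hμ₁pos : 0 < μ₁ := by rw [hμ₁]; exact Real.arctan_pos.mpr ht₁pos
  have hμ₁lt : μ₁ < π / 4 := by
    rw [hμ₁, ← Real.arctan_one]
    exact Real.arctan_strictMono (by linarith)
  have htanμ₁ : Real.tan μ₁ = t₁ := by rw [hμ₁]; exact Real.tan_arctan t₁
  obtain ⟨smax, hsmax⟩ : ∃ x : ℝ, x = π / 4 - μ₁ := ⟨_, rfl⟩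
  have hsmaxpos : 0 < smax := by rw [hsmax]; linarith
  have hsmax1 : smax ≤ 1 := by
    rw [hsmax]
    have h := Real.pi_le_four
    linarith
  -- the clamped tangent
  have hpi := Real.pi_pos
  have hclmem : ∀ x : ℝ, max μ₁ (min x (π / 2 - μ₁)) ∈ Ioo (-(π / 2)) (π / 2) := by
    intro x
    constructor
    · exact lt_of_lt_of_le (by linarith) (le_max_left _ _)
    · apply max_lt (by linarith)
      exact lt_of_le_of_lt (min_le_right _ _) (by linarith)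
  obtain ⟨Tn, hTn⟩ : ∃ Tn : ℝ → ℝ,
      Tn = fun x => Real.tan (max μ₁ (min x (π / 2 - μ₁))) := ⟨_, rfl⟩
  have hTnc : Continuous Tn := by
    rw [hTn]
    exact Real.continuousOn_tan_Ioo.comp_continuous (by fun_prop) hclmem
  have hTnpos : ∀ x, 0 < Tn x := by
    intro x
    rw [hTn]
    apply Real.tan_pos_of_pos_of_lt_pi_div_two
    · exact lt_of_lt_of_le hμ₁pos (le_max_left _ _)
    · exact (hclmem x).2
  have hTneq : ∀ x, μ₁ ≤ x → x ≤ π / 2 - μ₁ → Tn x = Real.tan x := by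
    intro x h1 h2
    rw [hTn]
    show Real.tan (max μ₁ (min x (π / 2 - μ₁))) = Real.tan x
    rw [min_eq_left h2, max_eq_right h1]
  have hTnmono : ∀ x y, μ₁ ≤ x → x < y → y ≤ π / 2 - μ₁ → Tn x < Tn y := by
    intro x y h1 h2 h3
    rw [hTneq x h1 (by linarith), hTneq y (by linarith) h3]
    exact Real.tan_lt_tan_of_lt_of_lt_pi_div_two (by linarith) (by linarith) h2
  have hTnμ₁ : Tn μ₁ = t₁ := by
    rw [hTneq μ₁ le_rfl (by linarith), htanμ₁]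
  have hTn4 : Tn (π / 4) = 1 := by
    rw [hTneq (π / 4) hμ₁lt.le (by linarith), Real.tan_pi_div_four]
  have hrange : ∀ μ s u, μ₁ ≤ μ → μ ≤ π / 4 → 0 ≤ s → s ≤ smax →
      (μ₁ ≤ μ + s * g u ∧ μ + s * g u ≤ π / 2 - μ₁) := by
    intro μ s u h1 h2 h3 h4
    have h5 : 0 ≤ s * g u := mul_nonneg h3 (hg0 u)
    have h6 : s * g u ≤ smax := by
      calc s * g u ≤ s * 1 := mul_le_mul_of_nonneg_left (hg1 u) h3
        _ = s := mul_one s
        _ ≤ smax := h4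
    constructor
    · linarith
    · rw [hsmax] at h6; linarith
  obtain ⟨μ, hμI, s, hsI, k₁, k₂, e1, e2⟩ := closing_core D Tn g dmin dmax t₁ μ₁ smax p₀ Qb
    (∫ u in (0 : ℝ)..1, f u) N hN0 hNp hdmin hdmaxpos hp₀ hp₀pos hQb hQbpos ht₁pos ht₁b ht₁c
    hμ₁lt hsmaxpos hsmax1 (by rw [hsmax]; ring) hDlow hDhigh hD0 hDc hg hg0 hgJ hgK hTnc hTnpos
    hTnmono hTnμ₁ hTn4 hrange
  have hs1 : s ≤ 1 := le_trans hsI.2 hsmax1
  have hcu : Continuous (fun u => D s u * Tn (μ + s * g u)) := by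
    have h1 : Continuous (fun u : ℝ => D s u) := by
      have h : Continuous ((fun p : (ℝ × ℝ) × ℝ => D p.1.2 p.2) ∘
          (fun u : ℝ => (((0 : ℝ), s), u))) := hDc.comp (by fun_prop)
      exact h
    exact h1.mul (hTnc.comp (by fun_prop))
  have hcuQ : Continuous (fun u => D s u * (Tn (μ + s * g u))⁻¹) := by
    have h1 : Continuous (fun u : ℝ => D s u) := by
      have h : Continuous ((fun p : (ℝ × ℝ) × ℝ => D p.1.2 p.2) ∘
          (fun u : ℝ => (((0 : ℝ), s), u))) := hDc.comp (by fun_prop)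
      exact h
    have h2 : Continuous (fun u : ℝ => Tn (μ + s * g u)) := hTnc.comp (by fun_prop)
    exact h1.mul (h2.inv₀ (fun u => (hTnpos _).ne'))
  refine ⟨N, μ, s, k₁, k₂, hN0, lt_of_lt_of_le hμ₁pos hμI.1, hsI.1, ?_, ?_, ?_, ?_⟩
  · have h := hsI.2
    rw [hsmax] at h
    linarith [hμI.2]
  · intro u
    rw [← hc]
    have h := hRlow s hsI.1 hs1 u
    have h' : 0 < dmin ^ 2 / 4 := by positivity
    linarith
  · rw [← hc]
    have e : (fun u => f u + √(d₀ u ^ 2 - (q u ^ 2 + (s * g' u) ^ 2) / c ^ 2)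
        * Real.tan (μ + s * g u)) = fun u => f u + D s u * Tn (μ + s * g u) := by
      funext u
      have hr := hrange μ s u hμI.1 hμI.2 hsI.1 hsI.2
      rw [hTneq _ hr.1 hr.2, hD]
    rw [e, intervalIntegral.integral_add (hf.intervalIntegrable 0 1)
      (hcu.intervalIntegrable 0 1)]
    exact e1
  · rw [← hc]
    have e : (fun u => f u - √(d₀ u ^ 2 - (q u ^ 2 + (s * g' u) ^ 2) / c ^ 2)
        * (Real.tan (μ + s * g u))⁻¹) = fun u => f u - D s u * (Tn (μ + s * g u))⁻¹ := by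
      funext u
      have hr := hrange μ s u hμI.1 hμI.2 hsI.1 hsI.2
      rw [hTneq _ hr.1 hr.2, hD]
    rw [e, intervalIntegral.integral_sub (hf.intervalIntegrable 0 1)
      (hcuQ.intervalIntegrable 0 1)]
    exact e2

end Vale.Agent.Helper2.TorusClosing
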