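import Mathlib
import Vale.Agent.Results.P205.WarpedTorus
import Vale.Agent.Helper2.TorusClosing

/-!
Circle-invariant metrics on the torus: the equivariant map into `ℝ^4` and its first fundamental
form (used by `P205.InvariantTorus`).
-/

namespace Vale.Agent.Helper2.TorusMap

open Real

open scoped ContDiff

/-- One circle component `(ρ(u) cos(c v + φ(u)), ρ(u) sin(c v + φ(u)))`: the three sums of
products of its derivatives along the two coordinate directions. -/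
theorem circle_comp (ρ φ : ℝ → ℝ) (c u v ρ' φ' : ℝ) (hρ : HasDerivAt ρ ρ' u)
    (hφ : HasDerivAt φ φ' u) :
    (deriv (fun s => ρ s * cos (c * v + φ s)) u ^ 2
        + deriv (fun s => ρ s * sin (c * v + φ s)) u ^ 2 = ρ' ^ 2 + ρ u ^ 2 * φ' ^ 2) ∧
    (deriv (fun s => ρ s * cos (c * v + φ s)) u * deriv (fun t => ρ u * cos (c * t + φ u)) v
        + deriv (fun s => ρ s * sin (c * v + φ s)) u * deriv (fun t => ρ u * sin (c * t + φ u)) v
          = c * ρ u ^ 2 * φ') ∧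
    (deriv (fun t => ρ u * cos (c * t + φ u)) v ^ 2
        + deriv (fun t => ρ u * sin (c * t + φ u)) v ^ 2 = c ^ 2 * ρ u ^ 2) := by
  have hin : HasDerivAt (fun s => c * v + φ s) φ' u := hφ.const_add (c * v)
  have d0 : deriv (fun s => ρ s * cos (c * v + φ s)) u
      = ρ' * cos (c * v + φ u) + ρ u * (-sin (c * v + φ u) * φ') := (hρ.mul hin.cos).deriv
  have d1 : deriv (fun s => ρ s * sin (c * v + φ s)) u
      = ρ' * sin (c * v + φ u) + ρ u * (cos (c * v + φ u) * φ') := (hρ.mul hin.sin).deriv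
  have hcv : HasDerivAt (fun t : ℝ => c * t + φ u) c v := by
    simpa using ((hasDerivAt_id v).const_mul c).add_const (φ u)
  have e0 : deriv (fun t => ρ u * cos (c * t + φ u)) v = ρ u * (-sin (c * v + φ u) * c) :=
    ((hcv.cos).const_mul (ρ u)).deriv
  have e1 : deriv (fun t => ρ u * sin (c * t + φ u)) v = ρ u * (cos (c * v + φ u) * c) :=
    ((hcv.sin).const_mul (ρ u)).deriv
  have hs := Real.sin_sq_add_cos_sq (c * v + φ u)
  rw [d0, d1, e0, e1]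
  refine ⟨?_, ?_, ?_⟩
  · have h : (ρ' * cos (c * v + φ u) + ρ u * (-sin (c * v + φ u) * φ')) ^ 2
        + (ρ' * sin (c * v + φ u) + ρ u * (cos (c * v + φ u) * φ')) ^ 2
        = (ρ' ^ 2 + ρ u ^ 2 * φ' ^ 2) * (sin (c * v + φ u) ^ 2 + cos (c * v + φ u) ^ 2) := by ring
    rw [h, hs, mul_one]
  · have h : (ρ' * cos (c * v + φ u) + ρ u * (-sin (c * v + φ u) * φ'))
          * (ρ u * (-sin (c * v + φ u) * c))
        + (ρ' * sin (c * v + φ u) + ρ u * (cos (c * v + φ u) * φ'))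
          * (ρ u * (cos (c * v + φ u) * c))
        = c * ρ u ^ 2 * φ' * (sin (c * v + φ u) ^ 2 + cos (c * v + φ u) ^ 2) := by ring
    rw [h, hs, mul_one]
  · have h : (ρ u * (-sin (c * v + φ u) * c)) ^ 2 + (ρ u * (cos (c * v + φ u) * c)) ^ 2
        = c ^ 2 * ρ u ^ 2 * (sin (c * v + φ u) ^ 2 + cos (c * v + φ u) ^ 2) := by ring
    rw [h, hs, mul_one]

/-- The algebraic identity behind the `du^2` coefficient. -/
theorem alg_E (b b' ψ' c C S D G E F q d2 : ℝ) (hc : c ≠ 0) (hC : C ≠ 0) (hS : S ≠ 0)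
    (hG : G ≠ 0) (hb : b ^ 2 = G) (hbq : b' ^ 2 = G * q ^ 2)
    (hD : D ^ 2 = d2 - (q ^ 2 + ψ' ^ 2) / c ^ 2) (hd2 : d2 = (E * G - F ^ 2) / G ^ 2)
    (hSC : S ^ 2 + C ^ 2 = 1) :
    ((b' * C + b * (-S * ψ')) / c) ^ 2 + (b * C / c) ^ 2 * (c * (F / G + D * (S / C))) ^ 2
      + (((b' * S + b * (C * ψ')) / c) ^ 2
        + (b * S / c) ^ 2 * (c * (F / G - D * (C / S))) ^ 2) = E := by
  have e1 : ((b' * C + b * (-S * ψ')) / c) ^ 2 + (b * C / c) ^ 2 * (c * (F / G + D * (S / C))) ^ 2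
      + (((b' * S + b * (C * ψ')) / c) ^ 2
        + (b * S / c) ^ 2 * (c * (F / G - D * (C / S))) ^ 2)
      = (b' ^ 2 + b ^ 2 * ψ' ^ 2) / c ^ 2 * (S ^ 2 + C ^ 2)
        + b ^ 2 * ((F / G) ^ 2 + D ^ 2) * (S ^ 2 + C ^ 2) := by
    field_simp
    ring
  rw [e1, hSC, hb, hbq, hD, hd2]
  field_simp
  ring

/-- The algebraic identity behind the `du dv` coefficient. -/
theorem alg_F (b c C S D G F : ℝ) (hc : c ≠ 0) (hC : C ≠ 0) (hS : S ≠ 0) (hG : G ≠ 0)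
    (hb : b ^ 2 = G) (hSC : S ^ 2 + C ^ 2 = 1) :
    c * (b * C / c) ^ 2 * (c * (F / G + D * (S / C)))
      + c * (b * S / c) ^ 2 * (c * (F / G - D * (C / S))) = F := by
  have e1 : c * (b * C / c) ^ 2 * (c * (F / G + D * (S / C)))
      + c * (b * S / c) ^ 2 * (c * (F / G - D * (C / S)))
      = b ^ 2 * (F / G) * (S ^ 2 + C ^ 2) := by
    field_simp
    ring
  rw [e1, hSC, hb]
  field_simp

/-- A smooth `1`-periodic function with values in `[0,1]`, equal to `0` on `[0, 1/4]` and to `1`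
on `[9/20, 11/20]`. -/
theorem bump_props : ∃ g : ℝ → ℝ, ContDiff ℝ ((⊤ : ℕ∞) : WithTop ℕ∞) g ∧
    (∀ u, g (u + 1) = g u) ∧ (∀ u, 0 ≤ g u) ∧ (∀ u, g u ≤ 1) ∧
    (∀ u ∈ Set.Icc (0 : ℝ) (1 / 4), g u = 0) ∧
    (∀ u ∈ Set.Icc (9 / 20 : ℝ) (11 / 20), g u = 1) := by
  have hpi0 := Real.pi_pos
  have hpi4 := Real.pi_le_four
  refine ⟨fun u => Real.smoothTransition (-2 * cos (2 * π * u)), ?_, ?_, ?_, ?_, ?_, ?_⟩
  · exact Real.smoothTransition.contDiff.comp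
      (contDiff_const.mul (Real.contDiff_cos.comp (contDiff_const.mul contDiff_id)))
  · intro u
    have e : 2 * π * (u + 1) = 2 * π * u + 2 * π := by ring
    show Real.smoothTransition (-2 * cos (2 * π * (u + 1)))
      = Real.smoothTransition (-2 * cos (2 * π * u))
    rw [e, Real.cos_add_two_pi]
  · intro u; exact Real.smoothTransition.nonneg _
  · intro u; exact Real.smoothTransition.le_one _
  · intro u hu
    apply Real.smoothTransition.zero_of_nonpos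
    have h : 0 ≤ cos (2 * π * u) := by
      apply Real.cos_nonneg_of_mem_Icc
      constructor
      · have h1 := hu.1
        nlinarith
      · have h2 := hu.2
        nlinarith
    linarith
  · intro u hu
    apply Real.smoothTransition.one_of_one_le
    have e : cos (2 * π * u) = -cos (2 * π * u - π) := by rw [Real.cos_sub_pi]; ring
    have h1 := Real.one_sub_sq_div_two_le_cos (x := 2 * π * u - π)
    have h2 : (2 * π * u - π) ^ 2 ≤ 1 := by
      have a1 : -(π / 10) ≤ 2 * π * u - π := by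
        have h3 := hu.1
        nlinarith
      have a2 : 2 * π * u - π ≤ π / 10 := by
        have h3 := hu.2
        nlinarith
      rw [sq_le_one_iff_abs_le_one]
      exact abs_le.mpr ⟨by linarith, by linarith⟩
    rw [e]; linarith

/-- Coefficient form: every circle-invariant metric `E(u) du^2 + 2 F(u) du dv + G(u) dv^2` on
the torus is the first fundamental form of a smooth doubly periodic map into `ℝ^4`. -/
theorem coefficient_form (E F G : ℝ → ℝ)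
    (hE : ContDiff ℝ ((⊤ : ℕ∞) : WithTop ℕ∞) E) (hF : ContDiff ℝ ((⊤ : ℕ∞) : WithTop ℕ∞) F)
    (hG : ContDiff ℝ ((⊤ : ℕ∞) : WithTop ℕ∞) G)
    (hEp : ∀ u, E (u + 1) = E u) (hFp : ∀ u, F (u + 1) = F u) (hGp : ∀ u, G (u + 1) = G u)
    (hG0 : ∀ u, 0 < G u) (hdet : ∀ u, 0 < E u * G u - F u ^ 2) :
    ∃ Φ : ℝ × ℝ → Fin 4 → ℝ,
      ContDiff ℝ ((⊤ : ℕ∞) : WithTop ℕ∞) Φ ∧
      (∀ u v, Φ (u + 1, v) = Φ (u, v)) ∧ (∀ u v, Φ (u, v + 1) = Φ (u, v)) ∧
      ∀ u v,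
        (∑ i, deriv (fun s => Φ (s, v) i) u ^ 2 = E u) ∧
        (∑ i, deriv (fun s => Φ (s, v) i) u * deriv (fun t => Φ (u, t) i) v = F u) ∧
        (∑ i, deriv (fun t => Φ (u, t) i) v ^ 2 = G u) := by
  obtain ⟨g, hgsm, hgp, hg0, hg1, hgJ, hgK⟩ := bump_props
  have hgd : Differentiable ℝ g := (contDiff_infty_iff_deriv.mp hgsm).1
  have hg'sm : ContDiff ℝ ((⊤ : ℕ∞) : WithTop ℕ∞) (deriv g) :=
    (contDiff_infty_iff_deriv.mp hgsm).2
  have hg'p : Function.Periodic (deriv g) 1 := by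
    intro u
    have h1 : deriv (fun x => g (x + 1)) u = deriv g (u + 1) := deriv_comp_add_const g 1 u
    have h2 : (fun x => g (x + 1)) = g := funext hgp
    rw [← h1, h2]
  have hG'sm : ContDiff ℝ ((⊤ : ℕ∞) : WithTop ℕ∞) (deriv G) :=
    (contDiff_infty_iff_deriv.mp hG).2
  have hGd : Differentiable ℝ G := (contDiff_infty_iff_deriv.mp hG).1
  have hG'p : Function.Periodic (deriv G) 1 := by
    intro u
    have h1 : deriv (fun x => G (x + 1)) u = deriv G (u + 1) := deriv_comp_add_const G 1 u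
    have h2 : (fun x => G (x + 1)) = G := funext hGp
    rw [← h1, h2]
  -- auxiliary functions
  obtain ⟨d₀, hd₀⟩ : ∃ d₀ : ℝ → ℝ, d₀ = fun u => √(E u * G u - F u ^ 2) / G u := ⟨_, rfl⟩
  obtain ⟨q, hq⟩ : ∃ q : ℝ → ℝ, q = fun u => deriv G u / (2 * G u) := ⟨_, rfl⟩
  obtain ⟨f, hf⟩ : ∃ f : ℝ → ℝ, f = fun u => F u / G u := ⟨_, rfl⟩
  have hd₀sm : ContDiff ℝ ((⊤ : ℕ∞) : WithTop ℕ∞) d₀ := by
    rw [hd₀]
    exact (((hE.mul hG).sub (hF.pow 2)).sqrt (fun u => (hdet u).ne')).div hG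
      (fun u => (hG0 u).ne')
  have hqsm : ContDiff ℝ ((⊤ : ℕ∞) : WithTop ℕ∞) q := by
    rw [hq]
    exact hG'sm.div (contDiff_const.mul hG) (fun u => by have := hG0 u; positivity)
  have hfsm : ContDiff ℝ ((⊤ : ℕ∞) : WithTop ℕ∞) f := by
    rw [hf]; exact hF.div hG (fun u => (hG0 u).ne')
  have hd₀p : Function.Periodic d₀ 1 := by
    intro u; rw [hd₀]
    show √(E (u + 1) * G (u + 1) - F (u + 1) ^ 2) / G (u + 1) = √(E u * G u - F u ^ 2) / G u
    rw [hEp, hFp, hGp]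
  have hqp : Function.Periodic q 1 := by
    intro u; rw [hq]
    show deriv G (u + 1) / (2 * G (u + 1)) = deriv G u / (2 * G u)
    rw [hG'p u, hGp]
  have hfp : Function.Periodic f 1 := by
    intro u; rw [hf]
    show F (u + 1) / G (u + 1) = F u / G u
    rw [hFp, hGp]
  have hd₀pos : ∀ u, 0 < d₀ u := by
    intro u; rw [hd₀]; exact div_pos (Real.sqrt_pos.mpr (hdet u)) (hG0 u)
  have hd₀sq : ∀ u, d₀ u ^ 2 = (E u * G u - F u ^ 2) / G u ^ 2 := by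
    intro u; rw [hd₀]
    show (√(E u * G u - F u ^ 2) / G u) ^ 2 = (E u * G u - F u ^ 2) / G u ^ 2
    rw [div_pow, Real.sq_sqrt (hdet u).le]
  -- bounds
  obtain ⟨x1, hx1⟩ := Vale.Agent.Results.P205.WarpedTorus.periodic_exists_min d₀
    hd₀sm.continuous hd₀p
  obtain ⟨x2, hx2⟩ := Vale.Agent.Results.P205.WarpedTorus.periodic_exists_max d₀
    hd₀sm.continuous hd₀p
  obtain ⟨x3, hx3⟩ := Vale.Agent.Results.P205.WarpedTorus.periodic_exists_max
    (fun u => q u ^ 2 + deriv g u ^ 2)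
    ((hqsm.continuous.pow 2).add (hg'sm.continuous.pow 2))
    (fun u => by
      show q (u + 1) ^ 2 + deriv g (u + 1) ^ 2 = q u ^ 2 + deriv g u ^ 2
      rw [hqp u, hg'p u])
  obtain ⟨N, μ, s, k₁, k₂, hN0, hμ0, hs0, hμs, hrad, hk₁, hk₂⟩ :=
    Vale.Agent.Helper2.TorusClosing.closing d₀ q f g (deriv g) (d₀ x1) (d₀ x2)
      (q x3 ^ 2 + deriv g x3 ^ 2)
      hd₀sm.continuous hqsm.continuous hfsm.continuous hgsm.continuous hg'sm.continuous
      (hd₀pos x1) hx1 hx2 hx3 hg0 hg1 hgJ hgK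
  obtain ⟨c, hc⟩ : ∃ c : ℝ, c = 2 * π * N := ⟨_, rfl⟩
  rw [← hc] at hrad hk₁ hk₂
  have hNpos : (0 : ℝ) < N := by exact_mod_cast hN0
  have hc0 : 0 < c := by rw [hc]; positivity
  -- the angle
  obtain ⟨ψ, hψ⟩ : ∃ ψ : ℝ → ℝ, ψ = fun u => μ + s * g u := ⟨_, rfl⟩
  have hψsm : ContDiff ℝ ((⊤ : ℕ∞) : WithTop ℕ∞) ψ := by
    rw [hψ]; exact contDiff_const.add (contDiff_const.mul hgsm)
  have hψp : Function.Periodic ψ 1 := by
    intro u; rw [hψ]
    show μ + s * g (u + 1) = μ + s * g u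
    rw [hgp]
  have hψd : ∀ u, HasDerivAt ψ (s * deriv g u) u := by
    intro u; rw [hψ]
    exact ((hgd u).hasDerivAt.const_mul s).const_add μ
  have hψlow : ∀ u, 0 < ψ u := by
    intro u; rw [hψ]
    show 0 < μ + s * g u
    have := mul_nonneg hs0 (hg0 u)
    linarith
  have hψhigh : ∀ u, ψ u < π / 2 := by
    intro u; rw [hψ]
    show μ + s * g u < π / 2
    have h : s * g u ≤ s := by
      calc s * g u ≤ s * 1 := mul_le_mul_of_nonneg_left (hg1 u) hs0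
        _ = s := mul_one s
    linarith
  have hpi0 := Real.pi_pos
  have hcosψ : ∀ u, 0 < cos (ψ u) := fun u =>
    Real.cos_pos_of_mem_Ioo ⟨by linarith [hψlow u], hψhigh u⟩
  have hsinψ : ∀ u, 0 < sin (ψ u) := fun u =>
    Real.sin_pos_of_pos_of_lt_pi (hψlow u) (by linarith [hψhigh u])
  -- the amplitude
  obtain ⟨D, hD⟩ : ∃ D : ℝ → ℝ,
      D = fun u => √(d₀ u ^ 2 - (q u ^ 2 + (s * deriv g u) ^ 2) / c ^ 2) := ⟨_, rfl⟩
  have hDsm : ContDiff ℝ ((⊤ : ℕ∞) : WithTop ℕ∞) D := by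
    rw [hD]
    exact ((hd₀sm.pow 2).sub
      (((hqsm.pow 2).add ((contDiff_const.mul hg'sm).pow 2)).div_const (c ^ 2))).sqrt
      (fun u => (hrad u).ne')
  have hDp : Function.Periodic D 1 := by
    intro u; rw [hD]
    show √(d₀ (u + 1) ^ 2 - (q (u + 1) ^ 2 + (s * deriv g (u + 1)) ^ 2) / c ^ 2)
      = √(d₀ u ^ 2 - (q u ^ 2 + (s * deriv g u) ^ 2) / c ^ 2)
    rw [hd₀p u, hqp u, hg'p u]
  have hDsq : ∀ u, D u ^ 2 = d₀ u ^ 2 - (q u ^ 2 + (s * deriv g u) ^ 2) / c ^ 2 := by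
    intro u; rw [hD]; exact Real.sq_sqrt (hrad u).le
  -- the phase velocities
  obtain ⟨A₁, hA₁⟩ : ∃ A : ℝ → ℝ, A = fun u => f u + D u * tan (ψ u) := ⟨_, rfl⟩
  obtain ⟨A₂, hA₂⟩ : ∃ A : ℝ → ℝ, A = fun u => f u - D u * (tan (ψ u))⁻¹ := ⟨_, rfl⟩
  have htansm : ContDiff ℝ ((⊤ : ℕ∞) : WithTop ℕ∞) (fun u => tan (ψ u)) := by
    rw [contDiff_iff_contDiffAt]
    intro u
    exact (Real.contDiffAt_tan.mpr (hcosψ u).ne').comp u hψsm.contDiffAt
  have htanpos : ∀ u, 0 < tan (ψ u) := fun u =>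
    Real.tan_pos_of_pos_of_lt_pi_div_two (hψlow u) (hψhigh u)
  have hA₁sm : ContDiff ℝ ((⊤ : ℕ∞) : WithTop ℕ∞) A₁ := by
    rw [hA₁]; exact hfsm.add (hDsm.mul htansm)
  have hA₂sm : ContDiff ℝ ((⊤ : ℕ∞) : WithTop ℕ∞) A₂ := by
    rw [hA₂]; exact hfsm.sub (hDsm.mul (htansm.inv (fun u => (htanpos u).ne')))
  have hA₁p : Function.Periodic A₁ 1 := by
    intro u; rw [hA₁]
    show f (u + 1) + D (u + 1) * tan (ψ (u + 1)) = f u + D u * tan (ψ u)
    rw [hfp u, hDp u, hψp u]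
  have hA₂p : Function.Periodic A₂ 1 := by
    intro u; rw [hA₂]
    show f (u + 1) - D (u + 1) * (tan (ψ (u + 1)))⁻¹ = f u - D u * (tan (ψ u))⁻¹
    rw [hfp u, hDp u, hψp u]
  have hk₁' : (N : ℝ) * ∫ u in (0 : ℝ)..1, A₁ u = k₁ := by
    rw [hA₁, hD, hψ]; exact hk₁
  have hk₂' : (N : ℝ) * ∫ u in (0 : ℝ)..1, A₂ u = k₂ := by
    rw [hA₂, hD, hψ]; exact hk₂
  -- the phases
  have phase : ∀ (A : ℝ → ℝ) (k : ℤ), ContDiff ℝ ((⊤ : ℕ∞) : WithTop ℕ∞) A →
      Function.Periodic A 1 → (N : ℝ) * ∫ u in (0 : ℝ)..1, A u = k →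
      ∃ φ : ℝ → ℝ, ContDiff ℝ ((⊤ : ℕ∞) : WithTop ℕ∞) φ ∧
        (∀ u, HasDerivAt φ (c * A u) u) ∧ (∀ u, φ (u + 1) = φ u + k * (2 * π)) := by
    intro A k hAsm hAp hk
    have hφd : ∀ u, HasDerivAt (fun u => c * ∫ x in (0 : ℝ)..u, A x) (c * A u) u := fun u =>
      ((hAsm.continuous.integral_hasStrictDerivAt 0 u).hasDerivAt).const_mul c
    refine ⟨fun u => c * ∫ x in (0 : ℝ)..u, A x, ?_, hφd, ?_⟩
    · rw [contDiff_infty_iff_deriv]
      refine ⟨fun u => (hφd u).differentiableAt, ?_⟩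
      have e : deriv (fun u => c * ∫ x in (0 : ℝ)..u, A x) = fun u => c * A u :=
        funext fun u => (hφd u).deriv
      rw [e]
      exact contDiff_const.mul hAsm
    · intro u
      have h1 : ∫ x in (0 : ℝ)..(u + 1), A x
          = (∫ x in (0 : ℝ)..u, A x) + ∫ x in u..(u + 1), A x :=
        (intervalIntegral.integral_add_adjacent_intervals (hAsm.continuous.intervalIntegrable 0 u)
          (hAsm.continuous.intervalIntegrable u (u + 1))).symm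
      have h2 : ∫ x in u..(u + 1), A x = ∫ x in (0 : ℝ)..1, A x := by
        have h3 := hAp.intervalIntegral_add_eq u 0
        rw [h3, zero_add]
      show c * ∫ x in (0 : ℝ)..(u + 1), A x = c * (∫ x in (0 : ℝ)..u, A x) + k * (2 * π)
      rw [h1, h2, mul_add]
      congr 1
      rw [hc]
      calc 2 * π * N * ∫ x in (0 : ℝ)..1, A x = 2 * π * (N * ∫ x in (0 : ℝ)..1, A x) := by ring
        _ = 2 * π * k := by rw [hk]
        _ = k * (2 * π) := by ring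
  obtain ⟨φ₁, hφ₁sm, hφ₁d, hφ₁p⟩ := phase A₁ k₁ hA₁sm hA₁p hk₁'
  obtain ⟨φ₂, hφ₂sm, hφ₂d, hφ₂p⟩ := phase A₂ k₂ hA₂sm hA₂p hk₂'
  -- the radii
  obtain ⟨b, hb⟩ : ∃ b : ℝ → ℝ, b = fun u => √(G u) := ⟨_, rfl⟩
  have hbsm : ContDiff ℝ ((⊤ : ℕ∞) : WithTop ℕ∞) b := by
    rw [hb]; exact hG.sqrt (fun u => (hG0 u).ne')
  have hbsq : ∀ u, b u ^ 2 = G u := by
    intro u; rw [hb]; exact Real.sq_sqrt (hG0 u).le
  have hbp : Function.Periodic b 1 := by
    intro u; rw [hb]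
    show √(G (u + 1)) = √(G u)
    rw [hGp]
  have hbd : ∀ u, HasDerivAt b (deriv G u / (2 * √(G u))) u := by
    intro u; rw [hb]
    exact (hGd u).hasDerivAt.sqrt (hG0 u).ne'
  obtain ⟨ρ₁, hρ₁⟩ : ∃ ρ : ℝ → ℝ, ρ = fun u => b u * cos (ψ u) / c := ⟨_, rfl⟩
  obtain ⟨ρ₂, hρ₂⟩ : ∃ ρ : ℝ → ℝ, ρ = fun u => b u * sin (ψ u) / c := ⟨_, rfl⟩
  have hρ₁sm : ContDiff ℝ ((⊤ : ℕ∞) : WithTop ℕ∞) ρ₁ := by
    rw [hρ₁]; exact (hbsm.mul (Real.contDiff_cos.comp hψsm)).div_const c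
  have hρ₂sm : ContDiff ℝ ((⊤ : ℕ∞) : WithTop ℕ∞) ρ₂ := by
    rw [hρ₂]; exact (hbsm.mul (Real.contDiff_sin.comp hψsm)).div_const c
  have hρ₁p : ∀ u, ρ₁ (u + 1) = ρ₁ u := by
    intro u; rw [hρ₁]
    show b (u + 1) * cos (ψ (u + 1)) / c = b u * cos (ψ u) / c
    rw [hbp u, hψp u]
  have hρ₂p : ∀ u, ρ₂ (u + 1) = ρ₂ u := by
    intro u; rw [hρ₂]
    show b (u + 1) * sin (ψ (u + 1)) / c = b u * sin (ψ u) / c
    rw [hbp u, hψp u]
  have hρ₁d : ∀ u, HasDerivAt ρ₁ ((deriv G u / (2 * √(G u)) * cos (ψ u)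
      + b u * (-sin (ψ u) * (s * deriv g u))) / c) u := by
    intro u; rw [hρ₁]
    exact ((hbd u).mul (hψd u).cos).div_const c
  have hρ₂d : ∀ u, HasDerivAt ρ₂ ((deriv G u / (2 * √(G u)) * sin (ψ u)
      + b u * (cos (ψ u) * (s * deriv g u))) / c) u := by
    intro u; rw [hρ₂]
    exact ((hbd u).mul (hψd u).sin).div_const c
  -- the map
  refine ⟨fun p => ![ρ₁ p.1 * cos (c * p.2 + φ₁ p.1), ρ₁ p.1 * sin (c * p.2 + φ₁ p.1),
    ρ₂ p.1 * cos (c * p.2 + φ₂ p.1), ρ₂ p.1 * sin (c * p.2 + φ₂ p.1)], ?_, ?_, ?_, ?_⟩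
  · rw [contDiff_pi]
    intro i
    fin_cases i
    · exact (hρ₁sm.comp contDiff_fst).mul (Real.contDiff_cos.comp
        ((contDiff_const.mul contDiff_snd).add (hφ₁sm.comp contDiff_fst)))
    · exact (hρ₁sm.comp contDiff_fst).mul (Real.contDiff_sin.comp
        ((contDiff_const.mul contDiff_snd).add (hφ₁sm.comp contDiff_fst)))
    · exact (hρ₂sm.comp contDiff_fst).mul (Real.contDiff_cos.comp
        ((contDiff_const.mul contDiff_snd).add (hφ₂sm.comp contDiff_fst)))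
    · exact (hρ₂sm.comp contDiff_fst).mul (Real.contDiff_sin.comp
        ((contDiff_const.mul contDiff_snd).add (hφ₂sm.comp contDiff_fst)))
  · intro u v
    simp only [hρ₁p u, hρ₂p u, hφ₁p u, hφ₂p u, ← add_assoc, Real.cos_add_int_mul_two_pi,
      Real.sin_add_int_mul_two_pi]
  · intro u v
    have e1 : c * (v + 1) + φ₁ u = c * v + φ₁ u + N * (2 * π) := by rw [hc]; ring
    have e2 : c * (v + 1) + φ₂ u = c * v + φ₂ u + N * (2 * π) := by rw [hc]; ring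
    simp only [e1, e2, Real.cos_add_nat_mul_two_pi, Real.sin_add_nat_mul_two_pi]
  · intro u v
    obtain ⟨a1, a2, a3⟩ := circle_comp ρ₁ φ₁ c u v _ _ (hρ₁d u) (hφ₁d u)
    obtain ⟨b1, b2, b3⟩ := circle_comp ρ₂ φ₂ c u v _ _ (hρ₂d u) (hφ₂d u)
    simp only [Fin.sum_univ_four, Matrix.cons_val_zero, Matrix.cons_val_one, Matrix.cons_val_two,
      Matrix.cons_val_three, Matrix.head_cons, Matrix.tail_cons]
    have hρ₁u : ρ₁ u = b u * cos (ψ u) / c := by rw [hρ₁]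
    have hρ₂u : ρ₂ u = b u * sin (ψ u) / c := by rw [hρ₂]
    have hA₁u : A₁ u = F u / G u + D u * (sin (ψ u) / cos (ψ u)) := by
      rw [hA₁, hf]
      show F u / G u + D u * tan (ψ u) = F u / G u + D u * (sin (ψ u) / cos (ψ u))
      rw [Real.tan_eq_sin_div_cos]
    have hA₂u : A₂ u = F u / G u - D u * (cos (ψ u) / sin (ψ u)) := by
      rw [hA₂, hf]
      show F u / G u - D u * (tan (ψ u))⁻¹ = F u / G u - D u * (cos (ψ u) / sin (ψ u))
      rw [Real.tan_eq_sin_div_cos, inv_div]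
    have hSC := Real.sin_sq_add_cos_sq (ψ u)
    have hGne : G u ≠ 0 := (hG0 u).ne'
    have hbq : (deriv G u / (2 * √(G u))) ^ 2 = G u * q u ^ 2 := by
      rw [hq]
      show (deriv G u / (2 * √(G u))) ^ 2 = G u * (deriv G u / (2 * G u)) ^ 2
      have hsq : √(G u) ^ 2 = G u := Real.sq_sqrt (hG0 u).le
      have hsne : √(G u) ≠ 0 := (Real.sqrt_pos.mpr (hG0 u)).ne'
      rw [div_pow, div_pow, mul_pow, mul_pow, hsq]
      field_simp
    have hDu : D u ^ 2 = (E u * G u - F u ^ 2) / G u ^ 2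
        - (q u ^ 2 + (s * deriv g u) ^ 2) / c ^ 2 := by rw [hDsq u, hd₀sq u]
    have kE := alg_E (b u) (deriv G u / (2 * √(G u))) (s * deriv g u) c (cos (ψ u)) (sin (ψ u))
      (D u) (G u) (E u) (F u) (q u) ((E u * G u - F u ^ 2) / G u ^ 2) hc0.ne' (hcosψ u).ne'
      (hsinψ u).ne' hGne (hbsq u) hbq hDu rfl hSC
    have kF := alg_F (b u) c (cos (ψ u)) (sin (ψ u)) (D u) (G u) (F u) hc0.ne' (hcosψ u).ne'
      (hsinψ u).ne' hGne (hbsq u) hSC
    have kG : c ^ 2 * ρ₁ u ^ 2 + c ^ 2 * ρ₂ u ^ 2 = G u := by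
      rw [hρ₁u, hρ₂u]
      have h : c ^ 2 * (b u * cos (ψ u) / c) ^ 2 + c ^ 2 * (b u * sin (ψ u) / c) ^ 2
          = b u ^ 2 * (sin (ψ u) ^ 2 + cos (ψ u) ^ 2) := by
        field_simp
        ring
      rw [h, hSC, mul_one, hbsq u]
    rw [← hρ₁u, ← hρ₂u, ← hA₁u, ← hA₂u] at kE kF
    refine ⟨by linarith, by linarith, by linarith⟩

end Vale.Agent.Helper2.TorusMap
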